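import Vale.Agent.P136.Defs

/-!
# P136: directional derivatives, conjugated operators and integration by parts
-/

open MeasureTheory Set
open scoped ContDiff Topology

noncomputable section
namespace Vale.Agent.P136

section basic
variable {E : Type} [NormedAddCommGroup E] [NormedSpace ℝ E]

/-- Directional derivative. -/
def D (v : E) (f : E → ℝ) : E → ℝ := fun x => fderiv ℝ f x v

/-- Conjugated derivative `e^{-φ} ∂_v e^{φ}`. -/
def Dp (φ : E → ℝ) (v : E) (f : E → ℝ) : E → ℝ := fun x => D v f x + D v φ x * f x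

/-- Its formal adjoint `- e^{φ} ∂_v e^{-φ}`. -/
def Dm (φ : E → ℝ) (v : E) (f : E → ℝ) : E → ℝ := fun x => -D v f x + D v φ x * f x

/-- Smooth functions. -/
abbrev Sm (f : E → ℝ) : Prop := ContDiff ℝ ∞ f

/-- Smooth compactly supported functions. -/
def Tst (f : E → ℝ) : Prop := ContDiff ℝ ∞ f ∧ HasCompactSupport f

lemma pd_eq_D (j : Fin 3) (f : E3 → ℝ) : pd j f = D (EuclideanSpace.single j (1 : ℝ)) f := rfl

lemma IsTest.tst {U : Set E3} {ψ : E3 → ℝ} (h : IsTest U ψ) : Tst ψ := ⟨h.1, h.2.1⟩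

lemma Sm.const (c : ℝ) : Sm (fun _ : E => c) := contDiff_const
lemma Sm.add {f g : E → ℝ} (hf : Sm f) (hg : Sm g) : Sm (fun x => f x + g x) := ContDiff.add hf hg
lemma Sm.sub {f g : E → ℝ} (hf : Sm f) (hg : Sm g) : Sm (fun x => f x - g x) := ContDiff.sub hf hg
lemma Sm.mul {f g : E → ℝ} (hf : Sm f) (hg : Sm g) : Sm (fun x => f x * g x) := ContDiff.mul hf hg
lemma Sm.neg {f : E → ℝ} (hf : Sm f) : Sm (fun x => -f x) := ContDiff.neg hf
lemma Sm.pow {f : E → ℝ} (hf : Sm f) (n : ℕ) : Sm (fun x => f x ^ n) := ContDiff.pow hf n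
lemma Sm.exp {f : E → ℝ} (hf : Sm f) : Sm (fun x => Real.exp (f x)) := ContDiff.exp hf
lemma Sm.cmul {f : E → ℝ} (c : ℝ) (hf : Sm f) : Sm (fun x => c * f x) := (Sm.const c).mul hf
lemma Sm.sum {ι : Type*} {s : Finset ι} {f : ι → E → ℝ} (hf : ∀ i ∈ s, Sm (f i)) :
    Sm (fun x => ∑ i ∈ s, f i x) := ContDiff.sum hf
lemma Sm.cont {f : E → ℝ} (hf : Sm f) : Continuous f := ContDiff.continuous hf

lemma Sm.dAt {f : E → ℝ} (h : Sm f) (x : E) : DifferentiableAt ℝ f x :=
  (h.differentiable (by simp)) x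

lemma Sm.D {f : E → ℝ} (h : Sm f) (v : E) : Sm (D v f) :=
  (h.fderiv_right (m := ∞) (by simp)).clm_apply contDiff_const

lemma Sm.Dp {φ f : E → ℝ} (hφ : Sm φ) (h : Sm f) (v : E) : Sm (Dp φ v f) :=
  (h.D v).add ((hφ.D v).mul h)

lemma Sm.Dm {φ f : E → ℝ} (hφ : Sm φ) (h : Sm f) (v : E) : Sm (Dm φ v f) :=
  (h.D v).neg.add ((hφ.D v).mul h)

/-! Pointwise calculus rules (differentiability at the point only). -/

lemma D_add_at {f g : E → ℝ} {x : E} (hf : DifferentiableAt ℝ f x) (hg : DifferentiableAt ℝ g x)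
    (v : E) : D v (fun y => f y + g y) x = D v f x + D v g x := by
  simp only [D]; rw [fderiv_fun_add hf hg]; rfl

lemma D_sub_at {f g : E → ℝ} {x : E} (hf : DifferentiableAt ℝ f x) (hg : DifferentiableAt ℝ g x)
    (v : E) : D v (fun y => f y - g y) x = D v f x - D v g x := by
  simp only [D]; rw [fderiv_fun_sub hf hg]; rfl

lemma D_neg (f : E → ℝ) (v : E) (x : E) : D v (fun y => -f y) x = -D v f x := by
  simp only [D]; rw [fderiv_fun_neg]; rfl

lemma D_mul_at {f g : E → ℝ} {x : E} (hf : DifferentiableAt ℝ f x) (hg : DifferentiableAt ℝ g x)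
    (v : E) : D v (fun y => f y * g y) x = f x * D v g x + D v f x * g x := by
  simp only [D]; rw [fderiv_fun_mul hf hg]
  simp only [add_apply, smul_apply, smul_eq_mul]; ring

lemma D_const (c : ℝ) (v : E) (x : E) : D v (fun _ => c) x = 0 := by simp [D]

lemma D_const_mul_at {f : E → ℝ} {x : E} (hf : DifferentiableAt ℝ f x) (c : ℝ) (v : E) :
    D v (fun y => c * f y) x = c * D v f x := by
  rw [D_mul_at (differentiableAt_const c) hf, D_const]; ring

lemma D_sum_at {ι : Type*} (s : Finset ι) {f : ι → E → ℝ} {x : E}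
    (hf : ∀ i ∈ s, DifferentiableAt ℝ (f i) x) (v : E) :
    D v (fun y => ∑ i ∈ s, f i y) x = ∑ i ∈ s, D v (f i) x := by
  simp only [D]; rw [fderiv_fun_sum hf]; simp

lemma D_congr {f g : E → ℝ} {x : E} (h : f =ᶠ[𝓝 x] g) (v : E) : D v f x = D v g x := by
  simp only [D]; rw [h.fderiv_eq]

lemma D_exp_at {f : E → ℝ} {x : E} (hf : DifferentiableAt ℝ f x) (v : E) :
    D v (fun y => Real.exp (f y)) x = Real.exp (f x) * D v f x := by
  simp only [D]; rw [fderiv_exp hf]; simp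

/-- Symmetry of second derivatives. -/
lemma D_comm_at {f : E → ℝ} {x : E} (hf : ContDiffAt ℝ ∞ f x) (v w : E) :
    D v (D w f) x = D w (D v f) x := by
  have h2 : ContDiffAt ℝ 2 f x := hf.of_le (by norm_cast)
  have hs : IsSymmSndFDerivAt ℝ f x := h2.isSymmSndFDerivAt (by simp)
  have hd : DifferentiableAt ℝ (fderiv ℝ f) x :=
    (h2.fderiv_right (m := 1) (by norm_num)).differentiableAt (by simp)
  have key : ∀ a b : E, D a (D b f) x = fderiv ℝ (fderiv ℝ f) x a b := by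
    intro a b
    show fderiv ℝ (fun y => fderiv ℝ f y b) x a = _
    rw [fderiv_clm_apply hd (differentiableAt_const b)]
    simp
  rw [key, key]; exact hs v w

lemma D_comm {f : E → ℝ} (hf : Sm f) (v w : E) : D v (D w f) = D w (D v f) :=
  funext fun _ => D_comm_at hf.contDiffAt v w

lemma contDiffAt_D {f : E → ℝ} {x : E} (hf : ContDiffAt ℝ ∞ f x) (v : E) :
    ContDiffAt ℝ ∞ (D v f) x :=
  (hf.fderiv_right (m := ∞) (by simp)).clm_apply contDiffAt_const

lemma contDiffOn_D {f : E → ℝ} {U : Set E} (hU : IsOpen U) (hf : ContDiffOn ℝ ∞ f U) (v : E) :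
    ContDiffOn ℝ ∞ (D v f) U := fun _ hx =>
  (contDiffAt_D (hf.contDiffAt (hU.mem_nhds hx)) v).contDiffWithinAt

lemma dAt_of_on {f : E → ℝ} {U : Set E} (hU : IsOpen U) (hf : ContDiffOn ℝ ∞ f U) {x : E}
    (hx : x ∈ U) : DifferentiableAt ℝ f x :=
  (hf.contDiffAt (hU.mem_nhds hx)).differentiableAt (by simp)

lemma tsupport_D (f : E → ℝ) (v : E) : tsupport (D v f) ⊆ tsupport f :=
  (tsupport_comp_subset (g := fun L : E →L[ℝ] ℝ => L v) (by simp) (fderiv ℝ f)).trans
    (tsupport_fderiv_subset ℝ)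

lemma D_eq_zero_of_notMem {f : E → ℝ} {x : E} (hx : x ∉ tsupport f) (v : E) : D v f x = 0 :=
  image_eq_zero_of_notMem_tsupport fun h => hx (tsupport_D f v h)

lemma tsupport_Dp (φ f : E → ℝ) (v : E) : tsupport (Dp φ v f) ⊆ tsupport f := by
  refine closure_minimal (fun x hx => ?_) (isClosed_tsupport f)
  by_contra h
  exact hx (by simp [Dp, D_eq_zero_of_notMem h, image_eq_zero_of_notMem_tsupport h])

lemma tsupport_Dm (φ f : E → ℝ) (v : E) : tsupport (Dm φ v f) ⊆ tsupport f := by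
  refine closure_minimal (fun x hx => ?_) (isClosed_tsupport f)
  by_contra h
  exact hx (by simp [Dm, D_eq_zero_of_notMem h, image_eq_zero_of_notMem_tsupport h])

/-! Closure properties of test functions. -/

lemma Tst.sm {f : E → ℝ} (h : Tst f) : Sm f := h.1

lemma Tst.D {f : E → ℝ} (h : Tst f) (v : E) : Tst (D v f) :=
  ⟨h.sm.D v, h.2.of_isClosed_subset (isClosed_tsupport _) (tsupport_D f v)⟩

lemma Tst.Dp {φ f : E → ℝ} (hφ : Sm φ) (h : Tst f) (v : E) : Tst (Dp φ v f) :=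
  ⟨hφ.Dp h.sm v, h.2.of_isClosed_subset (isClosed_tsupport _) (tsupport_Dp φ f v)⟩

lemma Tst.Dm {φ f : E → ℝ} (hφ : Sm φ) (h : Tst f) (v : E) : Tst (Dm φ v f) :=
  ⟨hφ.Dm h.sm v, h.2.of_isClosed_subset (isClosed_tsupport _) (tsupport_Dm φ f v)⟩

lemma Tst.mul_left {m f : E → ℝ} (hm : Sm m) (h : Tst f) : Tst (fun x => m x * f x) :=
  ⟨hm.mul h.1, h.2.mul_left⟩

lemma Tst.mul_right {m f : E → ℝ} (h : Tst f) (hm : Sm m) : Tst (fun x => f x * m x) :=
  ⟨h.1.mul hm, h.2.mul_right⟩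

lemma Tst.add {f g : E → ℝ} (hf : Tst f) (hg : Tst g) : Tst (fun x => f x + g x) :=
  ⟨hf.1.add hg.1, hf.2.add hg.2⟩

lemma Tst.neg {f : E → ℝ} (hf : Tst f) : Tst (fun x => -f x) := ⟨hf.1.neg, hf.2.neg⟩

lemma Tst.sub {f g : E → ℝ} (hf : Tst f) (hg : Tst g) : Tst (fun x => f x - g x) :=
  ⟨hf.1.sub hg.1, hf.2.sub hg.2⟩

lemma Tst.zero : Tst (fun _ : E => (0 : ℝ)) := ⟨contDiff_const, HasCompactSupport.zero⟩

lemma Tst.const_mul {f : E → ℝ} (c : ℝ) (hf : Tst f) : Tst (fun x => c * f x) :=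
  Tst.mul_left contDiff_const hf

lemma Tst.sq {f : E → ℝ} (hf : Tst f) : Tst (fun x => f x ^ 2) := by
  simpa only [pow_two] using hf.mul_right hf.sm

lemma Tst.sum {ι : Type*} (s : Finset ι) {f : ι → E → ℝ} (hf : ∀ i ∈ s, Tst (f i)) :
    Tst (fun x => ∑ i ∈ s, f i x) := by
  classical
  induction s using Finset.induction_on with
  | empty => simpa using Tst.zero
  | insert a s ha ih =>
    simp only [Finset.sum_insert ha]
    exact (hf a (Finset.mem_insert_self _ _)).add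
      (ih fun i hi => hf i (Finset.mem_insert_of_mem hi))

/-- A cutoff supported in an open set times a function smooth on that set is a test function. -/
lemma Tst.mul_on {θ W : E → ℝ} {U : Set E} (hU : IsOpen U) (hθ : Tst θ) (hs : tsupport θ ⊆ U)
    (hW : ContDiffOn ℝ ∞ W U) : Tst (fun x => θ x * W x) := by
  refine ⟨contDiff_iff_contDiffAt.2 fun x => ?_, hθ.2.mul_right⟩
  by_cases hx : x ∈ tsupport θ
  · exact hθ.1.contDiffAt.mul (hW.contDiffAt (hU.mem_nhds (hs hx)))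
  · have : (fun x => θ x * W x) =ᶠ[𝓝 x] fun _ => 0 := by
      filter_upwards [notMem_tsupport_iff_eventuallyEq.1 hx] with y hy
      simp [hy]
    exact contDiffAt_const.congr_of_eventuallyEq this

/-! Algebra of the conjugated operators. -/

lemma Dm_add {φ f g : E → ℝ} (hf : Sm f) (hg : Sm g) (v : E) :
    Dm φ v (fun x => f x + g x) = fun x => Dm φ v f x + Dm φ v g x := by
  funext x; simp only [Dm, D_add_at (hf.dAt x) (hg.dAt x)]; ring

lemma Dp_add {φ f g : E → ℝ} (hf : Sm f) (hg : Sm g) (v : E) :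
    Dp φ v (fun x => f x + g x) = fun x => Dp φ v f x + Dp φ v g x := by
  funext x; simp only [Dp, D_add_at (hf.dAt x) (hg.dAt x)]; ring

lemma Dm_mul {φ m f : E → ℝ} (hm : Sm m) (hf : Sm f) (v : E) :
    Dm φ v (fun x => m x * f x) = fun x => m x * Dm φ v f x - D v m x * f x := by
  funext x; simp only [Dm, D_mul_at (hm.dAt x) (hf.dAt x)]; ring

lemma Dp_mul {φ m f : E → ℝ} (hm : Sm m) (hf : Sm f) (v : E) :
    Dp φ v (fun x => m x * f x) = fun x => m x * Dp φ v f x + D v m x * f x := by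
  funext x; simp only [Dp, D_mul_at (hm.dAt x) (hf.dAt x)]; ring

/-- The basic commutator `[Dp v, Dm w] = 2 φ_{vw}`. -/
lemma Dp_Dm {φ f : E → ℝ} (hφ : Sm φ) (hf : Sm f) (v w : E) :
    Dp φ v (Dm φ w f) = fun x => Dm φ w (Dp φ v f) x + 2 * D v (D w φ) x * f x := by
  funext x
  have e1 : D v (Dm φ w f) x = -D v (D w f) x + (D w φ x * D v f x + D v (D w φ) x * f x) := by
    unfold Dm
    rw [D_add_at ((hf.D w).neg.dAt x) (((hφ.D w).mul hf).dAt x), D_neg,
      D_mul_at ((hφ.D w).dAt x) (hf.dAt x)]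
  have e2 : D w (Dp φ v f) x = D w (D v f) x + (D v φ x * D w f x + D w (D v φ) x * f x) := by
    unfold Dp
    rw [D_add_at ((hf.D v).dAt x) (((hφ.D v).mul hf).dAt x),
      D_mul_at ((hφ.D v).dAt x) (hf.dAt x)]
  have e3 := D_comm_at (x := x) hf.contDiffAt v w
  have e4 := D_comm_at (x := x) hφ.contDiffAt v w
  have a1 : Dp φ v (Dm φ w f) x = D v (Dm φ w f) x + D v φ x * (-D w f x + D w φ x * f x) := rfl
  have a2 : Dm φ w (Dp φ v f) x = -D w (Dp φ v f) x + D w φ x * (D v f x + D v φ x * f x) := rfl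
  rw [a1, a2, e1, e2, e3, e4]; ring

lemma Dp_exp_neg {φ k : E → ℝ} (hφ : Sm φ) (hk : Sm k) (v : E) :
    Dp φ v (fun x => Real.exp (-φ x) * k x) = fun x => Real.exp (-φ x) * D v k x := by
  funext x
  have h1 : DifferentiableAt ℝ (fun x => Real.exp (-φ x)) x := (hφ.neg.exp).dAt x
  simp only [Dp, D_mul_at h1 (hk.dAt x), D_exp_at (hφ.neg.dAt x), D_neg]; ring

lemma Dm_exp {φ k : E → ℝ} (hφ : Sm φ) (hk : Sm k) (v : E) :
    Dm φ v (fun x => Real.exp (φ x) * k x) = fun x => -(Real.exp (φ x) * D v k x) := by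
  funext x
  have h1 : DifferentiableAt ℝ (fun x => Real.exp (φ x)) x := (hφ.exp).dAt x
  simp only [Dm, D_mul_at h1 (hk.dAt x), D_exp_at (hφ.dAt x)]; ring

end basic

section integ
variable {E : Type} [NormedAddCommGroup E] [NormedSpace ℝ E] [FiniteDimensional ℝ E]
  [MeasurableSpace E] [BorelSpace E] {μ : Measure E} [μ.IsAddHaarMeasure]

omit [NormedAddCommGroup E] [NormedSpace ℝ E] [FiniteDimensional ℝ E] [BorelSpace E]
  [μ.IsAddHaarMeasure] in
lemma iadd {f g : E → ℝ} (hf : Integrable f μ) (hg : Integrable g μ) :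
    Integrable (fun x => f x + g x) μ := hf.add hg

omit [NormedAddCommGroup E] [NormedSpace ℝ E] [FiniteDimensional ℝ E] [BorelSpace E]
  [μ.IsAddHaarMeasure] in
lemma isub {f g : E → ℝ} (hf : Integrable f μ) (hg : Integrable g μ) :
    Integrable (fun x => f x - g x) μ := hf.sub hg

omit [FiniteDimensional ℝ E] in
lemma Tst.integrable {f : E → ℝ} (h : Tst f) : Integrable f μ :=
  h.1.continuous.integrable_of_hasCompactSupport h.2

omit [FiniteDimensional ℝ E] in
/-- A continuous function times a test function is integrable. -/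
lemma Tst.integrable_cmul {m f : E → ℝ} (hm : Continuous m) (h : Tst f) :
    Integrable (fun x => m x * f x) μ :=
  (hm.mul h.1.continuous).integrable_of_hasCompactSupport h.2.mul_left

/-- Integration by parts, test function on the left. -/
lemma ibp {f g : E → ℝ} (hf : Tst f) (hg : Sm g) (v : E) :
    ∫ x, f x * D v g x ∂μ = -∫ x, D v f x * g x ∂μ :=
  integral_mul_fderiv_eq_neg_fderiv_mul_of_integrable
    ((hf.D v).mul_right hg).integrable (hf.mul_right (hg.D v)).integrable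
    (hf.mul_right hg).integrable (fun x _ => hf.sm.dAt x) (fun x _ => hg.dAt x)

/-- Integration by parts, test function on the right. -/
lemma ibp' {f g : E → ℝ} (hf : Sm f) (hg : Tst g) (v : E) :
    ∫ x, f x * D v g x ∂μ = -∫ x, D v f x * g x ∂μ :=
  integral_mul_fderiv_eq_neg_fderiv_mul_of_integrable
    (Tst.mul_left (hf.D v) hg).integrable (Tst.mul_left hf (hg.D v)).integrable
    (Tst.mul_left hf hg).integrable (fun x _ => hf.dAt x) (fun x _ => hg.sm.dAt x)

lemma integral_D {f : E → ℝ} (hf : Tst f) (v : E) : ∫ x, D v f x ∂μ = 0 := by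
  have := ibp' (μ := μ) (f := fun _ => (1 : ℝ)) contDiff_const hf v
  simpa [D_const] using this

/-- `Dm` is the adjoint of `Dp`. -/
lemma adj {φ f g : E → ℝ} (hφ : Sm φ) (hf : Tst f) (hg : Tst g) (v : E) :
    ∫ x, Dp φ v f x * g x ∂μ = ∫ x, f x * Dm φ v g x ∂μ := by
  have h0 := integral_D (μ := μ) (hf.mul_right hg.sm) v
  have h1 : ∀ x, Dp φ v f x * g x = f x * Dm φ v g x + D v (fun x => f x * g x) x := by
    intro x; rw [D_mul_at (hf.sm.dAt x) (hg.sm.dAt x)]; simp only [Dp, Dm]; ring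
  simp only [h1]
  rw [integral_add (hf.mul_right (Tst.Dm hφ hg v).sm).integrable
    ((hf.mul_right hg.sm).D v).integrable, h0, add_zero]

lemma adj' {φ f g : E → ℝ} (hφ : Sm φ) (hf : Tst f) (hg : Tst g) (v : E) :
    ∫ x, Dm φ v f x * g x ∂μ = ∫ x, f x * Dp φ v g x ∂μ := by
  have := adj (μ := μ) hφ hg hf v
  simp only [mul_comm (Dp φ v g _), mul_comm (g _)] at this
  exact this.symm

/-- `‖Dm f‖² = ‖Dp f‖² + 2 ∫ φ_{vv} f²`. -/
lemma sq_Dm {φ f : E → ℝ} (hφ : Sm φ) (hf : Tst f) (v : E) :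
    ∫ x, Dm φ v f x ^ 2 ∂μ = ∫ x, Dp φ v f x ^ 2 ∂μ + 2 * ∫ x, D v (D v φ) x * f x ^ 2 ∂μ := by
  have h1 := adj (μ := μ) hφ (Tst.Dm hφ hf v) hf v
  have h2 := adj' (μ := μ) hφ (Tst.Dp hφ hf v) hf v
  rw [Dp_Dm hφ hf.sm] at h1
  have h3 : ∫ x, (Dm φ v (Dp φ v f) x + 2 * D v (D v φ) x * f x) * f x ∂μ =
      ∫ x, Dm φ v (Dp φ v f) x * f x ∂μ + 2 * ∫ x, D v (D v φ) x * f x ^ 2 ∂μ := by
    rw [← integral_const_mul, ← integral_add
      ((Tst.Dm hφ (Tst.Dp hφ hf v) v).mul_right hf.sm).integrable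
      ((Tst.mul_left ((hφ.D v).D v) hf.sq).const_mul 2).integrable]
    congr 1; funext x; ring
  simp only [pow_two]
  simp only [pow_two] at h3
  rw [← h1, h3, h2]

/-- First-order commutator identity. -/
lemma comm1 {φ f g : E → ℝ} (hφ : Sm φ) (hf : Tst f) (hg : Tst g) (v w : E) :
    ∫ x, Dm φ w (Dm φ w f) x * Dm φ v g x ∂μ =
      ∫ x, Dp φ v f x * Dp φ w (Dp φ w g) x ∂μ +
        ∫ x, (4 * D v (D w φ) x * Dm φ w f x * g x - 2 * D w (D v (D w φ)) x * f x * g x) ∂μ := by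
  have hh : Sm (fun x => 2 * D v (D w φ) x) := (Sm.const _).mul ((hφ.D w).D v)
  have hB := Tst.Dm hφ hf w
  have hA := Tst.Dp hφ hf v
  have e : Dp φ v (Dm φ w (Dm φ w f)) = fun x => Dm φ w (Dm φ w (Dp φ v f)) x +
      (4 * D v (D w φ) x * Dm φ w f x - 2 * D w (D v (D w φ)) x * f x) := by
    rw [Dp_Dm hφ hB.sm, Dp_Dm hφ hf.sm,
      Dm_add (Tst.Dm hφ hA w).sm (hh.mul hf.sm), Dm_mul hh hf.sm]
    funext x
    beta_reduce
    rw [D_const_mul_at (((hφ.D w).D v).dAt x)]; ring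
  rw [← adj hφ (Tst.Dm hφ hB w) hg, e, ← adj' hφ hA (Tst.Dp hφ hg w),
    ← adj' hφ (Tst.Dm hφ hA w) hg, ← integral_add
      ((Tst.Dm hφ (Tst.Dm hφ hA w) w).mul_right hg.sm).integrable]
  · congr 1; funext x; ring
  · exact ((Tst.mul_left (((Sm.const _).mul ((hφ.D w).D v)).mul hB.sm) hg).sub
      (Tst.mul_left (((Sm.const _).mul (((hφ.D w).D v).D w)).mul hf.sm) hg)).integrable

end integ

/-- The density of the second-order commutator `[Dp v ², Dm w ²]` in anti-normal order: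
`f, g` are the values of the two functions, `zw = Dm w f`, `zv = Dm v g`. -/
def commDens {E : Type} [NormedAddCommGroup E] [NormedSpace ℝ E] (φ : E → ℝ) (v w : E) (x : E)
    (f g zw zv : ℝ) : ℝ :=
  8 * D v (D w φ) x * zw * zv - 4 * D w (D v (D w φ)) x * f * zv -
    4 * D v (D v (D w φ)) x * zw * g - 8 * D v (D w φ) x ^ 2 * f * g +
    2 * D v (D w (D v (D w φ))) x * f * g

section integ2
variable {E : Type} [NormedAddCommGroup E] [NormedSpace ℝ E] [FiniteDimensional ℝ E]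
  [MeasurableSpace E] [BorelSpace E] {μ : Measure E} [μ.IsAddHaarMeasure]

omit [FiniteDimensional ℝ E] [MeasurableSpace E] [BorelSpace E] in
lemma tst_commDens {φ f g : E → ℝ} (hφ : Sm φ) (hf : Tst f) (hg : Tst g) (v w : E) :
    Tst (fun x => commDens φ v w x (f x) (g x) (Dm φ w f x) (Dm φ v g x)) := by
  have h2 := (hφ.D w).D v
  have hB := Tst.Dm hφ hf w
  have hA := Tst.Dm hφ hg v
  unfold commDens
  exact ((((Tst.mul_left (((Sm.const _).mul h2).mul hB.sm) hA).sub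
    (Tst.mul_left (((Sm.const _).mul (h2.D w)).mul hf.sm) hA)).sub
    (Tst.mul_left (((Sm.const _).mul (h2.D v)).mul hB.sm) hg)).sub
    (Tst.mul_left (((Sm.const _).mul (h2.pow 2)).mul hf.sm) hg)).add
    (Tst.mul_left (((Sm.const _).mul ((h2.D w).D v)).mul hf.sm) hg)

/-- Second-order commutator identity. -/
lemma comm2 {φ f g : E → ℝ} (hφ : Sm φ) (hf : Tst f) (hg : Tst g) (v w : E) :
    ∫ x, Dm φ w (Dm φ w f) x * Dm φ v (Dm φ v g) x ∂μ =
      ∫ x, Dp φ v (Dp φ v f) x * Dp φ w (Dp φ w g) x ∂μ +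
        ∫ x, commDens φ v w x (f x) (g x) (Dm φ w f x) (Dm φ v g x) ∂μ := by
  have h2 : Sm (D v (D w φ)) := (hφ.D w).D v
  have hs : D w (D v φ) = D v (D w φ) := D_comm hφ w v
  have hB := Tst.Dm hφ hf w
  have hA := Tst.Dp hφ hf v
  have hg1 := Tst.Dm hφ hg v
  have hg2 := Tst.Dp hφ hg w
  set h := D v (D w φ) with hdef
  have hh : Sm (fun x => 2 * h x) := (Sm.const _).mul h2
  -- step 1
  have s1 := comm1 (μ := μ) hφ hf hg1 v w
  -- step 2
  have e2 : Dp φ w (Dp φ w (Dm φ v g)) = fun x => Dm φ v (Dp φ w (Dp φ w g)) x +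
      (4 * h x * Dp φ w g x + 2 * D w h x * g x) := by
    rw [Dp_Dm hφ hg.sm w v, hs, Dp_add (Tst.Dm hφ hg2 v).sm (hh.mul hg.sm), Dp_mul hh hg.sm,
      Dp_Dm hφ hg2.sm w v, hs]
    funext x
    beta_reduce
    rw [D_const_mul_at (h2.dAt x)]; ring
  have i1 := adj (μ := μ) hφ hA (Tst.Dp hφ hg2 w) v
  -- ⟨4 h A f, Dp w g⟩
  have i2 := adj' (μ := μ) hφ (Tst.mul_left h2 hA) hg w
  rw [Dm_mul h2 hA.sm] at i2
  have e3 : Dm φ w (Dp φ v f) = fun x => Dp φ v (Dm φ w f) x - 2 * h x * f x := by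
    rw [Dp_Dm hφ hf.sm v w]; funext x; ring
  rw [e3] at i2
  have i3 := adj (μ := μ) hφ hB (Tst.mul_left h2 hg) v
  rw [Dm_mul h2 hg.sm] at i3
  have i4 := adj (μ := μ) hφ hf (Tst.mul_left (h2.D w) hg) v
  rw [Dm_mul (h2.D w) hg.sm] at i4
  -- integrability of the pieces
  have t1 : Integrable (fun x => Dp φ v f x * Dm φ v (Dp φ w (Dp φ w g)) x) μ :=
    (hA.mul_right (Tst.Dm hφ (Tst.Dp hφ hg2 w) v).sm).integrable
  have t2 : Integrable (fun x => h x * Dp φ v f x * Dp φ w g x) μ :=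
    (Tst.mul_left (h2.mul hA.sm) hg2).integrable
  have t3 : Integrable (fun x => Dp φ v f x * (D w h x * g x)) μ :=
    (hA.mul_right ((h2.D w).mul hg.sm)).integrable
  have t4 : Integrable (fun x => Dp φ v (Dm φ w f) x * (h x * g x)) μ :=
    ((Tst.Dp hφ hB v).mul_right (h2.mul hg.sm)).integrable
  have t5 : Integrable (fun x => h x ^ 2 * f x * g x) μ :=
    (Tst.mul_left ((h2.pow 2).mul hf.sm) hg).integrable
  have t6 : Integrable (fun x => h x * Dm φ w f x * Dm φ v g x) μ :=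
    (Tst.mul_left (h2.mul hB.sm) hg1).integrable
  have t7 : Integrable (fun x => D v h x * Dm φ w f x * g x) μ :=
    (Tst.mul_left ((h2.D v).mul hB.sm) hg).integrable
  have t8 : Integrable (fun x => D w h x * f x * Dm φ v g x) μ :=
    (Tst.mul_left ((h2.D w).mul hf.sm) hg1).integrable
  have t9 : Integrable (fun x => D v (D w h) x * f x * g x) μ :=
    (Tst.mul_left (((h2.D w).D v).mul hf.sm) hg).integrable
  have j0 : ∫ x, Dp φ v f x * Dp φ w (Dp φ w (Dm φ v g)) x ∂μ =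
      ∫ x, Dp φ v f x * Dm φ v (Dp φ w (Dp φ w g)) x ∂μ +
      (4 * ∫ x, h x * Dp φ v f x * Dp φ w g x ∂μ + 2 * ∫ x, Dp φ v f x * (D w h x * g x) ∂μ) := by
    rw [e2, ← integral_const_mul, ← integral_const_mul,
      ← integral_add (t2.const_mul 4) (t3.const_mul 2),
      ← integral_add t1 (iadd (t2.const_mul 4) (t3.const_mul 2))]
    congr 1; funext x; ring
  have j2 : ∫ x, (h x * (Dp φ v (Dm φ w f) x - 2 * h x * f x) - D w h x * Dp φ v f x) * g x ∂μ =
      ∫ x, Dp φ v (Dm φ w f) x * (h x * g x) ∂μ - 2 * ∫ x, h x ^ 2 * f x * g x ∂μ -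
        ∫ x, Dp φ v f x * (D w h x * g x) ∂μ := by
    rw [← integral_const_mul, ← integral_sub t4 (t5.const_mul 2),
      ← integral_sub (isub t4 (t5.const_mul 2)) t3]
    congr 1; funext x; ring
  have j3 : ∫ x, Dm φ w f x * (h x * Dm φ v g x - D v h x * g x) ∂μ =
      ∫ x, h x * Dm φ w f x * Dm φ v g x ∂μ - ∫ x, D v h x * Dm φ w f x * g x ∂μ := by
    rw [← integral_sub t6 t7]; congr 1; funext x; ring
  have j4 : ∫ x, f x * (D w h x * Dm φ v g x - D v (D w h) x * g x) ∂μ =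
      ∫ x, D w h x * f x * Dm φ v g x ∂μ - ∫ x, D v (D w h) x * f x * g x ∂μ := by
    rw [← integral_sub t8 t9]; congr 1; funext x; ring
  have j5 : ∫ x, (4 * h x * Dm φ w f x * Dm φ v g x - 2 * D w h x * f x * Dm φ v g x) ∂μ =
      4 * ∫ x, h x * Dm φ w f x * Dm φ v g x ∂μ - 2 * ∫ x, D w h x * f x * Dm φ v g x ∂μ := by
    rw [← integral_const_mul, ← integral_const_mul,
      ← integral_sub (t6.const_mul 4) (t8.const_mul 2)]
    congr 1; funext x; ring
  have j6 : ∫ x, commDens φ v w x (f x) (g x) (Dm φ w f x) (Dm φ v g x) ∂μ =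
      8 * ∫ x, h x * Dm φ w f x * Dm φ v g x ∂μ - 4 * ∫ x, D w h x * f x * Dm φ v g x ∂μ -
      4 * ∫ x, D v h x * Dm φ w f x * g x ∂μ - 8 * ∫ x, h x ^ 2 * f x * g x ∂μ +
      2 * ∫ x, D v (D w h) x * f x * g x ∂μ := by
    rw [← integral_const_mul, ← integral_const_mul, ← integral_const_mul, ← integral_const_mul,
      ← integral_const_mul, ← integral_sub (t6.const_mul 8) (t8.const_mul 4),
      ← integral_sub (isub (t6.const_mul 8) (t8.const_mul 4)) (t7.const_mul 4),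
      ← integral_sub (isub (isub (t6.const_mul 8) (t8.const_mul 4)) (t7.const_mul 4))
        (t5.const_mul 8),
      ← integral_add (isub (isub (isub (t6.const_mul 8) (t8.const_mul 4)) (t7.const_mul 4))
        (t5.const_mul 8)) (t9.const_mul 2)]
    congr 1; funext x; simp only [commDens, ← hdef]; ring
  rw [s1, j0, j5, j6, ← i1]
  beta_reduce at i2 i3 i4
  rw [j2] at i2
  rw [j3] at i3
  rw [j4] at i4
  linarith

end integ2

end Vale.Agent.P136
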