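import Vale.Agent.P136.AST2

/-!
# P136: the weighted estimate for sections of the dual bundle
-/

open MeasureTheory Set Metric
open scoped ContDiff Topology InnerProductSpace

noncomputable section
namespace Vale.Agent.P136
namespace AST

variable {ι : Type} [Fintype ι] {H : Type} [NormedAddCommGroup H] [InnerProductSpace ℝ H]
  [CompleteSpace H]

/-- The dual weighted quadratic form. -/
def Wp (φ : X6 → ℝ) (R : ℝ) (x : E3) (u : LB R) : ℝ :=
  ∫ y in ball 0 R, Real.exp (2 * φ (x, y)) * u y ^ 2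

lemma Wp_nonneg (φ : X6 → ℝ) (R : ℝ) (x : E3) (u : LB R) : 0 ≤ Wp φ R x u :=
  integral_nonneg fun _ => by positivity

lemma Wp_zero (φ : X6 → ℝ) (R : ℝ) (x : E3) : Wp φ R x 0 = 0 := by
  unfold Wp
  rw [integral_congr_ae (g := fun _ => 0)
    ((Lp.coeFn_zero ℝ 2 (mY R)).mono fun y hy => by simp only [hy]; simp)]
  simp

lemma cont_Wp (hmf : S_mf) {φ : X6 → ℝ} (hφ : Sm φ) {R : ℝ} {u : E3 → LB R} (hu : Continuous u) :
    Continuous fun x => Wp φ R x (u x) := by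
  obtain ⟨M, hM, hM'⟩ := hmf R _ (hφ.cmul 2).exp
  have : (fun x => Wp φ R x (u x)) = fun x => ⟪M x (u x), u x⟫_ℝ := by
    funext x
    rw [inner_LB]
    exact integral_congr_ae ((hM' x (u x)).mono fun y hy => by simp only [hy]; ring)
  rw [this]
  exact (hM.continuous.clm_apply hu).inner hu

lemma cs_Wp {φ : X6 → ℝ} (hφ : Sm φ) {R : ℝ} (x : E3) (u v : ι → LB R) {W : ι → E3 → ℝ}
    (hv : ∀ c, (v c : E3 → ℝ) =ᵐ[mY R] W c) :
    (∑ c, ⟪u c, v c⟫_ℝ) ^ 2 ≤ (∑ c, Wp φ R x (u c)) *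
      ∑ c, ∫ y in ball 0 R, Real.exp (-(2 * φ (x, y))) * W c y ^ 2 := by
  have := wcs (R := R) (σ := fun y => 2 * φ (x, y))
    (continuous_const.mul (hφ.cont.comp (Continuous.prodMk_right x)))
    (u := fun c => u c) (v := W) (fun c => Lp.memLp _) fun c => (Lp.memLp _).ae_eq (hv c)
  refine le_of_eq_of_le ?_ this
  congr 1
  refine Finset.sum_congr rfl fun c _ => ?_
  rw [inner_LB]
  exact integral_congr_ae ((hv c).mono fun y hy => by simp only [hy])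

lemma exists_ev (hw2s : S_w2s) (hie : S_ie) {b : Coef ι} (hb : SmC b) {R : ℝ}
    (Rp : H →ₗ[ℝ] SolSp b R) (nR : ∀ h, nrm (ball 0 R) (Rp h).1 = ‖h‖ ^ 2)
    {g : E3 → H} (hg : ContDiff ℝ ∞ g) {th : E3 → ℝ} (hth : IsTest (ball 0 R) th) (c : ι) :
    Sm fun p : X6 => th p.2 * (Rp (g p.1)).1 c p.2 := by
  obtain ⟨C, hC, HH⟩ := hie ι (fun i a a' y => -b i a a' y) (fun _ _ _ => 0)
    (fun i a a' => (hb i a a').neg) (fun _ _ => contDiff_const) R
  have bd : ∀ y, ∃ A : ℝ, ∀ h : H, ‖th y * (Rp h).1 c y‖ ≤ A * ‖h‖ := by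
    intro y
    by_cases hy : y ∈ ball (0 : E3) R
    · have hy' := mem_ball_zero_iff.1 hy
      set r := min 1 ((R - ‖y‖) / 2) with hr
      have hr0 : 0 < r := lt_min one_pos (by linarith)
      have hr2 : r ≤ (R - ‖y‖) / 2 := min_le_right _ _
      have hs : closedBall y r ⊆ ball 0 R := closedBall_subset_ball' (by simp; linarith)
      refine ⟨|th y| * √(C / r ^ 3), fun h => ?_⟩
      have := (HH (Rp h).1 0 (ball 0 R) y r hr0 (min_le_left _ _) hy'.le isOpen_ball hs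
        (Rp h).2.1 (fun _ => contDiffOn_const) fun z hz a => by
          have := (Rp h).2.2.2 z hz a
          simp only [sysL] at this
          simp only [neg_mul, Finset.sum_neg_distrib, zero_mul, Finset.sum_const_zero,
            Pi.zero_apply]
          linarith).1
      have h0 : ∀ j, pd j (0 : E3 → ℝ) = 0 := fun j => by funext x; simp [pd]
      have e1 : ieN (Rp h).1 0 y r = nrm (ball y r) (Rp h).1 := by simp [ieN, nrm, h0]
      have e2 : nrm (ball y r) (Rp h).1 ≤ ‖h‖ ^ 2 := by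
        exact (nrm_mono (Rp h).2.2.1 (ball_subset_closedBall.trans hs)).trans (nR h).le
      have e3 : (Rp h).1 c y ^ 2 ≤ C / r ^ 3 * ‖h‖ ^ 2 := by
        refine (Finset.single_le_sum (f := fun a => (Rp h).1 a y ^ 2) (fun _ _ => sq_nonneg _)
          (Finset.mem_univ c)).trans (this.trans ?_)
        rw [e1, div_mul_eq_mul_div]
        gcongr
      rw [norm_mul, mul_assoc, Real.norm_eq_abs, Real.norm_eq_abs]
      refine mul_le_mul_of_nonneg_left ?_ (abs_nonneg _)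
      refine abs_le_of_sq_le_sq' ?_ (by positivity) |> abs_le.2
      rw [mul_pow, Real.sq_sqrt (by positivity)]
      exact e3
    · exact ⟨0, fun h => by simp [image_eq_zero_of_notMem_tsupport fun hh => hy (hth.2.2 hh)]⟩
  let L : E3 → H →ₗ[ℝ] ℝ := fun y =>
    { toFun := fun h => th y * (Rp h).1 c y
      map_add' := fun h h' => by simp [mul_add]
      map_smul' := fun s h => by simp [mul_left_comm] }
  let ev : E3 → H →L[ℝ] ℝ := fun y => (L y).mkContinuousOfExistsBound (bd y)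
  have hev : ContDiff ℝ ∞ ev := hw2s E3 _ ℝ ev fun h =>
    (Tst.mul_on isOpen_ball hth.tst hth.2.2 ((Rp h).2.1 c)).1
  exact (hev.comp contDiff_snd).clm_apply (hg.comp contDiff_fst)

lemma young2 {s : ℝ} (hs : 0 < s) (A B : ℝ) :
    (A + B) ^ 2 ≤ (1 + s) * A ^ 2 + (1 + s⁻¹) * B ^ 2 := by
  have h1 : 0 ≤ s⁻¹ * (s * A - B) ^ 2 := by positivity
  have h2 : s⁻¹ * (s * A - B) ^ 2 = (1 + s) * A ^ 2 + (1 + s⁻¹) * B ^ 2 - (A + B) ^ 2 := by
    field_simp; ring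
  linarith

lemma Wp_add_le {φ : X6 → ℝ} (hφ : Sm φ) {R A s : ℝ} (hs : 0 < s) (x : E3)
    (hA : ∀ y ∈ ball (0 : E3) R, Real.exp (2 * φ (x, y)) ≤ A) (u v : LB R) :
    Wp φ R x (u + v) ≤ (1 + s) * Wp φ R x u + (1 + s⁻¹) * (A * ∫ y in ball 0 R, v y ^ 2) := by
  have cw : Continuous fun y => Real.exp (2 * φ (x, y)) :=
    (hφ.cmul 2).exp.cont.comp (Continuous.prodMk_right x)
  have i1 := (integrable_w cw (Lp.memLp u)).const_mul (1 + s)
  have i2 := ((Lp.memLp v).integrable_sq.const_mul A).const_mul (1 + s⁻¹)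
  unfold Wp
  rw [← integral_const_mul, ← integral_const_mul, ← integral_const_mul, ← integral_add i1 i2]
  refine integral_mono_ae (integrable_w cw (Lp.memLp _)) (iadd i1 i2) ?_
  filter_upwards [Lp.coeFn_add u v, ae_restrict_mem measurableSet_ball] with y h1 h2
  rw [h1, Pi.add_apply]
  have a1 := mul_le_mul_of_nonneg_left (young2 hs (u y) (v y)) (Real.exp_pos (2 * φ (x, y))).le
  have a2 : (1 + s⁻¹) * (Real.exp (2 * φ (x, y)) * v y ^ 2) ≤ (1 + s⁻¹) * (A * v y ^ 2) :=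
    mul_le_mul_of_nonneg_left (mul_le_mul_of_nonneg_right (hA y h2) (sq_nonneg _)) (by positivity)
  linarith

/-- The limit argument: from the estimates with cutoffs to the estimate itself. -/
lemma limit_est (hw2s : S_w2s) (hie : S_ie) (happ : S_approx) (hmf : S_mf) (hdrep : S_drep)
    {b : Coef ι} (hb : SmC b) {R RX K a : ℝ} {φ : X6 → ℝ} (hφ : Sm φ) (hRX : 0 < RX)
    (hR : RX + 1 < R)
    (hme : ∀ g q : ι → X6 → ℝ, (∀ c, T6 R (g c)) → (∀ c, T6 R (q c)) →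
      (∀ p : X6, ((∃ c, p ∈ tsupport (q c)) ∨ ‖p.2 - p.1‖ ≤ 1) → ∀ c, L2 φ b g c p = 0) →
      K * (a * q0 g + qZ φ g) ≤ qG φ b g q)
    (Rp : H →ₗ[ℝ] SolSp b R) (nR : ∀ h, nrm (ball 0 R) (Rp h).1 = ‖h‖ ^ 2)
    {g : E3 → H} (hg : ContDiff ℝ ∞ g) (hg0 : ∀ x, RX ≤ ‖x‖ → g x = 0)
    (k : ι → E3 → LB R) (hk : ∀ c, ContDiff ℝ ∞ (k c))
    (hkG : ∀ c x, (k c x : E3 → ℝ) =ᵐ[mY R]
      fun y => Real.exp (-(2 * φ (x, y))) * (Rp (g x)).1 c y)
    (hk0 : ∀ c x, RX < ‖x‖ → k c x = 0)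
    (Ξ : E3 → LV ι R) (hΞ : Continuous Ξ) 
    (hΞ' : ∀ x, Ξ x ∈ closure (LinearMap.range (TT hb R) : Set (LV ι R)))
    (hΞ0 : ∀ x, RX < ‖x‖ → Ξ x = 0) {Γ : E3 → ℝ} (hΓ : Integrable Γ) (hΓ0 : ∀ x, 0 ≤ Γ x)
    (hΓ' : ∀ x, ∑ c, Wp φ R x (ddk k c x - Ξ x c) ≤ Γ x) :
    K * (a * (∫ x, ∑ c, Wp φ R x (k c x)) + ∫ x, ∑ j, ∑ c, Wp φ R x (dk k j c x)) ≤ ∫ x, Γ x := by
  have intW : ∀ {u : E3 → LB R}, Continuous u → (∀ x, RX < ‖x‖ → u x = 0) →
      Integrable fun x => Wp φ R x (u x) := fun hu h0 =>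
    (cont_Wp hmf hφ hu).integrable_of_hasCompactSupport
      (HasCompactSupport.intro (isCompact_closedBall 0 RX) fun x hx => by
        rw [h0 x (by simpa using hx), Wp_zero])
  have i0 := fun c => intW (hk c).continuous (hk0 c)
  have i1 := fun j c => intW (sm_dk hk j c).continuous (dk_zero hk0 j c)
  rw [integral_finsetSum _ fun c _ => i0 c,
    integral_finsetSum _ fun j _ => integrable_finsetSum _ fun c _ => i1 j c]
  simp only [fun j => integral_finsetSum Finset.univ fun c _ => i1 j c]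
  rw [Finset.sum_comm]
  obtain ⟨A, hA⟩ := ((isCompact_closedBall (0 : E3) R).prod
    (isCompact_closedBall (0 : E3) R)).exists_bound_of_continuousOn
      (hφ.cmul 2).exp.cont.continuousOn
  have hA0 : 0 ≤ A := (norm_nonneg _).trans (hA (0, 0) (by simp; linarith))
  set V := volume.real (closedBall (0 : E3) R)
  have hV : 0 ≤ V := measureReal_nonneg
  have hI : 0 ≤ ∫ x, Γ x := integral_nonneg hΓ0
  have key : ∀ s δ : ℝ, 0 < s → 0 < δ →
      K * (a * (∑ c, ∫ x, Wp φ R x (k c x)) + ∑ c, ∑ j, ∫ x, Wp φ R x (dk k j c x)) ≤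
        (1 + s) * (∫ x, Γ x) + (1 + s⁻¹) * (A * δ ^ 2) * V := by
    intro s δ hs hδ
    obtain ⟨n, θ, t, hθ, ht, happ'⟩ := happ (LV ι R) (LinearMap.range (TT hb R)) Ξ
      ((RX + (R - 1)) / 2) δ hΞ hΞ'
      (fun x hx => hΞ0 x (by linarith)) hδ
    choose ψ hψ using ht
    obtain ⟨ρ', hρ1, hρ2, hρ3⟩ : ∃ ρ' : ℝ, RX + 1 ≤ ρ' ∧ ρ' < R ∧
        ∀ m c y, (ψ m).1 c y ≠ 0 → ‖y‖ ≤ ρ' := by
      have hc : IsCompact (⋃ m, ⋃ c, tsupport ((ψ m).1 c)) :=
        isCompact_iUnion fun m => isCompact_iUnion fun c => ((ψ m).2 c).2.1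
      obtain ⟨r, hr, hr'⟩ := exists_lt_subset_ball hc.isClosed
        (iUnion_subset fun m => iUnion_subset fun c => ((ψ m).2 c).2.2)
      refine ⟨max (RX + 1) r, le_max_left _ _, max_lt hR hr, fun m c y hy => ?_⟩
      have : y ∈ ball (0 : E3) r :=
        hr' (mem_iUnion.2 ⟨m, mem_iUnion.2 ⟨c, subset_tsupport _ hy⟩⟩)
      exact (mem_ball_zero_iff.1 this).le.trans (le_max_right _ _)
    set σ : ι → X6 → ℝ := fun c p => -∑ m, θ m p.1 * (ψ m).1 c p.2 with hσ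
    have hσs : ∀ c, Sm (σ c) := fun c => (Sm.sum fun m _ =>
      Sm.mul ((hθ m).1.comp contDiff_fst) (((ψ m).2 c).1.comp contDiff_snd)).neg
    have θ0 : ∀ m x, R < ‖x‖ → θ m x = 0 := fun m x hx =>
      image_eq_zero_of_notMem_tsupport fun h => by
        have := mem_ball_zero_iff.1 ((hθ m).2.2 h)
        linarith
    have hσ0 : ∀ c p, σ c p ≠ 0 → ‖p.1‖ ≤ R ∧ ‖p.2‖ ≤ ρ' := by
      intro c p hp
      obtain ⟨m, _, hm⟩ := Finset.exists_ne_zero_of_sum_ne_zero (neg_ne_zero.1 hp)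
      refine ⟨?_, hρ3 m c _ (right_ne_zero_of_mul hm)⟩
      by_contra h
      exact left_ne_zero_of_mul hm (θ0 m _ (not_le.1 h))
    obtain ⟨th, t1, t2, t3, t4⟩ := exists_cut (ρ := (ρ' + R) / 2) (R := R) (by linarith)
      (by linarith)
    have ce := fun m => cut_est hdrep hb (RX := RX) (ρ := (ρ' + R) / 2) hφ (by linarith) (by linarith) hme k hk
      (fun x => Rp (g x)) hkG (fun x hx => by simp only [hg0 x hx, map_zero]) (t1 m) (t3 m)
      (exists_ev hw2s hie hb Rp nR hg (t1 m)) σ hσs (ρ' := ρ') (by linarith) hσ0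
    have cw := (hφ.cmul 2).exp.cont
    have lim := ((tendsto_finsetSum Finset.univ fun c _ => tendsto_cut (fun m => (t1 m).1.continuous)
      t2 t4 cw (fun p => (Real.exp_pos _).le) (k c) (i0 c) fun m => (ce m).1 c).const_mul a).add
      (tendsto_finsetSum Finset.univ fun c _ => tendsto_finsetSum Finset.univ fun j _ =>
        tendsto_cut (fun m => (t1 m).1.continuous) t2 t4 cw (fun p => (Real.exp_pos _).le)
          (dk k j c) (i1 j c) fun m => (ce m).2.1 j c)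
    refine le_of_tendsto' (lim.const_mul K) fun m => (ce m).2.2.2.trans ?_
    rw [← integral_finsetSum _ fun c _ => (ce m).2.2.1 c]
    have iI : Integrable ((closedBall (0 : E3) R).indicator fun _ => (1 + s⁻¹) * (A * δ ^ 2)) :=
      (integrable_indicator_iff measurableSet_closedBall).2
        (integrableOn_const measure_closedBall_lt_top.ne)
    have e : (1 + s) * (∫ x, Γ x) + (1 + s⁻¹) * (A * δ ^ 2) * V = ∫ x, ((1 + s) * Γ x +
        (closedBall (0 : E3) R).indicator (fun _ => (1 + s⁻¹) * (A * δ ^ 2)) x) := by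
      rw [integral_add (hΓ.const_mul _) iI, integral_const_mul,
        integral_indicator_const _ measurableSet_closedBall, smul_eq_mul, mul_comm V]
    rw [e]
    refine integral_mono (integrable_finsetSum _ fun c _ => (ce m).2.2.1 c)
      (iadd (hΓ.const_mul _) iI) fun x => ?_
    set T : LV ι R := ∑ m, θ m x • t m with hT
    have hTT : T = TT hb R (∑ m, θ m x • ψ m) := by simp only [hT, map_sum, map_smul, hψ]
    have e1 : ∀ c, (T c : E3 → ℝ) =ᵐ[mY R] fun y => -sysT b (fun c y => σ c (x, y)) c y := by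
      intro c
      rw [hTT]
      refine (TT_ae hb R _ c).trans (Filter.Eventually.of_forall fun y => ?_)
      have hs' : ∀ c, Sm ((∑ m, θ m x • ψ m).1 c) := fun c => ((∑ m, θ m x • ψ m).2 c).1
      have := sysT_lin hb hs' hs' (-1) 0 c y
      have e2 : (fun c y => σ c (x, y)) = fun c y => -1 * (∑ m, θ m x • ψ m).1 c y +
          0 * (∑ m, θ m x • ψ m).1 c y := by
        funext c y; simp [hσ]
      beta_reduce
      rw [e2, this]; ring
    have e3 : ∀ c, ∫ y in ball 0 R, Real.exp (2 * φ (x, y)) *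
        (th m y * (ddk k c x y + sysT b (fun c y => σ c (x, y)) c y)) ^ 2 ≤
        Wp φ R x (ddk k c x - T c) := by
      intro c
      refine integral_mono_of_nonneg (Filter.Eventually.of_forall fun y => by positivity)
        (integrable_w (cw.comp (Continuous.prodMk_right x)) (Lp.memLp _)) ?_
      filter_upwards [Lp.coeFn_sub (ddk k c x) (T c), e1 c] with y a1 a2
      rw [a1, Pi.sub_apply, a2, sub_neg_eq_add, mul_pow]
      exact mul_le_mul_of_nonneg_left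
        (mul_le_of_le_one_left (sq_nonneg _) (pow_le_one₀ (t2 m y).1 (t2 m y).2))
        (Real.exp_pos _).le
    refine (Finset.sum_le_sum fun c _ => e3 c).trans ?_
    beta_reduce
    by_cases hx : ‖x‖ ≤ R
    · rw [indicator_of_mem (mem_closedBall_zero_iff.2 hx)]
      have e4 : ∀ c, Wp φ R x (ddk k c x - T c) ≤ (1 + s) * Wp φ R x (ddk k c x - Ξ x c) +
          (1 + s⁻¹) * (A * ∫ y in ball 0 R, (Ξ x - T) c y ^ 2) := by
        intro c
        have : ddk k c x - T c = (ddk k c x - Ξ x c) + (Ξ x - T) c := by simp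
        rw [this]
        exact Wp_add_le hφ hs x (fun y hy => (le_abs_self _).trans
          (hA (x, y) ⟨mem_closedBall_zero_iff.2 hx, ball_subset_closedBall hy⟩)) _ _
      refine (Finset.sum_le_sum fun c _ => e4 c).trans ?_
      rw [Finset.sum_add_distrib, ← Finset.mul_sum, ← Finset.mul_sum, ← Finset.mul_sum,
        ← norm_sq_LV]
      have := pow_le_pow_left₀ (norm_nonneg _) (happ' x) 2
      have := hΓ' x
      gcongr
    · push Not at hx
      have z1 : T = 0 := by simp [hT, θ0 _ x hx]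
      have z2 : ∀ c, ddk k c x = 0 := fun c => by
        simp [ddk, dk_zero (dk_zero hk0 _) _ c x (by linarith)]
      simp only [z1, z2, PiLp.zero_apply, sub_zero, Wp_zero, Finset.sum_const_zero]
      have := hΓ0 x
      have : 0 ≤ (closedBall (0 : E3) R).indicator (fun _ => (1 + s⁻¹) * (A * δ ^ 2)) x :=
        indicator_nonneg (fun _ _ => by positivity) _
      positivity
  refine le_of_forall_pos_le_add fun e he => ?_
  set s := e / (2 * ((∫ x, Γ x) + 1)) with hs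
  have hs0 : 0 < s := by positivity
  have hB : 0 ≤ (1 + s⁻¹) * A * V := by positivity
  have := key s √(e / (2 * ((1 + s⁻¹) * A * V + 1))) hs0 (by positivity)
  rw [Real.sq_sqrt (by positivity)] at this
  have a1 : s * ∫ x, Γ x ≤ e / 2 := by
    rw [hs, div_mul_eq_mul_div, div_le_div_iff₀ (by positivity) (by norm_num)]; nlinarith
  have a2 : (1 + s⁻¹) * (A * (e / (2 * ((1 + s⁻¹) * A * V + 1)))) * V ≤ e / 2 := by
    have : (1 + s⁻¹) * (A * (e / (2 * ((1 + s⁻¹) * A * V + 1)))) * V =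
        (1 + s⁻¹) * A * V * e / (2 * ((1 + s⁻¹) * A * V + 1)) := by ring
    rw [this, div_le_div_iff₀ (by positivity) (by norm_num)]; nlinarith
  linarith

lemma exists_S (hw2s : S_w2s) (hslm : S_slm) {R : ℝ} (P : ι → H →L[ℝ] LB R)
    {M : E3 → LB R →L[ℝ] LB R} (hM : ContDiff ℝ ∞ M)
    (hco : ∀ x, ∃ C : ℝ, 0 < C ∧ ∀ u, C * ‖u‖ * ‖u‖ ≤ ∑ c, ⟪M x (P c u), P c u⟫_ℝ) :
    ∃ S : E3 → (H →L[ℝ] ℝ) →L[ℝ] H, ContDiff ℝ ∞ S ∧
      ∀ x l h, ∑ c, ⟪M x (P c (S x l)), P c h⟫_ℝ = l h := by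
  let B : E3 → H →L[ℝ] H →L[ℝ] ℝ := fun x =>
    ∑ c, (innerSL ℝ).bilinearComp (M x ∘L P c) (P c)
  have hBa : ∀ x u v, B x u v = ∑ c, ⟪M x (P c u), P c v⟫_ℝ := fun x u v => by simp [B]
  have hB : ContDiff ℝ ∞ B := hw2s E3 _ _ B fun u => hw2s E3 _ ℝ _ fun v => by
    simp only [hBa]
    exact ContDiff.sum fun c _ => (hM.clm_apply contDiff_const).inner ℝ contDiff_const
  obtain ⟨S, hS, hS'⟩ := hslm H B hB fun x => by
    obtain ⟨C, hC, h⟩ := hco x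
    exact ⟨C, hC, fun u => by rw [hBa]; exact h u⟩
  exact ⟨S, hS, fun x l h => by rw [← hBa]; exact hS' x l h⟩

omit [CompleteSpace H] in
lemma quad_eq {b : Coef ι} {R : ℝ} {φ : X6 → ℝ} (hφ : Sm φ) (P : ι → H →L[ℝ] LB R)
    (Rp : H →ₗ[ℝ] SolSp b R) (h1 : ∀ h c, (P c h : E3 → ℝ) =ᵐ[mY R] (Rp h).1 c)
    (nR : ∀ h, nrm (ball 0 R) (Rp h).1 = ‖h‖ ^ 2) {M : E3 → LB R →L[ℝ] LB R}
    (hM : ∀ x u, (M x u : E3 → ℝ) =ᵐ[mY R] fun y => Real.exp (-(2 * φ (x, y))) * u y) (x : E3) :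
    (∀ u, ∑ c, ⟪M x (P c u), P c u⟫_ℝ =
      ∑ c, ∫ y in ball 0 R, Real.exp (-(2 * φ (x, y))) * (Rp u).1 c y ^ 2) ∧
    (∀ u, ∑ c, Wp φ R x (M x (P c u)) = ∑ c, ⟪M x (P c u), P c u⟫_ℝ) ∧
    ∃ C : ℝ, 0 < C ∧ ∀ u, C * ‖u‖ * ‖u‖ ≤ ∑ c, ⟪M x (P c u), P c u⟫_ℝ := by
  have hBw : ∀ u, ∑ c, ⟪M x (P c u), P c u⟫_ℝ =
      ∑ c, ∫ y in ball 0 R, Real.exp (-(2 * φ (x, y))) * (Rp u).1 c y ^ 2 := by
    intro u
    refine Finset.sum_congr rfl fun c _ => ?_
    rw [inner_LB]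
    refine integral_congr_ae ?_
    filter_upwards [hM x (P c u), h1 u c] with y a1 a2
    rw [a1, a2]; ring
  refine ⟨hBw, fun u => ?_, ?_⟩
  · rw [hBw]
    refine Finset.sum_congr rfl fun c _ => integral_congr_ae ?_
    filter_upwards [hM x (P c u), h1 u c] with y a1 a2
    rw [a1, a2, Real.exp_neg]
    field_simp
  · have cw : Continuous fun y => 2 * φ (x, y) :=
      (hφ.cmul 2).cont.comp (Continuous.prodMk_right x)
    obtain ⟨A, hA⟩ := (isCompact_closedBall (0 : E3) R).exists_bound_of_continuousOn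
      cw.continuousOn
    refine ⟨Real.exp (-A), Real.exp_pos _, fun u => ?_⟩
    rw [hBw, mul_assoc, ← pow_two, ← nR, nrm, Finset.mul_sum]
    refine Finset.sum_le_sum fun c _ => ?_
    rw [← integral_const_mul]
    refine setIntegral_mono_on (((Rp u).2.2.1 c).integrable_sq.const_mul _)
      (integrable_w cw.neg.rexp ((Rp u).2.2.1 c)) measurableSet_ball fun y hy => ?_
    exact mul_le_mul_of_nonneg_right (Real.exp_le_exp.2 (neg_le_neg
      ((le_abs_self _).trans (hA y (ball_subset_closedBall hy))))) (sq_nonneg _)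

lemma exists_l (hw2s : S_w2s) {b : Coef ι} {R : ℝ} (P : ι → H →L[ℝ] LB R)
    (Rp : H →ₗ[ℝ] SolSp b R) (h1 : ∀ h c, (P c h : E3 → ℝ) =ᵐ[mY R] (Rp h).1 c)
    (h2 : ∀ W : SolSp b R, ∃ h : H, ∀ c, (P c h : E3 → ℝ) =ᵐ[mY R] W.1 c)
    (nR : ∀ h, nrm (ball 0 R) (Rp h).1 = ‖h‖ ^ 2) (l : E3 → (SolSp b R →ₗ[ℝ] ℝ))
    (hl1 : ∀ x, ∃ C : ℝ, ∀ W, l x W ^ 2 ≤ C * nrm (ball 0 R) W.1)
    (hl2 : ∀ W, Sm (fun x => l x W)) :
    ∃ l' : E3 → H →L[ℝ] ℝ, ContDiff ℝ ∞ l' ∧ (∀ x h, l' x h = l x (Rp h)) ∧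
      ∀ W : SolSp b R, ∃ h : H, (∀ c, (P c h : E3 → ℝ) =ᵐ[mY R] W.1 c) ∧
        (fun x => l x W) = fun x => l' x h := by
  have bd : ∀ x, ∃ A : ℝ, ∀ h : H, ‖(l x ∘ₗ Rp) h‖ ≤ A * ‖h‖ := by
    intro x
    obtain ⟨C, hC⟩ := hl1 x
    refine ⟨√|C|, fun h => abs_le.2 (abs_le_of_sq_le_sq' ?_ (by positivity))⟩
    rw [mul_pow, Real.sq_sqrt (abs_nonneg _), ← nR]
    exact (hC _).trans (mul_le_mul_of_nonneg_right (le_abs_self _) (nrm_nonneg _ _))
  refine ⟨fun x => (l x ∘ₗ Rp).mkContinuousOfExistsBound (bd x),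
    hw2s E3 _ ℝ _ fun h => hl2 (Rp h), fun _ _ => rfl, fun W => ?_⟩
  obtain ⟨h, hh⟩ := h2 W
  refine ⟨h, hh, funext fun x => ?_⟩
  obtain ⟨C, hC⟩ := hl1 x
  have := hC (W - Rp h)
  have z : nrm (ball 0 R) (W - Rp h).1 = 0 := by
    rw [nrm_congr (u' := 0) fun c => ?_]
    · simp [nrm]
    · filter_upwards [hh c, h1 h c] with y a1 a2
      simp [← a1, ← a2]
  rw [z, mul_zero, map_sub] at this
  exact sub_eq_zero.1 (pow_eq_zero_iff two_ne_zero |>.1 (le_antisymm this (sq_nonneg _)))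

lemma abstract_est (hw2s : S_w2s) (hslm : S_slm) (happ : S_approx) (hmf : S_mf)
    (hdrep : S_drep) (hie : S_ie) {b : Coef ι} (hb : SmC b) {R RX K a ε τ : ℝ} (hRX : 0 < RX)
    (hR : RX + 1 < R)
    (hme : ∀ g q : ι → X6 → ℝ, (∀ c, T6 R (g c)) → (∀ c, T6 R (q c)) →
      (∀ p : X6, ((∃ c, p ∈ tsupport (q c)) ∨ ‖p.2 - p.1‖ ≤ 1) →
        ∀ c, L2 (phi a ε τ) b g c p = 0) →
      K * (a * q0 g + qZ (phi a ε τ) g) ≤ qG (phi a ε τ) b g q)
    (P : ι → H →L[ℝ] LB R)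
    (Rp : H →ₗ[ℝ] SolSp b R) (h1 : ∀ h c, (P c h : E3 → ℝ) =ᵐ[mY R] (Rp h).1 c)
    (h2 : ∀ W : SolSp b R, ∃ h : H, ∀ c, (P c h : E3 → ℝ) =ᵐ[mY R] W.1 c)
    (nR : ∀ h, nrm (ball 0 R) (Rp h).1 = ‖h‖ ^ 2)
    (horth : ∀ Ξ : LV ι R, (∀ h, ∑ c, ⟪Ξ c, P c h⟫_ℝ = 0) →
      Ξ ∈ closure (LinearMap.range (TT hb R) : Set (LV ι R)))
    (l : E3 → (SolSp b R →ₗ[ℝ] ℝ))
    (hl1 : ∀ x, ∃ C : ℝ, ∀ W, l x W ^ 2 ≤ C * nrm (ball 0 R) W.1)
    (hl2 : ∀ W, Sm (fun x => l x W)) (hl3 : ∀ x, RX ≤ ‖x‖ → l x = 0) :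
    ∃ n₀ n₁ : E3 → ℝ, Continuous n₀ ∧ Continuous n₁ ∧ HasCompactSupport n₀ ∧
      HasCompactSupport n₁ ∧ (∀ x, 0 ≤ n₀ x ∧ 0 ≤ n₁ x) ∧
      (∀ x W, l x W ^ 2 ≤ n₀ x * wn a ε τ R x W.1) ∧
      (∀ x W, ∑ j, pd j (fun x => l x W) x ^ 2 ≤ n₁ x * wn a ε τ R x W.1) ∧
      ∀ Γ : E3 → ℝ, Integrable Γ → (∀ x, 0 ≤ Γ x) →
        (∀ x W, lap (fun x => l x W) x ^ 2 ≤ Γ x * wn a ε τ R x W.1) →
        K * (a * (∫ x, n₀ x) + ∫ x, n₁ x) ≤ ∫ x, Γ x := by
  have hφ := sm_phi a ε τ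
  obtain ⟨l', hl', hl'a, h3⟩ := exists_l hw2s P Rp h1 h2 nR l hl1 hl2
  obtain ⟨Mm, hMm, hMm'⟩ := hmf R _ (hφ.cmul 2).neg.exp
  have hq := quad_eq hφ P Rp h1 nR hMm'
  obtain ⟨S, hS, hS'⟩ := exists_S hw2s hslm P hMm fun x => (hq x).2.2
  obtain ⟨g, hgd⟩ : ∃ g : E3 → H, g = fun x => S x (l' x) := ⟨_, rfl⟩
  have hg : ContDiff ℝ ∞ g := hgd ▸ hS.clm_apply hl'
  have hg0 : ∀ x, RX ≤ ‖x‖ → g x = 0 := fun x hx => by
    have : l' x = 0 := by ext h; simp [hl'a, hl3 x hx]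
    simp [hgd, this]
  obtain ⟨k, hkd⟩ : ∃ k : ι → E3 → LB R, k = fun c x => Mm x (P c (g x)) := ⟨_, rfl⟩
  have hk : ∀ c, ContDiff ℝ ∞ (k c) := fun c => hkd ▸ hMm.clm_apply ((P c).contDiff.comp hg)
  have hk0 : ∀ c x, RX < ‖x‖ → k c x = 0 := fun c x hx => by simp [hkd, hg0 x hx.le]
  have e0 : ∀ h : H, (fun x => l' x h) = fun x => ∑ c, ⟪k c x, P c h⟫_ℝ := fun h =>
    funext fun x => by rw [← hS' x (l' x) h, hkd, hgd]
  have e1 : ∀ (h : H) j, pd j (fun x => l' x h) = fun x => ∑ c, ⟪dk k j c x, P c h⟫_ℝ :=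
    fun h j => funext fun x => by rw [e0, pd_inner hk]; rfl
  have e2 : ∀ (h : H) x, lap (fun x => l' x h) x = ∑ c, ⟪ddk k c x, P c h⟫_ℝ := by
    intro h x
    simp only [lap, e1, pd_inner (sm_dk hk _), ddk, sum_inner]
    rw [Finset.sum_comm]; rfl
  have hcs : ∀ {u : E3 → LB R}, (∀ x, RX < ‖x‖ → u x = 0) → ∀ x, x ∉ closedBall (0 : E3) RX →
      Wp (phi a ε τ) R x (u x) = 0 := fun h0 x hx => by rw [h0 x (by simpa using hx), Wp_zero]
  refine ⟨fun x => ∑ c, Wp (phi a ε τ) R x (k c x),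
    fun x => ∑ j, ∑ c, Wp (phi a ε τ) R x (dk k j c x),
    continuous_finsetSum _ fun c _ => cont_Wp hmf hφ (hk c).continuous,
    continuous_finsetSum _ fun j _ => continuous_finsetSum _ fun c _ =>
      cont_Wp hmf hφ (sm_dk hk j c).continuous,
    HasCompactSupport.intro (isCompact_closedBall 0 RX) fun x hx =>
      Finset.sum_eq_zero fun c _ => hcs (hk0 c) x hx,
    HasCompactSupport.intro (isCompact_closedBall 0 RX) fun x hx =>
      Finset.sum_eq_zero fun j _ => Finset.sum_eq_zero fun c _ => hcs (dk_zero hk0 j c) x hx,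
    fun x => ⟨Finset.sum_nonneg fun _ _ => Wp_nonneg _ _ _ _,
      Finset.sum_nonneg fun _ _ => Finset.sum_nonneg fun _ _ => Wp_nonneg _ _ _ _⟩,
    fun x W => ?_, fun x W => ?_, fun Γ hΓ hΓ0 hΓ' => ?_⟩
  · obtain ⟨h, a1, a2⟩ := h3 W
    rw [congrFun a2 x, congrFun (e0 h) x]
    exact cs_Wp hφ x _ _ a1
  · obtain ⟨h, a1, a2⟩ := h3 W
    rw [a2, Finset.sum_mul]
    refine Finset.sum_le_sum fun j _ => ?_
    rw [e1]
    exact cs_Wp hφ x _ _ a1
  · obtain ⟨Λ, hΛa⟩ : ∃ Λ : E3 → H →L[ℝ] ℝ, ∀ x h, Λ x h = ∑ c, ⟪ddk k c x, P c h⟫_ℝ :=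
      ⟨fun x => ∑ c, innerSL ℝ (ddk k c x) ∘L P c, fun x h => by simp⟩
    have hΛ : ContDiff ℝ ∞ Λ := hw2s E3 _ ℝ Λ fun h => by
      simp only [hΛa]
      exact ContDiff.sum fun c _ => (sm_ddk hk c).inner ℝ contDiff_const
    have hG : ContDiff ℝ ∞ fun x => S x (Λ x) := hS.clm_apply hΛ
    have z2 : ∀ c x, RX < ‖x‖ → ddk k c x = 0 := fun c x hx => by
      simp [ddk, dk_zero (dk_zero hk0 _) _ c x hx]
    refine limit_est hw2s hie happ hmf hdrep hb hφ hRX hR hme Rp nR hg hg0 k hk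
      (fun c x => ?_) hk0 (fun x => WithLp.toLp 2 fun c => ddk k c x - Mm x (P c (S x (Λ x)))) ?_
      (fun x => horth _ fun h => ?_) (fun x hx => ?_) hΓ hΓ0 fun x => ?_
    · filter_upwards [hMm' x (P c (g x)), h1 (g x) c] with y a1 a2
      rw [← a2, hkd]; exact a1
    · exact (PiLp.continuous_toLp 2 _).comp (continuous_pi fun c => (sm_ddk hk c).continuous.sub
        (hMm.clm_apply ((P c).contDiff.comp hG)).continuous)
    · simp only [inner_sub_left, Finset.sum_sub_distrib]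
      rw [hS', hΛa, sub_self]
    · have : Λ x = 0 := by ext h; simp [hΛa, z2 _ x hx]
      ext1 c
      simp [this, z2 c x hx]
    · simp only [sub_sub_cancel]
      rw [(hq x).2.1]
      have a1 := hΓ' x (Rp (S x (Λ x)))
      have a2 : (fun y => l y (Rp (S x (Λ x)))) = fun y => l' y (S x (Λ x)) :=
        funext fun y => (hl'a y _).symm
      rw [a2, e2, ← hΛa, ← hS' x (Λ x), wn, ← (hq x).1] at a1
      have a3 : 0 ≤ ∑ c, ⟪Mm x (P c (S x (Λ x))), P c (S x (Λ x))⟫_ℝ := by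
        rw [← (hq x).2.1]; exact Finset.sum_nonneg fun _ _ => Wp_nonneg _ _ _ _
      rcases a3.eq_or_lt with h | h
      · rw [← h]; exact hΓ0 x
      · rw [pow_two] at a1; exact le_of_mul_le_mul_right a1 h

end AST

open AST in
theorem s_ast (hME : S_ME) (hw2s : S_w2s) (hslm : S_slm) (happ : S_approx) (hmf : S_mf)
    (hdrep : S_drep) (hweyl : S_weylSys) (hgreen : S_greenSys) (hie : S_ie) : S_ast := by
  intro ι _ b R RX K hb hRX hR
  obtain ⟨ε, τ, a0, hε, ha0, H⟩ := hME ι b R K hb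
  refine ⟨ε, τ, a0, hε, ha0, fun a ha l hl1 hl2 hl3 => ?_⟩
  obtain ⟨Rp, h1, h2⟩ := exists_rep hweyl hgreen hb R
  refine abstract_est (H := HS hb R) hw2s hslm happ hmf hdrep hie hb hRX hR (H a ha)
    (fun c => PiLp.proj 2 (fun _ : ι => LB R) c ∘L (HS hb R).subtypeL) Rp h1 h2 (fun h => ?_)
    (fun Ξ hΞ => ?_) l hl1 hl2 hl3
  · rw [← nrm_congr (h1 h)]; exact (norm_sq_LV h.1).symm
  · have : Ξ ∈ (HS hb R)ᗮ := by
      rw [Submodule.mem_orthogonal']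
      intro u hu
      rw [PiLp.inner_apply]
      exact hΞ ⟨u, hu⟩
    rwa [Submodule.orthogonal_orthogonal_eq_closure] at this

end Vale.Agent.P136
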