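import Vale.Agent.P136.Basic

/-!
# P136: the Hilbert space of solutions and auxiliary facts for the dual estimate
-/

open MeasureTheory Set Metric
open scoped ContDiff Topology InnerProductSpace

noncomputable section
namespace Vale.Agent.P136
namespace AST

variable {ι : Type} [Fintype ι]

abbrev LV (ι : Type) (R : ℝ) : Type := PiLp 2 (fun _ : ι => LB R)

abbrev mY (R : ℝ) : Measure E3 := volume.restrict (ball (0 : E3) R)

lemma inner_LB {R : ℝ} (u v : LB R) : ⟪u, v⟫_ℝ = ∫ y in ball 0 R, u y * v y := by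
  rw [L2.inner_def]
  congr 1; funext y; simp [mul_comm]

lemma sm_pd {f : E3 → ℝ} (h : Sm f) (j : Fin 3) : Sm (pd j f) := h.D _

lemma tst_sysT {b : Coef ι} (hb : SmC b) {U : Set E3} {ψ : ι → E3 → ℝ}
    (h : ∀ c, IsTest U (ψ c)) (c : ι) : Tst (sysT b ψ c) :=
  (Tst.sum _ fun j _ => (((h c).pd j).pd j).tst).sub
    (Tst.sum _ fun i _ => Tst.sum _ fun c' _ => ((IsTest.mul_left (hb i c' c) (h c')).pd i).tst)

lemma sysT_lin {b : Coef ι} (hb : SmC b) {ψ ψ' : ι → E3 → ℝ} (h : ∀ c, Sm (ψ c))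
    (h' : ∀ c, Sm (ψ' c)) (s t : ℝ) (c : ι) (y : E3) :
    sysT b (fun c y => s * ψ c y + t * ψ' c y) c y = s * sysT b ψ c y + t * sysT b ψ' c y := by
  simp only [sysT]
  rw [lap_lin_on isOpen_univ (h c).contDiffOn (h' c).contDiffOn s t (mem_univ y)]
  have : ∀ i c', pd i (fun z => b i c' c z * (s * ψ c' z + t * ψ' c' z)) y =
      s * pd i (fun z => b i c' c z * ψ c' z) y + t * pd i (fun z => b i c' c z * ψ' c' z) y := by
    intro i c'
    refine Eq.trans ?_ (pd_lin_on isOpen_univ ((hb i c' c).mul (h c')).contDiffOn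
      ((hb i c' c).mul (h' c')).contDiffOn s t i (mem_univ y))
    congr 1; funext z; ring
  simp only [this, Finset.sum_add_distrib, ← Finset.mul_sum]; ring

lemma sysT_eq_zero (b : Coef ι) {ψ : ι → E3 → ℝ} {y : E3} (h : ∀ c, y ∉ tsupport (ψ c)) (c : ι) :
    sysT b ψ c y = 0 := by
  have h1 : ∀ j, pd j (pd j (ψ c)) y = 0 := fun j =>
    D_eq_zero_of_notMem (fun hh => h c (tsupport_D _ _ hh)) _
  have h2 : ∀ i c', pd i (fun z => b i c' c z * ψ c' z) y = 0 := fun i c' =>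
    D_eq_zero_of_notMem (fun hh => h c' (tsupport_mul_subset_right hh)) _
  simp [sysT, lap, h1, h2]

/-- Test fields in the ball. -/
def TS (ι : Type) (R : ℝ) : Submodule ℝ (ι → E3 → ℝ) where
  carrier := {ψ | ∀ c, IsTest (ball 0 R) (ψ c)}
  add_mem' := fun h h' c => (h c).add (h' c)
  zero_mem' := fun _ => IsTest.zero _
  smul_mem' := fun s _ h c => IsTest.mul_left (Sm.const s) (h c)

/-- The transposed operator on test fields, with values in `L²`. -/
def TT {b : Coef ι} (hb : SmC b) (R : ℝ) : TS ι R →ₗ[ℝ] LV ι R where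
  toFun ψ := WithLp.toLp 2 fun c => ((tst_sysT hb ψ.2 c).memLp (ball 0 R)).toLp _
  map_add' ψ ψ' := by
    ext1 c
    simp only [PiLp.add_apply]
    rw [← MemLp.toLp_add]
    refine MemLp.toLp_congr _ _ (Filter.Eventually.of_forall fun y => ?_)
    have := sysT_lin hb (fun c => (ψ.2 c).1) (fun c => (ψ'.2 c).1) 1 1 c y
    simp only [one_mul] at this
    exact this
  map_smul' s ψ := by
    ext1 c
    simp only [PiLp.smul_apply, RingHom.id_apply]
    rw [← MemLp.toLp_const_smul]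
    refine MemLp.toLp_congr _ _ (Filter.Eventually.of_forall fun y => ?_)
    have := sysT_lin hb (fun c => (ψ.2 c).1) (fun c => (ψ.2 c).1) s 0 c y
    simp only [zero_mul, add_zero] at this
    exact this

lemma TT_ae {b : Coef ι} (hb : SmC b) (R : ℝ) (ψ : TS ι R) (c : ι) :
    (TT hb R ψ c : E3 → ℝ) =ᵐ[mY R] sysT b ψ.1 c :=
  MemLp.coeFn_toLp ((tst_sysT hb ψ.2 c).memLp (ball 0 R))

/-- The Hilbert space of weak solutions. -/
abbrev HS {b : Coef ι} (hb : SmC b) (R : ℝ) : Submodule ℝ (LV ι R) := (LinearMap.range (TT hb R))ᗮ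

lemma inner_TT {b : Coef ι} (hb : SmC b) (R : ℝ) (ψ : TS ι R) (u : LV ι R) :
    ⟪TT hb R ψ, u⟫_ℝ = ∑ c, ∫ y in ball 0 R, u c y * sysT b ψ.1 c y := by
  rw [PiLp.inner_apply]
  refine Finset.sum_congr rfl fun c _ => ?_
  rw [inner_LB]
  refine integral_congr_ae ((TT_ae hb R ψ c).mono fun y hy => ?_)
  simp only [hy, mul_comm]

lemma eqOn_ball {R : ℝ} {f g : E3 → ℝ} (hf : ContDiffOn ℝ ∞ f (ball 0 R))
    (hg : ContDiffOn ℝ ∞ g (ball 0 R)) (h : f =ᵐ[mY R] g) : EqOn f g (ball 0 R) :=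
  Measure.eqOn_open_of_ae_eq h isOpen_ball hf.continuousOn hg.continuousOn

lemma sysL_congr_on (b : Coef ι) {U : Set E3} (hU : IsOpen U) {W W' : ι → E3 → ℝ}
    (h : ∀ c, EqOn (W c) (W' c) U) (c : ι) : EqOn (sysL b W c) (sysL b W' c) U := by
  intro y hy
  simp only [sysL, lap_congr_on hU (h c) hy, fun i c' => pd_congr_on hU (h c') i hy]

lemma exists_rep (hw : S_weylSys) (hg : S_greenSys) {b : Coef ι} (hb : SmC b) (R : ℝ) :
    ∃ Rp : HS hb R →ₗ[ℝ] SolSp b R, (∀ h c, (h.1 c : E3 → ℝ) =ᵐ[mY R] (Rp h).1 c) ∧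
      ∀ W : SolSp b R, ∃ h : HS hb R, ∀ c, (h.1 c : E3 → ℝ) =ᵐ[mY R] W.1 c := by
  have ex : ∀ h : HS hb R, ∃ W : SolSp b R, (∀ c, (h.1 c : E3 → ℝ) =ᵐ[mY R] W.1 c) ∧
      ∀ c y, y ∉ ball (0 : E3) R → W.1 c y = 0 := by
    intro h
    obtain ⟨W, h1, h2, h3⟩ := hw ι b (ball 0 R) (fun c => h.1 c) hb isOpen_ball
      (fun c => Lp.memLp _) fun ψ hψ => by
        rw [← inner_TT hb R ⟨ψ, hψ⟩]
        exact Submodule.inner_right_of_mem_orthogonal (LinearMap.mem_range_self _ _) h.2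
    have e : ∀ c, EqOn ((ball (0 : E3) R).indicator (W c)) (W c) (ball 0 R) :=
      fun c y hy => indicator_of_mem hy _
    have e' : ∀ c, (h.1 c : E3 → ℝ) =ᵐ[mY R] (ball (0 : E3) R).indicator (W c) := fun c =>
      (h2 c).trans ((ae_restrict_iff' measurableSet_ball).2
        (Filter.Eventually.of_forall fun y hy => (e c hy).symm))
    refine ⟨⟨fun c => (ball (0 : E3) R).indicator (W c), fun c => (h1 c).congr (e c),
      fun c => (Lp.memLp _).ae_eq (e' c), fun y hy c => ?_⟩, e',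
      fun c y hy => indicator_of_notMem hy _⟩
    rw [sysL_congr_on b isOpen_ball e c hy, h3 y hy c]
  choose rp h1 h2 using ex
  have uniq : ∀ W W' : SolSp b R, (∀ c, W.1 c =ᵐ[mY R] W'.1 c) →
      (∀ c y, y ∉ ball (0 : E3) R → W.1 c y = W'.1 c y) → W = W' := by
    intro W W' a1 a2
    ext c y
    by_cases hy : y ∈ ball (0 : E3) R
    · exact eqOn_ball (W.2.1 c) (W'.2.1 c) (a1 c) hy
    · exact a2 c y hy
  refine ⟨⟨⟨rp, fun h h' => uniq _ _ (fun c => ?_) fun c y hy => ?_⟩,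
    fun s h => uniq _ _ (fun c => ?_) fun c y hy => ?_⟩, h1, fun W => ?_⟩
  · exact (h1 (h + h') c).symm.trans ((Lp.coeFn_add _ _).trans ((h1 h c).add (h1 h' c)))
  · simp [h2 _ c y hy]
  · exact (h1 (s • h) c).symm.trans ((Lp.coeFn_smul _ _).trans ((h1 h c).const_smul s))
  · simp [h2 _ c y hy]
  · refine ⟨⟨WithLp.toLp 2 fun c => (W.2.2.1 c).toLp _, ?_⟩,
      fun c => MemLp.coeFn_toLp (W.2.2.1 c)⟩
    rw [Submodule.mem_orthogonal]
    rintro _ ⟨ψ, rfl⟩
    rw [inner_TT]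
    have e1 : ∑ c, ∫ y in ball 0 R, ((W.2.2.1 c).toLp _ : E3 → ℝ) y * sysT b ψ.1 c y =
        ∑ c, ∫ y in ball 0 R, W.1 c y * sysT b ψ.1 c y :=
      Finset.sum_congr rfl fun c _ => integral_congr_ae
        ((MemLp.coeFn_toLp (W.2.2.1 c)).mono fun y hy => by simp only [hy])
    refine e1.trans ?_
    rw [hg ι b (ball 0 R) W.1 ψ.1 hb isOpen_ball W.2.1 ψ.2]
    refine Finset.sum_eq_zero fun c _ => ?_
    exact setIntegral_eq_zero_of_forall_eq_zero fun y hy => by rw [W.2.2.2 y hy c, zero_mul]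

lemma norm_sq_LV {R : ℝ} (u : LV ι R) : ‖u‖ ^ 2 = ∑ c, ∫ y in ball 0 R, u c y ^ 2 := by
  rw [← real_inner_self_eq_norm_sq, PiLp.inner_apply]
  exact Finset.sum_congr rfl fun c _ => by rw [inner_LB]; simp only [pow_two]

/-- A continuous weight times the square of an `L²` function is integrable on the ball. -/
lemma integrable_w {R : ℝ} {w f : E3 → ℝ} (hw : Continuous w) (hf : MemLp f 2 (mY R)) :
    Integrable (fun y => w y * f y ^ 2) (mY R) := by
  obtain ⟨A, hA⟩ := (isCompact_closedBall (0 : E3) R).exists_bound_of_continuousOn hw.continuousOn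
  exact hf.integrable_sq.bdd_mul (c := A) hw.aestronglyMeasurable
    ((ae_restrict_iff' measurableSet_ball).2
      (Filter.Eventually.of_forall fun y hy => hA y (ball_subset_closedBall hy)))

/-- Weighted Cauchy-Schwarz. -/
lemma wcs {R : ℝ} {σ : E3 → ℝ} (hσ : Continuous σ) {u v : ι → E3 → ℝ}
    (hu : ∀ c, MemLp (u c) 2 (mY R)) (hv : ∀ c, MemLp (v c) 2 (mY R)) :
    (∑ c, ∫ y in ball 0 R, u c y * v c y) ^ 2 ≤
      (∑ c, ∫ y in ball 0 R, Real.exp (σ y) * u c y ^ 2) *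
        ∑ c, ∫ y in ball 0 R, Real.exp (-σ y) * v c y ^ 2 := by
  set A := ∑ c, ∫ y in ball 0 R, Real.exp (σ y) * u c y ^ 2
  set B := ∑ c, ∫ y in ball 0 R, Real.exp (-σ y) * v c y ^ 2
  have hA : 0 ≤ A := Finset.sum_nonneg fun _ _ => integral_nonneg fun _ => by positivity
  have hB : 0 ≤ B := Finset.sum_nonneg fun _ _ => integral_nonneg fun _ => by positivity
  have c1 : Continuous fun y => Real.exp (σ y) := by fun_prop
  have c2 : Continuous fun y => Real.exp (-σ y) := by fun_prop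
  have key : |∑ c, ∫ y in ball 0 R, u c y * v c y| ≤ 1 * √A * √B := by
    refine le_sqrt_mul_sqrt zero_le_one hA hB fun s hs => ?_
    refine (Finset.abs_sum_le_sum_abs _ _).trans ?_
    simp only [A, B, one_mul, Finset.mul_sum, ← Finset.sum_add_distrib, Finset.sum_div]
    refine Finset.sum_le_sum fun c _ => ?_
    have i1 := (integrable_w c1 (hu c)).const_mul s
    have i2 := (integrable_w c2 (hv c)).const_mul s⁻¹
    rw [← integral_const_mul, ← integral_const_mul, ← integral_add i1 i2, ← integral_div]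
    refine abs_integral_le_integral_abs.trans (integral_mono
      (integrable_mul_L2 (hu c) (hv c)).abs ((iadd i1 i2).div_const 2) fun y => ?_)
    have e := Real.exp_pos (σ y)
    beta_reduce
    rw [Real.exp_neg]
    set t := Real.exp (σ y)
    have h1 : 0 ≤ (s * t)⁻¹ * (s * t * |u c y| - |v c y|) ^ 2 := by positivity
    have h2 : (s * t)⁻¹ * (s * t * |u c y| - |v c y|) ^ 2 =
        s * (t * u c y ^ 2) + s⁻¹ * (t⁻¹ * v c y ^ 2) - 2 * (|u c y| * |v c y|) := by
      rw [← sq_abs (u c y), ← sq_abs (v c y)]; field_simp; ring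
    rw [abs_mul]; linarith
  have := pow_le_pow_left₀ (abs_nonneg _) key 2
  rwa [sq_abs, one_mul, mul_pow, Real.sq_sqrt hA, Real.sq_sqrt hB] at this

lemma pd_inner {R : ℝ} {k : ι → E3 → LB R} (hk : ∀ c, ContDiff ℝ ∞ (k c)) (v : ι → LB R)
    (j : Fin 3) (x : E3) : pd j (fun x => ∑ c, ⟪k c x, v c⟫_ℝ) x =
      ∑ c, ⟪fderiv ℝ (k c) x (EuclideanSpace.single j 1), v c⟫_ℝ := by
  have hd : ∀ c, DifferentiableAt ℝ (k c) x := fun c => (hk c).differentiable (by simp) x
  rw [pd_eq_D, D_sum_at _ fun c _ => (hd c).inner ℝ (differentiableAt_const _)]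
  refine Finset.sum_congr rfl fun c _ => ?_
  simp only [D]
  rw [fderiv_inner_apply ℝ (hd c) (differentiableAt_const _)]
  simp

lemma sm_phi (a ε τ : ℝ) : Sm (phi a ε τ) := by
  have h1 : ContDiff ℝ ∞ fun p : X6 => ‖p.2 - p.1‖ ^ 2 := (contDiff_snd.sub contDiff_fst).norm_sq ℝ
  have h2 : ContDiff ℝ ∞ fun p : X6 => ‖p.1‖ ^ 2 := contDiff_fst.norm_sq ℝ
  have h3 : ContDiff ℝ ∞ fun p : X6 => p.1 0 :=
    (EuclideanSpace.proj (𝕜 := ℝ) (0 : Fin 3)).contDiff.comp contDiff_fst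
  exact ((contDiff_const.mul h1).mul (contDiff_const.add (contDiff_const.mul h2))).add
    (contDiff_const.mul h3)

lemma D_ey {f : X6 → ℝ} (hf : Sm f) (i : Fin 3) (x : E3) :
    (fun y => D (ey i) f (x, y)) = pd i (fun y => f (x, y)) := by
  funext y
  have h := ((hf.dAt (x, y)).hasFDerivAt.comp y (hasFDerivAt_prodMk_right x y)).fderiv
  simp only [pd, D]
  rw [show (fun y => f (x, y)) = f ∘ Prod.mk x from rfl, h]
  simp [ey]

lemma T6_of {R : ℝ} {f : X6 → ℝ} (hf : Sm f) (h : ∀ p, f p ≠ 0 → ‖p.1‖ ≤ R ∧ ‖p.2‖ ≤ R) :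
    T6 R f := by
  have hc : IsCompact (closedBall (0 : E3) R ×ˢ closedBall (0 : E3) R) :=
    (isCompact_closedBall _ _).prod (isCompact_closedBall _ _)
  have hs : tsupport f ⊆ closedBall (0 : E3) R ×ˢ closedBall (0 : E3) R :=
    closure_minimal (fun p hp => by simpa using h p hp) hc.isClosed
  exact ⟨⟨hf, hc.of_isClosed_subset (isClosed_tsupport _) hs⟩, fun p hp => by simpa using hs hp⟩

lemma L2_conj {φ : X6 → ℝ} (hφ : Sm φ) (b : Coef ι) {γ : ι → X6 → ℝ} (hγ : ∀ c, Sm (γ c)) (c : ι)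
    (x y : E3) : L2 φ b (fun c p => Real.exp (-φ p) * γ c p) c (x, y) =
      Real.exp (-φ (x, y)) * sysL b (fun c y => γ c (x, y)) c y := by
  simp only [L2, sysL, lap, Dp_exp_neg hφ (hγ _), Dp_exp_neg hφ ((hγ _).D _), mul_add,
    Finset.mul_sum]
  congr 1
  · refine Finset.sum_congr rfl fun i _ => ?_
    rw [← D_ey (hγ c), ← D_ey ((hγ c).D _)]
  · refine Finset.sum_congr rfl fun i _ => Finset.sum_congr rfl fun c' _ => ?_
    rw [← D_ey (hγ c')]; ring

lemma Dm_Dm_exp {φ k : X6 → ℝ} (hφ : Sm φ) (hk : Sm k) (v : X6) (p : X6) :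
    Dm φ v (Dm φ v (fun p => Real.exp (φ p) * k p)) p = Real.exp (φ p) * D v (D v k) p := by
  rw [Dm_exp hφ hk]
  have : (fun x => -(Real.exp (φ x) * D v k x)) = fun x => Real.exp (φ x) * (-D v k x) := by
    funext x; ring
  rw [this, Dm_exp hφ (hk.D v).neg]
  simp only [D_neg]; ring

lemma d2_conj {φ : X6 → ℝ} (hφ : Sm φ) {b : Coef ι} (hb : SmC b) {σ : ι → X6 → ℝ}
    (hσ : ∀ c, Sm (σ c)) (c : ι) (x y : E3) :
    d2 φ b (fun c p => Real.exp (φ p) * σ c p) c (x, y) =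
      Real.exp (φ (x, y)) * sysT b (fun c y => σ c (x, y)) c y := by
  have hb2 : ∀ i c', Sm fun p : X6 => b i c' c p.2 * σ c' p := fun i c' =>
    Sm.mul ((hb i c' c).comp contDiff_snd) (hσ c')
  have e : ∀ i c', (fun p' : X6 => b i c' c p'.2 * (Real.exp (φ p') * σ c' p')) =
      fun p' => Real.exp (φ p') * (b i c' c p'.2 * σ c' p') := fun i c' => by funext p; ring
  simp only [d2, sysT, lap, Dm_Dm_exp hφ (hσ _), e, Dm_exp hφ (hb2 _ _), Finset.mul_sum,
    Finset.sum_neg_distrib, sub_eq_add_neg, mul_add, mul_neg]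
  congr 1
  · refine Finset.sum_congr rfl fun i _ => ?_
    rw [← D_ey (hσ c), ← D_ey ((hσ c).D _)]
  · congr 1
    refine Finset.sum_congr rfl fun i _ => Finset.sum_congr rfl fun c' _ => ?_
    rw [← D_ey (hb2 i c') i x]

/-- Fubini for a test function whose slices vanish off the ball. -/
lemma integral_X6 {R : ℝ} {F : X6 → ℝ} (hF : Tst F) (h0 : ∀ x y, y ∉ ball (0 : E3) R → F (x, y) = 0) :
    (∫ p, F p = ∫ x, ∫ y in ball 0 R, F (x, y)) ∧
      Integrable (fun x => ∫ y in ball 0 R, F (x, y)) := by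
  have hi : Integrable F ((volume : Measure E3).prod volume) := hF.integrable (μ := volume)
  have e : ∀ x, ∫ y in ball 0 R, F (x, y) = ∫ y, F (x, y) := fun x =>
    setIntegral_eq_integral_of_forall_compl_eq_zero fun y hy => h0 x y hy
  simp only [e]
  exact ⟨integral_prod F hi, hi.integral_prod_left⟩

/-- Exhaustion of the ball by cutoffs. -/
lemma exists_cut {ρ R : ℝ} (h0 : 0 < ρ) (h : ρ < R) : ∃ th : ℕ → E3 → ℝ,
    (∀ n, IsTest (ball 0 R) (th n)) ∧ (∀ n y, 0 ≤ th n y ∧ th n y ≤ 1) ∧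
    (∀ n, ∀ y ∈ ball (0 : E3) ρ, th n y = 1) ∧
    ∀ y ∈ ball (0 : E3) R, ∀ᶠ n in Filter.atTop, th n y = 1 := by
  have hr : ∀ n : ℕ, ρ ≤ R - (R - ρ) / (n + 1) ∧ R - (R - ρ) / (n + 1) < R := by
    intro n
    have h1 : (R - ρ) / (n + 1) ≤ R - ρ :=
      div_le_self (by linarith) (by linarith [Nat.cast_nonneg (α := ℝ) n])
    have h2 : 0 < (R - ρ) / (n + 1) := div_pos (by linarith) (by positivity)
    constructor <;> linarith
  let B : ℕ → ContDiffBump (0 : E3) := fun n =>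
    ⟨R - (R - ρ) / (n + 1), (R - (R - ρ) / (n + 1) + R) / 2, by linarith [(hr n).1],
      by linarith [(hr n).2]⟩
  refine ⟨fun n => B n, fun n => ⟨(B n).contDiff, (B n).hasCompactSupport, ?_⟩,
    fun n y => ⟨(B n).nonneg, (B n).le_one⟩, fun n y hy => (B n).one_of_mem_closedBall ?_,
    fun y hy => ?_⟩
  · rw [(B n).tsupport_eq]
    exact closedBall_subset_ball (by show (_ + R) / 2 < R; linarith [(hr n).2])
  · exact ball_subset_closedBall (ball_subset_ball (hr n).1 hy)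
  · have ht : Filter.Tendsto (fun n : ℕ => R - (R - ρ) / ((n : ℝ) + 1)) Filter.atTop
        (𝓝 (R - 0)) := tendsto_const_nhds.sub (Filter.Tendsto.const_div_atTop
          (Filter.tendsto_atTop_add_const_right _ 1 tendsto_natCast_atTop_atTop) _)
    rw [sub_zero] at ht
    filter_upwards [ht.eventually (lt_mem_nhds (mem_ball_zero_iff.1 hy))] with n hn
    exact (B n).one_of_mem_closedBall (mem_closedBall_zero_iff.2 hn.le)

/-- Passing to the limit in the cutoff. -/
lemma tendsto_cut {R : ℝ} {th : ℕ → E3 → ℝ} (h1 : ∀ n, Continuous (th n))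
    (h2 : ∀ n y, 0 ≤ th n y ∧ th n y ≤ 1)
    (h3 : ∀ y ∈ ball (0 : E3) R, ∀ᶠ n in Filter.atTop, th n y = 1) {w : X6 → ℝ} (hw : Continuous w)
    (hw0 : ∀ p, 0 ≤ w p) (u : E3 → LB R)
    (hN : Integrable fun x => ∫ y in ball 0 R, w (x, y) * u x y ^ 2)
    (hn : ∀ n, Integrable fun x => ∫ y in ball 0 R, w (x, y) * (th n y * u x y) ^ 2) :
    Filter.Tendsto (fun n => ∫ x, ∫ y in ball 0 R, w (x, y) * (th n y * u x y) ^ 2) Filter.atTop
      (𝓝 (∫ x, ∫ y in ball 0 R, w (x, y) * u x y ^ 2)) := by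
  have cw : ∀ x, Continuous fun y => w (x, y) := fun x => hw.comp (Continuous.prodMk_right x)
  have i0 : ∀ x, Integrable (fun y => w (x, y) * u x y ^ 2) (mY R) := fun x =>
    integrable_w (cw x) (Lp.memLp _)
  have i1 : ∀ n x, Integrable (fun y => w (x, y) * (th n y * u x y) ^ 2) (mY R) := fun n x =>
    (integrable_w ((cw x).mul ((h1 n).pow 2)) (Lp.memLp (u x))).congr
      (Filter.Eventually.of_forall fun y => by simp only [Pi.mul_apply, Pi.pow_apply]; ring)
  have le : ∀ n x y, w (x, y) * (th n y * u x y) ^ 2 ≤ w (x, y) * u x y ^ 2 := by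
    intro n x y
    refine mul_le_mul_of_nonneg_left ?_ (hw0 _)
    rw [mul_pow]
    exact mul_le_of_le_one_left (sq_nonneg _) (pow_le_one₀ (h2 n y).1 (h2 n y).2)
  have nn : ∀ n x y, 0 ≤ w (x, y) * (th n y * u x y) ^ 2 := fun n x y =>
    mul_nonneg (hw0 _) (sq_nonneg _)
  refine tendsto_integral_of_dominated_convergence _ (fun n => (hn n).aestronglyMeasurable) hN
    (fun n => Filter.Eventually.of_forall fun x => ?_) (Filter.Eventually.of_forall fun x => ?_)
  · rw [Real.norm_of_nonneg (integral_nonneg (nn n x))]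
    exact integral_mono (i1 n x) (i0 x) (le n x)
  · refine tendsto_integral_of_dominated_convergence _ (fun n => (i1 n x).aestronglyMeasurable)
      (i0 x) (fun n => Filter.Eventually.of_forall fun y => ?_) ?_
    · rw [Real.norm_of_nonneg (nn n x y)]; exact le n x y
    · refine (ae_restrict_iff' measurableSet_ball).2 (Filter.Eventually.of_forall fun y hy => ?_)
      refine tendsto_const_nhds.congr' ?_
      filter_upwards [h3 y hy] with n hn
      rw [hn, one_mul]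

end AST
end Vale.Agent.P136
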