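import Vale.Agent.P136.AST1

/-!
# P136: the estimate with a fixed cutoff
-/

open MeasureTheory Set Metric
open scoped ContDiff Topology InnerProductSpace

noncomputable section
namespace Vale.Agent.P136
namespace AST

variable {ι : Type} [Fintype ι]

lemma sm_fderiv {V : Type} [NormedAddCommGroup V] [NormedSpace ℝ V] {k : E3 → V}
    (hk : ContDiff ℝ ∞ k) (v : E3) : ContDiff ℝ ∞ fun x => fderiv ℝ k x v :=
  (hk.fderiv_right (m := ∞) (by simp)).clm_apply contDiff_const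

/-- First derivatives of an `L²`-valued function. -/
def dk {R : ℝ} (k : ι → E3 → LB R) (j : Fin 3) : ι → E3 → LB R :=
  fun c x => fderiv ℝ (k c) x (EuclideanSpace.single j 1)

/-- Laplacian of an `L²`-valued function. -/
def ddk {R : ℝ} (k : ι → E3 → LB R) : ι → E3 → LB R := fun c x => ∑ j, dk (dk k j) j c x

omit [Fintype ι] in
lemma sm_dk {R : ℝ} {k : ι → E3 → LB R} (hk : ∀ c, ContDiff ℝ ∞ (k c)) (j : Fin 3) (c : ι) :
    ContDiff ℝ ∞ (dk k j c) := sm_fderiv (hk c) _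

omit [Fintype ι] in
lemma sm_ddk {R : ℝ} {k : ι → E3 → LB R} (hk : ∀ c, ContDiff ℝ ∞ (k c)) (c : ι) :
    ContDiff ℝ ∞ (ddk k c) := ContDiff.sum fun j _ => sm_dk (sm_dk hk j) j c

omit [Fintype ι] in
lemma dk_zero {R RX : ℝ} {k : ι → E3 → LB R} (h : ∀ c x, RX < ‖x‖ → k c x = 0) (j : Fin 3) :
    ∀ c x, RX < ‖x‖ → dk k j c x = 0 := by
  intro c x hx
  have : k c =ᶠ[𝓝 x] fun _ => 0 := by
    filter_upwards [(isOpen_lt continuous_const continuous_norm).mem_nhds hx] with y hy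
    exact h c y hy
  simp [dk, this.fderiv_eq]

lemma coe_sum3 {R : ℝ} (f : Fin 3 → LB R) :
    ((∑ j, f j : LB R) : E3 → ℝ) =ᵐ[mY R] fun y => ∑ j, f j y := by
  simp only [Fin.sum_univ_three]
  filter_upwards [Lp.coeFn_add (f 0 + f 1) (f 2), Lp.coeFn_add (f 0) (f 1)] with y h1 h2
  rw [h1, Pi.add_apply, h2, Pi.add_apply]

/-- The main estimate applied to the cut-off kernel. -/
lemma cut_est (hdrep : S_drep) {b : Coef ι} (hb : SmC b) {R RX ρ K a : ℝ} {φ : X6 → ℝ}
    (hφ : Sm φ) (hρ : RX + 1 < ρ) (hρR : ρ < R)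
    (hme : ∀ g q : ι → X6 → ℝ, (∀ c, T6 R (g c)) → (∀ c, T6 R (q c)) →
      (∀ p : X6, ((∃ c, p ∈ tsupport (q c)) ∨ ‖p.2 - p.1‖ ≤ 1) → ∀ c, L2 φ b g c p = 0) →
      K * (a * q0 g + qZ φ g) ≤ qG φ b g q)
    (k : ι → E3 → LB R) (hk : ∀ c, ContDiff ℝ ∞ (k c)) (G : E3 → SolSp b R)
    (hkG : ∀ c x, (k c x : E3 → ℝ) =ᵐ[mY R] fun y => Real.exp (-(2 * φ (x, y))) * (G x).1 c y)
    (hG0 : ∀ x, RX ≤ ‖x‖ → G x = 0) {th : E3 → ℝ} (hth : IsTest (ball 0 R) th)
    (hth1 : ∀ y ∈ ball (0 : E3) ρ, th y = 1)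
    (hsm : ∀ c, Sm fun p : X6 => th p.2 * (G p.1).1 c p.2)
    (σ : ι → X6 → ℝ) (hσ : ∀ c, Sm (σ c)) {ρ' : ℝ} (hρ' : ρ' < ρ)
    (hσ0 : ∀ c p, σ c p ≠ 0 → ‖p.1‖ ≤ R ∧ ‖p.2‖ ≤ ρ') :
    (∀ c, Integrable fun x => ∫ y in ball 0 R, Real.exp (2 * φ (x, y)) * (th y * k c x y) ^ 2) ∧
    (∀ j c, Integrable fun x =>
      ∫ y in ball 0 R, Real.exp (2 * φ (x, y)) * (th y * dk k j c x y) ^ 2) ∧
    (∀ c, Integrable fun x => ∫ y in ball 0 R, Real.exp (2 * φ (x, y)) *
      (th y * (ddk k c x y + sysT b (fun c y => σ c (x, y)) c y)) ^ 2) ∧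
    K * (a * (∑ c, ∫ x, ∫ y in ball 0 R, Real.exp (2 * φ (x, y)) * (th y * k c x y) ^ 2) +
      ∑ c, ∑ j, ∫ x, ∫ y in ball 0 R, Real.exp (2 * φ (x, y)) * (th y * dk k j c x y) ^ 2) ≤
      ∑ c, ∫ x, ∫ y in ball 0 R, Real.exp (2 * φ (x, y)) *
        (th y * (ddk k c x y + sysT b (fun c y => σ c (x, y)) c y)) ^ 2 := by
  set γ : ι → X6 → ℝ := fun c p => th p.2 * (G p.1).1 c p.2 with hγ
  set κ : ι → X6 → ℝ := fun c p => Real.exp (-(2 * φ p)) * γ c p with hκ
  have hκs : ∀ c, Sm (κ c) := fun c => (hφ.cmul 2).neg.exp.mul (hsm c)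
  set g : ι → X6 → ℝ := fun c p => Real.exp (φ p) * κ c p with hg
  have hg' : g = fun c p => Real.exp (-φ p) * γ c p := by
    funext c p
    simp only [hg, hκ]
    rw [← mul_assoc, ← Real.exp_add]; congr 2; ring
  set q : ι → X6 → ℝ := fun c p => Real.exp (φ p) * σ c p with hq
  have th0 : ∀ y, y ∉ ball (0 : E3) R → y ∉ tsupport th := fun y hy h => hy (hth.2.2 h)
  have γs : ∀ c p, γ c p ≠ 0 → ‖p.1‖ ≤ R ∧ p.2 ∈ tsupport th := by
    intro c p hp
    constructor
    · by_contra h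
      push Not at h
      exact hp (by simp [hγ, hG0 p.1 (by linarith)])
    · by_contra h
      exact hp (by simp [hγ, image_eq_zero_of_notMem_tsupport h])
  have κs : ∀ c, ∀ p ∈ tsupport (κ c), p.2 ∈ tsupport th := fun c =>
    closure_minimal (t := {p : X6 | p.2 ∈ tsupport th})
      (fun p hp => (γs c p (right_ne_zero_of_mul hp)).2)
      ((isClosed_tsupport th).preimage continuous_snd)
  have σs : ∀ c, ∀ p ∈ tsupport (σ c), ‖p.2‖ ≤ ρ' := fun c =>
    closure_minimal (t := {p : X6 | ‖p.2‖ ≤ ρ'}) (fun p hp => (hσ0 c p hp).2)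
      (isClosed_le (by fun_prop) continuous_const)
  have Tg : ∀ c, T6 R (g c) := fun c => T6_of (hφ.exp.mul (hκs c)) fun p hp => by
    have := γs c p (right_ne_zero_of_mul (right_ne_zero_of_mul hp))
    exact ⟨this.1, (mem_ball_zero_iff.1 (hth.2.2 this.2)).le⟩
  have Tq : ∀ c, T6 R (q c) := fun c => T6_of (hφ.exp.mul (hσ c)) fun p hp => by
    have := hσ0 c p (right_ne_zero_of_mul hp)
    exact ⟨this.1, by linarith [this.2]⟩
  have hL : ∀ p : X6, ((∃ c, p ∈ tsupport (q c)) ∨ ‖p.2 - p.1‖ ≤ 1) → ∀ c, L2 φ b g c p = 0 := by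
    rintro ⟨x, y⟩ hp c
    rw [hg', L2_conj hφ b hsm]
    by_cases hx : RX ≤ ‖x‖
    · have : (fun c y => γ c (x, y)) = (0 : SolSp b R).1 := by
        funext c y; simp [hγ, hG0 x hx]
      rw [this]
      have h0 : ∀ j, pd j (0 : E3 → ℝ) = 0 := fun j => by funext x; simp [pd]
      simp [sysL, lap, h0]
    · have hy : y ∈ ball (0 : E3) ρ := by
        rw [mem_ball_zero_iff]
        rcases hp with ⟨c', hc'⟩ | hp
        · have h1 : (x, y) ∈ tsupport (σ c') :=
            tsupport_mul_subset_right (f := fun p => Real.exp (φ p)) (g := σ c') hc'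
          have h2 := σs c' _ h1
          exact lt_of_le_of_lt h2 hρ'
        · have := norm_sub_norm_le y x
          simp only at hp
          linarith
      rw [sysL_congr_on b isOpen_ball (W' := (G x).1)
        (fun c y hy => by simp [hth1 y hy]) c hy,
        (G x).2.2.2 y (ball_subset_ball hρR.le hy) c, mul_zero]
  have main := hme g q Tg Tq hL
  have ae0 : ∀ c x, (fun y => th y * k c x y) =ᵐ[mY R] fun y => κ c (x, y) := fun c x =>
    (hkG c x).mono fun y hy => by simp only [hy, hκ, hγ]; ring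
  have ae1 : ∀ j c x, (fun y => th y * dk k j c x y) =ᵐ[mY R] fun y => D (ex j) (κ c) (x, y) :=
    fun j c x => hdrep R (k c) (κ c) th (hk c) (hκs c) hth.1.continuous (ae0 c) x j
  have ae2 : ∀ j c x, (fun y => th y * dk (dk k j) j c x y) =ᵐ[mY R]
      fun y => D (ex j) (D (ex j) (κ c)) (x, y) := fun j c x =>
    hdrep R (dk k j c) _ th (sm_dk hk j c) ((hκs c).D _) hth.1.continuous (ae1 j c) x j
  have sqe : ∀ p z, (Real.exp (φ p) * z) ^ 2 = Real.exp (2 * φ p) * z ^ 2 := fun p z => by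
    rw [mul_pow, ← Real.exp_nat_mul]; norm_num
  -- the three families of integrals
  have red : ∀ {F : X6 → ℝ} {f : E3 → E3 → ℝ}, Tst F →
      (∀ x y, y ∉ ball (0 : E3) R → F (x, y) = 0) →
      (∀ x, ∀ᵐ y ∂(mY R), F (x, y) ^ 2 = f x y) →
      (∫ p, F p ^ 2 = ∫ x, ∫ y in ball 0 R, f x y) ∧
        Integrable fun x => ∫ y in ball 0 R, f x y := by
    intro F f hF h0 hf
    have := integral_X6 (R := R) hF.sq fun x y hy => by simp [h0 x y hy]
    have e : (fun x => ∫ y in ball 0 R, F (x, y) ^ 2) = fun x => ∫ y in ball 0 R, f x y :=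
      funext fun x => integral_congr_ae (hf x)
    rw [e] at this
    exact this
  have nκ : ∀ c x y, y ∉ ball (0 : E3) R → (x, y) ∉ tsupport (κ c) := fun c x y hy h =>
    th0 y hy (κs c _ h)
  have r0 := fun c => red (F := g c)
    (f := fun x y => Real.exp (2 * φ (x, y)) * (th y * k c x y) ^ 2) (Tg c).1
    (fun x y hy => by simp [hg, image_eq_zero_of_notMem_tsupport (nκ c x y hy)])
    fun x => (ae0 c x).mono fun y hy => by beta_reduce at hy; simp only [hg, sqe]; rw [← hy]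
  have r1 := fun j c => red (F := Dm φ (ex j) (g c))
    (f := fun x y => Real.exp (2 * φ (x, y)) * (th y * dk k j c x y) ^ 2) (Tst.Dm hφ (Tg c).1 _)
    (fun x y hy => by
      rw [hg, Dm_exp hφ (hκs c)]; simp [D_eq_zero_of_notMem (nκ c x y hy)])
    fun x => (ae1 j c x).mono fun y hy => by
      rw [hg, Dm_exp hφ (hκs c)]; beta_reduce at hy; simp only [neg_sq, sqe]; rw [← hy]
  have e12 : ∀ c x y, d1 φ (g c) (x, y) + d2 φ b q c (x, y) = Real.exp (φ (x, y)) *
      (∑ j, D (ex j) (D (ex j) (κ c)) (x, y) + sysT b (fun c y => σ c (x, y)) c y) := by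
    intro c x y
    rw [hq, d2_conj hφ hb hσ]
    simp only [d1, hg, Dm_Dm_exp hφ (hκs c), mul_add, Finset.mul_sum]
  have sT0 : ∀ c x y, ρ' < ‖y‖ → sysT b (fun c y => σ c (x, y)) c y = 0 := by
    intro c x y hy
    refine sysT_eq_zero b (fun c' h => ?_) c
    have : tsupport (fun y => σ c' (x, y)) ⊆ {y : E3 | ‖y‖ ≤ ρ'} :=
      closure_minimal (fun y hy => (hσ0 c' (x, y) hy).2)
        (isClosed_le continuous_norm continuous_const)
    exact absurd (this h) (not_le.2 hy)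
  have Td : ∀ c, Tst fun p => d1 φ (g c) p + d2 φ b q c p := fun c =>
    (Tst.sum _ fun j _ => Tst.Dm hφ (Tst.Dm hφ (Tg c).1 _) _).add
      ((Tst.sum _ fun j _ => Tst.Dm hφ (Tst.Dm hφ (Tq c).1 _) _).add
        (Tst.sum _ fun i _ => Tst.sum _ fun c' _ =>
          Tst.Dm hφ (Tst.mul_left ((hb i c' c).comp contDiff_snd) (Tq c').1) _))
  have r2 := fun c => red (F := fun p => d1 φ (g c) p + d2 φ b q c p)
    (f := fun x y => Real.exp (2 * φ (x, y)) *
      (th y * (ddk k c x y + sysT b (fun c y => σ c (x, y)) c y)) ^ 2) (Td c)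
    (fun x y hy => by
      have h1 : ∀ j, D (ex j) (D (ex j) (κ c)) (x, y) = 0 := fun j =>
        D_eq_zero_of_notMem (fun h => nκ c x y hy (tsupport_D _ _ h)) _
      have h2 : ρ' < ‖y‖ := by
        rw [mem_ball_zero_iff, not_lt] at hy; linarith
      rw [e12, sT0 c x y h2]; simp [h1])
    fun x => by
      filter_upwards [ae_all_iff.2 fun j => ae2 j c x, coe_sum3 fun j => dk (dk k j) j c x]
        with y h1 h2
      rw [e12, sqe]
      congr 2
      have h3 : th y * sysT b (fun c y => σ c (x, y)) c y = sysT b (fun c y => σ c (x, y)) c y := by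
        by_cases hy : ρ' < ‖y‖
        · rw [sT0 c x y hy, mul_zero]
        · rw [hth1 y (mem_ball_zero_iff.2 (by linarith)), one_mul]
      rw [mul_add, h3, ddk, h2, Finset.mul_sum]
      congr 1
      exact Finset.sum_congr rfl fun j _ => (h1 j).symm
  refine ⟨fun c => (r0 c).2, fun j c => (r1 j c).2, fun c => (r2 c).2, ?_⟩
  simp only [q0, qZ, qG, fun c => (r0 c).1, fun j c => (r1 j c).1, fun c => (r2 c).1] at main
  exact main

end AST
end Vale.Agent.P136
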