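import Vale.Agent.P136.Stmts

/-!
# P136: Gaussian weighted a priori estimate and existence of solutions
-/

open MeasureTheory Set Metric
open scoped ContDiff Topology InnerProductSpace

noncomputable section
namespace Vale.Agent.P136

namespace Apr

/-- The Gaussian weight. -/
def ph (a : ℝ) (x₀ : E3) (y : E3) : ℝ := a / 2 * ‖y - x₀‖ ^ 2

/-- Coordinate vectors. -/
abbrev ee (i : Fin 3) : E3 := EuclideanSpace.single i (1 : ℝ)

variable {a : ℝ} {x₀ : E3}

lemma sm_ph : Sm (ph a x₀) :=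
  (Sm.const _).mul ((contDiff_id.sub contDiff_const).norm_sq ℝ)

lemma D_ph (i : Fin 3) : D (ee i) (ph a x₀) = fun y => a * (y i - x₀ i) := by
  funext y
  have h := (((hasFDerivAt_id y).sub_const x₀).norm_sq).const_mul (a / 2)
  change fderiv ℝ (fun y => a / 2 * ‖y - x₀‖ ^ 2) y _ = _
  simp only [id] at h
  rw [h.fderiv]
  simp [EuclideanSpace.inner_single_right]
  ring

lemma DD_ph (i j : Fin 3) : D (ee j) (D (ee i) (ph a x₀)) = fun _ => if i = j then a else 0 := by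
  funext y
  have h := (((EuclideanSpace.proj (𝕜 := ℝ) i).hasFDerivAt (x := y)).sub_const (x₀ i)).const_mul a
  rw [D_ph]
  change fderiv ℝ (fun y : E3 => a * (EuclideanSpace.proj (𝕜 := ℝ) i y - x₀ i)) y _ = _
  rw [h.fderiv]
  simp

lemma exp_sq (y : E3) : Real.exp (ph a x₀ y) ^ 2 = Real.exp (a * ‖y - x₀‖ ^ 2) := by
  rw [← Real.exp_nat_mul, ph]
  congr 1
  push_cast
  ring

lemma first {q : E3 → ℝ} (hq : Tst q) :
    6 * a * ∫ y, q y ^ 2 ≤ ∑ i, ∫ y, Dm (ph a x₀) (ee i) q y ^ 2 := by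
  have h : ∀ i, 2 * a * ∫ y, q y ^ 2 ≤ ∫ y, Dm (ph a x₀) (ee i) q y ^ 2 := fun i => by
    rw [sq_Dm sm_ph hq, DD_ph]
    simp only [if_true, integral_const_mul]
    have : 0 ≤ ∫ y, Dp (ph a x₀) (ee i) q y ^ 2 := integral_nonneg fun _ => sq_nonneg _
    linarith
  rw [Fin.sum_univ_three]
  linarith [h 0, h 1, h 2]

lemma int_sum_sq {f : Fin 3 → E3 → ℝ} (hf : ∀ i, Tst (f i)) :
    ∫ y, (∑ i, f i y) ^ 2 = ∑ i, ∑ j, ∫ y, f j y * f i y := by
  have h : ∀ i j, Integrable fun y => f j y * f i y := fun i j =>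
    ((hf j).mul_right (hf i).sm).integrable
  simp only [← integral_finsetSum _ fun j _ => h _ j]
  rw [← integral_finsetSum _ fun i _ => integrable_finsetSum _ fun j _ => h i j]
  congr 1
  funext y
  rw [sq, Finset.sum_mul_sum, Finset.sum_comm]

lemma second {q : E3 → ℝ} (hq : Tst q) (ha : 0 ≤ a) :
    4 * a * ∑ i, ∫ y, Dm (ph a x₀) (ee i) q y ^ 2 ≤
      ∫ y, (∑ i, Dm (ph a x₀) (ee i) (Dm (ph a x₀) (ee i) q) y) ^ 2 := by
  have hZ := fun i => Tst.Dm (sm_ph (a := a) (x₀ := x₀)) hq (ee i)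
  have h1 : ∀ i j, ∫ y, commDens (ph a x₀) (ee i) (ee j) y (q y) (q y) (Dm (ph a x₀) (ee j) q y)
      (Dm (ph a x₀) (ee i) q y) = if j = i then
        8 * a * (∫ y, Dm (ph a x₀) (ee i) q y ^ 2) - 8 * a ^ 2 * ∫ y, q y ^ 2 else 0 := by
    intro i j
    have h0 : ∀ (v : E3) (c : ℝ), D v (fun _ => c) = fun _ => 0 := fun v c => funext (D_const c v)
    simp only [commDens, DD_ph, h0]
    split_ifs with h
    · subst h
      rw [← integral_const_mul, ← integral_const_mul, ← integral_sub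
        ((hZ j).sq.const_mul _).integrable (hq.sq.const_mul _).integrable]
      congr 1
      funext y
      ring
    · simp
  have h2 : 0 ≤ ∑ i, ∑ j, ∫ y, Dp (ph a x₀) (ee i) (Dp (ph a x₀) (ee i) q) y *
      Dp (ph a x₀) (ee j) (Dp (ph a x₀) (ee j) q) y := by
    rw [Finset.sum_comm, ← int_sum_sq fun i => Tst.Dp sm_ph (Tst.Dp sm_ph hq _) _]
    exact integral_nonneg fun _ => sq_nonneg _
  rw [int_sum_sq fun i => Tst.Dm sm_ph (hZ i) _]
  simp only [comm2 sm_ph hq hq, Finset.sum_add_distrib, h1, Finset.sum_ite_eq', Finset.mem_univ,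
    if_true, Finset.sum_sub_distrib, ← Finset.mul_sum, Finset.sum_const, Finset.card_univ,
    Fintype.card_fin, nsmul_eq_mul]
  have h3 := mul_le_mul_of_nonneg_left (first (a := a) (x₀ := x₀) hq) ha
  push_cast
  nlinarith

lemma scal {ψ : E3 → ℝ} (hψ : Tst ψ) (ha : 0 ≤ a) :
    6 * a * ∫ y, Real.exp (a * ‖y - x₀‖ ^ 2) * ψ y ^ 2 ≤
      ∑ i, ∫ y, Real.exp (a * ‖y - x₀‖ ^ 2) * pd i ψ y ^ 2 ∧
    4 * a * ∑ i, ∫ y, Real.exp (a * ‖y - x₀‖ ^ 2) * pd i ψ y ^ 2 ≤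
      ∫ y, Real.exp (a * ‖y - x₀‖ ^ 2) * lap ψ y ^ 2 := by
  have hq := Tst.mul_left (sm_ph (a := a) (x₀ := x₀)).exp hψ
  have h1 := first (a := a) (x₀ := x₀) hq
  have h2 := second (a := a) (x₀ := x₀) hq ha
  have e : ∀ i, Dm (ph a x₀) (ee i) (fun y => -(Real.exp (ph a x₀ y) * D (ee i) ψ y)) =
      fun y => Real.exp (ph a x₀ y) * D (ee i) (D (ee i) ψ) y := fun i => by
    have := Dm_exp (sm_ph (a := a) (x₀ := x₀)) (hψ.sm.D (ee i)).neg (ee i)
    simp only [mul_neg, D_neg, neg_neg] at this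
    exact this
  simp only [Dm_exp sm_ph hψ.sm, e, ← Finset.mul_sum, neg_sq, mul_pow, exp_sq] at h1 h2
  rw [Finset.mul_sum] at h2
  exact ⟨h1, by rw [Finset.mul_sum]; exact h2⟩

variable {ι : Type} [Fintype ι] {b : Coef ι} {R : ℝ}

lemma exists_bd (hb : SmC b) (R : ℝ) : ∃ M : ℝ, 0 ≤ M ∧ ∀ y ∈ closedBall (0 : E3) R, ∀ i c c',
    b i c c' y ^ 2 ≤ M ∧ pd i (b i c c') y ^ 2 ≤ M := by
  have hc : Continuous fun y => ∑ i, ∑ c, ∑ c', (b i c c' y ^ 2 + pd i (b i c c') y ^ 2) :=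
    continuous_finsetSum _ fun i _ => continuous_finsetSum _ fun c _ =>
      continuous_finsetSum _ fun c' _ =>
        ((hb i c c').cont.pow 2).add (((hb i c c').D _).cont.pow 2)
  obtain ⟨M, hM⟩ := (isCompact_closedBall (0 : E3) R).exists_bound_of_continuousOn hc.continuousOn
  refine ⟨max M 0, le_max_right _ _, fun y hy i c c' => ?_⟩
  have h1 : b i c c' y ^ 2 + pd i (b i c c') y ^ 2 ≤ max M 0 := by
    refine le_trans ?_ ((le_abs_self _).trans ((hM y hy).trans (le_max_left _ _)))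
    refine le_trans ?_ (Finset.single_le_sum (f := fun i => ∑ c, ∑ c',
      (b i c c' y ^ 2 + pd i (b i c c') y ^ 2)) (fun _ _ => by positivity) (Finset.mem_univ i))
    refine le_trans ?_ (Finset.single_le_sum (f := fun c => ∑ c',
      (b i c c' y ^ 2 + pd i (b i c c') y ^ 2)) (fun _ _ => by positivity) (Finset.mem_univ c))
    exact Finset.single_le_sum (f := fun c' => b i c c' y ^ 2 + pd i (b i c c') y ^ 2)
      (fun _ _ => by positivity) (Finset.mem_univ c')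
  constructor <;> nlinarith [sq_nonneg (b i c c' y), sq_nonneg (pd i (b i c c') y)]

lemma pert (hb : SmC b) {M : ℝ} (hM : ∀ y ∈ closedBall (0 : E3) R, ∀ i c c',
    b i c c' y ^ 2 ≤ M ∧ pd i (b i c c') y ^ 2 ≤ M) {ψ : ι → E3 → ℝ}
    (hψ : ∀ c, IsTest (ball 0 R) (ψ c)) (c : ι) (y : E3) :
    lap (ψ c) y ^ 2 ≤ 2 * sysT b ψ c y ^ 2 +
      12 * Fintype.card ι * M * ∑ c', ∑ i, (pd i (ψ c') y ^ 2 + ψ c' y ^ 2) := by
  have h1 : ∀ i c', pd i (fun z => b i c' c z * ψ c' z) y ^ 2 ≤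
      2 * M * (pd i (ψ c') y ^ 2 + ψ c' y ^ 2) := fun i c' => by
    rw [pd_eq_D, D_mul_at ((hb i c' c).dAt y) ((hψ c').tst.sm.dAt y), ← pd_eq_D, ← pd_eq_D]
    by_cases hy : y ∈ tsupport (ψ c')
    · obtain ⟨h1, h2⟩ := hM y (ball_subset_closedBall ((hψ c').2.2 hy)) i c' c
      have h3 := mul_le_mul_of_nonneg_right h1 (sq_nonneg (pd i (ψ c') y))
      have h4 := mul_le_mul_of_nonneg_right h2 (sq_nonneg (ψ c' y))
      nlinarith [sq_nonneg (b i c' c y * pd i (ψ c') y - pd i (b i c' c) y * ψ c' y)]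
    · rw [image_eq_zero_of_notMem_tsupport hy, pd_eq_D i (ψ c'), D_eq_zero_of_notMem hy]
      simp
  have h2 : (∑ i, ∑ c', pd i (fun z => b i c' c z * ψ c' z) y) ^ 2 ≤
      3 * Fintype.card ι * (2 * M * ∑ c', ∑ i, (pd i (ψ c') y ^ 2 + ψ c' y ^ 2)) := by
    rw [← Fintype.sum_prod_type', Finset.sum_comm, ← Fintype.sum_prod_type', Finset.mul_sum]
    refine sq_sum_le_card_mul_sum_sq.trans ?_
    rw [Finset.card_univ, Fintype.card_prod, Fintype.card_fin, Nat.cast_mul, Nat.cast_ofNat]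
    exact mul_le_mul_of_nonneg_left (Finset.sum_le_sum fun z _ => h1 z.1 z.2) (by positivity)
  unfold sysT
  nlinarith [sq_nonneg (lap (ψ c) y - 2 * ∑ i, ∑ c', pd i (fun z => b i c' c z * ψ c' z) y)]

lemma tst_lap {ψ : E3 → ℝ} (h : Tst ψ) : Tst (lap ψ) := Tst.sum _ fun _ _ => (h.D _).D _

lemma tst_sysT (hb : SmC b) {ψ : ι → E3 → ℝ} (h : ∀ c, Tst (ψ c)) (c : ι) : Tst (sysT b ψ c) :=
  (tst_lap (h c)).sub (Tst.sum _ fun i _ => Tst.sum _ fun c' _ =>
    (Tst.mul_left (hb i c' c) (h c')).D _)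

lemma sysT_out {ψ : ι → E3 → ℝ} (hψ : ∀ c, IsTest (ball 0 R) (ψ c)) (c : ι) {y : E3}
    (hy : y ∉ ball (0 : E3) R) : sysT b ψ c y = 0 := by
  have h1 : ∀ j, pd j (pd j (ψ c)) y = 0 := fun j =>
    D_eq_zero_of_notMem (fun h => hy ((hψ c).2.2 (tsupport_D _ _ h))) _
  have h2 : ∀ i c', pd i (fun z => b i c' c z * ψ c' z) y = 0 := fun i c' =>
    D_eq_zero_of_notMem (fun h => hy ((hψ c').2.2 (tsupport_mul_subset_right h))) _
  simp only [sysT, lap, h1, h2, Finset.sum_const_zero, sub_zero]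

lemma sysT_lin (hb : SmC b) {ψ ψ' : ι → E3 → ℝ} (h : ∀ c, Sm (ψ c)) (h' : ∀ c, Sm (ψ' c))
    (s t : ℝ) (c : ι) (y : E3) : sysT b (fun c y => s * ψ c y + t * ψ' c y) c y =
      s * sysT b ψ c y + t * sysT b ψ' c y := by
  have h1 : ∀ i c', pd i (fun z => b i c' c z * (s * ψ c' z + t * ψ' c' z)) y =
      s * pd i (fun z => b i c' c z * ψ c' z) y + t * pd i (fun z => b i c' c z * ψ' c' z) y := by
    intro i c'
    rw [show (fun z => b i c' c z * (s * ψ c' z + t * ψ' c' z)) = fun z =>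
      s * (b i c' c z * ψ c' z) + t * (b i c' c z * ψ' c' z) from funext fun z => by ring]
    exact pd_lin_on isOpen_univ ((hb i c' c).mul (h c')).contDiffOn
      ((hb i c' c).mul (h' c')).contDiffOn s t i (mem_univ y)
  simp only [sysT, h1, Finset.sum_add_distrib, ← Finset.mul_sum]
  rw [lap_lin_on isOpen_univ (h c).contDiffOn (h' c).contDiffOn s t (mem_univ y)]
  ring

lemma test_lin {U : Set E3} {f g : E3 → ℝ} (hf : IsTest U f) (hg : IsTest U g) (s t : ℝ) :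
    IsTest U fun y => s * f y + t * g y := by
  have h := (hf.tst.const_mul s).add (hg.tst.const_mul t)
  exact ⟨h.1, h.2, (tsupport_add _ _).trans (union_subset
    (tsupport_mul_subset_right.trans hf.2.2) (tsupport_mul_subset_right.trans hg.2.2))⟩

lemma sm_sysL (hb : SmC b) {p : ι → E3 → ℝ} (h : ∀ c, Sm (p c)) (c : ι) : Sm (sysL b p c) :=
  (Sm.sum fun _ _ => ((h c).D _).D _).add
    (Sm.sum fun i _ => Sm.sum fun c' _ => (hb i c c').mul ((h c').D _))

lemma hahn {V : Type} [NormedAddCommGroup V] [InnerProductSpace ℝ V] [CompleteSpace V]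
    (Γ : Submodule ℝ (V × V)) (u : V) {κ : ℝ} (hκ : 0 ≤ κ) (h : ∀ z ∈ Γ, ‖z.2‖ ≤ κ * ‖z.1‖) :
    ∃ v : V, ‖v‖ ≤ κ * ‖u‖ ∧ ∀ z ∈ Γ, ⟪v, z.1⟫_ℝ = ⟪u, z.2⟫_ℝ := by
  let A : Γ →ₗ[ℝ] V := (LinearMap.fst ℝ V V).comp Γ.subtype
  let l : Γ →ₗ[ℝ] ℝ := (innerSL ℝ u).toLinearMap.comp ((LinearMap.snd ℝ V V).comp Γ.subtype)
  have hb : ∀ z, ‖l z‖ ≤ κ * ‖u‖ * ‖A z‖ := fun z =>
    (norm_inner_le_norm (𝕜 := ℝ) u z.1.2).trans
      ((mul_le_mul_of_nonneg_left (h z.1 z.2) (norm_nonneg u)).trans_eq (by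
        change ‖u‖ * (κ * ‖A z‖) = _
        ring))
  have he := l.compLeftInverse_apply_of_bdd A ⟨_, hb⟩
  obtain ⟨g, hg, hn⟩ := exists_extension_norm_eq (LinearMap.range A) (l.compLeftInverse A)
  refine ⟨(InnerProductSpace.toDual ℝ V).symm g, ?_, fun z hz => ?_⟩
  · rw [LinearIsometryEquiv.norm_map, hn]
    refine ContinuousLinearMap.opNorm_le_bound _ (by positivity) ?_
    rintro ⟨_, z, rfl⟩
    rw [he z _ rfl]
    exact hb z
  · rw [InnerProductSpace.toDual_symm_apply]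
    exact (hg ⟨_, ⟨z, hz⟩, rfl⟩).trans (he ⟨z, hz⟩ _ rfl)

/-- Square integrable fields on the ball. -/
abbrev VV (ι : Type) (R : ℝ) : Type := PiLp 2 fun _ : ι => LB R

/-- `x` is represented by `f`. -/
def Rep (x : VV ι R) (f : ι → E3 → ℝ) : Prop :=
  ∀ c, (x c : E3 → ℝ) =ᵐ[volume.restrict (ball (0 : E3) R)] f c

lemma exists_bound {f : E3 → ℝ} (hf : Continuous f) (R : ℝ) :
    ∃ C, ∀ᵐ y ∂(volume.restrict (ball (0 : E3) R)), ‖f y‖ ≤ C := by
  obtain ⟨C, hC⟩ := (isCompact_closedBall (0 : E3) R).exists_bound_of_continuousOn hf.continuousOn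
  exact ⟨C, (ae_restrict_mem measurableSet_ball).mono fun y hy =>
    hC y (ball_subset_closedBall hy)⟩

lemma memLp {f : E3 → ℝ} (hf : Continuous f) : MemLp f 2 (volume.restrict (ball (0 : E3) R)) := by
  have : Fact (volume (ball (0 : E3) R) < ⊤) := ⟨measure_ball_lt_top⟩
  obtain ⟨C, hC⟩ := exists_bound hf R
  exact MemLp.of_bound hf.aestronglyMeasurable C hC

lemma memLp_mul {f g : E3 → ℝ} (hf : Continuous f)
    (hg : MemLp g 2 (volume.restrict (ball (0 : E3) R))) :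
    MemLp (fun y => f y * g y) 2 (volume.restrict (ball (0 : E3) R)) := by
  obtain ⟨C, hC⟩ := exists_bound hf R
  refine hg.of_le_mul (c := C) (hf.aestronglyMeasurable.mul hg.1) (hC.mono fun y hy => ?_)
  rw [norm_mul]
  exact mul_le_mul_of_nonneg_right hy (norm_nonneg _)

omit [Fintype ι] in
lemma exists_rep {f : ι → E3 → ℝ} (hf : ∀ c, Continuous (f c)) : ∃ x : VV ι R, Rep x f :=
  ⟨WithLp.toLp 2 fun c => (memLp (hf c)).toLp _, fun c => (memLp (hf c)).coeFn_toLp⟩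

lemma Rep.inner {x y : VV ι R} {f g : ι → E3 → ℝ} (hx : Rep x f) (hy : Rep y g) :
    ⟪x, y⟫_ℝ = ∑ c, ∫ z in ball 0 R, f c z * g c z := by
  rw [PiLp.inner_apply]
  refine Finset.sum_congr rfl fun c _ => ?_
  rw [L2.inner_def]
  refine integral_congr_ae ?_
  filter_upwards [hx c, hy c] with z h1 h2
  rw [h1, h2]
  exact mul_comm _ _

lemma Rep.norm_sq {x : VV ι R} {f : ι → E3 → ℝ} (hx : Rep x f) :
    ‖x‖ ^ 2 = ∑ c, ∫ z in ball 0 R, f c z ^ 2 := by
  rw [← real_inner_self_eq_norm_sq, hx.inner hx]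
  simp only [sq]

omit [Fintype ι] in
lemma Rep.lin {x y : VV ι R} {f g : ι → E3 → ℝ} (hx : Rep x f) (hy : Rep y g) (s t : ℝ) :
    Rep (s • x + t • y) fun c z => s * f c z + t * g c z := fun c => by
  filter_upwards [hx c, hy c, Lp.coeFn_add (s • x c) (t • y c), Lp.coeFn_smul s (x c),
    Lp.coeFn_smul t (y c)] with z h1 h2 h3 h4 h5
  change (s • x c + t • y c : LB R) z = _
  rw [h3, Pi.add_apply, h4, h5, Pi.smul_apply, Pi.smul_apply, h1, h2, smul_eq_mul, smul_eq_mul]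

end Apr

open Apr

theorem s_apr : S_apr := by
  intro ι _ b R x₀ hb
  obtain ⟨M, hM0, hM⟩ := exists_bd hb R
  obtain ⟨K, hK⟩ : ∃ K : ℝ, K = 12 * Fintype.card ι * M := ⟨_, rfl⟩
  have hK0 : 0 ≤ K := by rw [hK]; positivity
  refine ⟨1, 1 + Fintype.card ι * K, zero_le_one, by
    have : 0 ≤ Fintype.card ι * K := by positivity
    linarith, fun a ha ψ hψ => ?_⟩
  have hK1 : 0 ≤ Fintype.card ι * K := by positivity
  have hw : Continuous fun y : E3 => Real.exp (a * ‖y - x₀‖ ^ 2) := by fun_prop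
  have hi : ∀ {f : E3 → ℝ}, Tst f → Integrable fun y => Real.exp (a * ‖y - x₀‖ ^ 2) * f y ^ 2 :=
    fun h => h.sq.integrable_cmul hw
  have ht := fun c => (hψ c).tst
  have hs := fun c => scal (a := a) (x₀ := x₀) (ht c) (by linarith)
  have h1 := Finset.sum_le_sum fun c (_ : c ∈ Finset.univ) => (hs c).1
  have h2 := Finset.sum_le_sum fun c (_ : c ∈ Finset.univ) => (hs c).2
  rw [← Finset.mul_sum] at h1 h2
  have h3 : ∀ c, ∫ y, Real.exp (a * ‖y - x₀‖ ^ 2) * lap (ψ c) y ^ 2 ≤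
      2 * (∫ y, Real.exp (a * ‖y - x₀‖ ^ 2) * sysT b ψ c y ^ 2) +
        K * ((∑ c', ∑ i, ∫ y, Real.exp (a * ‖y - x₀‖ ^ 2) * pd i (ψ c') y ^ 2) +
          3 * ∑ c', ∫ y, Real.exp (a * ‖y - x₀‖ ^ 2) * ψ c' y ^ 2) := fun c => by
    have i1 : ∀ c' i, Integrable fun y => Real.exp (a * ‖y - x₀‖ ^ 2) * pd i (ψ c') y ^ 2 :=
      fun c' i => hi ((ht c').D _)
    have i2 : ∀ c', Integrable fun y => ∑ i, Real.exp (a * ‖y - x₀‖ ^ 2) * pd i (ψ c') y ^ 2 :=
      fun c' => integrable_finsetSum _ fun i _ => i1 c' i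
    have i3 := integrable_finsetSum Finset.univ fun c' _ => i2 c'
    have i4 := (integrable_finsetSum Finset.univ fun c' _ => hi (ht c')).const_mul 3
    have i5 := (hi (tst_sysT hb ht c)).const_mul 2
    simp only [← integral_finsetSum _ fun i _ => i1 _ i]
    rw [← integral_finsetSum _ fun c' _ => i2 c', ← integral_finsetSum _ fun c' _ => hi (ht c'),
      ← integral_const_mul, ← integral_const_mul, ← integral_add i3 i4, ← integral_const_mul,
      ← integral_add i5 ((iadd i3 i4).const_mul K)]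
    refine integral_mono (hi (tst_lap (ht c))) (iadd i5 ((iadd i3 i4).const_mul K)) fun y => ?_
    have h4 := mul_le_mul_of_nonneg_left (pert hb hM hψ c y)
      (Real.exp_pos (a * ‖y - x₀‖ ^ 2)).le
    rw [← hK] at h4
    simp only [Finset.sum_add_distrib, Finset.sum_const, Finset.card_univ, Fintype.card_fin,
      nsmul_eq_mul, ← Finset.mul_sum, Nat.cast_ofNat] at h4 ⊢
    linarith
  have h4 := Finset.sum_le_sum fun c (_ : c ∈ Finset.univ) => h3 c
  rw [Finset.sum_add_distrib, ← Finset.mul_sum, Finset.sum_const, Finset.card_univ,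
    nsmul_eq_mul, ← mul_assoc] at h4
  have h5 : 0 ≤ ∑ c, ∫ y, Real.exp (a * ‖y - x₀‖ ^ 2) * ψ c y ^ 2 :=
    Finset.sum_nonneg fun _ _ => integral_nonneg fun _ => by positivity
  generalize ∑ c, ∫ y, Real.exp (a * ‖y - x₀‖ ^ 2) * ψ c y ^ 2 = N0 at h1 h4 h5 ⊢
  generalize ∑ c, ∑ i, ∫ y, Real.exp (a * ‖y - x₀‖ ^ 2) * pd i (ψ c) y ^ 2 = N1 at h1 h2 h4
  generalize Fintype.card ι * K = K' at ha h4 hK1
  have h6 : 3 * N0 ≤ N1 := by nlinarith
  have h7 : K' * (N1 + 3 * N0) ≤ a * (2 * N1) :=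
    mul_le_mul (by linarith) (by linarith) (by linarith) (by linarith)
  have h8 := mul_le_mul_of_nonneg_left h1 (show 0 ≤ a by linarith)
  nlinarith [mul_nonneg (sq_nonneg a) h5]

theorem s_exist (h1 : S_weylSys) (h2 : S_greenSys) : S_exist := by
  intro ι _ b R x₀ hb
  obtain ⟨C, a₀, hC, ha₀, h⟩ := s_apr ι b R x₀ hb
  refine ⟨C, a₀, hC, ha₀, fun a ha p hp => ?_⟩
  have ha0 : 0 < a := by linarith
  have hw : Continuous fun y => Real.exp (ph a x₀ y) := (sm_ph (a := a) (x₀ := x₀)).exp.cont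
  have hw' : Continuous fun y => Real.exp (-ph a x₀ y) := (sm_ph (a := a) (x₀ := x₀)).neg.exp.cont
  have hww : ∀ y, Real.exp (-ph a x₀ y) * Real.exp (ph a x₀ y) = 1 := fun y => by
    rw [← Real.exp_add, neg_add_cancel, Real.exp_zero]
  have hsq : ∀ y, Real.exp (-(a * ‖y - x₀‖ ^ 2)) = Real.exp (-ph a x₀ y) ^ 2 := fun y => by
    rw [Real.exp_neg, Real.exp_neg, inv_pow, exp_sq]
  have hex : ∀ ψ : ι → E3 → ℝ, (∀ c, IsTest (ball 0 R) (ψ c)) → ∃ z : VV ι R × VV ι R,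
      Rep z.1 (fun c y => Real.exp (ph a x₀ y) * sysT b ψ c y) ∧
        Rep z.2 fun c y => Real.exp (ph a x₀ y) * ψ c y := fun ψ hψ => by
    obtain ⟨z₁, hz₁⟩ := exists_rep (R := R) fun c =>
      hw.mul (tst_sysT hb (fun c => (hψ c).tst) c).sm.cont
    obtain ⟨z₂, hz₂⟩ := exists_rep (R := R) fun c => hw.mul (hψ c).tst.sm.cont
    exact ⟨(z₁, z₂), hz₁, hz₂⟩
  let Γ : Submodule ℝ (VV ι R × VV ι R) := Submodule.ofLinearComb
    {z | ∃ ψ : ι → E3 → ℝ, (∀ c, IsTest (ball 0 R) (ψ c)) ∧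
      Rep z.1 (fun c y => Real.exp (ph a x₀ y) * sysT b ψ c y) ∧
        Rep z.2 fun c y => Real.exp (ph a x₀ y) * ψ c y}
    (by
      have h0 : ∀ _ : ι, IsTest (ball 0 R) fun _ => (0 : ℝ) := fun _ =>
        ⟨Tst.zero.1, Tst.zero.2, by simp⟩
      obtain ⟨z, hz⟩ := hex _ h0
      exact ⟨z, _, h0, hz⟩)
    (by
      rintro z ⟨ψ, hψ, z1, z2⟩ z' ⟨ψ', hψ', z1', z2'⟩ s t
      refine ⟨fun c y => s * ψ c y + t * ψ' c y, fun c => test_lin (hψ c) (hψ' c) s t,
        fun c => (z1.lin z1' s t c).trans (Filter.Eventually.of_forall fun y => ?_),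
        fun c => (z2.lin z2' s t c).trans (Filter.Eventually.of_forall fun y => ?_)⟩
      · beta_reduce
        rw [sysT_lin hb (fun c => (hψ c).1) fun c => (hψ' c).1]
        ring
      · ring)
  obtain ⟨u, hu⟩ := exists_rep (R := R) fun c => hw'.mul (sm_sysL hb hp c).cont
  obtain ⟨v, hv, hΓ⟩ := hahn Γ u (κ := √C / a) (by positivity) (by
    rintro z ⟨ψ, hψ, z1, z2⟩
    have h3 := h a ha ψ hψ
    have e1 : ∀ c, ∫ y, Real.exp (a * ‖y - x₀‖ ^ 2) * ψ c y ^ 2 =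
        ∫ y in ball 0 R, (Real.exp (ph a x₀ y) * ψ c y) ^ 2 := fun c => by
      rw [setIntegral_eq_integral_of_forall_compl_eq_zero fun y hy => by
        rw [image_eq_zero_of_notMem_tsupport fun h => hy ((hψ c).2.2 h)]; simp]
      simp only [mul_pow, exp_sq]
    have e2 : ∀ c, ∫ y, Real.exp (a * ‖y - x₀‖ ^ 2) * sysT b ψ c y ^ 2 =
        ∫ y in ball 0 R, (Real.exp (ph a x₀ y) * sysT b ψ c y) ^ 2 := fun c => by
      rw [setIntegral_eq_integral_of_forall_compl_eq_zero fun y hy => by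
        rw [sysT_out hψ c hy]; simp]
      simp only [mul_pow, exp_sq]
    simp only [e1, e2] at h3
    rw [← z1.norm_sq, ← z2.norm_sq] at h3
    rw [div_mul_eq_mul_div, le_div_iff₀ ha0]
    refine (pow_le_pow_iff_left₀ (by positivity) (by positivity) two_ne_zero).1 ?_
    rw [mul_pow, mul_pow, Real.sq_sqrt hC, mul_comm]
    exact h3)
  have hm : ∀ c, MemLp (fun y => Real.exp (ph a x₀ y) * v c y) 2
      (volume.restrict (ball (0 : E3) R)) := fun c => memLp_mul hw (Lp.memLp (v c))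
  have hW : ∀ c, MemLp (fun y => p c y - Real.exp (ph a x₀ y) * v c y) 2
      (volume.restrict (ball (0 : E3) R)) := fun c => (memLp (hp c).cont).sub (hm c)
  have hvv : Rep v fun c => v c := fun c => Filter.EventuallyEq.rfl
  obtain ⟨W, W1, W2, W3⟩ := h1 ι b (ball 0 R) (fun c y => p c y - Real.exp (ph a x₀ y) * v c y)
    hb isOpen_ball hW fun ψ hψ => by
      obtain ⟨z, z1, z2⟩ := hex ψ hψ
      have h3 := hΓ z ⟨ψ, hψ, z1, z2⟩
      have h4 := h2 ι b (ball 0 R) p ψ hb isOpen_ball (fun c => (hp c).contDiffOn) hψ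
      have hT := fun c => memLp (R := R) (tst_sysT hb (fun c => (hψ c).tst) c).sm.cont
      rw [hvv.inner z1, hu.inner z2] at h3
      have h5 : ∀ c, ∫ y in ball 0 R, (p c y - Real.exp (ph a x₀ y) * v c y) * sysT b ψ c y =
          (∫ y in ball 0 R, p c y * sysT b ψ c y) -
            ∫ y in ball 0 R, Real.exp (ph a x₀ y) * v c y * sysT b ψ c y := fun c => by
        simp only [sub_mul]
        exact integral_sub ((memLp (hp c).cont).integrable_mul (hT c))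
          ((hm c).integrable_mul (hT c))
      simp only [h5]
      rw [Finset.sum_sub_distrib, sub_eq_zero]
      refine h4.trans (Eq.trans ?_ (h3.symm.trans ?_))
      · refine Finset.sum_congr rfl fun c _ => integral_congr_ae
          (Filter.Eventually.of_forall fun y => ?_)
        simp only [Pi.mul_apply]
        linear_combination (-(sysL b p c y * ψ c y)) * hww y
      · refine Finset.sum_congr rfl fun c _ => integral_congr_ae
          (Filter.Eventually.of_forall fun y => ?_)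
        beta_reduce
        ring
  refine ⟨W, ⟨W1, fun c => (hW c).ae_eq (W2 c), W3⟩, ?_⟩
  have e1 : ∀ c, ∫ y in ball 0 R, Real.exp (-(a * ‖y - x₀‖ ^ 2)) * (W c y - p c y) ^ 2 =
      ∫ y in ball 0 R, v c y ^ 2 := fun c => by
    refine integral_congr_ae ((W2 c).mono fun y hy => ?_)
    beta_reduce at hy ⊢
    rw [← hy, hsq]
    linear_combination (v c y ^ 2 * (Real.exp (-ph a x₀ y) * Real.exp (ph a x₀ y) + 1)) * hww y
  have e2 := hu.norm_sq
  simp only [Pi.mul_apply, mul_pow, ← hsq] at e2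
  simp only [e1]
  rw [← hvv.norm_sq, ← e2]
  rw [div_mul_eq_mul_div, le_div_iff₀ ha0] at hv
  have h5 := pow_le_pow_left₀ (by positivity) hv 2
  rwa [mul_pow, mul_pow, Real.sq_sqrt hC, mul_comm] at h5

end Vale.Agent.P136
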