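import Vale.Agent.P136.Stmts

/-!
# P136: basic facts on the energy form and on `H¹`, `H¹₀`
-/

open MeasureTheory Set Metric
open scoped ContDiff Topology

noncomputable section
namespace Vale.Agent.P136

/-- The integrand of `form`. -/
def fdens (lam mu : E3 → ℝ) (G G' : Fin 3 → Fin 3 → E3 → ℝ) (x : E3) : ℝ :=
  lam x * (∑ i, G i i x) * (∑ i, G' i i x) +
    2 * mu x * ∑ i, ∑ j, ((G i j x + G j i x) / 2) * ((G' i j x + G' j i x) / 2)

lemma form_eq (O : Set E3) (lam mu : E3 → ℝ) (G G' : Fin 3 → Fin 3 → E3 → ℝ) :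
    form O lam mu G G' = ∫ x in O, fdens lam mu G G' x := rfl

lemma fdens_comm (lam mu : E3 → ℝ) (G G' : Fin 3 → Fin 3 → E3 → ℝ) (x : E3) :
    fdens lam mu G G' x = fdens lam mu G' G x := by
  simp only [fdens, Fin.sum_univ_three]; ring

lemma form_comm (O : Set E3) (lam mu : E3 → ℝ) (G G' : Fin 3 → Fin 3 → E3 → ℝ) :
    form O lam mu G G' = form O lam mu G' G := by
  simp only [form_eq, fdens_comm lam mu G G']

/-- Bounded measurable coefficients on `O`. -/
def BdC (O : Set E3) (M : ℝ) (lam mu : E3 → ℝ) : Prop :=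
  AEStronglyMeasurable lam (volume.restrict O) ∧ AEStronglyMeasurable mu (volume.restrict O) ∧
    ∀ x ∈ O, |lam x| ≤ M ∧ |mu x| ≤ M

lemma exists_bdC {O : Set E3} {R : ℝ} (hO : O ⊆ ball 0 R) {lam mu : E3 → ℝ} (hl : Continuous lam)
    (hm : Continuous mu) : ∃ M, 0 ≤ M ∧ BdC O M lam mu := by
  obtain ⟨A, hA⟩ := (isCompact_closedBall (0 : E3) R).exists_bound_of_continuousOn hl.continuousOn
  obtain ⟨B, hB⟩ := (isCompact_closedBall (0 : E3) R).exists_bound_of_continuousOn hm.continuousOn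
  refine ⟨max 0 (max A B), le_max_left _ _, hl.aestronglyMeasurable, hm.aestronglyMeasurable,
    fun x hx => ⟨?_, ?_⟩⟩
  · exact (hA x (ball_subset_closedBall (hO hx))).trans ((le_max_left _ _).trans (le_max_right _ _))
  · exact (hB x (ball_subset_closedBall (hO hx))).trans ((le_max_right _ _).trans (le_max_right _ _))

lemma L2M.add {O : Set E3} {G G' : Fin 3 → Fin 3 → E3 → ℝ} (h : L2M O G) (h' : L2M O G') :
    L2M O (G + G') := fun i j => (h i j).add (h' i j)

lemma L2M.sub {O : Set E3} {G G' : Fin 3 → Fin 3 → E3 → ℝ} (h : L2M O G) (h' : L2M O G') :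
    L2M O (G - G') := fun i j => (h i j).sub (h' i j)

lemma L2M.neg {O : Set E3} {G : Fin 3 → Fin 3 → E3 → ℝ} (h : L2M O G) : L2M O (-G) :=
  fun i j => (h i j).neg

lemma L2M.mono {O O' : Set E3} {G : Fin 3 → Fin 3 → E3 → ℝ} (h : L2M O G) (hs : O' ⊆ O) :
    L2M O' G := fun i j => (h i j).mono_measure (Measure.restrict_mono hs le_rfl)

lemma Tst.memLp {f : E3 → ℝ} (h : Tst f) (O : Set E3) : MemLp f 2 (volume.restrict O) :=
  (h.1.continuous.memLp_of_hasCompactSupport h.2).restrict O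

lemma L2M.of_test {U : Set E3} (O : Set E3) {w : Fin 3 → E3 → ℝ} (h : ∀ i, IsTest U (w i)) :
    L2M O (grad w) := fun i _ => ((h i).tst.D _).memLp O

lemma integrable_mul_L2 {μ : Measure E3} {f g : E3 → ℝ} (hf : MemLp f 2 μ) (hg : MemLp g 2 μ) :
    Integrable (fun x => f x * g x) μ := hf.integrable_mul hg

lemma integrable_sq_L2 {μ : Measure E3} {f : E3 → ℝ} (hf : MemLp f 2 μ) :
    Integrable (fun x => f x ^ 2) μ := hf.integrable_sq

lemma nrm2_nonneg (O : Set E3) (G : Fin 3 → Fin 3 → E3 → ℝ) : 0 ≤ nrm2 O G :=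
  Finset.sum_nonneg fun _ _ => Finset.sum_nonneg fun _ _ => integral_nonneg fun _ => sq_nonneg _

lemma nrm_nonneg {ι : Type} [Fintype ι] (O : Set E3) (W : ι → E3 → ℝ) : 0 ≤ nrm O W :=
  Finset.sum_nonneg fun _ _ => integral_nonneg fun _ => sq_nonneg _

lemma nrm2_eq {O : Set E3} {G : Fin 3 → Fin 3 → E3 → ℝ} (h : L2M O G) :
    nrm2 O G = ∫ x in O, ∑ i, ∑ j, G i j x ^ 2 := by
  rw [integral_finsetSum _ fun i _ => integrable_finsetSum _ fun j _ => (h i j).integrable_sq]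
  exact Finset.sum_congr rfl fun i _ =>
    (integral_finsetSum _ fun j _ => (h i j).integrable_sq).symm

lemma integrableOn_fdens {O : Set E3} (hO : MeasurableSet O) {M : ℝ} {lam mu : E3 → ℝ}
    (hb : BdC O M lam mu) {G G' : Fin 3 → Fin 3 → E3 → ℝ} (h : L2M O G) (h' : L2M O G') :
    Integrable (fdens lam mu G G') (volume.restrict O) := by
  have a1 : Integrable (fun x => (∑ i, G i i x) * (∑ i, G' i i x)) (volume.restrict O) :=
    integrable_mul_L2 (memLp_finsetSum _ fun i _ => h i i) (memLp_finsetSum _ fun i _ => h' i i)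
  have a2 : Integrable (fun x => ∑ i, ∑ j, ((G i j x + G j i x) / 2) * ((G' i j x + G' j i x) / 2))
      (volume.restrict O) :=
    integrable_finsetSum _ fun i _ => integrable_finsetSum _ fun j _ =>
      integrable_mul_L2 (((h i j).add (h j i)).mul_const (2 : ℝ)⁻¹)
        (((h' i j).add (h' j i)).mul_const (2 : ℝ)⁻¹)
  have b1 := a1.bdd_mul (c := M) hb.1
    ((ae_restrict_iff' hO).2 (Filter.Eventually.of_forall fun x hx => (hb.2.2 x hx).1))
  have b2 := a2.bdd_mul (c := M) hb.2.1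
    ((ae_restrict_iff' hO).2 (Filter.Eventually.of_forall fun x hx => (hb.2.2 x hx).2))
  refine (b1.add (b2.const_mul 2)).congr (Filter.Eventually.of_forall fun x => ?_)
  simp only [fdens, Pi.add_apply]; ring

lemma abs_fdens_le {lam mu : E3 → ℝ} {M : ℝ} {x : E3} (hl : |lam x| ≤ M) (hm : |mu x| ≤ M)
    (G G' : Fin 3 → Fin 3 → E3 → ℝ) {s : ℝ} (hs : 0 < s) :
    |fdens lam mu G G' x| ≤
      5 / 2 * M * (s * ∑ i, ∑ j, G i j x ^ 2 + s⁻¹ * ∑ i, ∑ j, G' i j x ^ 2) := by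
  have hM : 0 ≤ M := (abs_nonneg _).trans hl
  have young : ∀ p q : ℝ, |p * q| ≤ (s * p ^ 2 + s⁻¹ * q ^ 2) / 2 := by
    intro p q
    have h1 : 0 ≤ s⁻¹ * (s * |p| - |q|) ^ 2 := by positivity
    have h2 : s⁻¹ * (s * |p| - |q|) ^ 2 = s * p ^ 2 + s⁻¹ * q ^ 2 - 2 * (|p| * |q|) := by
      rw [← sq_abs p, ← sq_abs q]; field_simp; ring
    rw [abs_mul]; linarith
  have tr : ∀ H : Fin 3 → Fin 3 → E3 → ℝ, (∑ i, H i i x) ^ 2 ≤ 3 * ∑ i, ∑ j, H i j x ^ 2 := by
    intro H
    simp only [Fin.sum_univ_three]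
    nlinarith [sq_nonneg (H 0 0 x - H 1 1 x), sq_nonneg (H 0 0 x - H 2 2 x),
      sq_nonneg (H 1 1 x - H 2 2 x), sq_nonneg (H 0 1 x), sq_nonneg (H 0 2 x), sq_nonneg (H 1 0 x),
      sq_nonneg (H 1 2 x), sq_nonneg (H 2 0 x), sq_nonneg (H 2 1 x)]
  have sy : ∀ H : Fin 3 → Fin 3 → E3 → ℝ,
      ∑ i, ∑ j, ((H i j x + H j i x) / 2) ^ 2 ≤ ∑ i, ∑ j, H i j x ^ 2 := by
    intro H
    simp only [Fin.sum_univ_three]
    nlinarith [sq_nonneg (H 0 1 x - H 1 0 x), sq_nonneg (H 0 2 x - H 2 0 x),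
      sq_nonneg (H 1 2 x - H 2 1 x)]
  set A := ∑ i, ∑ j, G i j x ^ 2
  set B := ∑ i, ∑ j, G' i j x ^ 2
  have hs' : 0 < s⁻¹ := inv_pos.2 hs
  have e1 : |(∑ i, G i i x) * (∑ i, G' i i x)| ≤ 3 / 2 * (s * A + s⁻¹ * B) := by
    have := young (∑ i, G i i x) (∑ i, G' i i x)
    have t1 := mul_le_mul_of_nonneg_left (tr G) hs.le
    have t2 := mul_le_mul_of_nonneg_left (tr G') hs'.le
    linarith
  have e2 : |∑ i, ∑ j, ((G i j x + G j i x) / 2) * ((G' i j x + G' j i x) / 2)| ≤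
      1 / 2 * (s * A + s⁻¹ * B) := by
    have t1 := mul_le_mul_of_nonneg_left (sy G) hs.le
    have t2 := mul_le_mul_of_nonneg_left (sy G') hs'.le
    calc _ ≤ ∑ i, ∑ j, |((G i j x + G j i x) / 2) * ((G' i j x + G' j i x) / 2)| :=
          (Finset.abs_sum_le_sum_abs _ _).trans
            (Finset.sum_le_sum fun i _ => Finset.abs_sum_le_sum_abs _ _)
      _ ≤ ∑ i, ∑ j, (s * ((G i j x + G j i x) / 2) ^ 2 + s⁻¹ * ((G' i j x + G' j i x) / 2) ^ 2) / 2 :=
          Finset.sum_le_sum fun i _ => Finset.sum_le_sum fun j _ => young _ _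
      _ = (s * ∑ i, ∑ j, ((G i j x + G j i x) / 2) ^ 2 +
            s⁻¹ * ∑ i, ∑ j, ((G' i j x + G' j i x) / 2) ^ 2) / 2 := by
          simp only [Fin.sum_univ_three]; ring
      _ ≤ _ := by linarith
  have f1 : |lam x * (∑ i, G i i x) * (∑ i, G' i i x)| ≤ M * (3 / 2 * (s * A + s⁻¹ * B)) := by
    rw [mul_assoc, abs_mul]; exact mul_le_mul hl e1 (abs_nonneg _) hM
  have f2 : |2 * mu x * ∑ i, ∑ j, ((G i j x + G j i x) / 2) * ((G' i j x + G' j i x) / 2)| ≤
      2 * (M * (1 / 2 * (s * A + s⁻¹ * B))) := by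
    rw [mul_assoc, abs_mul, abs_mul, abs_two]
    exact mul_le_mul_of_nonneg_left (mul_le_mul hm e2 (abs_nonneg _) hM) (by norm_num)
  calc |fdens lam mu G G' x| ≤ _ := abs_add_le _ _
    _ ≤ _ := by linarith

/-- `inf_s (s A + B / s) / 2 = √A √B`. -/
lemma le_sqrt_mul_sqrt {x K A B : ℝ} (hK : 0 ≤ K) (hA : 0 ≤ A) (hB : 0 ≤ B)
    (h : ∀ s : ℝ, 0 < s → x ≤ K * (s * A + s⁻¹ * B) / 2) : x ≤ K * √A * √B := by
  refine le_of_forall_pos_le_add fun e he => ?_
  obtain ⟨t, ht, hte⟩ : ∃ t : ℝ, 0 < t ∧ K * (t * (√A + √B)) ≤ e := by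
    refine ⟨e / (K * (√A + √B) + 1), by positivity, ?_⟩
    have : 0 ≤ K * (√A + √B) := by positivity
    rw [mul_left_comm, div_mul_eq_mul_div, div_le_iff₀ (by positivity)]
    nlinarith
  have h1 := h ((√B + t) / (√A + t)) (by positivity)
  have hA' := Real.sq_sqrt hA
  have hB' := Real.sq_sqrt hB
  have a0 := Real.sqrt_nonneg A
  have b0 := Real.sqrt_nonneg B
  have u1 : (√B + t) / (√A + t) * A ≤ (√B + t) * √A := by
    rw [div_mul_eq_mul_div, div_le_iff₀ (by positivity)]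
    have : A ≤ √A * (√A + t) := by nlinarith
    nlinarith [mul_le_mul_of_nonneg_left this (by positivity : 0 ≤ √B + t)]
  have u2 : ((√B + t) / (√A + t))⁻¹ * B ≤ (√A + t) * √B := by
    rw [inv_div, div_mul_eq_mul_div, div_le_iff₀ (by positivity)]
    have : B ≤ √B * (√B + t) := by nlinarith
    nlinarith [mul_le_mul_of_nonneg_left this (by positivity : 0 ≤ √A + t)]
  have u3 := mul_le_mul_of_nonneg_left (add_le_add u1 u2) hK
  have : 0 ≤ K * (t * (√A + √B)) := by positivity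
  nlinarith

lemma abs_form_le {O : Set E3} (hO : MeasurableSet O) {M : ℝ} (hM : 0 ≤ M) {lam mu : E3 → ℝ}
    (hb : BdC O M lam mu) {G G' : Fin 3 → Fin 3 → E3 → ℝ} (h : L2M O G) (h' : L2M O G') :
    |form O lam mu G G'| ≤ 5 * M * √(nrm2 O G) * √(nrm2 O G') := by
  refine le_sqrt_mul_sqrt (by positivity) (nrm2_nonneg _ _) (nrm2_nonneg _ _) fun s hs => ?_
  have i1 : Integrable (fun x => ∑ i, ∑ j, G i j x ^ 2) (volume.restrict O) :=
    integrable_finsetSum _ fun i _ => integrable_finsetSum _ fun j _ => (h i j).integrable_sq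
  have i2 : Integrable (fun x => ∑ i, ∑ j, G' i j x ^ 2) (volume.restrict O) :=
    integrable_finsetSum _ fun i _ => integrable_finsetSum _ fun j _ => (h' i j).integrable_sq
  calc |form O lam mu G G'| ≤ ∫ x in O, |fdens lam mu G G' x| := abs_integral_le_integral_abs
    _ ≤ ∫ x in O, 5 / 2 * M * (s * ∑ i, ∑ j, G i j x ^ 2 + s⁻¹ * ∑ i, ∑ j, G' i j x ^ 2) :=
        setIntegral_mono_on (integrableOn_fdens hO hb h h').abs
          ((iadd (i1.const_mul s) (i2.const_mul s⁻¹)).const_mul _) hO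
          fun x hx => abs_fdens_le (hb.2.2 x hx).1 (hb.2.2 x hx).2 G G' hs
    _ = _ := by
        rw [integral_const_mul, integral_add (i1.const_mul s) (i2.const_mul s⁻¹),
          integral_const_mul, integral_const_mul, nrm2_eq h, nrm2_eq h']; ring

lemma form_add_left {O : Set E3} (hO : MeasurableSet O) {M : ℝ} {lam mu : E3 → ℝ}
    (hb : BdC O M lam mu) {G₁ G₂ G' : Fin 3 → Fin 3 → E3 → ℝ} (h₁ : L2M O G₁) (h₂ : L2M O G₂)
    (h' : L2M O G') : form O lam mu (G₁ + G₂) G' = form O lam mu G₁ G' + form O lam mu G₂ G' := by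
  simp only [form_eq]
  rw [← integral_add (integrableOn_fdens hO hb h₁ h') (integrableOn_fdens hO hb h₂ h')]
  congr 1; funext x; simp only [fdens, Fin.sum_univ_three, Pi.add_apply]; ring

lemma form_sub_left {O : Set E3} (hO : MeasurableSet O) {M : ℝ} {lam mu : E3 → ℝ}
    (hb : BdC O M lam mu) {G₁ G₂ G' : Fin 3 → Fin 3 → E3 → ℝ} (h₁ : L2M O G₁) (h₂ : L2M O G₂)
    (h' : L2M O G') : form O lam mu (G₁ - G₂) G' = form O lam mu G₁ G' - form O lam mu G₂ G' := by
  simp only [form_eq]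
  rw [← integral_sub (integrableOn_fdens hO hb h₁ h') (integrableOn_fdens hO hb h₂ h')]
  congr 1; funext x; simp only [fdens, Fin.sum_univ_three, Pi.sub_apply]; ring

lemma form_add_right {O : Set E3} (hO : MeasurableSet O) {M : ℝ} {lam mu : E3 → ℝ}
    (hb : BdC O M lam mu) {G₁ G₂ G' : Fin 3 → Fin 3 → E3 → ℝ} (h₁ : L2M O G₁) (h₂ : L2M O G₂)
    (h' : L2M O G') : form O lam mu G' (G₁ + G₂) = form O lam mu G' G₁ + form O lam mu G' G₂ := by
  simp only [form_comm O lam mu G', form_add_left hO hb h₁ h₂ h']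

lemma form_sub_right {O : Set E3} (hO : MeasurableSet O) {M : ℝ} {lam mu : E3 → ℝ}
    (hb : BdC O M lam mu) {G₁ G₂ G' : Fin 3 → Fin 3 → E3 → ℝ} (h₁ : L2M O G₁) (h₂ : L2M O G₂)
    (h' : L2M O G') : form O lam mu G' (G₁ - G₂) = form O lam mu G' G₁ - form O lam mu G' G₂ := by
  simp only [form_comm O lam mu G', form_sub_left hO hb h₁ h₂ h']

lemma form_congr_left {O : Set E3} (lam mu : E3 → ℝ) {G₁ G₂ : Fin 3 → Fin 3 → E3 → ℝ}
    (G' : Fin 3 → Fin 3 → E3 → ℝ) (h : ∀ i j, G₁ i j =ᵐ[volume.restrict O] G₂ i j) :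
    form O lam mu G₁ G' = form O lam mu G₂ G' := by
  refine integral_congr_ae ?_
  have : ∀ᵐ x ∂(volume.restrict O), ∀ i j, G₁ i j x = G₂ i j x :=
    ae_all_iff.2 fun i => ae_all_iff.2 fun j => h i j
  filter_upwards [this] with x hx
  simp only [hx]

lemma form_congr_coef {O : Set E3} (hO : MeasurableSet O) {lam mu lam' mu' : E3 → ℝ}
    (h : ∀ x ∈ O, lam x = lam' x ∧ mu x = mu' x) (G G' : Fin 3 → Fin 3 → E3 → ℝ) :
    form O lam mu G G' = form O lam' mu' G G' :=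
  setIntegral_congr_fun hO fun x hx => by simp only [(h x hx).1, (h x hx).2]

lemma form_sub_coef {O : Set E3} (hO : MeasurableSet O) {M M' : ℝ} {lam mu lam' mu' : E3 → ℝ}
    (hb : BdC O M lam mu) (hb' : BdC O M' lam' mu') {G G' : Fin 3 → Fin 3 → E3 → ℝ}
    (h : L2M O G) (h' : L2M O G') : form O lam mu G G' - form O lam' mu' G G' =
      form O (fun x => lam x - lam' x) (fun x => mu x - mu' x) G G' := by
  simp only [form_eq]
  rw [← integral_sub (integrableOn_fdens hO hb h h') (integrableOn_fdens hO hb' h h')]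
  congr 1; funext x; simp only [fdens]; ring

lemma form_split {O B : Set E3} (hO : MeasurableSet O) (hB : MeasurableSet B) (hs : O ⊆ B) {M : ℝ}
    {lam mu : E3 → ℝ} (hb : BdC B M lam mu) {G G' : Fin 3 → Fin 3 → E3 → ℝ} (h : L2M B G)
    (h' : L2M B G') : form B lam mu G G' = form O lam mu G G' + form (B \ O) lam mu G G' := by
  simp only [form_eq]
  rw [← setIntegral_union disjoint_sdiff_right (hB.diff hO)
    ((integrableOn_fdens hB hb h h').mono_measure (Measure.restrict_mono hs le_rfl))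
    ((integrableOn_fdens hB hb h h').mono_measure (Measure.restrict_mono sdiff_subset le_rfl)),
    union_sdiff_cancel hs]

lemma nrm2_add_le {O : Set E3} {G G' : Fin 3 → Fin 3 → E3 → ℝ} (h : L2M O G) (h' : L2M O G') :
    nrm2 O (G + G') ≤ 2 * nrm2 O G + 2 * nrm2 O G' := by
  simp only [nrm2, Finset.mul_sum, ← Finset.sum_add_distrib]
  refine Finset.sum_le_sum fun i _ => Finset.sum_le_sum fun j _ => ?_
  rw [← integral_const_mul, ← integral_const_mul,
    ← integral_add ((h i j).integrable_sq.const_mul 2) ((h' i j).integrable_sq.const_mul 2)]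
  refine integral_mono ((h.add h') i j).integrable_sq
    (iadd ((h i j).integrable_sq.const_mul 2) ((h' i j).integrable_sq.const_mul 2)) fun x => ?_
  simp only [Pi.add_apply]; nlinarith [sq_nonneg (G i j x - G' i j x)]

lemma nrm_add_le {ι : Type} [Fintype ι] {O : Set E3} {u u' : ι → E3 → ℝ}
    (h : ∀ i, MemLp (u i) 2 (volume.restrict O)) (h' : ∀ i, MemLp (u' i) 2 (volume.restrict O)) :
    nrm O (u + u') ≤ 2 * nrm O u + 2 * nrm O u' := by
  simp only [nrm, Finset.mul_sum, ← Finset.sum_add_distrib]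
  refine Finset.sum_le_sum fun i _ => ?_
  rw [← integral_const_mul, ← integral_const_mul,
    ← integral_add ((h i).integrable_sq.const_mul 2) ((h' i).integrable_sq.const_mul 2)]
  refine integral_mono ((h i).add (h' i)).integrable_sq
    (iadd ((h i).integrable_sq.const_mul 2) ((h' i).integrable_sq.const_mul 2)) fun x => ?_
  simp only [Pi.add_apply]; nlinarith [sq_nonneg (u i x - u' i x)]

lemma nrm2_mono {O O' : Set E3} {G : Fin 3 → Fin 3 → E3 → ℝ} (h : L2M O G) (hs : O' ⊆ O) :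
    nrm2 O' G ≤ nrm2 O G :=
  Finset.sum_le_sum fun i _ => Finset.sum_le_sum fun j _ =>
    setIntegral_mono_set (h i j).integrable_sq (Filter.Eventually.of_forall fun _ => sq_nonneg _)
      hs.eventuallyLE

lemma nrm_mono {ι : Type} [Fintype ι] {O O' : Set E3} {u : ι → E3 → ℝ}
    (h : ∀ i, MemLp (u i) 2 (volume.restrict O)) (hs : O' ⊆ O) : nrm O' u ≤ nrm O u :=
  Finset.sum_le_sum fun i _ =>
    setIntegral_mono_set (h i).integrable_sq (Filter.Eventually.of_forall fun _ => sq_nonneg _)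
      hs.eventuallyLE

lemma nrm2_congr {O : Set E3} {G G' : Fin 3 → Fin 3 → E3 → ℝ}
    (h : ∀ i j, G i j =ᵐ[volume.restrict O] G' i j) : nrm2 O G = nrm2 O G' :=
  Finset.sum_congr rfl fun i _ => Finset.sum_congr rfl fun j _ => integral_congr_ae
    ((h i j).mono fun x hx => by simp only [hx])

lemma nrm_congr {ι : Type} [Fintype ι] {O : Set E3} {u u' : ι → E3 → ℝ}
    (h : ∀ i, u i =ᵐ[volume.restrict O] u' i) : nrm O u = nrm O u' :=
  Finset.sum_congr rfl fun i _ => integral_congr_ae ((h i).mono fun x hx => by simp only [hx])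

/-- A function continuous on a neighbourhood of the closure of a bounded set is in `L²`. -/
lemma memLp_of_continuousOn {O U : Set E3} {R : ℝ} (hO : MeasurableSet O) (hR : O ⊆ ball 0 R)
    (hU : closure O ⊆ U) {f : E3 → ℝ} (hf : ContinuousOn f U) :
    MemLp f 2 (volume.restrict O) := by
  have hc : IsCompact (closure O) := (isBounded_ball.subset hR).isCompact_closure
  obtain ⟨A, hA⟩ := hc.exists_bound_of_continuousOn (hf.mono hU)
  have : IsFiniteMeasure (volume.restrict O) :=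
    isFiniteMeasure_restrict.2 ((measure_mono hR).trans_lt measure_ball_lt_top).ne
  exact MemLp.of_bound ((hf.mono (subset_closure.trans hU)).aestronglyMeasurable hO) A
    ((ae_restrict_iff' hO).2 (Filter.Eventually.of_forall fun x hx => hA x (subset_closure hx)))

/-- Weak integration by parts for a function smooth on the open set `O`. -/
lemma weak_ibp {O : Set E3} (hO : IsOpen O) {f ψ : E3 → ℝ} (hf : ContDiffOn ℝ ∞ f O)
    (hψ : IsTest O ψ) (j : Fin 3) : ∫ x in O, f x * pd j ψ x = -∫ x in O, pd j f x * ψ x := by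
  have t1 := Tst.mul_on hO hψ.tst hψ.2.2 hf
  have t2 := Tst.mul_on hO (hψ.tst.D (EuclideanSpace.single j 1))
    ((tsupport_D _ _).trans hψ.2.2) hf
  have t3 := Tst.mul_on hO hψ.tst hψ.2.2 (contDiffOn_pd hO hf j)
  have z1 : ∀ x, x ∉ O → ψ x = 0 := fun x hx =>
    image_eq_zero_of_notMem_tsupport fun h => hx (hψ.2.2 h)
  have z2 : ∀ x, x ∉ O → pd j ψ x = 0 := fun x hx =>
    D_eq_zero_of_notMem (fun h => hx (hψ.2.2 h)) _
  rw [setIntegral_eq_integral_of_forall_compl_eq_zero fun x hx => by simp [z2 x hx],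
    setIntegral_eq_integral_of_forall_compl_eq_zero fun x hx => by simp [z1 x hx]]
  refine integral_mul_fderiv_eq_neg_fderiv_mul_of_integrable ?_ ?_ ?_
    (fun x hx => dAt_of_on hO hf (hψ.2.2 hx)) (fun x _ => hψ.tst.sm.dAt x)
  · exact t3.integrable.congr (Filter.Eventually.of_forall fun x => mul_comm _ _)
  · exact t2.integrable.congr (Filter.Eventually.of_forall fun x => mul_comm _ _)
  · exact t1.integrable.congr (Filter.Eventually.of_forall fun x => mul_comm _ _)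

lemma isH1_of_smOn {O : Set E3} (hO : IsOpen O) {u : Fin 3 → E3 → ℝ} (hu : SmOn O u)
    (h0 : ∀ i, MemLp (u i) 2 (volume.restrict O)) (h1 : L2M O (grad u)) : IsH1 O u (grad u) :=
  ⟨h0, h1, fun i j _ hψ => weak_ibp hO (hu i) hψ j⟩

lemma isH1_of_smOn_closure {O U : Set E3} {R : ℝ} (hO : IsOpen O) (hR : O ⊆ ball 0 R)
    (hU : IsOpen U) (hs : closure O ⊆ U) {u : Fin 3 → E3 → ℝ} (hu : SmOn U u) :
    IsH1 O u (grad u) :=
  isH1_of_smOn hO (fun i => (hu i).mono (subset_closure.trans hs))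
    (fun i => memLp_of_continuousOn hO.measurableSet hR hs (hu i).continuousOn)
    (fun i j => memLp_of_continuousOn hO.measurableSet hR hs
      (contDiffOn_pd hU (hu i) j).continuousOn)

lemma IsH1.add {O : Set E3} {u u' : Fin 3 → E3 → ℝ} {G G' : Fin 3 → Fin 3 → E3 → ℝ}
    (h : IsH1 O u G) (h' : IsH1 O u' G') : IsH1 O (u + u') (G + G') := by
  refine ⟨fun i => (h.1 i).add (h'.1 i), fun i j => (h.2.1 i j).add (h'.2.1 i j),
    fun i j ψ hψ => ?_⟩
  have m1 : MemLp (pd j ψ) 2 (volume.restrict O) := (hψ.tst.D (EuclideanSpace.single j 1)).memLp O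
  have m2 := hψ.tst.memLp O
  simp only [Pi.add_apply, add_mul]
  rw [integral_add (integrable_mul_L2 (h.1 i) m1) (integrable_mul_L2 (h'.1 i) m1),
    integral_add (integrable_mul_L2 (h.2.1 i j) m2) (integrable_mul_L2 (h'.2.1 i j) m2)]
  have e1 := h.2.2 i j ψ hψ
  have e2 := h'.2.2 i j ψ hψ
  rw [e1, e2]; ring

lemma IsH1.smul {O : Set E3} {u : Fin 3 → E3 → ℝ} {G : Fin 3 → Fin 3 → E3 → ℝ} (s : ℝ)
    (h : IsH1 O u G) : IsH1 O (s • u) (s • G) := by
  refine ⟨fun i => (h.1 i).const_smul s, fun i j => (h.2.1 i j).const_smul s, fun i j ψ hψ => ?_⟩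
  simp only [Pi.smul_apply, smul_eq_mul, mul_assoc]
  rw [integral_const_mul, integral_const_mul, h.2.2 i j ψ hψ]; ring

lemma IsH1.neg {O : Set E3} {u : Fin 3 → E3 → ℝ} {G : Fin 3 → Fin 3 → E3 → ℝ}
    (h : IsH1 O u G) : IsH1 O (-u) (-G) := by simpa using h.smul (-1)

lemma IsH1.sub {O : Set E3} {u u' : Fin 3 → E3 → ℝ} {G G' : Fin 3 → Fin 3 → E3 → ℝ}
    (h : IsH1 O u G) (h' : IsH1 O u' G') : IsH1 O (u - u') (G - G') := by
  simpa only [sub_eq_add_neg] using h.add h'.neg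

lemma IsH1.congr {O : Set E3} {u u' : Fin 3 → E3 → ℝ} {G G' : Fin 3 → Fin 3 → E3 → ℝ}
    (h : IsH1 O u G) (hu : ∀ i, u i =ᵐ[volume.restrict O] u' i)
    (hG : ∀ i j, G i j =ᵐ[volume.restrict O] G' i j) : IsH1 O u' G' := by
  refine ⟨fun i => (h.1 i).ae_eq (hu i), fun i j => (h.2.1 i j).ae_eq (hG i j), fun i j ψ hψ => ?_⟩
  rw [← integral_congr_ae ((hu i).mono fun x hx => by simp only [hx] :
      (fun x => u i x * pd j ψ x) =ᵐ[_] fun x => u' i x * pd j ψ x),
    ← integral_congr_ae ((hG i j).mono fun x hx => by simp only [hx] :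
      (fun x => G i j x * ψ x) =ᵐ[_] fun x => G' i j x * ψ x)]
  exact h.2.2 i j ψ hψ

lemma isH10_iff {O : Set E3} {u : Fin 3 → E3 → ℝ} {G : Fin 3 → Fin 3 → E3 → ℝ} :
    IsH10 O u G ↔ IsH1 O u G ∧ ∀ δ : ℝ, 0 < δ → ∃ w : Fin 3 → E3 → ℝ, (∀ i, IsTest O (w i)) ∧
      nrm O (u - w) + nrm2 O (G - grad w) < δ := Iff.rfl

lemma IsTest.add {U : Set E3} {f g : E3 → ℝ} (hf : IsTest U f) (hg : IsTest U g) :
    IsTest U (fun x => f x + g x) :=
  ⟨hf.1.add hg.1, hf.2.1.add hg.2.1, (tsupport_add f g).trans (union_subset hf.2.2 hg.2.2)⟩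

lemma IsTest.mul_left {U : Set E3} {m f : E3 → ℝ} (hm : Sm m) (hf : IsTest U f) :
    IsTest U (fun x => m x * f x) :=
  ⟨hm.mul hf.1, hf.2.1.mul_left, (tsupport_mul_subset_right).trans hf.2.2⟩

lemma IsTest.pd {U : Set E3} {f : E3 → ℝ} (hf : IsTest U f) (j : Fin 3) : IsTest U (pd j f) :=
  ⟨(hf.tst.D _).1, (hf.tst.D _).2, (tsupport_D _ _).trans hf.2.2⟩

lemma IsTest.mono {U U' : Set E3} {f : E3 → ℝ} (hf : IsTest U f) (h : U ⊆ U') : IsTest U' f :=
  ⟨hf.1, hf.2.1, hf.2.2.trans h⟩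

lemma IsTest.zero (U : Set E3) : IsTest U (fun _ => 0) :=
  ⟨contDiff_const, HasCompactSupport.zero, by
    have : tsupport (fun _ : E3 => (0 : ℝ)) = ∅ := tsupport_eq_empty_iff.2 rfl
    rw [this]; exact empty_subset _⟩

lemma grad_add {u u' : Fin 3 → E3 → ℝ} (h : ∀ i, Sm (u i)) (h' : ∀ i, Sm (u' i)) :
    grad (u + u') = grad u + grad u' := by
  funext i j x; exact D_add_at ((h i).dAt x) ((h' i).dAt x) _

lemma grad_smul {u : Fin 3 → E3 → ℝ} (s : ℝ) (h : ∀ i, Sm (u i)) :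
    grad (s • u) = s • grad u := by
  funext i j x; exact D_const_mul_at ((h i).dAt x) s _

lemma IsH10.add {O : Set E3} {u u' : Fin 3 → E3 → ℝ} {G G' : Fin 3 → Fin 3 → E3 → ℝ}
    (h : IsH10 O u G) (h' : IsH10 O u' G') : IsH10 O (u + u') (G + G') := by
  refine isH10_iff.2 ⟨h.1.add h'.1, fun δ hδ => ?_⟩
  obtain ⟨w, hw, e⟩ := (isH10_iff.1 h).2 (δ / 4) (by positivity)
  obtain ⟨w', hw', e'⟩ := (isH10_iff.1 h').2 (δ / 4) (by positivity)
  refine ⟨w + w', fun i => (hw i).add (hw' i), ?_⟩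
  rw [grad_add (fun i => (hw i).1) (fun i => (hw' i).1), add_sub_add_comm, add_sub_add_comm]
  have a := nrm_add_le (O := O) (u := u - w) (u' := u' - w')
    (fun i => (h.1.1 i).sub ((hw i).tst.memLp O)) (fun i => (h'.1.1 i).sub ((hw' i).tst.memLp O))
  have b := nrm2_add_le (L2M.sub h.1.2.1 (L2M.of_test O hw)) (L2M.sub h'.1.2.1 (L2M.of_test O hw'))
  linarith

lemma IsH10.smul {O : Set E3} {u : Fin 3 → E3 → ℝ} {G : Fin 3 → Fin 3 → E3 → ℝ} (s : ℝ)
    (h : IsH10 O u G) : IsH10 O (s • u) (s • G) := by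
  refine isH10_iff.2 ⟨h.1.smul s, fun δ hδ => ?_⟩
  obtain ⟨w, hw, e⟩ := (isH10_iff.1 h).2 (δ / (s ^ 2 + 1)) (by positivity)
  refine ⟨s • w, fun i => IsTest.mul_left (Sm.const s) (hw i), ?_⟩
  rw [grad_smul s (fun i => (hw i).1), ← smul_sub, ← smul_sub]
  have a : nrm O (s • (u - w)) = s ^ 2 * nrm O (u - w) := by
    simp only [nrm, Pi.smul_apply, smul_eq_mul, mul_pow, integral_const_mul, Finset.mul_sum]
  have b : nrm2 O (s • (G - grad w)) = s ^ 2 * nrm2 O (G - grad w) := by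
    simp only [nrm2, Pi.smul_apply, smul_eq_mul, mul_pow, integral_const_mul, Finset.mul_sum]
  rw [a, b, ← mul_add]
  rw [lt_div_iff₀ (by positivity)] at e
  nlinarith [nrm_nonneg O (u - w), nrm2_nonneg O (G - grad w)]

lemma IsH10.neg {O : Set E3} {u : Fin 3 → E3 → ℝ} {G : Fin 3 → Fin 3 → E3 → ℝ}
    (h : IsH10 O u G) : IsH10 O (-u) (-G) := by simpa using h.smul (-1)

lemma IsH10.sub {O : Set E3} {u u' : Fin 3 → E3 → ℝ} {G G' : Fin 3 → Fin 3 → E3 → ℝ}
    (h : IsH10 O u G) (h' : IsH10 O u' G') : IsH10 O (u - u') (G - G') := by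
  simpa only [sub_eq_add_neg] using h.add h'.neg

lemma IsH10.congr {O : Set E3} {u u' : Fin 3 → E3 → ℝ} {G G' : Fin 3 → Fin 3 → E3 → ℝ}
    (h : IsH10 O u G) (hu : ∀ i, u i =ᵐ[volume.restrict O] u' i)
    (hG : ∀ i j, G i j =ᵐ[volume.restrict O] G' i j) : IsH10 O u' G' := by
  refine isH10_iff.2 ⟨h.1.congr hu hG, fun δ hδ => ?_⟩
  obtain ⟨w, hw, e⟩ := (isH10_iff.1 h).2 δ hδ
  refine ⟨w, hw, ?_⟩
  rw [← nrm_congr (u := u - w) (u' := u' - w)
      fun i => (hu i).sub (Filter.EventuallyEq.refl _ (w i)),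
    ← nrm2_congr (G := G - grad w) (G' := G' - grad w)
      fun i j => (hG i j).sub (Filter.EventuallyEq.refl _ _)]
  exact e

lemma isH10_of_test {O : Set E3} (hO : IsOpen O) {w : Fin 3 → E3 → ℝ} (hw : ∀ i, IsTest O (w i)) :
    IsH10 O w (grad w) :=
  isH10_iff.2 ⟨isH1_of_smOn hO (fun i => (hw i).1.contDiffOn) (fun i => (hw i).tst.memLp O)
    (L2M.of_test O hw), fun δ hδ => ⟨w, hw, by simpa [nrm, nrm2] using hδ⟩⟩

lemma isH10_zero {O : Set E3} (hO : IsOpen O) : IsH10 O 0 0 := by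
  have h := isH10_of_test hO (w := 0) fun _ => IsTest.zero O
  have : grad (0 : Fin 3 → E3 → ℝ) = 0 := by funext i j x; simp [grad, pd]
  rwa [this] at h

/-- Bounds valid on test fields extend to `H¹₀`. -/
lemma form_density {O : Set E3} (hO : MeasurableSet O) {M : ℝ} (hM : 0 ≤ M) {lam mu : E3 → ℝ}
    (hb : BdC O M lam mu) {G : Fin 3 → Fin 3 → E3 → ℝ} (hG : L2M O G) {K : ℝ} (hK : 0 ≤ K)
    (h : ∀ w : Fin 3 → E3 → ℝ, (∀ i, IsTest O (w i)) →
      |form O lam mu G (grad w)| ≤ K * √(nrm2 O (grad w)))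
    {z : Fin 3 → E3 → ℝ} {Z : Fin 3 → Fin 3 → E3 → ℝ} (hz : IsH10 O z Z) :
    |form O lam mu G Z| ≤ K * √(nrm2 O Z) := by
  have hZ : L2M O Z := hz.1.2.1
  refine le_of_forall_pos_le_add fun e he => ?_
  set A := K + 5 * M * √(nrm2 O G) + 1 with hA
  have hA0 : 0 < A := by positivity
  obtain ⟨w, hw, e1⟩ := (isH10_iff.1 hz).2 ((e / A) ^ 2) (by positivity)
  have hw2 := L2M.of_test O hw
  have e2 : √(nrm2 O (Z - grad w)) ≤ e / A :=
    Real.sqrt_le_iff.2 ⟨by positivity, by linarith [nrm_nonneg O (z - w)]⟩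
  have e3 := abs_form_le hO hM hb hG (hZ.sub hw2)
  rw [form_sub_right hO hb hZ hw2 hG] at e3
  -- triangle inequality for `√nrm2`
  have tri : √(nrm2 O (grad w)) ≤ √(nrm2 O Z) + √(nrm2 O (Z - grad w)) := by
    have hd := hZ.sub hw2
    have key : ∀ s : ℝ, 0 < s → nrm2 O (grad w) - nrm2 O Z - nrm2 O (Z - grad w) ≤
        2 * (s * nrm2 O Z + s⁻¹ * nrm2 O (Z - grad w)) / 2 := by
      intro s hs
      have : nrm2 O (grad w) ≤ (1 + s) * nrm2 O Z + (1 + s⁻¹) * nrm2 O (Z - grad w) := by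
        simp only [nrm2, Finset.mul_sum, ← Finset.sum_add_distrib]
        refine Finset.sum_le_sum fun i _ => Finset.sum_le_sum fun j _ => ?_
        rw [← integral_const_mul, ← integral_const_mul, ← integral_add
          ((hZ i j).integrable_sq.const_mul _) ((hd i j).integrable_sq.const_mul _)]
        refine integral_mono (hw2 i j).integrable_sq (iadd ((hZ i j).integrable_sq.const_mul _)
          ((hd i j).integrable_sq.const_mul _)) fun x => ?_
        simp only [Pi.sub_apply]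
        have h1 : 0 ≤ s⁻¹ * (s * Z i j x + (Z i j x - grad w i j x)) ^ 2 := by positivity
        have h2 : s⁻¹ * (s * Z i j x + (Z i j x - grad w i j x)) ^ 2 =
            (1 + s) * Z i j x ^ 2 + (1 + s⁻¹) * (Z i j x - grad w i j x) ^ 2 -
              grad w i j x ^ 2 := by field_simp; ring
        linarith
      linarith
    have k2 := le_sqrt_mul_sqrt (by norm_num) (nrm2_nonneg _ _) (nrm2_nonneg _ _) key
    refine Real.sqrt_le_iff.2 ⟨by positivity, ?_⟩
    nlinarith [Real.sq_sqrt (nrm2_nonneg O Z), Real.sq_sqrt (nrm2_nonneg O (Z - grad w))]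
  have e4 := h w hw
  have e5 : K * √(nrm2 O (grad w)) ≤ K * (√(nrm2 O Z) + e / A) :=
    mul_le_mul_of_nonneg_left (by linarith) hK
  have e6 : 5 * M * √(nrm2 O G) * √(nrm2 O (Z - grad w)) ≤ 5 * M * √(nrm2 O G) * (e / A) :=
    mul_le_mul_of_nonneg_left e2 (by positivity)
  have e7 : (K + 5 * M * √(nrm2 O G)) * (e / A) ≤ e := by
    rw [mul_div_assoc', div_le_iff₀ hA0, hA]; nlinarith
  have e8 := abs_sub_abs_le_abs_sub (form O lam mu G Z) (form O lam mu G (grad w))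
  nlinarith

lemma form_density_zero {O : Set E3} (hO : MeasurableSet O) {M : ℝ} (hM : 0 ≤ M)
    {lam mu : E3 → ℝ} (hb : BdC O M lam mu) {G : Fin 3 → Fin 3 → E3 → ℝ} (hG : L2M O G)
    (h : ∀ w : Fin 3 → E3 → ℝ, (∀ i, IsTest O (w i)) → form O lam mu G (grad w) = 0)
    {z : Fin 3 → E3 → ℝ} {Z : Fin 3 → Fin 3 → E3 → ℝ} (hz : IsH10 O z Z) :
    form O lam mu G Z = 0 := by
  have := form_density hO hM hb hG le_rfl (fun w hw => by simp [h w hw]) hz
  simpa using this

/-- Extension by zero. -/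
lemma IsH10.extend {O B : Set E3} (hO : IsOpen O) (hB : IsOpen B) (hs : O ⊆ B)
    {z : Fin 3 → E3 → ℝ} {Z : Fin 3 → Fin 3 → E3 → ℝ} (h : IsH10 O z Z) :
    IsH10 B (fun i => O.indicator (z i)) (fun i j => O.indicator (Z i j)) := by
  have hm := hO.measurableSet
  have rr : (volume.restrict B).restrict O = volume.restrict O := by
    rw [Measure.restrict_restrict hm, inter_eq_self_of_subset_left hs]
  have m0 : ∀ {f : E3 → ℝ}, MemLp f 2 (volume.restrict O) →
      MemLp (O.indicator f) 2 (volume.restrict B) := fun hf =>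
    (memLp_indicator_iff_restrict hm).2 (by rwa [rr])
  have red : ∀ {f g : E3 → ℝ} (F : ℝ → ℝ → ℝ), (∀ x, x ∉ O → F 0 (g x) = 0) →
      ∫ x in B, F (O.indicator f x) (g x) = ∫ x in O, F (f x) (g x) := by
    intro f g F hF
    rw [← rr, ← integral_indicator hm]
    congr 1; funext x
    by_cases hx : x ∈ O
    · simp [hx]
    · simp [hx, hF x hx]
  have app : ∀ δ : ℝ, 0 < δ → ∃ w : Fin 3 → E3 → ℝ, (∀ i, IsTest B (w i)) ∧
      nrm B ((fun i => O.indicator (z i)) - w) +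
        nrm2 B ((fun i j => O.indicator (Z i j)) - grad w) < δ := by
    intro δ hδ
    obtain ⟨w, hw, e⟩ := (isH10_iff.1 h).2 δ hδ
    refine ⟨w, fun i => (hw i).mono hs, ?_⟩
    have a : nrm B ((fun i => O.indicator (z i)) - w) = nrm O (z - w) :=
      Finset.sum_congr rfl fun i _ => red (fun s t => (s - t) ^ 2) fun x hx => by
        simp [image_eq_zero_of_notMem_tsupport fun h => hx ((hw i).2.2 h)]
    have b : nrm2 B ((fun i j => O.indicator (Z i j)) - grad w) = nrm2 O (Z - grad w) :=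
      Finset.sum_congr rfl fun i _ => Finset.sum_congr rfl fun j _ =>
        red (g := grad w i j) (fun s t => (s - t) ^ 2) fun x hx => by
          have : grad w i j x = 0 := D_eq_zero_of_notMem (fun h => hx ((hw i).2.2 h)) _
          simp [this]
    rw [a, b]; exact e
  refine isH10_iff.2 ⟨⟨fun i => m0 (h.1.1 i), fun i j => m0 (h.1.2.1 i j), fun i j ψ hψ => ?_⟩, app⟩
  -- the weak derivative identity passes to the limit
  set u := O.indicator (z i)
  set G := O.indicator (Z i j)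
  have hu : MemLp u 2 (volume.restrict B) := m0 (h.1.1 i)
  have hG : MemLp G 2 (volume.restrict B) := m0 (h.1.2.1 i j)
  have p1 := (hψ.pd j).tst.memLp B
  have p2 := hψ.tst.memLp B
  have cs : ∀ {f g : E3 → ℝ}, MemLp f 2 (volume.restrict B) → MemLp g 2 (volume.restrict B) →
      ∀ s : ℝ, 0 < s → |∫ x in B, f x * g x| ≤
        s⁻¹ * (∫ x in B, f x ^ 2) + s * ∫ x in B, g x ^ 2 := by
    intro f g hf hg s hs
    rw [← integral_const_mul, ← integral_const_mul,
      ← integral_add (hf.integrable_sq.const_mul _) (hg.integrable_sq.const_mul _)]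
    refine abs_integral_le_integral_abs.trans (integral_mono (integrable_mul_L2 hf hg).abs
      (iadd (hf.integrable_sq.const_mul _) (hg.integrable_sq.const_mul _)) fun x => ?_)
    have h1 : 0 ≤ s⁻¹ * (|f x| - s * |g x|) ^ 2 := by positivity
    have h2 : s⁻¹ * (|f x| - s * |g x|) ^ 2 =
        s⁻¹ * f x ^ 2 + s * g x ^ 2 - 2 * (|f x| * |g x|) := by
      rw [← sq_abs (f x), ← sq_abs (g x)]; field_simp; ring
    have h3 : 0 ≤ |f x| * |g x| := by positivity
    simp only [abs_mul]; linarith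
  rw [eq_neg_iff_add_eq_zero, ← abs_nonpos_iff]
  refine le_of_forall_pos_le_add fun e he => ?_
  set P := (∫ x in B, pd j ψ x ^ 2) + ∫ x in B, ψ x ^ 2 with hP
  have hP1 : 0 ≤ ∫ x in B, pd j ψ x ^ 2 := integral_nonneg fun _ => sq_nonneg _
  have hP2 : 0 ≤ ∫ x in B, ψ x ^ 2 := integral_nonneg fun _ => sq_nonneg _
  set s := e / (2 * (P + 1)) with hs'
  have hs0 : 0 < s := by positivity
  obtain ⟨w, hw, e1⟩ := app (s * (e / 2)) (by positivity)
  have w0 := weak_ibp hB (hw i).1.contDiffOn hψ j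
  have q1 := (hw i).tst.memLp B
  have q2 := ((hw i).pd j).tst.memLp B
  have c1 := cs (hu.sub q1) p1 s hs0
  have c2 := cs (hG.sub q2) p2 s hs0
  simp only [Pi.sub_apply, sub_mul] at c1 c2
  rw [integral_sub (integrable_mul_L2 hu p1) (integrable_mul_L2 q1 p1)] at c1
  rw [integral_sub (integrable_mul_L2 hG p2) (integrable_mul_L2 q2 p2)] at c2
  have n1 : ∫ x in B, (u x - w i x) ^ 2 ≤ nrm B ((fun i => O.indicator (z i)) - w) :=
    Finset.single_le_sum (f := fun i => ∫ x in B, (O.indicator (z i) x - w i x) ^ 2)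
      (fun _ _ => integral_nonneg fun _ => sq_nonneg _) (Finset.mem_univ i)
  have n2 : ∫ x in B, (G x - pd j (w i) x) ^ 2 ≤
      nrm2 B ((fun i j => O.indicator (Z i j)) - grad w) :=
    (Finset.single_le_sum (f := fun j => ∫ x in B, (O.indicator (Z i j) x - pd j (w i) x) ^ 2)
      (fun _ _ => integral_nonneg fun _ => sq_nonneg _) (Finset.mem_univ j)).trans
    (Finset.single_le_sum
      (f := fun i => ∑ j, ∫ x in B, (O.indicator (Z i j) x - pd j (w i) x) ^ 2)
      (fun _ _ => Finset.sum_nonneg fun _ _ => integral_nonneg fun _ => sq_nonneg _)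
      (Finset.mem_univ i))
  have n3 : s⁻¹ * ((∫ x in B, (u x - w i x) ^ 2) + ∫ x in B, (G x - pd j (w i) x) ^ 2) ≤ e / 2 := by
    rw [inv_mul_le_iff₀ hs0]; linarith
  have n4 : s * P ≤ e / 2 := by
    rw [hs', div_mul_eq_mul_div, div_le_iff₀ (by positivity)]; nlinarith
  have n5 := abs_add_le ((∫ x in B, u x * pd j ψ x) - ∫ x in B, w i x * pd j ψ x)
    ((∫ x in B, G x * ψ x) - ∫ x in B, pd j (w i) x * ψ x)
  have n6 : ((∫ x in B, u x * pd j ψ x) - ∫ x in B, w i x * pd j ψ x) +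
      ((∫ x in B, G x * ψ x) - ∫ x in B, pd j (w i) x * ψ x) =
      (∫ x in B, u x * pd j ψ x) + ∫ x in B, G x * ψ x := by rw [w0]; ring
  rw [n6] at n5
  rw [hP] at n4
  nlinarith

lemma SameDN.symm {Ω : Set E3} {lam₁ mu₁ lam₂ mu₂ : E3 → ℝ} (h : SameDN Ω lam₁ mu₁ lam₂ mu₂) :
    SameDN Ω lam₂ mu₂ lam₁ mu₁ := fun u₁ u₂ v G₁ G₂ G h₁ h₂ h₃ h₄ =>
  (h u₂ u₁ v G₂ G₁ G h₂ h₁ (by simpa using h₃.neg) h₄).symm

end Vale.Agent.P136
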