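import Vale.Agent.P136.Basic

/-!
# P136: boundary determination, assembly
-/

open MeasureTheory Set Metric
open scoped ContDiff Topology

noncomputable section
namespace Vale.Agent.P136

namespace Bdry

lemma test_sum {U : Set E3} {f : Fin 3 → E3 → ℝ} (h : ∀ j, IsTest U (f j)) :
    IsTest U (fun x => ∑ j, f j x) := by
  simp only [Fin.sum_univ_three]
  exact ((h 0).add (h 1)).add (h 2)

lemma test_mul_right {U : Set E3} {m f : E3 → ℝ} (hf : IsTest U f) (hm : Sm m) :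
    IsTest U (fun x => f x * m x) :=
  ⟨hf.1.mul hm, hf.2.1.mul_right, (tsupport_mul_subset_left).trans hf.2.2⟩

lemma test_lame {U : Set E3} {lam mu : E3 → ℝ} (hl : Sm lam) (hm : Sm mu) {v : Fin 3 → E3 → ℝ}
    (hv : ∀ i, IsTest U (v i)) (i : Fin 3) : IsTest U (lame lam mu v i) := by
  have h1 : IsTest U (dv v) := test_sum fun i => (hv i).pd i
  have h2 : IsTest U (lap (v i)) := test_sum fun j => ((hv i).pd j).pd j
  exact (((IsTest.mul_left hm h2).add (IsTest.mul_left (hl.add hm) (h1.pd i))).add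
    (test_mul_right h1 (hl.D _))).add
    (test_sum fun j => IsTest.mul_left (hm.D _) (((hv i).pd j).add ((hv j).pd i)))

/-- The difference of the two energy densities. -/
def gd (lam₁ mu₁ lam₂ mu₂ : E3 → ℝ) (v : Fin 3 → E3 → ℝ) (x : E3) : ℝ :=
  (lam₁ x - lam₂ x) * dv v x ^ 2 + 2 * (mu₁ x - mu₂ x) * esq v x

lemma gd_eq (lam₁ mu₁ lam₂ mu₂ : E3 → ℝ) (v : Fin 3 → E3 → ℝ) :
    gd lam₁ mu₁ lam₂ mu₂ v =
      fdens (fun x => lam₁ x - lam₂ x) (fun x => mu₁ x - mu₂ x) (grad v) (grad v) := by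
  funext x
  simp only [gd, fdens, dv, esq, grad, Fin.sum_univ_three]
  ring

lemma esq_nonneg (v : Fin 3 → E3 → ℝ) (x : E3) : 0 ≤ esq v x :=
  Finset.sum_nonneg fun _ _ => Finset.sum_nonneg fun _ _ => sq_nonneg _

lemma upper {Ω : Set E3} (hΩ : MeasurableSet Ω) {ρ : E3 → ℝ} (hρ : Continuous ρ) {p : E3}
    {r r₀ N A B : ℝ} (hr : r ≤ r₀) (hA : 0 ≤ A)
    (hB : ∫ x in ball p r₀, 1 / (1 + (N * ρ x) ^ 2) ≤ B) {g : E3 → ℝ} (hg : IntegrableOn g Ω)
    (h0 : ∀ x ∈ Ω, x ∉ ball p r → g x ≤ 0)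
    (h1 : ∀ x ∈ Ω, x ∈ ball p r → g x ≤ A / (1 + (N * ρ x) ^ 2)) : ∫ x in Ω, g x ≤ A * B := by
  have hc : Continuous fun x => 1 / (1 + (N * ρ x) ^ 2) :=
    continuous_const.div (by fun_prop) fun x => by positivity
  have hi : IntegrableOn (fun x => A * (1 / (1 + (N * ρ x) ^ 2))) (ball p r₀) :=
    ((continuous_const.mul hc).continuousOn.integrableOn_compact
      (isCompact_closedBall p r₀)).mono_set ball_subset_closedBall
  calc ∫ x in Ω, g x = ∫ x, Ω.indicator g x := (integral_indicator hΩ).symm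
    _ ≤ ∫ x, (ball p r₀).indicator (fun x => A * (1 / (1 + (N * ρ x) ^ 2))) x := by
        refine integral_mono ((integrable_indicator_iff hΩ).2 hg)
          ((integrable_indicator_iff measurableSet_ball).2 hi) fun x => ?_
        have hp : 0 ≤ (ball p r₀).indicator (fun x => A * (1 / (1 + (N * ρ x) ^ 2))) x :=
          indicator_nonneg (fun y _ => by positivity) x
        by_cases hx : x ∈ Ω
        · rw [indicator_of_mem hx]
          by_cases hb : x ∈ ball p r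
          · rw [indicator_of_mem (ball_subset_ball hr hb), mul_one_div]
            exact h1 x hx hb
          · exact (h0 x hx hb).trans hp
        · rw [indicator_of_notMem hx]
          exact hp
    _ = A * ∫ x in ball p r₀, 1 / (1 + (N * ρ x) ^ 2) := by
        rw [integral_indicator measurableSet_ball, integral_const_mul]
    _ ≤ A * B := mul_le_mul_of_nonneg_left hB hA

/-- The common setting at a boundary point. -/
structure Set0 (R c : ℝ) (Ω U : Set E3) (ρ : E3 → ℝ) (p : E3) (lam₁ mu₁ lam₂ mu₂ : E3 → ℝ) :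
    Prop where
  hc : 0 < c
  op : IsOpen Ω
  bd : Ω ⊆ ball 0 R
  a₁ : UAdm c lam₁ mu₁
  a₂ : UAdm c lam₂ mu₂
  dn : SameDN Ω lam₁ mu₁ lam₂ mu₂
  sm : Sm ρ
  z : ρ p = 0
  d : fderiv ℝ ρ p ≠ 0
  nh : U ∈ 𝓝 p
  iff : ∀ x ∈ U, (x ∈ Ω ↔ 0 < ρ x)

lemma Set0.symm {R c : ℝ} {Ω U : Set E3} {ρ : E3 → ℝ} {p : E3} {lam₁ mu₁ lam₂ mu₂ : E3 → ℝ}
    (h : Set0 R c Ω U ρ p lam₁ mu₁ lam₂ mu₂) : Set0 R c Ω U ρ p lam₂ mu₂ lam₁ mu₁ :=
  ⟨h.hc, h.op, h.bd, h.a₂, h.a₁, h.dn.symm, h.sm, h.z, h.d, h.nh, h.iff⟩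

lemma core (h1 : S_cmp) (h2 : S_green) (h3 : S_hardy) (h4 : S_layer) {R c : ℝ} {Ω U : Set E3}
    {ρ : E3 → ℝ} {p : E3} {lam₁ mu₁ lam₂ mu₂ : E3 → ℝ}
    (H : Set0 R c Ω U ρ p lam₁ mu₁ lam₂ mu₂) :
    ∃ r₁ : ℝ, 0 < r₁ ∧ ∀ r : ℝ, 0 < r → r ≤ r₁ → ∀ C : ℝ, ∃ c₄ N₁ B : ℝ, 0 < c₄ ∧ 1 ≤ N₁ ∧
      0 ≤ B ∧ ∀ N : ℝ, N₁ ≤ N → ∀ v : Fin 2 → Fin 3 → E3 → ℝ, (∀ s i, IsTest (ball p r) (v s i)) →
      (∀ x, 0 ≤ ρ x → ∀ s i, |lame lam₁ mu₁ (v s) i x| ≤ C * N / (1 + (N * ρ x) ^ 2)) →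
      ∀ A a : ℝ, 0 ≤ A → 0 ≤ a →
      (∀ x ∈ ball p r, 0 < ρ x →
        -(A / (1 + (N * ρ x) ^ 2)) ≤ ∑ s, gd lam₁ mu₁ lam₂ mu₂ (v s) x) →
      (∀ x ∈ ball p (r / 2), 1 / N < ρ x → ρ x < 2 / N →
        a - A / (1 + (N * ρ x) ^ 2) ≤ ∑ s, gd lam₁ mu₁ lam₂ mu₂ (v s) x) →
      a * c₄ ≤ B * (1 + A) := by
  have hm := H.op.measurableSet
  obtain ⟨C₁, hC₁, k1⟩ := h1 R c Ω lam₁ mu₁ lam₂ mu₂ H.hc H.op H.bd H.a₁ H.a₂ H.dn
  obtain ⟨r₃, hr₃, hU, C₃, hC₃, k3⟩ := h3 R Ω U ρ p H.op H.bd H.sm H.d H.nh H.iff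
  obtain ⟨r₄, hr₄, ⟨C₄, k4⟩, k4'⟩ := h4 ρ p H.sm H.z H.d
  have hC₄ : 0 ≤ C₄ := by
    have := k4 1 le_rfl
    rw [div_one] at this
    exact (integral_nonneg fun x => by positivity).trans this
  refine ⟨min r₃ r₄, lt_min hr₃ hr₄, fun r hr hrr C => ?_⟩
  have hr3 : r ≤ r₃ := hrr.trans (min_le_left _ _)
  have hr4 : r ≤ r₄ := hrr.trans (min_le_right _ _)
  obtain ⟨c₄, N₁, hc₄, hN₁, k5⟩ := k4' (r / 2) (half_pos hr)
  refine ⟨c₄, N₁, 2 * (C₁ * (9 * C₃ ^ 2 * (C ^ 2 * C₄))) + C₄, hc₄, hN₁, by positivity,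
    fun N hN v hv hl A a hA ha g1 g2 => ?_⟩
  have hN1 : 1 ≤ N := hN₁.trans hN
  have hN0 : 0 < N := by linarith
  have pos : ∀ x ∈ Ω, x ∈ ball p r → 0 < ρ x := fun x hx hb =>
    (H.iff x (hU (ball_subset_ball hr3 hb))).1 hx
  obtain ⟨M₁, -, b₁⟩ := exists_bdC H.bd H.a₁.1.cont H.a₁.2.1.cont
  obtain ⟨M₂, -, b₂⟩ := exists_bdC H.bd H.a₂.1.cont H.a₂.2.1.cont
  obtain ⟨M₃, -, b₃⟩ := exists_bdC H.bd (H.a₁.1.sub H.a₂.1).cont (H.a₁.2.1.sub H.a₂.2.1).cont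
  have gi : ∀ s, IntegrableOn (gd lam₁ mu₁ lam₂ mu₂ (v s)) Ω := fun s => by
    rw [gd_eq]
    exact integrableOn_fdens hm b₃ (L2M.of_test Ω (hv s)) (L2M.of_test Ω (hv s))
  -- the energy bound
  have en : ∀ s, ∫ x in Ω, gd lam₁ mu₁ lam₂ mu₂ (v s) x ≤
      C₁ * (9 * C₃ ^ 2 * (C ^ 2 * C₄)) / N := by
    intro s
    have tl := test_lame H.a₁.1 H.a₁.2.1 (hv s)
    have e1 : ∀ i, ∫ x in Ω, (ρ x * lame lam₁ mu₁ (v s) i x) ^ 2 ≤ C ^ 2 * (C₄ / N) := by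
      intro i
      refine upper hm H.sm.cont hr4 (sq_nonneg C) (k4 N hN1)
        (IsTest.mul_left H.sm (tl i)).tst.sq.integrable.integrableOn (fun x _ hb => ?_)
        (fun x hx hb => ?_)
      · rw [image_eq_zero_of_notMem_tsupport fun h => hb ((tl i).2.2 h)]; simp
      · have p1 := pos x hx hb
        have p2 := hl x p1.le s i
        set t := N * ρ x with ht
        have p3 : |ρ x * lame lam₁ mu₁ (v s) i x| ≤ C * t / (1 + t ^ 2) := by
          rw [abs_mul, abs_of_pos p1]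
          calc _ ≤ ρ x * (C * N / (1 + t ^ 2)) := mul_le_mul_of_nonneg_left p2 p1.le
            _ = _ := by rw [ht]; ring
        have p4 := pow_le_pow_left₀ (abs_nonneg _) p3 2
        rw [sq_abs] at p4
        refine p4.trans ?_
        rw [div_pow, div_le_div_iff₀ (by positivity) (by positivity)]
        have : 0 ≤ C ^ 2 * (1 + t ^ 2) := by positivity
        nlinarith
    have e2 := k1 (v s) (3 * (C₃ * √(C ^ 2 * (C₄ / N)))) (fun i => (hv s i).1) (by positivity)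
      (fun w hw => by
        rw [h2 Ω lam₁ mu₁ (v s) w H.op H.a₁.1 H.a₁.2.1 (fun i => (hv s i).1.contDiffOn) hw,
          abs_neg]
        have e3 : ∀ i, |∫ x in Ω, lame lam₁ mu₁ (v s) i x * w i x| ≤
            C₃ * √(C ^ 2 * (C₄ / N)) * √(nrm2 Ω (grad w)) := by
          intro i
          refine (k3 _ _ (tl i).1.continuous ((tl i).2.2.trans (ball_subset_ball hr3))
            (hw i)).trans ?_
          refine mul_le_mul (mul_le_mul_of_nonneg_left (Real.sqrt_le_sqrt (e1 i)) hC₃)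
            (Real.sqrt_le_sqrt ?_) (Real.sqrt_nonneg _) (by positivity)
          exact Finset.single_le_sum (f := fun i => ∑ j, ∫ x in Ω, pd j (w i) x ^ 2)
            (fun _ _ => Finset.sum_nonneg fun _ _ => integral_nonneg fun _ => sq_nonneg _)
            (Finset.mem_univ i)
        refine (Finset.abs_sum_le_sum_abs _ _).trans ?_
        rw [Fin.sum_univ_three]
        linarith [e3 0, e3 1, e3 2])
    rw [form_sub_coef hm b₁ b₂ (L2M.of_test Ω (hv s)) (L2M.of_test Ω (hv s)), form_eq,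
      ← gd_eq] at e2
    refine e2.trans (le_of_eq ?_)
    rw [mul_pow, mul_pow, Real.sq_sqrt (by positivity)]
    ring
  set S : Set E3 := {x ∈ ball p (r / 2) | 1 / N < ρ x ∧ ρ x < 2 / N} with hS
  have hSo : IsOpen S := isOpen_ball.inter
    ((isOpen_lt continuous_const H.sm.cont).inter (isOpen_lt H.sm.cont continuous_const))
  have hSb : S ⊆ ball p r := fun x hx => ball_subset_ball (half_le_self hr.le) hx.1
  have hSΩ : S ⊆ Ω := fun x hx =>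
    (H.iff x (hU (ball_subset_ball hr3 (hSb hx)))).2 ((one_div_pos.2 hN0).trans hx.2.1)
  have hSf : volume S < ⊤ := (measure_mono hSb).trans_lt measure_ball_lt_top
  have i1 : IntegrableOn (S.indicator fun _ => a) Ω :=
    ((integrable_indicator_iff hSo.measurableSet).2 (integrableOn_const hSf.ne)).integrableOn
  have i2 : IntegrableOn (fun x => ∑ s, gd lam₁ mu₁ lam₂ mu₂ (v s) x) Ω :=
    integrable_finsetSum _ fun s _ => gi s
  have u := upper hm H.sm.cont hr4 hA (k4 N hN1)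
    (g := fun x => S.indicator (fun _ => a) x - ∑ s, gd lam₁ mu₁ lam₂ mu₂ (v s) x)
    (isub i1 i2) (fun x _ hb => by
      have z1 : ∀ s i j, pd j (v s i) x = 0 := fun s i j =>
        D_eq_zero_of_notMem (fun h => hb ((hv s i).2.2 h)) _
      rw [indicator_of_notMem fun h => hb (hSb h)]
      simp [gd, dv, esq, z1]) (fun x hx hb => by
      by_cases hs : x ∈ S
      · rw [indicator_of_mem hs]
        linarith [g2 x hs.1 hs.2.1 hs.2.2]
      · rw [indicator_of_notMem hs]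
        linarith [g1 x hb (pos x hx hb)])
  rw [integral_sub i1 i2, integral_finsetSum _ fun s _ => gi s, Fin.sum_univ_two,
    setIntegral_indicator hSo.measurableSet, inter_eq_self_of_subset_right hSΩ, setIntegral_const,
    smul_eq_mul] at u
  have u1 := mul_le_mul_of_nonneg_left (k5 N hN) ha
  have u2 : a * (c₄ / N) ≤ 2 * (C₁ * (9 * C₃ ^ 2 * (C ^ 2 * C₄)) / N) + A * (C₄ / N) := by
    linarith [en 0, en 1]
  have u3 := mul_le_mul_of_nonneg_right u2 hN0.le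
  have e1 : a * (c₄ / N) * N = a * c₄ := by field_simp
  have e2 : (2 * (C₁ * (9 * C₃ ^ 2 * (C ^ 2 * C₄)) / N) + A * (C₄ / N)) * N =
      2 * (C₁ * (9 * C₃ ^ 2 * (C ^ 2 * C₄))) + A * C₄ := by field_simp
  rw [e1, e2] at u3
  have : 0 ≤ 2 * (C₁ * (9 * C₃ ^ 2 * (C ^ 2 * C₄))) * A := by positivity
  nlinarith

lemma notAB (h1 : S_cmp) (h2 : S_green) (h3 : S_hardy) (h4 : S_layer) (h6 : S_wkbMu) {R c : ℝ}
    {Ω U : Set E3} {ρ : E3 → ℝ} {p : E3} {lam₁ mu₁ lam₂ mu₂ : E3 → ℝ}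
    (H : Set0 R c Ω U ρ p lam₁ mu₁ lam₂ mu₂) {r' c' : ℝ} (hr' : 0 < r') (hc' : 0 < c')
    (h : ∀ x ∈ ball p r', 0 < ρ x → c' * ρ x ≤ mu₁ x - mu₂ x) : False := by
  obtain ⟨r₁, hr₁, k⟩ := core h1 h2 h3 h4 H
  obtain ⟨r₀, hr₀, k6⟩ := h6 ρ lam₁ mu₁ p H.sm H.a₁.1 H.a₁.2.1 H.z H.d
  obtain ⟨M, hM⟩ := (isCompact_closedBall p r').exists_bound_of_continuousOn
    (H.a₁.1.sub H.a₂.1).cont.continuousOn
  have hM0 : 0 ≤ M := (norm_nonneg _).trans (hM p (mem_closedBall_self hr'.le))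
  set r := min r' (min r₁ r₀) with hr
  have hr0 : 0 < r := lt_min hr' (lt_min hr₁ hr₀)
  have hrr : ball p r ⊆ ball p r' := ball_subset_ball (min_le_left _ _)
  obtain ⟨C, d, N₀, hC, hd, hN₀, k7⟩ := k6 r hr0 ((min_le_right _ _).trans (min_le_right _ _))
  obtain ⟨c₄, N₁, B, hc₄, hN₁, hB, k8⟩ := k r hr0 ((min_le_right _ _).trans (min_le_left _ _)) C
  set N := max N₀ N₁ + B * (1 + 2 * (M * C)) / (2 * c' * d * c₄) + 1 with hN
  have q0 : 0 ≤ B * (1 + 2 * (M * C)) / (2 * c' * d * c₄) := by positivity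
  have n0 : N₀ ≤ N := by linarith [le_max_left N₀ N₁]
  have n1 : N₁ ≤ N := by linarith [le_max_right N₀ N₁]
  have hN0 : 0 < N := by linarith
  obtain ⟨v, hv, k9⟩ := k7 N n0
  have low : ∀ x ∈ ball p r, 0 < ρ x → -(2 * (M * C) / (1 + (N * ρ x) ^ 2)) +
      2 * (c' * ρ x) * ∑ s, esq (v s) x ≤ ∑ s, gd lam₁ mu₁ lam₂ mu₂ (v s) x := by
    intro x hx hp
    have t : ∀ s, -(M * (C / (1 + (N * ρ x) ^ 2))) + 2 * (c' * ρ x) * esq (v s) x ≤
        gd lam₁ mu₁ lam₂ mu₂ (v s) x := by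
      intro s
      have t1 := (k9 x hp.le).2.1 s
      have t2 := (abs_le.1 (hM x (ball_subset_closedBall (hrr hx)))).1
      have t3 := mul_le_mul_of_nonneg_right t2 (sq_nonneg (dv (v s) x))
      have t4 := mul_le_mul_of_nonneg_left t1 hM0
      have t5 := mul_le_mul_of_nonneg_right (h x (hrr hx) hp) (esq_nonneg (v s) x)
      simp only [gd]
      linarith
    simp only [Fin.sum_univ_two]
    have e : 2 * (M * C) / (1 + (N * ρ x) ^ 2) = 2 * (M * (C / (1 + (N * ρ x) ^ 2))) := by ring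
    rw [e]
    linarith [t 0, t 1]
  have fin := k8 N n1 v hv (fun x hx => (k9 x hx).1) (2 * (M * C)) (2 * c' * d * N)
    (by positivity) (by positivity) (fun x hx hp => by
      have : 0 ≤ 2 * (c' * ρ x) * ∑ s, esq (v s) x :=
        mul_nonneg (by positivity) (Finset.sum_nonneg fun s _ => esq_nonneg _ _)
      linarith [low x hx hp]) (fun x hx x1 x2 => by
      have hp : 0 < ρ x := (one_div_pos.2 hN0).trans x1
      have t1 := (k9 x hp.le).2.2 hx x1 x2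
      have t2 : 1 ≤ ρ x * N := ((div_lt_iff₀ hN0).1 x1).le
      have t3 := mul_le_mul_of_nonneg_left t1 (by positivity : 0 ≤ 2 * (c' * ρ x))
      have t4 := mul_le_mul_of_nonneg_left t2 (by positivity : 0 ≤ 2 * c' * d * N)
      have t5 : 2 * c' * d * N * (ρ x * N) = 2 * (c' * ρ x) * (d * N ^ 2) := by ring
      linarith [low x (ball_subset_ball (half_le_self hr0.le) hx) hp])
  have f1 : B * (1 + 2 * (M * C)) / (2 * c' * d * c₄) < N := by linarith [le_max_left N₀ N₁]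
  rw [div_lt_iff₀ (by positivity)] at f1
  linarith

lemma notC (h1 : S_cmp) (h2 : S_green) (h3 : S_hardy) (h4 : S_layer) (h7 : S_wkbLam) {R c : ℝ}
    {Ω U : Set E3} {ρ : E3 → ℝ} {p : E3} {lam₁ mu₁ lam₂ mu₂ : E3 → ℝ}
    (H : Set0 R c Ω U ρ p lam₁ mu₁ lam₂ mu₂) {r' C' : ℝ} (hr' : 0 < r')
    (h : ∀ x ∈ ball p r', |mu₁ x - mu₂ x| ≤ C' * |ρ x|) : lam₁ p ≤ lam₂ p := by
  by_contra hn
  have hl : 0 < lam₁ p - lam₂ p := sub_pos.2 (not_le.1 hn)
  set l := (lam₁ p - lam₂ p) / 2 with hl'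
  have hl0 : 0 < l := half_pos hl
  obtain ⟨r'', hr'', hb⟩ : ∃ r'' > 0, ∀ x ∈ ball p r'', l < lam₁ x - lam₂ x := by
    have := (H.a₁.1.sub H.a₂.1).cont.continuousAt (x := p) |>.eventually
      (lt_mem_nhds (half_lt_self hl))
    exact Metric.eventually_nhds_iff_ball.1 this
  obtain ⟨r₁, hr₁, k⟩ := core h1 h2 h3 h4 H
  have m1 := H.a₁.2.2 p
  obtain ⟨r₀, hr₀, k6⟩ := h7 ρ lam₁ mu₁ p H.sm H.a₁.1 H.a₁.2.1 H.z H.d
    (by linarith [H.hc, m1.1]) (by linarith [H.hc, m1.1, m1.2])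
  set M := |C'| with hM
  have hM0 : 0 ≤ M := abs_nonneg _
  set r := min (min r' r'') (min r₁ r₀) with hr
  have hr0 : 0 < r := lt_min (lt_min hr' hr'') (lt_min hr₁ hr₀)
  have hrr : ball p r ⊆ ball p r' := ball_subset_ball ((min_le_left _ _).trans (min_le_left _ _))
  have hrr' : ball p r ⊆ ball p r'' :=
    ball_subset_ball ((min_le_left _ _).trans (min_le_right _ _))
  obtain ⟨C, d, N₀, hC, hd, hN₀, k7⟩ := k6 r hr0 ((min_le_right _ _).trans (min_le_right _ _))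
  obtain ⟨c₄, N₁, B, hc₄, hN₁, hB, k8⟩ := k r hr0 ((min_le_right _ _).trans (min_le_left _ _)) C
  set N := max N₀ N₁ + B * (1 + 4 * (M * C)) / (l * d * c₄) + 1 with hN
  have q0 : 0 ≤ B * (1 + 4 * (M * C)) / (l * d * c₄) := by positivity
  have n0 : N₀ ≤ N := by linarith [le_max_left N₀ N₁]
  have n1 : N₁ ≤ N := by linarith [le_max_right N₀ N₁]
  have hN0 : 0 < N := by linarith
  obtain ⟨v, hv, k9⟩ := k7 N n0
  have low : ∀ x ∈ ball p r, 0 < ρ x → -(4 * (M * C) * N / (1 + (N * ρ x) ^ 2)) +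
      l * ∑ s, dv (v s) x ^ 2 ≤ ∑ s, gd lam₁ mu₁ lam₂ mu₂ (v s) x := by
    intro x hx hp
    have t0 : M * ρ x * (C * N ^ 2 / (1 + (N * ρ x) ^ 2) ^ 2) ≤
        M * C * N / (1 + (N * ρ x) ^ 2) := by
      have e : M * ρ x * (C * N ^ 2 / (1 + (N * ρ x) ^ 2) ^ 2) =
          M * C * N / (1 + (N * ρ x) ^ 2) * (N * ρ x / (1 + (N * ρ x) ^ 2)) := by
        field_simp
      rw [e]
      refine mul_le_of_le_one_right (by positivity) ?_
      rw [div_le_one (by positivity)]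
      nlinarith [sq_nonneg (N * ρ x - 1)]
    have t : ∀ s, -(2 * (M * C * N / (1 + (N * ρ x) ^ 2))) + l * dv (v s) x ^ 2 ≤
        gd lam₁ mu₁ lam₂ mu₂ (v s) x := by
      intro s
      have t1 := (k9 x hp.le).2.1 s
      have t2 : -(M * ρ x) ≤ mu₁ x - mu₂ x := by
        have t6 := (abs_le.1 (h x (hrr hx))).1
        rw [abs_of_pos hp] at t6
        have t7 := mul_le_mul_of_nonneg_right (le_abs_self C') hp.le
        linarith
      have t3 := mul_le_mul_of_nonneg_right t2 (esq_nonneg (v s) x)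
      have t4 := mul_le_mul_of_nonneg_left t1 (by positivity : 0 ≤ M * ρ x)
      have t5 := mul_le_mul_of_nonneg_right (hb x (hrr' hx)).le (sq_nonneg (dv (v s) x))
      simp only [gd]
      linarith
    simp only [Fin.sum_univ_two]
    have e : 4 * (M * C) * N / (1 + (N * ρ x) ^ 2) = 4 * (M * C * N / (1 + (N * ρ x) ^ 2)) := by
      ring
    rw [e]
    linarith [t 0, t 1]
  have fin := k8 N n1 v hv (fun x hx => (k9 x hx).1) (4 * (M * C) * N) (l * d * N ^ 2)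
    (by positivity) (by positivity) (fun x hx hp => by
      have : 0 ≤ l * ∑ s, dv (v s) x ^ 2 :=
        mul_nonneg hl0.le (Finset.sum_nonneg fun s _ => sq_nonneg _)
      linarith [low x hx hp]) (fun x hx x1 x2 => by
      have hp : 0 < ρ x := (one_div_pos.2 hN0).trans x1
      have t1 := (k9 x hp.le).2.2 hx x1 x2
      have t3 := mul_le_mul_of_nonneg_left t1 hl0.le
      linarith [low x (ball_subset_ball (half_le_self hr0.le) hx) hp])
  have f1 : B * (1 + 4 * (M * C)) / (l * d * c₄) < N := by linarith [le_max_left N₀ N₁]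
  rw [div_lt_iff₀ (by positivity)] at f1
  have f2 := mul_lt_mul_of_pos_right f1 hN0
  have f3 := mul_le_mul_of_nonneg_left (hN₁.trans n1) hB
  nlinarith

lemma muLe (h1 : S_cmp) (h2 : S_green) (h3 : S_hardy) (h4 : S_layer) (h6 : S_wkbMu) {R c : ℝ}
    {Ω U : Set E3} {ρ : E3 → ℝ} {p : E3} {lam₁ mu₁ lam₂ mu₂ : E3 → ℝ}
    (H : Set0 R c Ω U ρ p lam₁ mu₁ lam₂ mu₂) : mu₁ p ≤ mu₂ p := by
  by_contra hn
  have hl : 0 < mu₁ p - mu₂ p := sub_pos.2 (not_le.1 hn)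
  have e1 := (H.a₁.2.1.sub H.a₂.2.1).cont.continuousAt (x := p) |>.eventually
    (lt_mem_nhds (half_lt_self hl))
  have e2 := H.sm.cont.continuousAt (x := p) |>.eventually
    (gt_mem_nhds (show ρ p < 1 by rw [H.z]; exact one_pos))
  obtain ⟨r, hr, hb⟩ := Metric.eventually_nhds_iff_ball.1 (e1.and e2)
  refine notAB h1 h2 h3 h4 h6 H hr (half_pos hl) fun x hx _ => ?_
  have := mul_le_mul_of_nonneg_left (hb x hx).2.le (half_pos hl).le
  linarith [(hb x hx).1]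

lemma near_frontier {Ω U : Set E3} (hΩ : IsOpen Ω) {ρ : E3 → ℝ} (hρ : Sm ρ) {p : E3}
    (hd : fderiv ℝ ρ p ≠ 0) (hU : U ∈ 𝓝 p) (h : ∀ x ∈ U, (x ∈ Ω ↔ 0 < ρ x)) :
    ∀ᶠ x in 𝓝 p, ρ x = 0 → x ∈ frontier Ω := by
  have c1 : Continuous (fderiv ℝ ρ) := hρ.continuous_fderiv (by simp)
  filter_upwards [eventually_mem_nhds_iff.2 hU, c1.continuousAt.eventually_ne hd] with x hx hx' h0
  rw [hΩ.frontier_eq]
  refine ⟨?_, fun hm => ?_⟩
  · by_contra hn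
    apply hx'
    refine IsLocalMax.fderiv_eq_zero ?_
    filter_upwards [hx, isClosed_closure.isOpen_compl.mem_nhds hn] with y hy hy'
    rw [h0]
    exact not_lt.1 fun hp => hy' (subset_closure ((h y hy).2 hp))
  · exact ((h x (mem_of_mem_nhds hx)).1 hm).ne' h0

end Bdry

theorem s_bdry (h1 : S_cmp) (h2 : S_green) (h3 : S_hardy) (h4 : S_layer) (h5 : S_rho)
    (h6 : S_wkbMu) (h7 : S_wkbLam) : S_bdry := by
  intro c Ω lam₁ mu₁ lam₂ mu₂ hc hΩ a₁ a₂ dn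
  obtain ⟨op, -, bd, hfr⟩ := hΩ
  obtain ⟨R, hR⟩ := bd.subset_ball 0
  have st : ∀ p ∈ frontier Ω, ∃ ρ U, Bdry.Set0 R c Ω U ρ p lam₁ mu₁ lam₂ mu₂ := by
    intro p hp
    obtain ⟨ρ, U, s1, s2, s3, s4⟩ := hfr p hp
    refine ⟨ρ, U, hc, op, hR, a₁, a₂, dn, s1, le_antisymm ?_ ?_, s2, s3, s4⟩
    · rw [op.frontier_eq] at hp
      exact not_lt.1 fun h => hp.2 ((s4 p (mem_of_mem_nhds s3)).2 h)
    · by_contra hn
      have e := s1.continuous.continuousAt (x := p) |>.eventually (gt_mem_nhds (not_le.1 hn))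
      obtain ⟨y, hy1, hy2⟩ := mem_closure_iff_nhds.1 (frontier_subset_closure hp) _
        (e.and (show ∀ᶠ y in 𝓝 p, y ∈ U from s3))
      exact lt_asymm hy1.1 ((s4 y hy1.2).1 hy2)
  have mu_eq : ∀ p ∈ frontier Ω, mu₁ p = mu₂ p := fun p hp => by
    obtain ⟨ρ, U, H⟩ := st p hp
    exact le_antisymm (Bdry.muLe h1 h2 h3 h4 h6 H) (Bdry.muLe h1 h2 h3 h4 h6 H.symm)
  intro p hp
  obtain ⟨ρ, U, H⟩ := st p hp
  have nf := Bdry.near_frontier op H.sm H.d H.nh H.iff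
  obtain ⟨⟨r, C, hr, hb⟩, s, hs, hs'⟩ := h5 ρ (fun x => mu₁ x - mu₂ x) p H.sm
    (a₁.2.1.sub a₂.2.1) H.z H.d (nf.mono fun x hx h0 => sub_eq_zero.2 (mu_eq x (hx h0)))
  obtain ⟨-, t, ht, ht'⟩ := h5 ρ (fun x => mu₂ x - mu₁ x) p H.sm
    (a₂.2.1.sub a₁.2.1) H.z H.d (nf.mono fun x hx h0 => sub_eq_zero.2 (mu_eq x (hx h0)).symm)
  have s0 : s ≤ 0 := not_lt.1 fun h => by
    obtain ⟨r', c', hr', hc', hh⟩ := hs' h
    exact Bdry.notAB h1 h2 h3 h4 h6 H hr' hc' hh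
  have t0 : t ≤ 0 := not_lt.1 fun h => by
    obtain ⟨r', c', hr', hc', hh⟩ := ht' h
    exact Bdry.notAB h1 h2 h3 h4 h6 H.symm hr' hc' hh
  rw [fderiv_fun_sub (a₁.2.1.dAt p) (a₂.2.1.dAt p)] at hs
  rw [fderiv_fun_sub (a₂.2.1.dAt p) (a₁.2.1.dAt p)] at ht
  have st0 : (s + t) • fderiv ℝ ρ p = 0 := by rw [add_smul, ← hs, ← ht]; abel
  have st1 : s + t = 0 := (smul_eq_zero.1 st0).resolve_right H.d
  have s1 : s = 0 := by linarith
  rw [s1, zero_smul, sub_eq_zero] at hs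
  refine ⟨mu_eq p hp, hs, le_antisymm (Bdry.notC h1 h2 h3 h4 h7 H hr hb)
    (Bdry.notC h1 h2 h3 h4 h7 H.symm hr (C' := C) fun x hx => ?_)⟩
  rw [abs_sub_comm]
  exact hb x hx

end Vale.Agent.P136
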