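import Vale.Agent.P136.Stmts

/-!
# P136: cutoffs at scale `η`, interpolated moduli, extension of the moduli
-/

open MeasureTheory Set Metric
open scoped ContDiff Topology Manifold

noncomputable section
namespace Vale.Agent.P136

namespace Chi

/-- Convolution. -/
def cv (f ψ : E3 → ℝ) : E3 → ℝ := convolution f ψ (ContinuousLinearMap.lsmul ℝ ℝ) volume

lemma cv_apply (f ψ : E3 → ℝ) (x : E3) : cv f ψ x = ∫ t, f t * ψ (x - t) := rfl

lemma cv_sm {f ψ : E3 → ℝ} (hf : LocallyIntegrable f) (hψ : Tst ψ) : Sm (cv f ψ) :=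
  hψ.2.contDiff_convolution_right _ hf hψ.1

lemma cv_pd {f ψ : E3 → ℝ} (hf : LocallyIntegrable f) (hψ : Tst ψ) (j : Fin 3) :
    pd j (cv f ψ) = cv f (pd j ψ) := by
  funext x
  have h1 : ContDiff ℝ 1 ψ := hψ.1.of_le (by simp)
  rw [pd, cv, (hψ.2.hasFDerivAt_convolution_right _ hf h1 x).fderiv,
    convolution_precompR_apply _ hf (hψ.2.fderiv ℝ) (h1.continuous_fderiv one_ne_zero)]
  rfl

lemma cv_le {f ψ : E3 → ℝ} (hf : ∀ x, |f x| ≤ 1) (hψ : Tst ψ) (x : E3) :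
    |cv f ψ x| ≤ ∫ t, |ψ t| := by
  rw [← integral_sub_left_eq_self (fun t => |ψ t|) volume x]
  refine norm_integral_le_of_norm_le (f := fun t => f t * ψ (x - t))
    ((hψ.integrable (μ := volume)).abs.comp_sub_left x) (.of_forall fun t => ?_)
  rw [Real.norm_eq_abs, abs_mul]
  exact mul_le_of_le_one_left (abs_nonneg _) (hf t)

lemma pd_scale {F : E3 → ℝ} (hF : Sm F) (c d : ℝ) (j : Fin 3) :
    pd j (fun x => d * F (c • x)) = fun x => d * c * pd j F (c • x) := by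
  funext x
  have h := (((hF.dAt (c • x)).hasFDerivAt.comp x ((hasFDerivAt_id x).const_smul c)).const_mul d)
  rw [pd]
  refine (congrArg (· (EuclideanSpace.single j 1)) h.fderiv).trans ?_
  simp [pd, mul_assoc]

lemma bd {ι : Type} [Fintype ι] (f : ι → E3 → ℝ) (hf : ∀ i, Continuous (f i)) (R : ℝ) :
    ∃ M : ℝ, 0 ≤ M ∧ ∀ x ∈ ball (0 : E3) R, ∀ i, |f i x| ≤ M := by
  obtain ⟨M, hM⟩ := (isCompact_closedBall (0 : E3) R).exists_bound_of_continuousOn
    (f := fun x i => f i x) (continuous_pi hf).continuousOn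
  exact ⟨max M 0, le_max_right _ _, fun x hx i => (norm_le_pi_norm (fun i => f i x) i).trans
    ((hM x (ball_subset_closedBall hx)).trans (le_max_left _ _))⟩

lemma lip {F : Type} [NormedAddCommGroup F] [NormedSpace ℝ F] {f : E3 → F} (hf : ContDiff ℝ ∞ f)
    (r : ℝ) : ∃ L : ℝ, 0 ≤ L ∧ ∀ x ∈ closedBall (0 : E3) r, ∀ y ∈ closedBall (0 : E3) r,
      ‖f x - f y‖ ≤ L * ‖x - y‖ := by
  obtain ⟨L, hL⟩ := (isCompact_closedBall (0 : E3) r).exists_bound_of_continuousOn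
    (hf.continuous_fderiv (by simp)).continuousOn
  exact ⟨max L 0, le_max_right _ _, fun x hx y hy =>
    (convex_closedBall 0 r).norm_image_sub_le_of_norm_fderiv_le
      (fun z _ => hf.differentiable (by simp) z) (fun z hz => (hL z hz).trans (le_max_left _ _))
      hy hx⟩

lemma near {Ω : Set E3} (hb : Bornology.IsBounded Ω) : ∃ r : ℝ, ∀ x ∈ Ω, ∃ y ∈ frontier Ω,
    x ∈ closedBall (0 : E3) r ∧ y ∈ closedBall (0 : E3) r ∧ ‖x - y‖ = infDist x Ωᶜ := by
  obtain ⟨r, hr⟩ := hb.closure.subset_closedBall 0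
  refine ⟨r, fun x hx => ?_⟩
  obtain ⟨y, hy, h⟩ := exists_mem_frontier_infDist_compl_eq_dist hx
    (fun h => NormedSpace.unbounded_univ ℝ E3 (h ▸ hb))
  exact ⟨y, hy, hr (subset_closure hx), hr (frontier_subset_closure hy),
    by rw [h, dist_eq_norm]⟩

lemma van1 {Ω : Set E3} (hb : Bornology.IsBounded Ω) {h : E3 → ℝ} (hh : Sm h)
    (h0 : ∀ p ∈ frontier Ω, h p = 0) :
    ∃ B : ℝ, 0 ≤ B ∧ ∀ x ∈ Ω, |h x| ≤ B * infDist x Ωᶜ := by
  obtain ⟨r, hr⟩ := near hb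
  obtain ⟨L, hL0, hL⟩ := lip hh r
  refine ⟨L, hL0, fun x hx => ?_⟩
  obtain ⟨y, hy, h1, h2, h3⟩ := hr x hx
  simpa only [h0 y hy, sub_zero, h3, Real.norm_eq_abs] using hL x h1 y h2

lemma van2 {Ω : Set E3} (hb : Bornology.IsBounded Ω) {h : E3 → ℝ} (hh : Sm h)
    (h0 : ∀ p ∈ frontier Ω, h p = 0 ∧ fderiv ℝ h p = 0) :
    ∃ B : ℝ, 0 ≤ B ∧ ∀ x ∈ Ω, |h x| ≤ B * infDist x Ωᶜ ^ 2 ∧
      ∀ j, |pd j h x| ≤ B * infDist x Ωᶜ := by
  obtain ⟨r, hr⟩ := near hb
  obtain ⟨L, hL0, hL⟩ := lip (f := fderiv ℝ h) (hh.fderiv_right (by simp)) r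
  refine ⟨L, hL0, fun x hx => ?_⟩
  obtain ⟨y, hy, h1, h2, h3⟩ := hr x hx
  have h4 : ∀ z ∈ closedBall (0 : E3) r ∩ closedBall y ‖x - y‖, ‖fderiv ℝ h z‖ ≤ L * ‖x - y‖ :=
    fun z hz => by
      have h5 := hL z hz.1 y h2
      rw [(h0 y hy).2, sub_zero] at h5
      exact h5.trans (mul_le_mul_of_nonneg_left (mem_closedBall_iff_norm.1 hz.2) hL0)
  have h5 : x ∈ closedBall (0 : E3) r ∩ closedBall y ‖x - y‖ :=
    ⟨h1, mem_closedBall_iff_norm.2 le_rfl⟩
  rw [← h3]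
  refine ⟨?_, fun j => ?_⟩
  · simpa only [(h0 y hy).1, sub_zero, Real.norm_eq_abs, sq, mul_assoc] using
      ((convex_closedBall 0 r).inter (convex_closedBall y _)).norm_image_sub_le_of_norm_fderiv_le
        (fun z _ => hh.dAt z) h4 ⟨h2, mem_closedBall_self (norm_nonneg _)⟩ h5
  · simpa [pd] using (fderiv ℝ h x).le_of_opNorm_le (h4 x h5) (EuclideanSpace.single j 1)

/-- The properties of the cutoff. -/
def Cut (Ω : Set E3) (C η : ℝ) (χ : E3 → ℝ) : Prop :=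
  IsTest Ω χ ∧ (∀ x, 0 ≤ χ x ∧ χ x ≤ 1) ∧
    (∀ x, 3 * η ≤ infDist x Ωᶜ → χ x = 1) ∧ (∀ j x, |pd j χ x| ≤ C / η) ∧
    ∀ j k x, |pd j (pd k χ) x| ≤ C / η ^ 2

variable {Ω : Set E3} {C η : ℝ} {χ : E3 → ℝ}

lemma Cut.loc (hχ : Cut Ω C η χ) (x : E3) :
    (∀ j, pd j χ x = 0 ∧ ∀ k, pd k (pd j χ) x = 0) ∨ (x ∈ Ω ∧ infDist x Ωᶜ ≤ 3 * η) := by
  by_cases hx : x ∈ Ω
  · refine (le_or_gt _ _).symm.imp (fun h j => ?_) fun h => ⟨hx, h⟩
    have hU : IsOpen {y : E3 | 3 * η < infDist y Ωᶜ} :=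
      isOpen_lt continuous_const (continuous_infDist_pt _)
    have h1 : EqOn (pd j χ) (fun _ => 0) {y : E3 | 3 * η < infDist y Ωᶜ} := fun y hy =>
      (pd_congr_on hU (g := fun _ => 1) (fun z hz => hχ.2.2.1 z (le_of_lt hz)) j hy).trans
        (D_const _ _ _)
    exact ⟨h1 h, fun k => (pd_congr_on hU h1 k h).trans (D_const _ _ _)⟩
  · have h : x ∉ tsupport χ := fun h => hx (hχ.1.2.2 h)
    exact Or.inl fun j => ⟨D_eq_zero_of_notMem h _,
      fun k => D_eq_zero_of_notMem (fun h' => h (tsupport_D _ _ h')) _⟩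

lemma Cut.one (hχ : Cut Ω C η χ) (hη : 0 < η) {B : ℝ} (hB : 0 ≤ B) {g : E3 → ℝ}
    (hg : ∀ x ∈ Ω, |g x| ≤ B * infDist x Ωᶜ) (j : Fin 3) (x : E3) :
    |pd j χ x * g x| ≤ 3 * B * |C| := by
  rcases hχ.loc x with h | ⟨h1, h2⟩
  · rw [(h j).1, zero_mul, abs_zero]
    positivity
  · rw [abs_mul]
    calc _ ≤ |C| / η * (B * (3 * η)) := by
          gcongr
          · exact (hχ.2.2.2.1 j x).trans (by gcongr; exact le_abs_self C)
          · exact (hg x h1).trans (by gcongr)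
      _ = _ := by field_simp

lemma Cut.two (hχ : Cut Ω C η χ) (hη : 0 < η) {B : ℝ} (hB : 0 ≤ B) {g : E3 → ℝ}
    (hg : ∀ x ∈ Ω, |g x| ≤ B * infDist x Ωᶜ ^ 2) (j k : Fin 3) (x : E3) :
    |pd j (pd k χ) x * g x| ≤ 9 * B * |C| := by
  rcases hχ.loc x with h | ⟨h1, h2⟩
  · rw [(h k).2 j, zero_mul, abs_zero]
    positivity
  · rw [abs_mul]
    calc _ ≤ |C| / η ^ 2 * (B * (3 * η) ^ 2) := by
          gcongr
          · exact (hχ.2.2.2.2 j k x).trans (by gcongr; exact le_abs_self C)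
          · exact (hg x h1).trans (by gcongr; exact infDist_nonneg)
      _ = _ := by
          field_simp
          norm_num

lemma Cut.zero (hχ : Cut Ω C η χ) (x : E3) (t : ℝ) : |χ x * t| ≤ |t| := by
  rw [abs_mul, abs_of_nonneg (hχ.2.1 x).1]
  exact mul_le_of_le_one_left (abs_nonneg _) (hχ.2.1 x).2

lemma Cut.diff (hχ : Cut Ω C η χ) (hη : 0 < η) {B : ℝ} (hB : 0 ≤ B) {f g : E3 → ℝ}
    (hg : ∀ x ∈ Ω, |f x - g x| ≤ B * infDist x Ωᶜ) {x : E3} (hx : x ∈ Ω) :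
    |g x + χ x * (f x - g x) - f x| ≤ 3 * B * η := by
  rcases le_or_gt (3 * η) (infDist x Ωᶜ) with h | h
  · rw [hχ.2.2.1 x h, one_mul, add_sub_cancel, sub_self, abs_zero]
    positivity
  · rw [show g x + χ x * (f x - g x) - f x = -((1 - χ x) * (f x - g x)) by ring, abs_neg, abs_mul,
      abs_of_nonneg (sub_nonneg.2 (hχ.2.1 x).2)]
    calc _ ≤ 1 * (B * (3 * η)) := by
          gcongr
          · linarith [(hχ.2.1 x).1]
          · exact (hg x hx).trans (by gcongr)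
      _ = _ := by ring

lemma pd_int {χ g h : E3 → ℝ} (hχ : Sm χ) (hg : Sm g) (hh : Sm h) (j : Fin 3) :
    pd j (fun x => g x + χ x * h x) =
      fun x => pd j g x + χ x * pd j h x + pd j χ x * h x := by
  funext x
  simp only [pd_eq_D]
  rw [D_add_at (hg.dAt x) ((hχ.mul hh).dAt x), D_mul_at (hχ.dAt x) (hh.dAt x), add_assoc]

lemma pd_int2 {χ g h : E3 → ℝ} (hχ : Sm χ) (hg : Sm g) (hh : Sm h) (j k : Fin 3) (x : E3) :
    pd j (pd k fun x => g x + χ x * h x) x = pd j (pd k g) x + χ x * pd j (pd k h) x +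
      pd j χ x * pd k h x + pd k χ x * pd j h x + pd j (pd k χ) x * h x := by
  have h1 : Sm (pd k χ) := hχ.D _
  have h2 : Sm (pd k g) := hg.D _
  have h3 : Sm (pd k h) := hh.D _
  rw [pd_int hχ hg hh, pd_int h1 (h2.add (hχ.mul h3)) hh, pd_int hχ h2 h3]

end Chi

open Chi

theorem s_chi : S_chi := by
  have hφ : Tst (zeta.normed volume) := ⟨zeta.contDiff_normed, zeta.hasCompactSupport_normed⟩
  have hφ1 : ∀ j, Tst (pd j (zeta.normed volume)) := fun j => hφ.D _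
  have hφ2 : ∀ j k, Tst (pd j (pd k (zeta.normed volume))) := fun j k => (hφ1 k).D _
  obtain ⟨C₁, h₁⟩ := (Set.finite_range fun j => ∫ t, |pd j (zeta.normed volume) t|).bddAbove
  obtain ⟨C₂, h₂⟩ := (Set.finite_range fun p : Fin 3 × Fin 3 =>
    ∫ t, |pd p.1 (pd p.2 (zeta.normed volume)) t|).bddAbove
  refine ⟨max 0 (max C₁ C₂), le_max_left _ _, fun Ω η hΩ hb hη => ?_⟩
  obtain ⟨K, hK⟩ : ∃ K : Set E3, K = {y | 2 * η ≤ infDist (η • y) Ωᶜ} := ⟨_, rfl⟩
  have hKm : MeasurableSet K := by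
    rw [hK]
    exact (isClosed_le continuous_const
      ((continuous_infDist_pt _).comp (continuous_const_smul η))).measurableSet
  have hf : LocallyIntegrable (K.indicator fun _ => (1 : ℝ)) :=
    (locallyIntegrable_const 1).indicator hKm
  have hf1 : ∀ x, |K.indicator (fun _ => (1 : ℝ)) x| ≤ 1 := fun x => by
    by_cases h : x ∈ K <;> simp [h]
  have hd : ∀ x t : E3, zeta.normed volume (η⁻¹ • x - t) ≠ 0 → dist x (η • t) ≤ η := by
    intro x t h
    have h1 : η⁻¹ • x - t ∈ Function.support (zeta.normed volume) := h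
    rw [zeta.support_normed_eq, mem_ball_zero_iff] at h1
    rw [dist_eq_norm, show x - η • t = η • (η⁻¹ • x - t) by rw [smul_sub, smul_inv_smul₀ hη.ne'],
      norm_smul, Real.norm_of_nonneg hη.le]
    exact mul_le_of_le_one_right hη.le h1.le
  have hs := cv_sm hf hφ
  have ht : tsupport (fun x => 1 * cv (K.indicator fun _ => 1) (zeta.normed volume) (η⁻¹ • x)) ⊆
      Ω := by
    refine (closure_minimal (t := {x | η ≤ infDist x Ωᶜ}) (fun x hx => ?_)
      (isClosed_le continuous_const (continuous_infDist_pt _))).trans fun x hx => ?_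
    · by_contra h
      refine hx ?_
      beta_reduce
      rw [one_mul, cv_apply]
      refine integral_eq_zero_of_ae (.of_forall fun t => ?_)
      by_contra h1
      obtain ⟨h2, h3⟩ := mul_ne_zero_iff.1 h1
      have h4 : 2 * η ≤ infDist (η • t) Ωᶜ := by
        simpa only [hK, mem_setOf_eq] using mem_of_indicator_ne_zero h2
      have h5 := infDist_le_infDist_add_dist (x := η • t) (y := x) (s := Ωᶜ)
      rw [dist_comm] at h5
      exact h (show η ≤ _ by linarith [hd x t h3])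
    · by_contra h
      have h1 : η ≤ infDist x Ωᶜ := hx
      rw [infDist_zero_of_mem h] at h1
      exact h1.not_gt hη
  refine ⟨fun x => 1 * cv (K.indicator fun _ => 1) (zeta.normed volume) (η⁻¹ • x),
    ⟨(Sm.cmul 1 (hs.comp (contDiff_const_smul η⁻¹)) :),
      isCompact_of_isClosed_isBounded (isClosed_tsupport _) (hb.subset ht), ht⟩,
    fun x => ⟨?_, ?_⟩, fun x hx => ?_, fun j x => ?_, fun j k x => ?_⟩
  · beta_reduce
    rw [one_mul, cv_apply]
    exact integral_nonneg fun t =>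
      mul_nonneg (indicator_nonneg (fun _ _ => zero_le_one) t) (zeta.nonneg_normed _)
  · beta_reduce
    rw [one_mul]
    refine (le_abs_self _).trans ((cv_le hf1 hφ _).trans_eq ?_)
    simp only [abs_of_nonneg (zeta.nonneg_normed _), zeta.integral_normed]
  · beta_reduce
    rw [one_mul, cv_apply]
    refine (integral_congr_ae (.of_forall fun t => ?_)).trans
      ((integral_sub_left_eq_self (zeta.normed volume) volume (η⁻¹ • x)).trans
        zeta.integral_normed)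
    by_cases h : zeta.normed volume (η⁻¹ • x - t) = 0
    · simp only [h, mul_zero]
    · have h1 := infDist_le_infDist_add_dist (x := x) (y := η • t) (s := Ωᶜ)
      have h2 : t ∈ K := by
        rw [hK]
        change 2 * η ≤ _
        linarith [hd x t h]
      simp only [indicator_of_mem h2, one_mul]
  · rw [pd_scale hs, cv_pd hf hφ, one_mul, abs_mul, abs_of_pos (inv_pos.2 hη), inv_mul_eq_div]
    gcongr
    exact (cv_le hf1 (hφ1 j) _).trans ((h₁ ⟨j, rfl⟩).trans (le_max_of_le_right (le_max_left _ _)))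
  · rw [pd_scale hs, cv_pd hf hφ, pd_scale (cv_sm hf (hφ1 k)), cv_pd hf (hφ1 k), one_mul, abs_mul,
      ← mul_inv, ← sq, abs_of_pos (by positivity), inv_mul_eq_div]
    gcongr
    exact (cv_le hf1 (hφ2 j k) _).trans
      ((h₂ ⟨(j, k), rfl⟩).trans (le_max_of_le_right (le_max_right _ _)))

theorem s_eta (h : S_chi) : S_eta := by
  intro c R Ω lam₁ mu₁ lam₂ mu₂ hΩ hb ⟨sl₁, sm₁, a₁⟩ ⟨sl₂, sm₂, a₂⟩ hbd
  obtain ⟨C, -, hC⟩ := h
  have sg := sl₁.sub sl₂
  have sh := sm₁.sub sm₂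
  obtain ⟨B₁, b₁, hB₁⟩ := van1 hb sg fun p hp => sub_eq_zero.2 (hbd p hp).2.2
  obtain ⟨B₂, b₂, hB₂⟩ := van1 hb sh fun p hp => sub_eq_zero.2 (hbd p hp).1
  obtain ⟨B₃, b₃, hB₃⟩ := van2 hb sh fun p hp => ⟨sub_eq_zero.2 (hbd p hp).1, by
    rw [fderiv_fun_sub (sm₁.dAt p) (sm₂.dAt p), (hbd p hp).2.1, sub_self]⟩
  have sf : ∀ i, Sm (![lam₂, mu₂, fun x => lam₁ x - lam₂ x, fun x => mu₁ x - mu₂ x] i) := by
    intro i
    fin_cases i
    exacts [sl₂, sm₂, sg, sh]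
  obtain ⟨M₀, m₀, hM₀⟩ := bd _ (fun i => (sf i).cont) R
  obtain ⟨M₁, m₁, hM₁⟩ := bd _
    (fun i : Fin 4 × Fin 3 => ((sf i.1).D (EuclideanSpace.single i.2 1)).cont) R
  obtain ⟨M₂, m₂, hM₂⟩ := bd _ (fun i : Fin 4 × Fin 3 × Fin 3 =>
    (((sf i.1).D (EuclideanSpace.single i.2.2 1)).D (EuclideanSpace.single i.2.1 1)).cont) R
  have c₁ : 0 ≤ B₁ * |C| := by positivity
  have c₂ : 0 ≤ B₂ * |C| := by positivity
  have c₃ : 0 ≤ B₃ * |C| := by positivity
  refine ⟨2 * (M₀ + M₁ + M₂) + 3 * (B₁ + B₂) + 15 * (B₁ * |C| + B₂ * |C| + B₃ * |C|),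
    by positivity, fun η hη _ => ?_⟩
  obtain ⟨χ, hχ⟩ : ∃ χ, Cut Ω C η χ := hC Ω η hΩ hb hη
  have sχ : Sm χ := hχ.1.1
  refine ⟨fun x => lam₂ x + χ x * (lam₁ x - lam₂ x), fun x => mu₂ x + χ x * (mu₁ x - mu₂ x),
    ⟨sl₂.add (sχ.mul sg), sm₂.add (sχ.mul sh), fun x => ?_⟩,
    fun x hx => ⟨?_, ?_, fun j => ⟨?_, ?_⟩, fun j k => ?_⟩, fun x hx => ?_, fun x hx => ⟨?_, ?_⟩,
    fun x hx => ?_⟩
  · obtain ⟨h1, h2⟩ := hχ.2.1 x
    obtain ⟨h3, h4⟩ := a₁ x
    obtain ⟨h5, h6⟩ := a₂ x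
    have h7 := sub_nonneg.2 h2
    constructor
    · nlinarith [mul_nonneg h1 (sub_nonneg.2 h3), mul_nonneg h7 (sub_nonneg.2 h5)]
    · nlinarith [mul_nonneg h1 (sub_nonneg.2 h4), mul_nonneg h7 (sub_nonneg.2 h6)]
  · exact ((abs_add_le _ _).trans (add_le_add (hM₀ x hx 0)
      ((hχ.zero _ _).trans (hM₀ x hx 2)))).trans (by linarith)
  · exact ((abs_add_le _ _).trans (add_le_add (hM₀ x hx 1)
      ((hχ.zero _ _).trans (hM₀ x hx 3)))).trans (by linarith)
  · rw [pd_int sχ sl₂ sg]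
    exact ((abs_add_three _ _ _).trans (add_le_add_three (hM₁ x hx (0, j))
      ((hχ.zero _ _).trans (hM₁ x hx (2, j))) (hχ.one hη b₁ hB₁ j x))).trans (by linarith)
  · rw [pd_int sχ sm₂ sh]
    exact ((abs_add_three _ _ _).trans (add_le_add_three (hM₁ x hx (1, j))
      ((hχ.zero _ _).trans (hM₁ x hx (3, j))) (hχ.one hη b₂ hB₂ j x))).trans (by linarith)
  · rw [pd_int2 sχ sm₂ sh]
    exact ((abs_add_three _ _ _).trans (add_le_add_three ((abs_add_three _ _ _).trans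
      (add_le_add_three (hM₂ x hx (1, j, k)) ((hχ.zero _ _).trans (hM₂ x hx (3, j, k)))
        (hχ.one hη b₃ (fun y hy => (hB₃ y hy).2 k) j x)))
      (hχ.one hη b₃ (fun y hy => (hB₃ y hy).2 j) k x)
      (hχ.two hη b₃ (fun y hy => (hB₃ y hy).1) j k x))).trans (by linarith)
  · have h0 : χ x = 0 := image_eq_zero_of_notMem_tsupport fun h => hx (hχ.1.2.2 h)
    simp only [h0, zero_mul, add_zero, and_self]
  · exact (hχ.diff hη b₁ hB₁ hx).trans (mul_le_mul_of_nonneg_right (by linarith) hη.le)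
  · exact (hχ.diff hη b₂ hB₂ hx).trans (mul_le_mul_of_nonneg_right (by linarith) hη.le)
  · simp only [hχ.2.2.1 x hx, one_mul, add_sub_cancel, and_self]

theorem s_ext : S_ext := by
  intro Ω lam mu hb ⟨sl, sm, ha⟩
  have hc : Continuous fun x => min (mu x) (3 * lam x + 2 * mu x) := by
    have := sl.continuous
    have := sm.continuous
    fun_prop
  obtain ⟨K, hK, h1, h2⟩ := exists_compact_between hb.isCompact_closure
    (isOpen_lt continuous_const hc) fun x hx => lt_min (ha x hx).1 (ha x hx).2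
  obtain ⟨c, c0, h3⟩ := hK.exists_forall_le' hc.continuousOn h2
  obtain ⟨θ, h4, h5, h6⟩ := exists_contMDiffMap_zero_one_of_isClosed (n := ⊤) 𝓘(ℝ, E3)
    isOpen_interior.isClosed_compl isClosed_closure (disjoint_compl_left_iff_subset.2 h1)
  have sθ : Sm θ := θ.contMDiff.contDiff
  refine ⟨min c 1, lt_min c0 one_pos, fun x => θ x * lam x, fun x => θ x * mu x + (1 - θ x),
    ⟨sθ.mul sl, (sθ.mul sm).add ((Sm.const 1).sub sθ), fun x => ?_⟩, fun x hx => ?_⟩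
  · have h7 := min_le_left c 1
    have h8 := min_le_right c 1
    by_cases hx : x ∈ interior K
    · obtain ⟨h9, h10⟩ := le_min_iff.1 (h3 x (interior_subset hx))
      have h11 := sub_nonneg.2 (h6 x).2
      have h12 := mul_nonneg h11 (sub_nonneg.2 h8)
      constructor
      · nlinarith [mul_nonneg (h6 x).1 (sub_nonneg.2 (h7.trans h9))]
      · nlinarith [mul_nonneg (h6 x).1 (sub_nonneg.2 (h7.trans h10))]
    · have h9 : θ x = 0 := h4 hx
      simp only [h9]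
      constructor <;> linarith
  · have h9 : θ x = 1 := h5 hx
    simp only [h9, one_mul, sub_self, add_zero, and_self]

end Vale.Agent.P136
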