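import Vale.Agent.P136.Stmts

/-!
# P136: linear dependence of the transferred solution on the 1-jet
-/

open MeasureTheory Set Metric
open scoped ContDiff Topology

noncomputable section
namespace Vale.Agent.P136
namespace E0

lemma det_cd {κ : Type} [Fintype κ] [DecidableEq κ] {A : E3 → Matrix κ κ ℝ} {U : Set E3}
    (h : ∀ i j, ContDiffOn ℝ ∞ (fun x => A x i j) U) :
    ContDiffOn ℝ ∞ (fun x => (A x).det) U := by
  simp only [Matrix.det_apply']
  refine ContDiffOn.sum fun σ _ => contDiffOn_const.mul ?_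
  exact contDiffOn_prod fun i _ => h (σ i) i

/-- Solving a smooth linear system near a point where its matrix is the identity. -/
lemma solve {κ : Type} [Fintype κ] [DecidableEq κ] {A : E3 → Matrix κ κ ℝ} {U : Set E3}
    (hU : IsOpen U) {x₀ : E3} (hx : x₀ ∈ U) (h : ∀ i j, ContDiffOn ℝ ∞ (fun x => A x i j) U)
    (h0 : A x₀ = 1) : ∃ ρ : ℝ, 0 < ρ ∧ closedBall x₀ ρ ⊆ U ∧ ∀ j : κ → E3 → ℝ,
      (∀ k, ContDiffOn ℝ ∞ (j k) U) → ∃ s : κ → E3 → ℝ,
        (∀ k, ContinuousOn (s k) (closedBall x₀ ρ)) ∧ (∀ k, DifferentiableAt ℝ (s k) x₀) ∧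
        ∀ x ∈ closedBall x₀ ρ, ∀ k', ∑ k, A x k' k * s k x = j k' x := by
  have hd := det_cd h
  have hc : ContinuousAt (fun x => (A x).det) x₀ :=
    hd.continuousOn.continuousAt (hU.mem_nhds hx)
  have hne : (A x₀).det ≠ 0 := by rw [h0, Matrix.det_one]; exact one_ne_zero
  have hev : ∀ᶠ x in 𝓝 x₀, x ∈ U ∧ (A x).det ≠ 0 :=
    (hU.eventually_mem hx).and (hc.eventually_ne hne)
  obtain ⟨ρ, hρ, hb⟩ := Metric.nhds_basis_closedBall.eventually_iff.1 hev
  refine ⟨ρ, hρ, fun x hx => (hb hx).1, fun j hj => ?_⟩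
  have hcr : ∀ k, ContDiffOn ℝ ∞ (fun x => (A x).cramer (fun k' => j k' x) k) U := by
    intro k
    simp only [Matrix.cramer_apply]
    refine det_cd fun i i' => ?_
    simp only [Matrix.updateCol_apply]
    by_cases e : i' = k
    · simp only [e, if_true]; exact hj i
    · simp only [e, if_false]; exact h i i'
  refine ⟨fun k x => ((A x).det)⁻¹ * (A x).cramer (fun k' => j k' x) k, fun k => ?_,
    fun k => ?_, fun x hx k' => ?_⟩
  · refine ContinuousOn.mul (ContinuousOn.inv₀ ?_ fun x hx => (hb hx).2) ?_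
    · exact hd.continuousOn.mono fun x hx => (hb hx).1
    · exact (hcr k).continuousOn.mono fun x hx => (hb hx).1
  · exact ((dAt_of_on hU hd hx).inv hne).mul (dAt_of_on hU (hcr k) hx)
  · have e := congrFun (Matrix.mulVec_cramer (A x) (fun k' => j k' x)) k'
    simp only [Matrix.mulVec, dotProduct, Pi.smul_apply, smul_eq_mul] at e
    have hn := (hb hx).2
    calc ∑ k, A x k' k * (((A x).det)⁻¹ * (A x).cramer (fun k' => j k' x) k)
        = ((A x).det)⁻¹ * ∑ k, A x k' k * (A x).cramer (fun k' => j k' x) k := by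
          rw [Finset.mul_sum]; exact Finset.sum_congr rfl fun k _ => by ring
      _ = j k' x := by rw [e, ← mul_assoc, inv_mul_cancel₀ hn, one_mul]

/-- Index set of the 1-jet. -/
abbrev JI : Type := YI ⊕ (YI × Fin 3)

/-- The 1-jet. -/
def jet (W : YI → E3 → ℝ) : JI → E3 → ℝ :=
  Sum.elim W fun an => pd an.2 (W an.1)

lemma jet_cd {W : YI → E3 → ℝ} {U : Set E3} (hU : IsOpen U) (h : SmOn U W) (k : JI) :
    ContDiffOn ℝ ∞ (jet W k) U := by
  rcases k with a | ⟨a, n⟩
  · exact h a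
  · exact contDiffOn_pd hU (h a) n

lemma ike_sm {W : YI → E3 → ℝ} {U : Set E3} (hU : IsOpen U) (h : SmOn U W) : SmOn U (ike W) :=
  fun i => (h (some i)).add (contDiffOn_pd hU (h none) i)

lemma sum_JI (f : JI → ℝ) :
    ∑ k, f k = ∑ a, f (Sum.inl a) + ∑ a, ∑ n, f (Sum.inr (a, n)) := by
  rw [Fintype.sum_sum_type, Fintype.sum_prod_type]

/-- Derivative of a sum of products whose left factors vanish at the point. -/
lemma pd_sum_mul {κ : Type} [Fintype κ] {s v : κ → E3 → ℝ} {x : E3}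
    (hs : ∀ k, DifferentiableAt ℝ (s k) x) (hv : ∀ k, DifferentiableAt ℝ (v k) x)
    (h0 : ∀ k, s k x = 0) (l : Fin 3) :
    pd l (fun y => ∑ k, s k y * v k y) x = ∑ k, pd l (s k) x * v k x := by
  simp only [pd_eq_D]
  rw [D_sum_at Finset.univ (f := fun k y => s k y * v k y) fun k _ => (hs k).mul (hv k)]
  refine Finset.sum_congr rfl fun k _ => ?_
  rw [D_mul_at (hs k) (hv k), h0 k, zero_mul, zero_add]

end E0

open E0 in
theorem s_E0 (h1 : S_jets) (h2 : S_T) : S_E0 := by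
  classical
  intro c R₀ Ω lam₁ mu₁ lam₂ mu₂ b hS hL x₀ hx₀
  obtain ⟨hc, hR, hΩ, hcl, hA1, -, hI⟩ := hS
  have hΩb : Ω ⊆ ball 0 R₀ := subset_closure.trans hcl
  have hbb : ball (0 : E3) R₀ ⊆ ball 0 (R₀ + 4) := ball_subset_ball (by linarith)
  have hΩ4 : Ω ⊆ ball 0 (R₀ + 4) := hΩb.trans hbb
  -- solutions with prescribed 1-jet
  have hW : ∀ k : JI, ∃ W : SolSp b (R₀ + 4), ∀ k' : JI,
      jet W.1 k' x₀ = (1 : Matrix JI JI ℝ) k' k := by
    intro k
    obtain ⟨W, hW, hj⟩ := h1 YI b (R₀ + 4) x₀ hI.1 (hΩ4 hx₀)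
      (fun a => (1 : Matrix JI JI ℝ) (Sum.inl a) k)
      (fun a n => (1 : Matrix JI JI ℝ) (Sum.inr (a, n)) k) (fun _ _ _ => 0)
      (fun _ _ _ => rfl) (fun _ => by simp)
    refine ⟨⟨W, hW⟩, fun k' => ?_⟩
    rcases k' with a | ⟨a, n⟩
    · exact (hj a).1
    · exact (hj a).2.1 n
  choose Wk hWk using hW
  have hU : ∀ k : JI, ∃ u, IsT Ω lam₁ mu₁ (ike (Wk k).1) u := fun k =>
    (h2 R₀ c Ω (ball 0 (R₀ + 4)) lam₁ mu₁ (ike (Wk k).1) hc hΩ hΩb isOpen_ball (hcl.trans hbb)
      hA1 (ike_sm isOpen_ball (Wk k).2.1)).1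
  choose uk huk using hU
  set A : E3 → Matrix JI JI ℝ := fun x => Matrix.of fun k' k => jet (Wk k).1 k' x with hAdef
  have hAs : ∀ i j, ContDiffOn ℝ ∞ (fun x => A x i j) Ω := fun i j =>
    (jet_cd isOpen_ball (Wk j).2.1 i).mono hΩ4
  have hA0 : A x₀ = 1 := by
    ext k' k; exact hWk k k'
  obtain ⟨ρ, hρ, hρΩ, hsol⟩ := solve hΩ hx₀ hAs hA0
  refine ⟨fun i a => uk (Sum.inl a) i x₀, fun i a n => uk (Sum.inr (a, n)) i x₀,
    fun W u hu => ?_⟩
  obtain ⟨s, hsc, hsd, hs⟩ := hsol (jet W.1) fun k => (jet_cd isOpen_ball W.2.1 k).mono hΩ4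
  have hx0b : x₀ ∈ ball x₀ ρ := mem_ball_self hρ
  have hs0 : ∀ k, s k x₀ = jet W.1 k x₀ := by
    intro k
    rw [← hs x₀ (ball_subset_closedBall hx0b) k, hA0]
    simp [Matrix.one_apply]
  -- locality
  have hloc := hL (Option JI) (fun k => k.elim W Wk) (fun k => k.elim u uk)
    (fun k => k.elim (fun _ => 1) fun k x => -s k x) x₀ ρ hρΩ
    (fun k => by
      cases k with
      | none => exact hu
      | some k => exact huk k)
    (fun k => by
      cases k with
      | none => exact continuousOn_const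
      | some k => exact (hsc k).neg)
    (fun x hx a => by
      have key : ∀ k' : JI, jet W.1 k' x + ∑ k, -s k x * jet (Wk k).1 k' x = 0 := by
        intro k'
        rw [← hs x (ball_subset_closedBall hx) k', ← Finset.sum_add_distrib]
        refine Finset.sum_eq_zero fun k _ => ?_
        simp only [hAdef, Matrix.of_apply]; ring
      refine ⟨?_, fun j => ?_⟩
      · have := key (Sum.inl a)
        rw [Fintype.sum_option]
        simpa only [Option.elim, one_mul, jet, Sum.elim_inl] using this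
      · have := key (Sum.inr (a, j))
        rw [Fintype.sum_option]
        simpa only [Option.elim, one_mul, jet, Sum.elim_inr] using this)
  have heps : ∀ x ∈ ball x₀ ρ, ∀ m,
      eps lam₁ mu₁ u m x = ∑ k, s k x * eps lam₁ mu₁ (uk k) m x := by
    intro x hx m
    have := hloc x hx m
    rw [Fintype.sum_option] at this
    simp only [Option.elim, one_mul, neg_mul, Finset.sum_neg_distrib] at this
    linarith
  have hval : ∀ x ∈ ball x₀ ρ, ∀ i, u i x = ∑ k, s k x * uk k i x := fun x hx i =>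
    heps x hx (Sum.inl i)
  refine ⟨fun i => ?_, fun h0 => ?_⟩
  · rw [hval x₀ hx0b i, sum_JI]
    simp only [hs0, jet, Sum.elim_inl, Sum.elim_inr, mul_comm]
  have hj0 : ∀ k, jet W.1 k x₀ = 0 := by
    rintro (a | ⟨a, n⟩)
    · exact (h0 a).1
    · exact (h0 a).2 n
  have hs00 : ∀ k, s k x₀ = 0 := fun k => (hs0 k).trans (hj0 k)
  refine ⟨fun m => ?_, fun i l => ?_⟩
  · rw [heps x₀ hx0b m]
    simp only [hs00, zero_mul, Finset.sum_const_zero]
  have hds : ∀ k', pd l (s k') x₀ = pd l (jet W.1 k') x₀ := by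
    intro k'
    have e1 : EqOn (jet W.1 k') (fun x => ∑ k, s k x * A x k' k) (ball x₀ ρ) := by
      intro x hx
      rw [← hs x (ball_subset_closedBall hx) k']
      exact Finset.sum_congr rfl fun k _ => mul_comm _ _
    rw [pd_congr_on isOpen_ball e1 l hx0b,
      pd_sum_mul hsd (fun k => dAt_of_on hΩ (hAs k' k) hx₀) hs00 l, hA0]
    simp [Matrix.one_apply]
  have e2 : EqOn (u i) (fun x => ∑ k, s k x * uk k i x) (ball x₀ ρ) := fun x hx => hval x hx i
  rw [pd_congr_on isOpen_ball e2 l hx0b,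
    pd_sum_mul hsd (fun k => dAt_of_on hΩ ((huk k).1 i) hx₀) hs00 l, sum_JI]
  simp only [hds, jet, Sum.elim_inl, Sum.elim_inr, (h0 _).2, zero_mul, Finset.sum_const_zero,
    zero_add, mul_comm]

end Vale.Agent.P136
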