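import Vale.Agent.P136.Stmts

/-! # P136: the algebra of the endgame -/

open MeasureTheory Set Metric
open scoped ContDiff Topology

noncomputable section
namespace Vale.Agent.P136

namespace E12

lemma pd_const (j : Fin 3) (c : ℝ) : pd j (fun _ => c) = fun _ => 0 := funext (D_const c _)

lemma pd_lin (q : Fin 3 → ℝ) (x₀ : E3) (j : Fin 3) :
    pd j (fun y => ∑ k, q k * (y k - x₀ k)) = fun _ => q j := by
  funext y
  have h : ∀ k, HasFDerivAt (fun y : E3 => q k * (y k - x₀ k))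
      (q k • (EuclideanSpace.proj k : E3 →L[ℝ] ℝ)) y := fun k =>
    ((EuclideanSpace.proj k : E3 →L[ℝ] ℝ).hasFDerivAt.sub_const (x₀ k)).const_mul (q k)
  rw [pd, (HasFDerivAt.fun_sum fun k _ => h k).fderiv]
  simp

lemma lame_aff {u : Fin 3 → E3 → ℝ} {Q : Fin 3 → Fin 3 → ℝ} (hQ : ∀ i j, Q i j = -Q j i)
    (h : ∀ i j, pd j (u i) = fun _ => Q i j) (lam mu : E3 → ℝ) (i : Fin 3) (x : E3) :
    lame lam mu u i x = 0 := by
  have h1 : dv u = fun _ => 0 := funext fun y => Finset.sum_eq_zero fun j _ => by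
    rw [h]
    linarith [hQ j j]
  simp only [lame, lap, h, h1, pd_const, hQ i, neg_add_cancel, mul_zero, zero_mul, add_zero,
    Finset.sum_const_zero]

lemma mem_sol {ι : Type} [Fintype ι] {b : Coef ι} {R : ℝ} {W : ι → E3 → ℝ}
    (h : SmOn (ball 0 (R + 1)) W) (h' : ∀ y ∈ ball (0 : E3) (R + 1), ∀ a, sysL b W a y = 0) :
    W ∈ SolSp b R := by
  have s1 : ball (0 : E3) R ⊆ ball 0 (R + 1) := ball_subset_ball (by linarith)
  refine ⟨fun a => (h a).mono s1, fun a => ?_, fun y hy => h' y (s1 hy)⟩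
  exact (memLp_two_iff_integrable_sq (((h a).continuousOn.mono s1).aestronglyMeasurable
    measurableSet_ball)).2 (((((h a).continuousOn.mono
      (closedBall_subset_ball (by linarith))).pow 2).integrableOn_compact
      (isCompact_closedBall 0 R)).mono_set ball_subset_closedBall)

lemma smOn_ike {U : Set E3} (hU : IsOpen U) {W : YI → E3 → ℝ} (h : SmOn U W) : SmOn U (ike W) :=
  fun i => (h (some i)).add (contDiffOn_pd hU (h none) i)

lemma pos {c : ℝ} {lam mu : E3 → ℝ} (hc : 0 < c) (h : UAdm c lam mu) (x : E3) :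
    0 < mu x ∧ 0 < lam x + 2 * mu x := by
  obtain ⟨h1, h2⟩ := h.2.2 x
  exact ⟨by linarith, by linarith⟩

/-- Solutions with vanishing 1-jet and prescribed Hessians. -/
lemma hess (h1 : S_jets) {b : Coef YI} (hb : SmC b) {R : ℝ} {x : E3} (hx : x ∈ ball (0 : E3) R)
    (a : YI) {d : Fin 3 → ℝ} (hd : ∑ j, d j = 0) : ∃ W ∈ SolSp b R,
      (∀ c, W c x = 0 ∧ ∀ n, pd n (W c) x = 0) ∧
      ∀ c j k, pd j (pd k (W c)) x = if c = a then if k = j then d j else 0 else 0 := by
  obtain ⟨W, hW, h⟩ := h1 YI b R x hb hx 0 0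
    (fun c j k => if c = a then if k = j then d j else 0 else 0)
    (fun c j k => by
      by_cases e : k = j
      · rw [e]
      · rw [if_neg e, if_neg (Ne.symm e)])
    (fun c => by by_cases e : c = a <;> simp [e, hd])
  refine ⟨W, hW, fun c => ⟨(h c).1, (h c).2.1⟩, fun c j k => ?_⟩
  have h2 := hW.2.2 x hx c
  simp only [sysL, fun c => (h c).2.1, Pi.zero_apply, mul_zero, Finset.sum_const_zero,
    add_zero] at h2
  simpa only [h2, zero_div, ite_self, sub_zero] using (h c).2.2 j k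

lemma scalar {φ : Fin 3 → Fin 3 → ℝ} (h : ∀ d : Fin 3 → ℝ, ∑ j, d j = 0 →
    ∑ i, φ i i * d i = 0 ∧ ∀ i l, φ i l * d l = φ l i * d i) (i n : Fin 3) :
    φ i n = if n = i then φ 0 0 else 0 := by
  obtain ⟨a1, a2⟩ := h ![1, -1, 0] (by simp [Fin.sum_univ_three])
  obtain ⟨b1, b2⟩ := h ![0, 1, -1] (by simp [Fin.sum_univ_three])
  have := a2 0 1; have := a2 0 2; have := a2 1 2; have := b2 0 1; have := b2 0 2; have := b2 1 2
  simp [Fin.sum_univ_three] at *
  fin_cases i <;> fin_cases n <;> simp <;> linarith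

/-- The first derivatives of `ike W` and of its divergence. -/
lemma jet {c : ℝ} {lam mu : E3 → ℝ} {b : Coef YI} (hc : 0 < c) (hA : UAdm c lam mu)
    (hb : IkeProp lam mu b) {R : ℝ} {W : YI → E3 → ℝ} (hW : W ∈ SolSp b R) {x : E3}
    (hx : x ∈ ball (0 : E3) R) (h1 : ∀ j, pd j (W none) x = 0) (h2 : ∑ i, pd i (W (some i)) x = 0)
    (h3 : ∀ j k, pd j (pd k (W none)) x = if j = k then lap (W none) x / 3 else 0) :
    (∀ i j, pd j (ike W i) x = pd j (W (some i)) x) ∧ dv (ike W) x = 0 ∧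
      ∀ k, (lam x + 2 * mu x) * pd k (dv (ike W)) x = mu x * ∑ i, pd k (pd i (W (some i))) x := by
  have h4 := fun y hy => (hb.2.1 _ W isOpen_ball hW.1 hW.2.2 y hy).2
  have d1 := fun a i => dAt_of_on isOpen_ball (contDiffOn_pd isOpen_ball (hW.1 a) i) hx
  have e1 : ∀ i j, pd j (ike W i) x = pd j (W (some i)) x + pd j (pd i (W none)) x := fun i j =>
    D_add_at (dAt_of_on isOpen_ball (hW.1 _) hx) (d1 _ _) _
  have e2 : dv (ike W) x = 0 := by
    have h5 := h4 x hx
    simp only [h1, h2, mul_zero, Finset.sum_const_zero, sub_zero] at h5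
    exact (mul_eq_zero.1 h5).resolve_left (pos hc hA x).2.ne'
  have e3 : lap (W none) x = 0 := by
    simpa only [dv, lap, e1, Finset.sum_add_distrib, h2, zero_add] using e2
  simp only [e3, zero_div, ite_self] at h3
  refine ⟨fun i j => by rw [e1, h3, add_zero], e2, fun k => ?_⟩
  have d2 : DifferentiableAt ℝ (dv (ike W)) x := DifferentiableAt.fun_sum fun i _ =>
    dAt_of_on isOpen_ball (contDiffOn_pd isOpen_ball (smOn_ike isOpen_ball hW.1 i) i) hx
  have d3 := fun i => ((hA.2.1.D (EuclideanSpace.single i 1)).dAt x).fun_mul (d1 none i)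
  have d4 := DifferentiableAt.fun_sum fun i (_ : i ∈ Finset.univ) => d1 (some i) i
  have h5 := pd_congr_on isOpen_ball h4 k hx
  simp only [pd_eq_D] at *
  rw [D_mul_at ((hA.1.add (hA.2.1.cmul 2)).dAt x) d2, D_sub_at ((hA.2.1.dAt x).fun_mul d4)
    ((DifferentiableAt.fun_sum fun i _ => d3 i).const_mul 2), D_mul_at (hA.2.1.dAt x) d4,
    D_const_mul_at (DifferentiableAt.fun_sum fun i _ => d3 i), D_sum_at _ fun i _ => d3 i,
    D_sum_at _ fun i _ => d1 (some i) i] at h5
  simpa only [fun i => D_mul_at ((hA.2.1.D (EuclideanSpace.single i 1)).dAt x) (d1 none i), h1, h2,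
    h3, e2, mul_zero, add_zero, Finset.sum_const_zero, sub_zero] using h5

end E12

open E12

theorem s_E1 (h0 : S_E0) (h1 : S_jets) (h2 : S_T) : S_E1 := by
  intro c R Ω lam₁ mu₁ lam₂ mu₂ b hS hL W u hu x hx i
  obtain ⟨Φ₀, Φ₁, hΦ⟩ := h0 c R Ω lam₁ mu₁ lam₂ mu₂ b hS hL x hx
  obtain ⟨hc, -, hΩ, hcl, a1, a2, hb⟩ := hS
  have hxR := hcl (subset_closure hx)
  have hT := fun W : SolSp b (R + 4) => h2 R c Ω _ lam₁ mu₁ _ hc hΩ (subset_closure.trans hcl)
    isOpen_ball (hcl.trans (ball_subset_ball (by linarith))) a1 (smOn_ike isOpen_ball W.2.1)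
  have hA : ∀ a i n, Φ₁ i a n = if n = i then Φ₁ 0 a 0 else 0 := fun a =>
    scalar (φ := fun i n => Φ₁ i a n) fun d hd => by
      obtain ⟨W, hW, w1, w2⟩ := hess h1 hb.1 (ball_subset_ball (by linarith : R ≤ R + 4) hxR) a hd
      obtain ⟨u, hu⟩ := (hT ⟨W, hW⟩).1
      obtain ⟨e1, e2⟩ := (hΦ ⟨W, hW⟩ u hu).2 w1
      have e3 : ∀ i l, pd l (u i) x = Φ₁ i a l * d l := fun i l => by simp [e2, w2]
      obtain ⟨p1, p2⟩ := pos hc a1 x
      refine ⟨?_, fun i l => ?_⟩
      · simpa only [dv, e3] using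
          (mul_eq_zero.1 (e1 (.inr (.inl ())))).resolve_left (div_pos p2 p1).ne'
      · rw [← e3, ← e3]
        exact sub_eq_zero.1 (e1 (.inr (.inr (i, l))))
  obtain ⟨σ, hσ⟩ : ∃ σ : YI → ℝ, ∀ a i n, Φ₁ i a n = if n = i then σ a else 0 := ⟨_, hA⟩
  simp only [hσ, ite_mul, zero_mul, Finset.sum_ite_eq', Finset.mem_univ, if_true] at hΦ
  have key : ∀ (W : YI → E3 → ℝ) (Q : Fin 3 → Fin 3 → ℝ), SmOn (ball 0 (R + 4 + 1)) W →
      (∀ y ∈ ball (0 : E3) (R + 4 + 1), ∀ a, sysL b W a y = 0) → (∀ i j, Q i j = -Q j i) →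
      (∀ i j, pd j (ike W i) = fun _ => Q i j) →
      ∀ i, ike W i x = ∑ a, Φ₀ i a * W a x + ∑ a, σ a * pd i (W a) x := fun W Q k1 k2 k3 k4 =>
    (hΦ ⟨W, mem_sol k1 k2⟩ _ ((hT ⟨W, mem_sol k1 k2⟩).2.2 fun y _ i => lame_aff k3 k4 _ _ i y)).1
  have hB : ∀ i a, Φ₀ i a = if some i = a then 1 else 0 := fun i a => by
    have e : ∀ i, ike (fun a' (_ : E3) => if a' = a then (1 : ℝ) else 0) i =
        fun _ => if some i = a then 1 else 0 := fun i => funext fun y => by
      simp only [ike, pd_const, add_zero]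
    have := key (fun a' _ => if a' = a then 1 else 0) 0 (fun _ => contDiffOn_const)
      (fun y _ a => by simp [sysL, lap, pd_const]) (by simp) (fun i j => by
        rw [e, pd_const]; rfl) i
    rw [e] at this
    simpa [pd_const] using this.symm
  have hC : ∀ Q : Fin 3 → Fin 3 → ℝ, (∀ i j, Q i j = -Q j i) → ∀ i,
      ∑ k, σ (some k) * Q k i = 0 := fun Q hQ i => by
    have e0 : rotW Q x none = fun _ => 0 := rfl
    have e1 : ∀ k, rotW Q x (some k) = fun y => ∑ j, Q k j * (y j - x j) := fun _ => rfl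
    have e : ∀ i, ike (rotW Q x) i = fun y => ∑ j, Q i j * (y j - x j) := fun i =>
      funext fun y => by simp only [ike, e0, e1, pd_const, add_zero]
    have := key (rotW Q x) Q (by
      rintro (_ | k)
      · exact contDiffOn_const
      · rw [e1]
        fun_prop) (fun y _ => hb.2.2.1 Q x hQ y) hQ (fun i j => by rw [e, pd_lin]) i
    rw [e] at this
    simpa [Fintype.sum_option, e0, e1, pd_const, pd_lin] using this.symm
  have hC' : ∀ k, σ (some k) = 0 := fun k => by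
    have q1 := hC !![0, 1, 0; -1, 0, 0; 0, 0, 0] fun i j => by fin_cases i <;> fin_cases j <;> simp
    have q2 := hC !![0, 0, 1; 0, 0, 0; -1, 0, 0] fun i j => by fin_cases i <;> fin_cases j <;> simp
    have := q1 0; have := q1 1; have := q2 0
    simp [Fin.sum_univ_three] at *
    fin_cases k <;> assumption
  have hD : σ none = 1 := by
    obtain ⟨f, hf, f1⟩ := h1 Unit (bs mu₂) (R + 4 + 1) x (fun i _ _ =>
      ((a2.2.1.D _).cmul 2).div a2.2.1 fun y => (pos hc a2 y).1.ne')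
      (ball_subset_ball (by linarith) hxR) 0 (fun _ _ => 1) 0 (fun _ _ _ => rfl) (by simp)
    have e : ∀ i, ike (kerW (f ())) i = fun _ => 0 := fun i => funext fun y => neg_add_cancel _
    have := key (kerW (f ())) 0 (by
      rintro (_ | k)
      · exact hf.1 ()
      · exact (contDiffOn_pd isOpen_ball (hf.1 ()) k).neg)
      (hb.2.2.2 _ _ isOpen_ball (hf.1 ()) fun y hy => hf.2.2 y hy ()) (by simp)
      (fun i j => by rw [e, pd_const]; rfl) 0
    have e0 : kerW (f ()) none = f () := rfl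
    have e1 : kerW (f ()) (some 0) x = -1 := congrArg Neg.neg ((f1 ()).2.1 0)
    rw [e] at this
    simp only [hB, ite_mul, one_mul, zero_mul, Finset.sum_ite_eq, Finset.mem_univ, if_true,
      Fintype.sum_option, hC', Finset.sum_const_zero, e0, e1, (f1 ()).2.1] at this
    linarith
  rw [(hΦ W u hu).1]
  simp only [hB, ite_mul, one_mul, zero_mul, Finset.sum_ite_eq, Finset.mem_univ, if_true]
  simp only [Fintype.sum_option, hC', hD, zero_mul, Finset.sum_const_zero, one_mul, add_zero, ike]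

theorem s_E2 (h1 : S_jets) : S_E2 := by
  intro c R Ω lam₁ mu₁ lam₂ mu₂ b ⟨hc, _, _, hcl, _, a2, hb⟩ h x hx
  have hxR := ball_subset_ball (by linarith : R ≤ R + 4) (hcl (subset_closure hx))
  obtain ⟨p1, p2⟩ := pos hc a2 x
  have key : ∀ W ∈ SolSp b (R + 4), dv (ike W) x = 0 → ∀ i,
      (lam₁ x * mu₂ x - mu₁ x * lam₂ x) * pd i (dv (ike W)) x +
      ∑ j, (pd j mu₁ x * mu₂ x - mu₁ x * pd j mu₂ x) * (pd j (ike W i) x + pd i (ike W j) x) = 0 :=
    fun W hW e i => by
      have e1 := h ⟨W, hW⟩ x hx i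
      have e2 := (hb.2.1 _ W isOpen_ball hW.1 hW.2.2 x hxR).1 i
      simp only [lame, e, Fin.sum_univ_three] at e1 e2 ⊢
      linear_combination mu₂ x * e1 - mu₁ x * e2
  have hl : lam₁ x * mu₂ x - mu₁ x * lam₂ x = 0 := by
    obtain ⟨W, hW, w1, w2⟩ := hess h1 hb.1 hxR (some 0) (d := ![1, -1, 0])
      (by simp [Fin.sum_univ_three])
    obtain ⟨j1, j2, j3⟩ := jet hc a2 hb hW hxR (w1 none).2 (by simp [fun c => (w1 c).2])
      (by simp [lap, w2])
    have e1 := key W hW j2 0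
    have e2 := j3 0
    simp only [j1, fun c => (w1 c).2, add_zero, mul_zero, Finset.sum_const_zero] at e1
    refine (mul_eq_zero.1 e1).resolve_right fun e => ?_
    simp [w2, e, p1.ne] at e2
  refine ⟨sub_eq_zero.1 hl, fun j => ?_⟩
  obtain ⟨W, hW, w⟩ := h1 YI b (R + 4) x hb.1 hxR 0
    (fun a j => a.elim 0 fun i => if i = j then 0 else 1) 0 (fun _ _ _ => rfl) (by simp)
  obtain ⟨j1, j2, -⟩ := jet hc a2 hb hW hxR (w none).2.1 (by simp [fun c => (w c).2.1])
    fun j k => sub_eq_zero.1 ((w none).2.2 j k)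
  have e := key W hW j2
  simp only [hl, j1, fun c => (w c).2.1, zero_mul, zero_add, Option.elim] at e
  have := e 0; have := e 1; have := e 2
  simp [Fin.sum_univ_three] at *
  fin_cases j <;> simp <;> linarith

end Vale.Agent.P136
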