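import Vale.Agent.P136.Basic

/-!
# P136: the dual estimate applied to `(u, κ div u, curl u)`
-/

open MeasureTheory Set Metric
open scoped ContDiff Topology

noncomputable section
namespace Vale.Agent.P136
namespace Est

lemma pd_const (j : Fin 3) (s : ℝ) : pd j (fun _ => s) = fun _ => 0 :=
  funext fun x => D_const s _ x

lemma lap_const (s : ℝ) (x : E3) : lap (fun _ => s) x = 0 := by
  simp [lap, pd_const]

lemma ieN_zero {ι : Type} [Fintype ι] (W : ι → E3 → ℝ) (x : E3) (r : ℝ) :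
    ieN W 0 x r = nrm (ball x r) W := by
  have h : ∀ j, pd j (0 : E3 → ℝ) = 0 := fun j => pd_const j 0
  simp [ieN, nrm, h]

lemma smOn_zero {ι : Type} (U : Set E3) : SmOn U (0 : ι → E3 → ℝ) := fun _ => contDiffOn_const

lemma smOn_eps {c : ℝ} (hc : 0 < c) {lam mu : E3 → ℝ} (h : UAdm c lam mu) {U : Set E3}
    (hU : IsOpen U) {u : Fin 3 → E3 → ℝ} (hu : SmOn U u) : SmOn U (eps lam mu u) := by
  rintro (i | _ | ⟨i, k⟩)
  · exact hu i
  · exact ((h.1.add (h.2.1.cmul 2)).contDiffOn.div h.2.1.contDiffOn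
      fun x _ => (hc.trans_le (h.2.2 x).1).ne').mul
      (ContDiffOn.sum fun i _ => contDiffOn_pd hU (hu i) i)
  · exact (contDiffOn_pd hU (hu i) k).sub (contDiffOn_pd hU (hu k) i)

lemma smOn_ike {U : Set E3} (hU : IsOpen U) {W : YI → E3 → ℝ} (hW : SmOn U W) : SmOn U (ike W) :=
  fun i => (hW (some i)).add (contDiffOn_pd hU (hW none) i)

lemma eps_lin (lam mu : E3 → ℝ) {U : Set E3} (hU : IsOpen U) {u u' : Fin 3 → E3 → ℝ}
    (hu : SmOn U u) (hu' : SmOn U u') (s t : ℝ) {x : E3} (hx : x ∈ U) (m : XI) :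
    eps lam mu (fun i y => s * u i y + t * u' i y) m x =
      s * eps lam mu u m x + t * eps lam mu u' m x := by
  have h : ∀ i j, pd j (fun y => s * u i y + t * u' i y) x =
      s * pd j (u i) x + t * pd j (u' i) x := fun i j => pd_lin_on hU (hu i) (hu' i) s t j hx
  rcases m with i | _ | ⟨i, k⟩
  · rfl
  · simp only [eps, dv, Sum.elim_inr, Sum.elim_inl, h, Finset.sum_add_distrib, ← Finset.mul_sum]
    ring
  · simp only [eps, Sum.elim_inr, h]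
    ring

/-- The algebraic form of `eps`. -/
def epsG (κ : ℝ) (u : Fin 3 → ℝ) (G : Fin 3 → Fin 3 → ℝ) : XI → ℝ :=
  Sum.elim u (Sum.elim (fun _ => κ * ∑ i, G i i) fun ik => G ik.1 ik.2 - G ik.2 ik.1)

lemma epsG_le {κ k : ℝ} (h : κ ^ 2 ≤ k) (u : Fin 3 → ℝ) (G : Fin 3 → Fin 3 → ℝ) (m : XI) :
    epsG κ u G m ^ 2 ≤ (3 * k + 4) * (∑ i, u i ^ 2 + ∑ i, ∑ j, G i j ^ 2) := by
  have hk : 0 ≤ k := (sq_nonneg κ).trans h
  have h1 : 0 ≤ ∑ i, u i ^ 2 := by positivity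
  have h2 : 0 ≤ ∑ i, ∑ j, G i j ^ 2 := by positivity
  have h3 : ∀ i j, G i j ^ 2 ≤ ∑ i, ∑ j, G i j ^ 2 := fun i j =>
    (Finset.single_le_sum (f := fun j => G i j ^ 2) (fun _ _ => sq_nonneg _)
      (Finset.mem_univ j)).trans (Finset.single_le_sum (f := fun i => ∑ j, G i j ^ 2)
        (fun _ _ => by positivity) (Finset.mem_univ i))
  rcases m with i | _ | ⟨i, j⟩
  · have h4 := Finset.single_le_sum (f := fun i => u i ^ 2) (fun _ _ => sq_nonneg _)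
      (Finset.mem_univ i)
    show u i ^ 2 ≤ _
    nlinarith [mul_nonneg hk (add_nonneg h1 h2)]
  · show (κ * ∑ i, G i i) ^ 2 ≤ _
    have h4 : (∑ i, G i i) ^ 2 ≤ 3 * ∑ i, ∑ j, G i j ^ 2 := by
      simp only [Fin.sum_univ_three]
      nlinarith [sq_nonneg (G 0 0 - G 1 1), sq_nonneg (G 0 0 - G 2 2), sq_nonneg (G 1 1 - G 2 2),
        sq_nonneg (G 0 1), sq_nonneg (G 0 2), sq_nonneg (G 1 0), sq_nonneg (G 1 2),
        sq_nonneg (G 2 0), sq_nonneg (G 2 1)]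
    rw [mul_pow]
    nlinarith [mul_le_mul h h4 (sq_nonneg _) hk, mul_nonneg hk h1]
  · show (G i j - G j i) ^ 2 ≤ _
    nlinarith [h3 i j, h3 j i, sq_nonneg (G i j + G j i), mul_nonneg hk (add_nonneg h1 h2)]

lemma kappa_le {c M R : ℝ} (hc : 0 < c) {lam mu : E3 → ℝ} (h : UAdm c lam mu)
    (hb : CBd M R lam mu) {y : E3} (hy : y ∈ ball (0 : E3) R) :
    ((lam y + 2 * mu y) / mu y) ^ 2 ≤ (3 * M / c) ^ 2 := by
  obtain ⟨h1, h2, -⟩ := hb y hy
  have h3 := (h.2.2 y).1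
  have h4 : |lam y + 2 * mu y| ≤ 3 * M := by
    rw [abs_le] at h1 h2 ⊢
    constructor <;> linarith [h1.1, h1.2, h2.1, h2.2]
  rw [← sq_abs, abs_div, abs_of_pos (hc.trans_le h3)]
  exact pow_le_pow_left₀ (div_nonneg (abs_nonneg _) (hc.le.trans h3))
    (div_le_div₀ ((abs_nonneg _).trans h4) h4 hc h3) 2

lemma nrm_le_of_pt {S : Set E3} (hS : MeasurableSet S) {d : XI → E3 → ℝ} {z : Fin 3 → E3 → ℝ}
    {Z : Fin 3 → Fin 3 → E3 → ℝ} (hz : ∀ i, MemLp (z i) 2 (volume.restrict S)) (hZ : L2M S Z)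
    {k : ℝ} (h : ∀ y ∈ S, ∀ m, d m y ^ 2 ≤ k * (∑ i, z i y ^ 2 + ∑ i, ∑ j, Z i j y ^ 2)) :
    nrm S d ≤ 13 * (k * (nrm S z + nrm2 S Z)) := by
  have i1 : Integrable (fun y => ∑ i, z i y ^ 2) (volume.restrict S) :=
    integrable_finsetSum _ fun i _ => integrable_sq_L2 (hz i)
  have i2 : Integrable (fun y => ∑ i, ∑ j, Z i j y ^ 2) (volume.restrict S) :=
    integrable_finsetSum _ fun i _ => integrable_finsetSum _ fun j _ => integrable_sq_L2 (hZ i j)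
  have e : ∫ y in S, k * (∑ i, z i y ^ 2 + ∑ i, ∑ j, Z i j y ^ 2) = k * (nrm S z + nrm2 S Z) := by
    rw [integral_const_mul, integral_add i1 i2, nrm2_eq hZ, nrm,
      integral_finsetSum _ fun i _ => integrable_sq_L2 (hz i)]
  have h1 : ∀ m ∈ Finset.univ, ∫ y in S, d m y ^ 2 ≤ k * (nrm S z + nrm2 S Z) := fun m _ => by
    rw [← e]
    refine integral_mono_of_nonneg (.of_forall fun y => sq_nonneg _) ((iadd i1 i2).const_mul k) ?_
    filter_upwards [ae_restrict_mem hS] with y hy using h y hy m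
  refine (Finset.sum_le_card_nsmul _ _ _ h1).trans_eq ?_
  simp

lemma wn_nonneg {ι : Type} [Fintype ι] (a ε τ R : ℝ) (x : E3) (W : ι → E3 → ℝ) :
    0 ≤ wn a ε τ R x W :=
  Finset.sum_nonneg fun _ _ => integral_nonneg fun _ => by positivity

lemma nrm_le_wn {ι : Type} [Fintype ι] {a ε τ R L : ℝ} (ha : 0 ≤ a) (hε : 0 ≤ ε) {x : E3}
    {S : Set E3} (hS : MeasurableSet S) (hs : S ⊆ ball 0 R) {W : ι → E3 → ℝ}
    (hW : ∀ c, MemLp (W c) 2 (volume.restrict (ball 0 R)))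
    (h : ∀ y ∈ S, 2 * phi a ε τ (x, y) ≤ L) : nrm S W ≤ Real.exp L * wn a ε τ R x W := by
  unfold nrm wn
  rw [Finset.mul_sum]
  refine Finset.sum_le_sum fun c _ => ?_
  have hf : IntegrableOn (fun y => W c y ^ 2) (ball 0 R) := integrable_sq_L2 (hW c)
  have hc : Continuous fun y : E3 => Real.exp (-(2 * phi a ε τ (x, y))) := by
    unfold phi F2
    fun_prop
  have hi : IntegrableOn (fun y => Real.exp (-(2 * phi a ε τ (x, y))) * W c y ^ 2) (ball 0 R) :=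
    Integrable.bdd_mul (c := Real.exp (-(2 * (τ * x 0)))) hf hc.aestronglyMeasurable
      (.of_forall fun y => by
        rw [Real.norm_eq_abs, abs_of_pos (Real.exp_pos _), Real.exp_le_exp]
        have h1 : 0 ≤ a / 2 * F2 (x, y) * (1 + ε * ‖x‖ ^ 2) := by
          unfold F2
          positivity
        unfold phi
        linarith)
  calc _ ≤ ∫ y in S, Real.exp L * (Real.exp (-(2 * phi a ε τ (x, y))) * W c y ^ 2) := by
        refine setIntegral_mono_on (hf.mono_set hs) ((hi.mono_set hs).const_mul _) hS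
          fun y hy => ?_
        rw [← mul_assoc, ← Real.exp_add]
        exact le_mul_of_one_le_left (sq_nonneg _) (Real.one_le_exp (by linarith [h y hy]))
    _ = Real.exp L * ∫ y in S, Real.exp (-(2 * phi a ε τ (x, y))) * W c y ^ 2 :=
        integral_const_mul _ _
    _ ≤ _ := mul_le_mul_of_nonneg_left
        (setIntegral_mono_set hi (.of_forall fun y => by positivity) hs.eventuallyLE)
        (Real.exp_pos L).le

lemma phi_le {a ε τ R s : ℝ} (ha : 0 ≤ a) (hε : 0 ≤ ε) {x y : E3} (hx : ‖x‖ ≤ R)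
    (h : a * ‖y - x‖ ^ 2 ≤ s) : 2 * phi a ε τ (x, y) ≤ s * (1 + ε * R ^ 2) + 2 * (|τ| * R) := by
  have h1 : τ * x 0 ≤ |τ| * R := by
    refine (le_abs_self _).trans ?_
    rw [abs_mul]
    exact mul_le_mul_of_nonneg_left ((PiLp.norm_apply_le x 0).trans hx)
      (abs_nonneg τ)
  have h2 : a * ‖y - x‖ ^ 2 * (1 + ε * ‖x‖ ^ 2) ≤ s * (1 + ε * R ^ 2) := by
    have h3 : 0 ≤ s := le_trans (by positivity) h
    gcongr
  unfold phi F2
  linarith

/-- The sum of the squares of the values and of the first derivatives. -/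
def QQ (e : XI → E3 → ℝ) (x : E3) : ℝ := ∑ m, e m x ^ 2 + ∑ m, ∑ j, pd j (e m) x ^ 2

lemma ike_bound (h3 : S_ie) (h4 : S_ikeBd) {c R ε : ℝ} (τ : ℝ) (hc : 0 < c) (hε : 0 ≤ ε)
    {lam mu : E3 → ℝ} {b : Coef YI} (hA : UAdm c lam mu) (hb : IkeProp lam mu b) :
    ∃ C : ℝ, 0 ≤ C ∧ ∀ a : ℝ, 1 ≤ a → ∀ x : E3, ‖x‖ ≤ R → ∀ W : SolSp b (R + 2),
      QQ (eps lam mu (ike W.1)) x ≤ C * (a ^ 3 * √a) * wn a ε τ (R + 2) x W.1 := by
  obtain ⟨C₄, hC₄, k4⟩ := h4 c R lam mu b hc hA hb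
  obtain ⟨C₃, hC₃, k3⟩ := h3 YI (fun i a a' y => -b i a a' y) (fun _ _ _ => 0)
    (fun i a a' => (hb.1 i a a').neg) (fun _ _ => Sm.const 0) R
  refine ⟨C₄ * (3 * C₃ * 128 * Real.exp (1 * (1 + ε * R ^ 2) + 2 * (|τ| * R))), by positivity,
    fun a ha x hx W => ?_⟩
  have hs : 1 ≤ √a := Real.one_le_sqrt.2 ha
  have hs2 : √a ^ 2 = a := Real.sq_sqrt (by linarith)
  have hr : 0 < 1 / (2 * √a) := by positivity
  have hr1 : 1 / (2 * √a) ≤ 1 := by
    rw [div_le_one (by positivity)]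
    linarith
  have hB : closedBall x (1 / (2 * √a)) ⊆ ball 0 (R + 2) :=
    closedBall_subset_ball' (by rw [dist_zero_right]; linarith)
  obtain ⟨e0, e1, e2⟩ := k3 W.1 0 _ x _ hr hr1 hx isOpen_ball hB W.2.1 (smOn_zero _)
    fun y hy a => by
      have h5 := W.2.2.2 y hy a
      simp only [neg_mul, Finset.sum_neg_distrib, zero_mul, Finset.sum_const_zero, Pi.zero_apply]
      unfold sysL at h5
      linarith
  rw [ieN_zero] at e0 e1 e2
  have hn := nrm_le_wn (τ := τ) (x := x) (by linarith : 0 ≤ a) hε measurableSet_ball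
    (ball_subset_closedBall.trans hB) W.2.2.1 fun y hy => phi_le (s := 1) (by linarith) hε hx (by
      have h5 : ‖y - x‖ ^ 2 ≤ (1 / (2 * √a)) ^ 2 :=
        pow_le_pow_left₀ (norm_nonneg _) (mem_ball_iff_norm.1 hy).le 2
      rw [div_pow, mul_pow, hs2, le_div_iff₀ (by positivity)] at h5
      nlinarith [mul_nonneg (by linarith : 0 ≤ a) (sq_nonneg ‖y - x‖)])
  have hN := nrm_nonneg (ball x (1 / (2 * √a))) W.1
  have e : ∀ n : ℕ, n ≤ 7 → C₃ * nrm (ball x (1 / (2 * √a))) W.1 / (1 / (2 * √a)) ^ n ≤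
      C₃ * nrm (ball x (1 / (2 * √a))) W.1 * (128 * (a ^ 3 * √a)) := fun n hn => by
    rw [one_div_pow, div_div_eq_mul_div, div_one]
    refine mul_le_mul_of_nonneg_left ((pow_le_pow_right₀ (by linarith) hn).trans_eq ?_)
      (mul_nonneg hC₃ hN)
    rw [show (2 * √a) ^ 7 = 128 * ((√a ^ 2) ^ 3 * √a) by ring, hs2]
  have e3 := k4 _ W.1 isOpen_ball W.2.1 W.2.2.2 x (hB (mem_closedBall_self hr.le)) hx
  calc _ ≤ C₄ * (3 * (C₃ * nrm (ball x (1 / (2 * √a))) W.1 * (128 * (a ^ 3 * √a)))) :=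
        e3.trans (mul_le_mul_of_nonneg_left (by
          linarith [e 3 (by norm_num), e 5 (by norm_num), e 7 le_rfl]) hC₄)
    _ ≤ C₄ * (3 * (C₃ * (Real.exp (1 * (1 + ε * R ^ 2) + 2 * (|τ| * R)) *
        wn a ε τ (R + 2) x W.1) * (128 * (a ^ 3 * √a)))) := by gcongr
    _ = _ := by ring

lemma gsol_sub {ι : Type} [Fintype ι] {A : Coef ι} {A0 : ι → ι → E3 → ℝ} {U : Set E3}
    (hU : IsOpen U) {W W' : ι → E3 → ℝ} (h : SmOn U W) (h' : SmOn U W') (g : GSol A A0 0 U W)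
    (g' : GSol A A0 0 U W') : GSol A A0 0 U fun a y => 1 * W a y + (-1) * W' a y := by
  intro y hy a
  have e : ∀ i a', pd i (fun y => 1 * W a' y + (-1) * W' a' y) y =
      1 * pd i (W a') y + (-1) * pd i (W' a') y := fun i a' =>
    pd_lin_on hU (h a') (h' a') 1 (-1) i hy
  rw [lap_lin_on hU (h a) (h' a) 1 (-1) hy]
  simp only [e]
  simp only [g y hy a, g' y hy a, one_mul, neg_mul, mul_add, mul_neg, Finset.sum_add_distrib,
    Finset.sum_neg_distrib, Pi.zero_apply]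
  ring

lemma lame_congr {lam mu lam' mu' : E3 → ℝ} {U : Set E3} (hU : IsOpen U) (h1 : EqOn lam lam' U)
    (h2 : EqOn mu mu' U) (u : Fin 3 → E3 → ℝ) (i : Fin 3) {x : E3} (hx : x ∈ U) :
    lame lam mu u i x = lame lam' mu' u i x := by
  simp only [lame, h1 hx, h2 hx, pd_congr_on hU h1 _ hx, pd_congr_on hU h2 _ hx]

lemma QQ_le {U : Set E3} (hU : IsOpen U) {e e' e'' : XI → E3 → ℝ} (h' : SmOn U e')
    (h'' : SmOn U e'') (h : ∀ m, EqOn (e m) (e' m) U) {x : E3} (hx : x ∈ U) :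
    QQ e x ≤ 2 * QQ e'' x + 2 * QQ (fun m y => 1 * e' m y + (-1) * e'' m y) x := by
  have s : ∀ p q : ℝ, p ^ 2 ≤ 2 * q ^ 2 + 2 * (1 * p + (-1) * q) ^ 2 := fun p q => by
    nlinarith [sq_nonneg (p - 2 * q)]
  have e1 : ∑ m, e m x ^ 2 ≤ ∑ m, (2 * e'' m x ^ 2 + 2 * (1 * e' m x + (-1) * e'' m x) ^ 2) :=
    Finset.sum_le_sum fun m _ => by rw [h m hx]; exact s _ _
  have e2 : ∑ m, ∑ j, pd j (e m) x ^ 2 ≤ ∑ m, ∑ j, (2 * pd j (e'' m) x ^ 2 +
      2 * pd j (fun y => 1 * e' m y + (-1) * e'' m y) x ^ 2) :=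
    Finset.sum_le_sum fun m _ => Finset.sum_le_sum fun j _ => by
      rw [pd_congr_on hU (h m) j hx, pd_lin_on hU (h' m) (h'' m) 1 (-1) j hx]
      exact s _ _
  simp only [Finset.sum_add_distrib, ← Finset.mul_sum] at e1 e2
  unfold QQ
  linarith

lemma ann_bound (h2 : S_xsys) (h3 : S_ie) (h4 : S_ikeBd) {c R₀ C₀ ε : ℝ} (M τ : ℝ) {Ω : Set E3}
    {lam₁ mu₁ lam₂ mu₂ : E3 → ℝ} {b : Coef YI} (hS : Setting c R₀ Ω lam₁ mu₁ lam₂ mu₂ b)
    (hC₀ : 0 ≤ C₀) (hε : 0 ≤ ε) : ∃ C : ℝ, 0 ≤ C ∧ ∀ a : ℝ, 1 ≤ a → ∃ η₀ : ℝ, 0 < η₀ ∧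
      ∀ (η : ℝ) (lam mu : E3 → ℝ) T, 0 < η → η ≤ η₀ →
      EtaCoef Ω lam₁ mu₁ lam₂ mu₂ c M (R₀ + 3) η lam mu → SecProp R₀ Ω lam₁ mu₁ b lam mu C₀ η T →
      ∀ x : E3, R₀ + 1 ≤ ‖x‖ → ‖x‖ ≤ R₀ + 2 → ∀ W,
        QQ (eps lam mu (T W)) x ≤ C * (a ^ 3 * √a) * wn a ε τ (R₀ + 4) x W.1 := by
  obtain ⟨hc, hR, hΩ, hΩR, -, hA₂, hb⟩ := hS
  obtain ⟨C₁, hC₁, k1⟩ := ike_bound h3 h4 (R := R₀ + 2) τ hc hε hA₂ hb
  rw [show R₀ + 2 + 2 = R₀ + 4 by ring] at k1
  obtain ⟨C₂, -, k2⟩ := h2 c 0 0 hc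
  obtain ⟨A, A0, hA, hA0, -, k2⟩ := k2 lam₂ mu₂ hA₂ fun x hx => by simp at hx
  obtain ⟨C₃, hC₃, k3⟩ := h3 XI A A0 hA hA0 (R₀ + 2)
  refine ⟨2 * C₁ + 2 * (C₃ * 40 * (13 * ((3 * (3 * M / c) ^ 2 + 4) * C₀))), by positivity,
    fun a ha => ⟨Real.exp (-(a * (2 * R₀ + 6) ^ 2 * (1 + ε * (R₀ + 2) ^ 2) +
      2 * (|τ| * (R₀ + 2))) / 2), Real.exp_pos _, fun η lam mu T hη hη₀ hE hT x x1 x2 W => ?_⟩⟩
  obtain ⟨t1, t2, t3, t4, -, t6, -⟩ := hT W
  have hw := wn_nonneg a ε τ (R₀ + 4) x W.1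
  have hY : η ^ 2 * nrm (ball 0 (R₀ + 4)) W.1 ≤ wn a ε τ (R₀ + 4) x W.1 := by
    have h5 := nrm_le_wn (τ := τ) (x := x) (by linarith : 0 ≤ a) hε measurableSet_ball
      (subset_refl _) W.2.2.1 fun y hy => phi_le (s := a * (2 * R₀ + 6) ^ 2) (by linarith) hε x2 (by
        have h6 : ‖y - x‖ ≤ 2 * R₀ + 6 := by
          linarith [norm_sub_le y x, mem_ball_zero_iff.1 hy]
        gcongr)
    have h6 := pow_le_pow_left₀ hη.le hη₀ 2
    rw [← Real.exp_nat_mul, Nat.cast_ofNat, mul_div_cancel₀ _ two_ne_zero, Real.exp_neg] at h6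
    refine (mul_le_mul h6 h5 (nrm_nonneg _ _) (by positivity)).trans_eq ?_
    rw [← mul_assoc, inv_mul_cancel₀ (Real.exp_pos _).ne', one_mul]
  have hU : IsOpen (ball (0 : E3) (R₀ + 3) \ closedBall 0 R₀) := isOpen_ball.sdiff isClosed_closedBall
  have hBY : ball (0 : E3) (R₀ + 3) ⊆ ball 0 (R₀ + 4) := ball_subset_ball (by linarith)
  have hUΩ : ball (0 : E3) (R₀ + 3) \ closedBall 0 R₀ ⊆ ball 0 (R₀ + 3) \ Ω := fun y hy =>
    ⟨hy.1, fun h => hy.2 (ball_subset_closedBall (hΩR (subset_closure h)))⟩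
  have hxU : closedBall x (1 / 2) ⊆ ball (0 : E3) (R₀ + 3) \ closedBall 0 R₀ := fun y hy => by
    have h5 := mem_closedBall_iff_norm.1 hy
    refine ⟨mem_ball_zero_iff.2 ?_, fun h => ?_⟩
    · linarith [norm_le_norm_add_norm_sub' y x]
    · linarith [norm_le_norm_add_norm_sub y x, mem_closedBall_zero_iff.1 h]
  have q1 : EqOn lam lam₂ (ball (0 : E3) (R₀ + 3) \ closedBall 0 R₀) := fun y hy =>
    (hE.2.2.1 y (hUΩ hy).2).1
  have q2 : EqOn mu mu₂ (ball (0 : E3) (R₀ + 3) \ closedBall 0 R₀) := fun y hy =>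
    (hE.2.2.1 y (hUΩ hy).2).2
  have s0 := smOn_ike isOpen_ball W.2.1
  have s1 : SmOn (ball (0 : E3) (R₀ + 3) \ closedBall 0 R₀) (T W) := fun i =>
    (t1 i).mono sdiff_subset
  have s2 : SmOn (ball (0 : E3) (R₀ + 3) \ closedBall 0 R₀) (ike W.1) := fun i =>
    (s0 i).mono (sdiff_subset.trans hBY)
  have s3 := smOn_eps hc hA₂ hU s1
  have s4 := smOn_eps hc hA₂ hU s2
  have g := gsol_sub hU s3 s4
    (k2 _ _ hU s1 fun y hy i => (lame_congr hU q1 q2 _ i hy).symm.trans (t2 y hy.1 i))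
    (k2 _ _ hU s2 fun y hy i => (hb.2.1 _ _ isOpen_ball W.2.1 W.2.2.2 y (hBY hy.1)).1 i)
  obtain ⟨e0, e1, -⟩ := k3 _ 0 _ x (1 / 2) (by norm_num) (by norm_num) x2 hU hxU
    (fun m => (contDiffOn_const.mul (s3 m)).add (contDiffOn_const.mul (s4 m))) (smOn_zero _) g
  rw [ieN_zero] at e0 e1
  have hcl : closure (ball (0 : E3) (R₀ + 3)) ⊆ ball 0 (R₀ + 4) :=
    closure_ball_subset_closedBall.trans (closedBall_subset_ball (by linarith))
  have m1 : ∀ i, MemLp ((T W - ike W.1) i) 2 (volume.restrict (ball 0 (R₀ + 3) \ Ω)) := fun i =>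
    ((t3 i).sub (memLp_of_continuousOn measurableSet_ball (subset_refl _) hcl
      (s0 i).continuousOn)).mono_measure (Measure.restrict_mono sdiff_subset le_rfl)
  have m2 : L2M (ball 0 (R₀ + 3) \ Ω) (grad (T W) - grad (ike W.1)) :=
    (t4.sub fun i j => memLp_of_continuousOn measurableSet_ball (subset_refl _) hcl
      (contDiffOn_pd isOpen_ball (s0 i) j).continuousOn).mono sdiff_subset
  have hb' := (ball_subset_closedBall.trans hxU).trans hUΩ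
  have n1 := nrm_le_of_pt (d := fun m y => 1 * eps lam₂ mu₂ (T W) m y +
      (-1) * eps lam₂ mu₂ (ike W.1) m y) (k := 3 * (3 * M / c) ^ 2 + 4) measurableSet_ball
    (fun i => (m1 i).mono_measure (Measure.restrict_mono hb' le_rfl)) (m2.mono hb') fun y hy m => by
      have hy' := hxU (ball_subset_closedBall hy)
      have h5 := kappa_le hc hE.1 hE.2.1 hy'.1
      rw [q1 hy', q2 hy'] at h5
      refine le_of_eq_of_le ?_ (epsG_le h5 _ _ m)
      congr 1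
      rcases m with i | _ | ⟨i, k⟩
      · simp only [eps, epsG, Sum.elim_inl, Pi.sub_apply]
        ring
      · simp only [eps, epsG, dv, grad, Sum.elim_inr, Sum.elim_inl, Pi.sub_apply,
          Finset.sum_sub_distrib]
        ring
      · simp only [eps, epsG, grad, Sum.elim_inr, Pi.sub_apply]
        ring
  have n2 := (add_le_add (nrm_mono m1 hb') (nrm2_mono m2 hb')).trans t6
  have n3 := n1.trans (mul_le_mul_of_nonneg_left (mul_le_mul_of_nonneg_left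
    (n2.trans ((mul_assoc _ _ _).trans_le (mul_le_mul_of_nonneg_left hY hC₀))) (by positivity))
    (by norm_num))
  have n4 := mul_le_mul_of_nonneg_left n3 hC₃
  have n5 := QQ_le hU s3 s4 (e := eps lam mu (T W)) (fun m y hy => by
    rcases m with i | _ | ⟨i, k⟩ <;> simp only [eps, Sum.elim_inl, Sum.elim_inr, q1 hy, q2 hy])
    (hxU (mem_closedBall_self (by norm_num)))
  have n6 := k1 a ha x x2 W
  have n7 : 1 ≤ a ^ 3 * √a := one_le_mul_of_one_le_of_one_le (one_le_pow₀ ha)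
    (Real.one_le_sqrt.2 ha)
  have n8 := mul_le_mul_of_nonneg_left n7 (by positivity :
    0 ≤ C₃ * (13 * ((3 * (3 * M / c) ^ 2 + 4) * (C₀ * wn a ε τ (R₀ + 4) x W.1))))
  rw [show ∀ t : ℝ, t / (1 / 2) ^ 3 = 8 * t from fun t => by ring] at e0
  rw [show ∀ t : ℝ, t / (1 / 2) ^ 5 = 32 * t from fun t => by ring] at e1
  unfold QQ at n5 n6 ⊢
  linarith

lemma pd_mul_on {χ e : E3 → ℝ} (hχ : Sm χ) {U : Set E3} (hU : IsOpen U)
    (he : ContDiffOn ℝ ∞ e U) (j : Fin 3) :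
    EqOn (pd j fun y => χ y * e y) (fun y => χ y * pd j e y + pd j χ y * e y) U := fun y hy =>
  D_mul_at (hχ.dAt y) (dAt_of_on hU he hy) _

lemma lap_mul_on {χ e : E3 → ℝ} (hχ : Sm χ) {U : Set E3} (hU : IsOpen U)
    (he : ContDiffOn ℝ ∞ e U) {x : E3} (hx : x ∈ U) : lap (fun y => χ y * e y) x =
      χ x * lap e x + 2 * ∑ j, pd j χ x * pd j e x + lap χ x * e x := by
  have h : ∀ j, pd j (pd j fun y => χ y * e y) x =
      χ x * pd j (pd j e) x + 2 * (pd j χ x * pd j e x) + pd j (pd j χ) x * e x := fun j => by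
    have h1 : Sm (pd j χ) := hχ.D _
    rw [pd_congr_on hU (pd_mul_on hχ hU he j) j hx, pd_eq_D,
      D_add_at ((hχ.dAt x).fun_mul (dAt_of_on hU (contDiffOn_pd hU he j) hx))
        ((h1.dAt x).fun_mul (dAt_of_on hU he hx)), ← pd_eq_D, ← pd_eq_D,
      pd_mul_on hχ hU (contDiffOn_pd hU he j) j hx, pd_mul_on h1 hU he j hx]
    ring
  simp only [lap, h, Finset.sum_add_distrib, ← Finset.mul_sum, ← Finset.sum_mul]

lemma abs_sum_le {κ : Type} [Fintype κ] {f : κ → ℝ} {B : ℝ} (h : ∀ i, |f i| ≤ B) :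
    |∑ i, f i| ≤ Fintype.card κ * B := by
  refine (Finset.abs_sum_le_sum_abs _ _).trans
    ((Finset.sum_le_card_nsmul _ _ _ fun i _ => h i).trans_eq ?_)
  simp

lemma abs_mul_le' {a b A B : ℝ} (h : |a| ≤ A) (h' : |b| ≤ B) : |a * b| ≤ A * B := by
  rw [abs_mul]
  exact mul_le_mul h h' (abs_nonneg _) ((abs_nonneg _).trans h)

/-- The pointwise algebra. -/
lemma alg {A : Fin 3 → XI → ℝ} {A0 e : XI → ℝ} {de : XI → Fin 3 → ℝ} {dχ : Fin 3 → ℝ}
    {χ lχ C P Z Q : ℝ} (m : XI) (hA : ∀ a, (∀ i, |A i a| ≤ C) ∧ |A0 a| ≤ C)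
    (hP : ∑ a, (χ * e a) ^ 2 + ∑ a, ∑ j, (χ * de a j + dχ j * e a) ^ 2 ≤ P)
    (hZ : ∑ j, dχ j ^ 2 + lχ ^ 2 ≤ Z) (hQ : ∑ a, e a ^ 2 + ∑ a, ∑ j, de a j ^ 2 ≤ Q) :
    (χ * (∑ i, ∑ a, A i a * de a i + ∑ a, A0 a * e a + 0) + 2 * ∑ j, dχ j * de m j + lχ * e m) ^ 2 ≤
      2 * (52 * C) ^ 2 * P + 2 * (39 * C + 7) ^ 2 * (Z * Q) := by
  have s : ∀ {κ : Type} [Fintype κ] (f : κ → ℝ) (i : κ), f i ^ 2 ≤ ∑ i, f i ^ 2 := fun f i =>
    Finset.single_le_sum (f := fun i => f i ^ 2) (fun _ _ => sq_nonneg _) (Finset.mem_univ i)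
  have s2 : ∀ (f : XI → Fin 3 → ℝ) a j, f a j ^ 2 ≤ ∑ a, ∑ j, f a j ^ 2 := fun f a j =>
    (s (f a) j).trans (Finset.single_le_sum (f := fun a => ∑ j, f a j ^ 2)
      (fun _ _ => by positivity) (Finset.mem_univ a))
  have p1 : 0 ≤ ∑ a, (χ * e a) ^ 2 := by positivity
  have p2 : 0 ≤ ∑ a, ∑ j, (χ * de a j + dχ j * e a) ^ 2 := by positivity
  have p3 : 0 ≤ ∑ j, dχ j ^ 2 := by positivity
  have p4 : 0 ≤ ∑ a, e a ^ 2 := by positivity
  have p5 : 0 ≤ ∑ a, ∑ j, de a j ^ 2 := by positivity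
  have a1 : ∀ a, |χ * e a| ≤ √P := fun a =>
    Real.abs_le_sqrt (by linarith [s (fun a => χ * e a) a])
  have a2 : ∀ a j, |χ * de a j + dχ j * e a| ≤ √P := fun a j =>
    Real.abs_le_sqrt (by linarith [s2 (fun a j => χ * de a j + dχ j * e a) a j])
  have a3 : ∀ j, |dχ j| ≤ √Z := fun j => Real.abs_le_sqrt (by linarith [s dχ j, sq_nonneg lχ])
  have a4 : |lχ| ≤ √Z := Real.abs_le_sqrt (by linarith)
  have a5 : ∀ a, |e a| ≤ √Q := fun a => Real.abs_le_sqrt (by linarith [s e a])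
  have a6 : ∀ a j, |de a j| ≤ √Q := fun a j => Real.abs_le_sqrt (by linarith [s2 de a j])
  have b1 := abs_sum_le fun i => abs_sum_le fun a => abs_mul_le' ((hA a).1 i) (a2 a i)
  have b2 := abs_sum_le fun a => abs_mul_le' (hA a).2 (a1 a)
  have b3 := abs_sum_le fun i => abs_sum_le fun a =>
    abs_mul_le' ((hA a).1 i) (abs_mul_le' (a3 i) (a5 a))
  have b4 := abs_sum_le fun j => abs_mul_le' (a3 j) (a6 m j)
  have b5 := abs_mul_le' a4 (a5 m)
  have c1 : (Fintype.card XI : ℝ) = 13 := by simp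
  have c2 : (Fintype.card (Fin 3) : ℝ) = 3 := by simp
  rw [c1] at b1 b2 b3
  rw [c2] at b1 b3 b4
  have e0 : χ * (∑ i, ∑ a, A i a * de a i + ∑ a, A0 a * e a + 0) =
      ∑ i, ∑ a, A i a * (χ * de a i + dχ i * e a) + ∑ a, A0 a * (χ * e a) -
        ∑ i, ∑ a, A i a * (dχ i * e a) := by
    simp only [mul_add, Finset.sum_add_distrib, Finset.mul_sum, mul_left_comm χ]
    ring
  have hb : |χ * (∑ i, ∑ a, A i a * de a i + ∑ a, A0 a * e a + 0) + 2 * ∑ j, dχ j * de m j +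
      lχ * e m| ≤ 52 * C * √P + (39 * C + 7) * (√Z * √Q) := by
    rw [e0]
    rw [abs_le] at b1 b2 b3 b4 b5 ⊢
    constructor <;> linarith [b1.1, b1.2, b2.1, b2.2, b3.1, b3.2, b4.1, b4.2, b5.1, b5.2]
  have q1 : √P ^ 2 = P := Real.sq_sqrt (by linarith)
  have q2 : √Z ^ 2 = Z := Real.sq_sqrt (by linarith [sq_nonneg lχ])
  have q3 : √Q ^ 2 = Q := Real.sq_sqrt (by linarith)
  rw [← sq_abs]
  calc _ ≤ (52 * C * √P + (39 * C + 7) * (√Z * √Q)) ^ 2 := pow_le_pow_left₀ (abs_nonneg _) hb 2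
    _ ≤ 2 * (52 * C * √P) ^ 2 + 2 * ((39 * C + 7) * (√Z * √Q)) ^ 2 := by
        nlinarith [sq_nonneg (52 * C * √P - (39 * C + 7) * (√Z * √Q))]
    _ = _ := by rw [mul_pow, mul_pow (39 * C + 7), mul_pow (√Z), q1, q2, q3]; ring

lemma exists_cut {R : ℝ} (hR : 0 < R) : ∃ χ : E3 → ℝ, Tst χ ∧ tsupport χ ⊆ closedBall 0 (R + 2) ∧
    (∀ x, R + 2 ≤ ‖x‖ → χ x = 0) ∧ EqOn χ (fun _ => 1) (ball 0 (R + 1)) := by
  let f : ContDiffBump (0 : E3) := ⟨R + 1, R + 2, by linarith, by linarith⟩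
  exact ⟨f, ⟨f.contDiff, f.hasCompactSupport⟩, f.tsupport_eq.subset,
    fun x hx => f.zero_of_le_dist (by rwa [dist_zero_right]),
    fun x hx => f.one_of_mem_closedBall (ball_subset_closedBall hx)⟩

lemma exists_lin {b : Coef YI} {R R' : ℝ} (T : SolSp b R →ₗ[ℝ] (Fin 3 → E3 → ℝ))
    (hT : ∀ W, SmOn (ball 0 R') (T W)) (lam mu : E3 → ℝ) {χ : E3 → ℝ}
    (hχ : ∀ x, x ∉ ball (0 : E3) R' → χ x = 0) (m : XI) :
    ∃ l : E3 → (SolSp b R →ₗ[ℝ] ℝ), ∀ x W, l x W = χ x * eps lam mu (T W) m x := by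
  refine ⟨fun x => ⟨⟨fun W => χ x * eps lam mu (T W) m x, fun W W' => ?_⟩, fun s W => ?_⟩,
    fun _ _ => rfl⟩
  · by_cases hx : x ∈ ball (0 : E3) R'
    · have h := eps_lin lam mu isOpen_ball (hT W) (hT W') 1 1 hx m
      simp only [one_mul] at h
      rw [map_add, ← mul_add, ← h]
      rfl
    · simp [hχ x hx]
  · by_cases hx : x ∈ ball (0 : E3) R'
    · have h := eps_lin lam mu isOpen_ball (hT W) (hT W) s 0 hx m
      simp only [zero_mul, add_zero] at h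
      show χ x * eps lam mu (T (s • W)) m x = s * (χ x * eps lam mu (T W) m x)
      rw [map_smul, mul_left_comm, ← h]
      rfl
    · simp [hχ x hx]

lemma pt_bound (h2 : S_xsys) (h3 : S_ie) {c M R : ℝ} (hc : 0 < c) {lam mu : E3 → ℝ}
    (hA : UAdm c lam mu) (hb : CBd M (R + 1) lam mu) : ∃ C : ℝ, 0 ≤ C ∧ ∀ x : E3, ‖x‖ ≤ R →
      ∀ u : Fin 3 → E3 → ℝ, SmOn (ball 0 (R + 1)) u →
      (∀ x ∈ ball (0 : E3) (R + 1), ∀ i, lame lam mu u i x = 0) →
      (∀ i, MemLp (u i) 2 (volume.restrict (ball 0 (R + 1)))) → L2M (ball 0 (R + 1)) (grad u) →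
      ∀ m, eps lam mu u m x ^ 2 ≤ C * (nrm (ball 0 (R + 1)) u + nrm2 (ball 0 (R + 1)) (grad u)) := by
  obtain ⟨C₂, -, k2⟩ := h2 c M (R + 1) hc
  obtain ⟨A, A0, hA1, hA0, -, k2⟩ := k2 lam mu hA hb
  obtain ⟨C₃, hC₃, k3⟩ := h3 XI A A0 hA1 hA0 R
  refine ⟨8 * (C₃ * (13 * (3 * (3 * M / c) ^ 2 + 4))), by positivity,
    fun x hx u t1 t2 t3 t4 m => ?_⟩
  have hB : closedBall x (1 / 2) ⊆ ball 0 (R + 1) :=
    closedBall_subset_ball' (by rw [dist_zero_right]; linarith)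
  have hB' := ball_subset_closedBall.trans hB
  obtain ⟨e0, -, -⟩ := k3 _ 0 _ x (1 / 2) (by norm_num) (by norm_num) hx isOpen_ball hB
    (smOn_eps hc hA isOpen_ball t1) (smOn_zero _) (k2 _ _ isOpen_ball t1 t2)
  rw [ieN_zero, show ∀ t : ℝ, t / (1 / 2) ^ 3 = 8 * t from fun t => by ring] at e0
  have n1 := nrm_le_of_pt (d := eps lam mu u) (k := 3 * (3 * M / c) ^ 2 + 4) measurableSet_ball
    (fun i => (t3 i).mono_measure (Measure.restrict_mono hB' le_rfl)) (t4.mono hB') fun y hy m => by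
      refine le_of_eq_of_le ?_ (epsG_le (kappa_le hc hA hb (hB' hy)) _ _ m)
      rcases m with i | _ | ⟨i, k⟩ <;> rfl
  have n2 := n1.trans (mul_le_mul_of_nonneg_left (mul_le_mul_of_nonneg_left
    (add_le_add (nrm_mono t3 hB') (nrm2_mono t4 hB')) (by positivity)) (by norm_num))
  have n3 := mul_le_mul_of_nonneg_left n2 hC₃
  have n4 := Finset.single_le_sum (f := fun m => eps lam mu u m x ^ 2) (fun _ _ => sq_nonneg _)
    (Finset.mem_univ m)
  linarith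

end Est

open Est in
theorem s_est (h1 : S_ast) (h2 : S_xsys) (h3 : S_ie) (h4 : S_ikeBd) : S_est := by
  intro c R₀ M C₀ Ω lam₁ mu₁ lam₂ mu₂ b hS hC₀
  have hc := hS.1
  have hR := hS.2.1
  obtain ⟨Cx, hCx, k2⟩ := h2 c M (R₀ + 3) hc
  obtain ⟨ε, τ, a₀, hε, ha₀, k1⟩ := h1 YI b (R₀ + 4) (R₀ + 2) (13 * (2 * (52 * Cx) ^ 2) + 1)
    hS.2.2.2.2.2.2.1 (by linarith) (by linarith)
  obtain ⟨C, hC, k3⟩ := ann_bound h2 h3 h4 M τ hS hC₀ hε.le
  obtain ⟨χ, hχ, hχs, hχ0, hχ1⟩ := exists_cut hR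
  obtain ⟨ζ, hζ⟩ : ∃ ζ : E3 → ℝ, ζ = fun x => ∑ j, pd j χ x ^ 2 + lap χ x ^ 2 := ⟨_, rfl⟩
  have hζt : Tst ζ := hζ ▸ (Tst.sum _ fun j _ => (hχ.D _).sq).add
    (Tst.sum _ fun j _ => (hχ.D _).D _).sq
  have hζ0 : ∀ x, 0 ≤ ζ x := fun x => by rw [hζ]; positivity
  have hζI : 0 ≤ ∫ x, ζ x := integral_nonneg hζ0
  have hout : IsOpen (closedBall (0 : E3) (R₀ + 2))ᶜ := isClosed_closedBall.isOpen_compl
  have hχ0' : EqOn χ (fun _ => 0) (closedBall (0 : E3) (R₀ + 2))ᶜ := fun y hy =>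
    image_eq_zero_of_notMem_tsupport fun h => hy (hχs h)
  have hann : ∀ x, ζ x = 0 ∨ R₀ + 1 ≤ ‖x‖ ∧ ‖x‖ ≤ R₀ + 2 := fun x => by
    by_cases x1 : x ∈ ball (0 : E3) (R₀ + 1)
    · left
      simp only [hζ, pd_congr_on isOpen_ball hχ1 _ x1, lap_congr_on isOpen_ball hχ1 x1, pd_const,
        lap_const]
      simp
    by_cases x2 : x ∈ closedBall (0 : E3) (R₀ + 2)
    · exact Or.inr ⟨not_lt.1 fun h => x1 (mem_ball_zero_iff.2 h), mem_closedBall_zero_iff.1 x2⟩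
    · left
      simp only [hζ, pd_congr_on hout hχ0' _ x2, lap_congr_on hout hχ0' x2, pd_const, lap_const]
      simp
  refine ⟨ε, τ, 13 * (2 * (39 * Cx + 7) ^ 2 * C * ∫ x, ζ x), a₀, hε, by positivity, ha₀,
    fun a ha => ?_⟩
  have ha1 : 1 ≤ a := ha₀.trans ha
  obtain ⟨η₀, hη₀, k3⟩ := k3 a ha1
  refine ⟨η₀, hη₀, fun η lam mu T hη hη' hE hT => ?_⟩
  replace k3 := k3 η lam mu T hη hη' hE hT
  obtain ⟨A, A0, -, -, hA, k2⟩ := k2 lam mu hE.1 hE.2.1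
  have hsB : closedBall (0 : E3) (R₀ + 2) ⊆ ball 0 (R₀ + 3) := closedBall_subset_ball (by linarith)
  have he : ∀ W, SmOn (ball 0 (R₀ + 3)) (eps lam mu (T W)) := fun W =>
    smOn_eps hc hE.1 isOpen_ball (hT W).1
  choose l hl using exists_lin T (fun W => (hT W).1) lam mu (χ := χ)
    fun x hx => hχ0' fun h => hx (hsB h)
  have hl' : ∀ m W, (fun x => l m x W) = fun x => χ x * eps lam mu (T W) m x := fun m W =>
    funext fun x => hl m x W
  obtain ⟨Cp, hCp, k4⟩ := pt_bound h2 h3 (M := M) (R := R₀ + 2) hc hE.1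
    (by rw [show R₀ + 2 + 1 = R₀ + 3 by ring]; exact hE.2.1)
  rw [show R₀ + 2 + 1 = R₀ + 3 by ring] at k4
  choose n₀ n₁ c0 c1 s0 s1 p01 b0 b1 b2 using fun m => k1 a ha (l m)
    (fun x => ⟨χ x ^ 2 * (Cp * C₀), fun W => by
      rw [hl, mul_pow, mul_assoc]
      by_cases hx : ‖x‖ ≤ R₀ + 2
      · obtain ⟨t1, t2, t3, t4, t5, -⟩ := hT W
        exact mul_le_mul_of_nonneg_left ((k4 x hx _ t1 t2 t3 t4 m).trans
          ((mul_le_mul_of_nonneg_left t5 hCp).trans_eq (mul_assoc _ _ _).symm)) (sq_nonneg _)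
      · simp [hχ0 x (not_le.1 hx).le]⟩)
    (fun W => by
      rw [hl']
      exact (hχ.mul_on isOpen_ball (hχs.trans hsB) (he W m)).sm)
    fun x hx => LinearMap.ext fun W => by rw [hl, hχ0 x hx, zero_mul, LinearMap.zero_apply]
  have i0 : ∀ m, Integrable (n₀ m) := fun m => (c0 m).integrable_of_hasCompactSupport (s0 m)
  have i1 : ∀ m, Integrable (n₁ m) := fun m => (c1 m).integrable_of_hasCompactSupport (s1 m)
  have i2 : Integrable fun x => ∑ m, n₀ m x := integrable_finsetSum _ fun m _ => i0 m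
  have i3 : Integrable fun x => ∑ m, n₁ m x := integrable_finsetSum _ fun m _ => i1 m
  have i4 : Integrable ζ := hζt.integrable
  have p0 : ∀ x, 0 ≤ ∑ m, n₀ m x := fun x => Finset.sum_nonneg fun m _ => (p01 m x).1
  have p1 : ∀ x, 0 ≤ ∑ m, n₁ m x := fun x => Finset.sum_nonneg fun m _ => (p01 m x).2
  have hsa : 0 ≤ a ^ 3 * √a := by positivity
  have main : ∀ m ∈ Finset.univ, (13 * (2 * (52 * Cx) ^ 2) + 1) * (a * (∫ x, n₀ m x) + ∫ x, n₁ m x) ≤
      2 * (52 * Cx) ^ 2 * ((∑ m, ∫ x, n₀ m x) + ∑ m, ∫ x, n₁ m x) +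
        2 * (39 * Cx + 7) ^ 2 * (C * (a ^ 3 * √a)) * ∫ x, ζ x := fun m _ => by
    refine (b2 m (fun x => 2 * (52 * Cx) ^ 2 * (∑ m, n₀ m x + ∑ m, n₁ m x) +
      2 * (39 * Cx + 7) ^ 2 * (C * (a ^ 3 * √a)) * ζ x)
      (iadd ((iadd i2 i3).const_mul _) (i4.const_mul _))
      (fun x => by have := p0 x; have := p1 x; have := hζ0 x; positivity) fun x W => ?_).trans_eq ?_
    · have hw := wn_nonneg a ε τ (R₀ + 4) x W.1
      rw [hl']
      by_cases hx : x ∈ ball (0 : E3) (R₀ + 3)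
      · rw [lap_mul_on hχ.sm isOpen_ball (he W m) hx, k2 _ _ isOpen_ball (hT W).1 (hT W).2.1 x hx m]
        have q1 : ∑ m, (χ x * eps lam mu (T W) m x) ^ 2 ≤ (∑ m, n₀ m x) * wn a ε τ (R₀ + 4) x W.1 := by
          rw [Finset.sum_mul]
          exact Finset.sum_le_sum fun m _ => hl m x W ▸ b0 m x W
        have q2 : ∑ m, ∑ j, (χ x * pd j (eps lam mu (T W) m) x + pd j χ x * eps lam mu (T W) m x) ^ 2 ≤
            (∑ m, n₁ m x) * wn a ε τ (R₀ + 4) x W.1 := by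
          rw [Finset.sum_mul]
          refine Finset.sum_le_sum fun m _ => le_of_eq_of_le ?_ (b1 m x W)
          rw [hl']
          exact Finset.sum_congr rfl fun j _ => by
            rw [pd_mul_on hχ.sm isOpen_ball (he W m) j hx]
        have q3 : ζ x * QQ (eps lam mu (T W)) x ≤
            ζ x * (C * (a ^ 3 * √a) * wn a ε τ (R₀ + 4) x W.1) := by
          rcases hann x with h | h
          · rw [h, zero_mul, zero_mul]
          · exact mul_le_mul_of_nonneg_left (k3 x h.1 h.2 W) (hζ0 x)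
        have q4 := alg (A := fun i a => A i m a x) (A0 := fun a => A0 m a x)
          (de := fun m j => pd j (eps lam mu (T W) m) x) (lχ := lap χ x) (Z := ζ x) m (hA x hx m)
          (add_le_add q1 q2) (hζ ▸ le_rfl) le_rfl
        have q5 := mul_le_mul_of_nonneg_left q3 (by positivity : 0 ≤ 2 * (39 * Cx + 7) ^ 2)
        refine q4.trans ?_
        unfold QQ at q5
        linarith
      · have hx' : x ∈ (closedBall (0 : E3) (R₀ + 2))ᶜ := fun h => hx (hsB h)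
        rw [lap_congr_on hout (g := fun _ => 0) (fun y hy => by simp [hχ0' hy]) hx', lap_const]
        have := p0 x
        have := p1 x
        have := hζ0 x
        rw [zero_pow two_ne_zero]
        positivity
    · rw [integral_add ((iadd i2 i3).const_mul _) (i4.const_mul _), integral_const_mul,
        integral_const_mul, integral_add i2 i3, integral_finsetSum _ fun m _ => i0 m,
        integral_finsetSum _ fun m _ => i1 m]
  have j0 : 0 ≤ ∑ m, ∫ x, n₀ m x :=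
    Finset.sum_nonneg fun m _ => integral_nonneg fun x => (p01 m x).1
  have j1 : 0 ≤ ∑ m, ∫ x, n₁ m x :=
    Finset.sum_nonneg fun m _ => integral_nonneg fun x => (p01 m x).2
  have main2 := Finset.sum_le_card_nsmul _ _ _ main
  rw [← Finset.mul_sum, Finset.sum_add_distrib, ← Finset.mul_sum,
    show (Finset.univ : Finset XI).card = 13 by simp, nsmul_eq_mul, Nat.cast_ofNat] at main2
  refine ⟨fun x => ∑ m, n₀ m x, continuous_finsetSum _ fun m _ => c0 m, ?_, p0, ?_,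
    fun x hx W m => ?_⟩
  · have h := HasCompactSupport.finset_sum (s := Finset.univ) fun m _ => s0 m
    rwa [Finset.sum_fn] at h
  · rw [integral_finsetSum _ fun m _ => i0 m]
    refine le_of_mul_le_mul_left ?_ (by linarith : 0 < a)
    have j2 := mul_le_mul_of_nonneg_left (le_mul_of_one_le_left j0 ha1)
      (by positivity : 0 ≤ 13 * (2 * (52 * Cx) ^ 2))
    linarith
  · have h := b0 m x W
    rw [hl, hχ1 (ball_subset_ball (by linarith) hx), one_mul] at h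
    exact h.trans (mul_le_mul_of_nonneg_right (Finset.single_le_sum (f := fun m => n₀ m x)
      (fun m _ => (p01 m x).1) (Finset.mem_univ m)) (wn_nonneg _ _ _ _ _ _))

end Vale.Agent.P136
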