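import Vale.Agent.P136.Stmts

/-!
# P136: three integration by parts estimates
-/

open MeasureTheory Set Metric
open scoped ContDiff Topology

noncomputable section
namespace Vale.Agent.P136

namespace G15

/-- Integrable functions with integral zero. -/
def Nul (Z : X6 → ℝ) : Prop := Integrable Z ∧ ∫ p, Z p = 0

lemma nul_D {W : X6 → ℝ} (h : Tst W) (v : X6) : Nul (D v W) :=
  ⟨(h.D v).integrable, integral_D h v⟩

lemma nul_sum {ι : Type} [Fintype ι] {Z : ι → X6 → ℝ} (h : ∀ i, Nul (Z i)) :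
    Nul (fun p => ∑ i, Z i p) :=
  ⟨integrable_finsetSum _ fun i _ => (h i).1, by
    rw [integral_finsetSum _ fun i _ => (h i).1]
    exact Finset.sum_eq_zero fun i _ => (h i).2⟩

lemma int_le {A B Z : X6 → ℝ} (c : ℝ) (hA : Tst A) (hB : Tst B) (hZ : Nul Z)
    (h : ∀ p, A p ≤ B p + c * Z p) : ∫ p, A p ≤ ∫ p, B p := by
  have h1 := integral_mono hA.integrable (iadd hB.integrable (hZ.1.const_mul c)) h
  rwa [integral_add hB.integrable (hZ.1.const_mul c), integral_const_mul, hZ.2, mul_zero,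
    add_zero] at h1

lemma int_sum {ι : Type} [Fintype ι] {A : ι → X6 → ℝ} (h : ∀ i, Tst (A i)) :
    ∑ i, ∫ p, A i p = ∫ p, ∑ i, A i p :=
  (integral_finsetSum _ fun i _ => (h i).integrable).symm

lemma tsum {ι : Type} [Fintype ι] {A : ι → X6 → ℝ} (h : ∀ i, Tst (A i)) :
    Tst fun p => ∑ i, A i p := Tst.sum _ fun i _ => h i

lemma sm_F2 : Sm F2 := (contDiff_norm_sq ℝ).comp (contDiff_snd.sub contDiff_fst)

lemma nsq (x : E3) : ‖x‖ ^ 2 = x 0 ^ 2 + x 1 ^ 2 + x 2 ^ 2 := by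
  rw [EuclideanSpace.norm_sq_eq, Fin.sum_univ_three]
  simp

lemma F2_eq (p : X6) : F2 p = (p.2 0 - p.1 0) ^ 2 + (p.2 1 - p.1 1) ^ 2 + (p.2 2 - p.1 2) ^ 2 :=
  nsq _

lemma g1_pt {φ f : X6 → ℝ} (hφ : Sm φ) (hf : Sm f) (v p : X6) :
    (F2 p * D v (D v φ) p + D v F2 p * D v φ p + F2 p * D v φ p ^ 2) * f p ^ 2 ≤
      F2 p * Dm φ v f p ^ 2 + D v (fun p => F2 p * D v φ p * f p * f p) p := by
  have h1 := sm_F2.mul (hφ.D v)
  rw [D_mul_at ((h1.mul hf).dAt p) (hf.dAt p), D_mul_at (h1.dAt p) (hf.dAt p),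
    D_mul_at (sm_F2.dAt p) ((hφ.D v).dAt p), Dm]
  have h2 : 0 ≤ F2 p * D v f p ^ 2 := mul_nonneg (sq_nonneg _) (sq_nonneg _)
  linarith

lemma g1_int {φ f m : X6 → ℝ} (hφ : Sm φ) (hf : Tst f) (hm : Sm m) (v : Fin 3 → X6)
    (h : ∀ p ∈ tsupport f, m p ≤ ∑ j, (F2 p * D (v j) (D (v j) φ) p + D (v j) F2 p * D (v j) φ p +
      F2 p * D (v j) φ p ^ 2)) :
    ∫ p, m p * f p ^ 2 ≤ ∑ j, ∫ p, F2 p * Dm φ (v j) f p ^ 2 := by
  have t1 : ∀ j, Tst fun p => F2 p * Dm φ (v j) f p ^ 2 := fun j =>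
    Tst.mul_left sm_F2 (Tst.Dm hφ hf _).sq
  rw [int_sum t1]
  refine int_le 1 (Tst.mul_left hm hf.sq) (tsum t1) (nul_sum fun j =>
    nul_D (Tst.mul_left ((sm_F2.mul (hφ.D (v j))).mul hf.sm) hf) (v j)) fun p => ?_
  rw [one_mul, ← Finset.sum_add_distrib]
  refine le_trans ?_ (Finset.sum_le_sum fun j _ => g1_pt hφ hf.sm (v j) p)
  rw [← Finset.sum_mul]
  by_cases hp : p ∈ tsupport f
  · exact mul_le_mul_of_nonneg_right (h p hp) (sq_nonneg _)
  · simp [image_eq_zero_of_notMem_tsupport hp]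

lemma alg_x {a ε τ s F d0 d1 d2 x0 x1 x2 : ℝ} (ha : 1 ≤ a) (hτ : τ ^ 2 ≤ a) (hε : 0 < ε)
    (hs : s = 1 + ε * (x0 ^ 2 + x1 ^ 2 + x2 ^ 2)) (hF : F = d0 ^ 2 + d1 ^ 2 + d2 ^ 2)
    (h : ε * (d0 * x0 + d1 * x1 + d2 * x2) ≤ 1 / 4) :
    a ^ 2 / 8 * F ^ 2 - 9 ≤
      F * (a * s + a * ε * F - 2 * a * ε * (d0 * x0 + d0 * x0)) +
        -(2 * d0) * (-(a * s * d0) + a * ε * F * x0 + τ) +
        F * (-(a * s * d0) + a * ε * F * x0 + τ) ^ 2 +
      (F * (a * s + a * ε * F - 2 * a * ε * (d1 * x1 + d1 * x1)) +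
        -(2 * d1) * (-(a * s * d1) + a * ε * F * x1 + 0) +
        F * (-(a * s * d1) + a * ε * F * x1 + 0) ^ 2) +
      (F * (a * s + a * ε * F - 2 * a * ε * (d2 * x2 + d2 * x2)) +
        -(2 * d2) * (-(a * s * d2) + a * ε * F * x2 + 0) +
        F * (-(a * s * d2) + a * ε * F * x2 + 0) ^ 2) := by
  have hF0 : 0 ≤ F := by rw [hF]; positivity
  have hs1 : 1 ≤ s := by rw [hs]; exact le_add_of_nonneg_right (by positivity)
  have ha0 : 0 ≤ a := by linarith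
  obtain ⟨t, ht⟩ : ∃ t, t = d0 * x0 + d1 * x1 + d2 * x2 := ⟨_, rfl⟩
  obtain ⟨n, hn⟩ : ∃ n, n = x0 ^ 2 + x1 ^ 2 + x2 ^ 2 := ⟨_, rfl⟩
  have hn0 : 0 ≤ n := by rw [hn]; positivity
  rw [← ht] at h
  rw [← hn] at hs
  have h1 : 2 * t ≤ F + n := by
    rw [ht, hF, hn]
    nlinarith [sq_nonneg (d0 - x0), sq_nonneg (d1 - x1), sq_nonneg (d2 - x2)]
  have h2 : 5 ≤ 5 * s + 3 * ε * F - 6 * ε * t := by
    have := mul_le_mul_of_nonneg_left h1 hε.le
    have h3 : 0 ≤ ε * n := by positivity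
    linarith
  have h3 := mul_le_mul_of_nonneg_left h2 (mul_nonneg ha0 hF0)
  have h4 : 2 * τ * d0 ≤ a * F + 1 := by
    have h5 : τ ^ 2 * d0 ^ 2 ≤ a * F :=
      mul_le_mul hτ (by rw [hF]; nlinarith [sq_nonneg d1, sq_nonneg d2]) (sq_nonneg _) ha0
    nlinarith [sq_nonneg (τ * d0 - 1)]
  have h5 : F / 2 ≤ s ^ 2 * F - 2 * s * ε * F * t + ε ^ 2 * F ^ 2 * n := by
    have h6 : 0 ≤ ε ^ 2 * F ^ 2 * n := by positivity
    have h7 := mul_le_mul_of_nonneg_left h (show 0 ≤ s * F by positivity)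
    have h8 : s * F ≤ s * (s * F) := le_mul_of_one_le_left (by positivity) hs1
    have h9 : F ≤ s * F := le_mul_of_one_le_left hF0 hs1
    nlinarith
  have h6 := mul_le_mul_of_nonneg_left h5 (sq_nonneg a)
  have e : (-(a * s * d0) + a * ε * F * x0) ^ 2 + (-(a * s * d1) + a * ε * F * x1) ^ 2 +
      (-(a * s * d2) + a * ε * F * x2) ^ 2
      = a ^ 2 * (s ^ 2 * (d0 ^ 2 + d1 ^ 2 + d2 ^ 2) - 2 * s * ε * F * t + ε ^ 2 * F ^ 2 * n) := by
    rw [ht, hn]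
    ring
  rw [← hF] at e
  have h7 : a ^ 2 * F / 4 - a ≤ (-(a * s * d0) + a * ε * F * x0 + τ) ^ 2 +
      (-(a * s * d1) + a * ε * F * x1) ^ 2 + (-(a * s * d2) + a * ε * F * x2) ^ 2 := by
    rw [← e] at h6
    generalize -(a * s * d0) + a * ε * F * x0 = u0 at h6 ⊢
    generalize -(a * s * d1) + a * ε * F * x1 = u1 at h6 ⊢
    generalize -(a * s * d2) + a * ε * F * x2 = u2 at h6 ⊢
    nlinarith [sq_nonneg (u0 + 2 * τ), sq_nonneg u1, sq_nonneg u2]
  have h8 := mul_le_mul_of_nonneg_left h7 hF0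
  have e2 : F * (a * s + a * ε * F - 2 * a * ε * (d0 * x0 + d0 * x0)) +
        -(2 * d0) * (-(a * s * d0) + a * ε * F * x0 + τ) +
      (F * (a * s + a * ε * F - 2 * a * ε * (d1 * x1 + d1 * x1)) +
        -(2 * d1) * (-(a * s * d1) + a * ε * F * x1)) +
      (F * (a * s + a * ε * F - 2 * a * ε * (d2 * x2 + d2 * x2)) +
        -(2 * d2) * (-(a * s * d2) + a * ε * F * x2))
      = a * F * (3 * s + 3 * ε * F - 6 * ε * t) + 2 * a * s * (d0 ^ 2 + d1 ^ 2 + d2 ^ 2)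
        - 2 * τ * d0 := by
    rw [ht]
    ring
  rw [← hF] at e2
  have h9 : 0 ≤ a * F := mul_nonneg ha0 hF0
  have h10 : 0 ≤ a ^ 2 * F ^ 2 := by positivity
  rw [add_zero, add_zero]
  linarith

lemma alg_5 {a ε τ s F n d0 d1 d2 x0 x1 x2 K : ℝ} (hτ : τ ^ 2 ≤ a)
    (hn : n = x0 ^ 2 + x1 ^ 2 + x2 ^ 2) (hF : F = d0 ^ 2 + d1 ^ 2 + d2 ^ 2)
    (h : s ^ 2 + ε ^ 2 * F * n ≤ K) :
    (-(a * s * d0) + a * ε * F * x0 + τ) ^ 2 + (-(a * s * d1) + a * ε * F * x1 + 0) ^ 2 +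
      (-(a * s * d2) + a * ε * F * x2 + 0) ^ 2 ≤ 3 * (a + K * (a ^ 2 * F)) := by
  have hF0 : 0 ≤ F := by rw [hF]; positivity
  have h1 : ∀ u v w : ℝ, (u + v + w) ^ 2 ≤ 3 * (u ^ 2 + v ^ 2 + w ^ 2) := fun u v w => by
    nlinarith [sq_nonneg (u - v), sq_nonneg (u - w), sq_nonneg (v - w)]
  have h2 := mul_le_mul_of_nonneg_right h (show 0 ≤ a ^ 2 * F by positivity)
  refine (add_le_add (add_le_add (h1 _ _ _) (h1 _ _ _)) (h1 _ _ _)).trans ?_
  have e : 3 * ((-(a * s * d0)) ^ 2 + (a * ε * F * x0) ^ 2 + τ ^ 2) +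
      3 * ((-(a * s * d1)) ^ 2 + (a * ε * F * x1) ^ 2 + 0 ^ 2) +
      3 * ((-(a * s * d2)) ^ 2 + (a * ε * F * x2) ^ 2 + 0 ^ 2)
      = 3 * (τ ^ 2 + a ^ 2 * s ^ 2 * (d0 ^ 2 + d1 ^ 2 + d2 ^ 2) + a ^ 2 * ε ^ 2 * F ^ 2 * n) := by
    rw [hn]
    ring
  rw [e, ← hF]
  linarith

lemma g5_pt {φ f : X6 → ℝ} (hφ : Sm φ) (hf : Sm f) (v p : X6) :
    Dm φ v f p ^ 2 ≤ 4 * f p ^ 2 * D v φ p ^ 2 - 2 * f p * Dp φ v (Dp φ v f) p +
      2 * D v (fun p => Dp φ v f p * f p) p := by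
  rw [D_mul_at ((hφ.Dp hf v).dAt p) (hf.dAt p), Dm]
  have e1 : Dp φ v (Dp φ v f) p = D v (Dp φ v f) p + D v φ p * Dp φ v f p := rfl
  have e2 : Dp φ v f p = D v f p + D v φ p * f p := rfl
  rw [e1, e2]
  nlinarith [sq_nonneg (D v f p + D v φ p * f p)]

lemma c6_pt {φ om g : X6 → ℝ} (hφ : Sm φ) (hom : Sm om) (hg : Sm g) (v p : X6) :
    D v (fun p => om p * g p) p ^ 2 = (D v φ p * (om p * g p) - D v om p * g p) ^ 2 -
      om p ^ 2 * g p * Dp φ v (Dp φ v g) p +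
      D v (fun p => om p * (om p * g p) * Dp φ v g p) p ∧
    om p * Dp φ v g p = D v (fun p => om p * g p) p +
      (D v φ p * (om p * g p) - D v om p * g p) := by
  rw [D_mul_at ((hom.mul (hom.mul hg)).dAt p) ((hφ.Dp hg v).dAt p),
    D_mul_at (hom.dAt p) ((hom.mul hg).dAt p), D_mul_at (hom.dAt p) (hg.dAt p)]
  have e1 : Dp φ v (Dp φ v g) p = D v (Dp φ v g) p + D v φ p * Dp φ v g p := rfl
  have e2 : Dp φ v g p = D v g p + D v φ p * g p := rfl
  rw [e1, e2]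
  constructor <;> ring

lemma young {b B m U Y u : ℝ} (hm : 0 < m) (hb : u = 0 ∨ |b| ≤ B) :
    b * (U + Y) * u ≤ (U ^ 2 + Y ^ 2) / (2 * m) + m * B ^ 2 * u ^ 2 := by
  rcases hb with rfl | hb
  · rw [mul_zero]
    positivity
  · have h1 : b ^ 2 ≤ B ^ 2 := sq_le_sq' (abs_le.1 hb).1 (abs_le.1 hb).2
    have h2 := mul_le_mul_of_nonneg_right h1 (show 0 ≤ m ^ 2 * u ^ 2 by positivity)
    rw [← sub_le_iff_le_add, le_div_iff₀ (by positivity)]
    nlinarith [sq_nonneg (U + Y - 2 * m * b * u), sq_nonneg (U - Y)]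

lemma young_sum {ι : Type} [Fintype ι] {b : Fin 3 → ι → ι → ℝ} {B : ℝ} {U Y : ι → Fin 3 → ℝ}
    {u : ι → ℝ} (hb : ∀ i c c', u c = 0 ∨ |b i c c'| ≤ B) :
    ∑ c, ∑ i, ∑ c', b i c c' * (U c' i + Y c' i) * u c ≤
      (∑ c, ∑ i, U c i ^ 2 + ∑ c, ∑ i, Y c i ^ 2) / 2 +
        3 * ((Fintype.card ι : ℝ) + 1) ^ 2 * B ^ 2 * ∑ c, u c ^ 2 := by
  have hn : (0 : ℝ) ≤ Fintype.card ι := Nat.cast_nonneg _
  have hm : (0 : ℝ) < Fintype.card ι + 1 := by linarith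
  refine (Finset.sum_le_sum fun c _ => Finset.sum_le_sum fun i _ => Finset.sum_le_sum fun c' _ =>
    young hm (hb i c c')).trans ?_
  simp only [Finset.sum_add_distrib, Finset.sum_const, Finset.card_univ, nsmul_eq_mul,
    Fintype.card_fin, ← Finset.sum_div, ← Finset.mul_sum]
  rw [Finset.sum_comm (f := fun i c => U c i ^ 2), Finset.sum_comm (f := fun i c => Y c i ^ 2)]
  have h1 : 0 ≤ ∑ c, ∑ i, U c i ^ 2 + ∑ c, ∑ i, Y c i ^ 2 := by positivity
  have h2 : 0 ≤ B ^ 2 * ∑ c, u c ^ 2 := by positivity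
  generalize ∑ c, ∑ i, U c i ^ 2 + ∑ c, ∑ i, Y c i ^ 2 = S at h1 ⊢
  generalize ∑ c, u c ^ 2 = T at h2 ⊢
  generalize (Fintype.card ι : ℝ) = n at hn hm ⊢
  refine add_le_add ?_ ?_
  · rw [← mul_div_assoc, div_le_div_iff₀ (by positivity) (by norm_num)]
    nlinarith
  · have := mul_nonneg hm.le h2
    push_cast
    nlinarith

end G15

open G15

theorem s_G1 (h0 : S_phi) : S_G1 := by
  intro R
  refine ⟨1 / (4 * (R ^ 2 + 1)), by positivity, fun a ε τ ha hτ hε hε' f hf => ?_⟩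
  obtain ⟨hφ, hd⟩ := h0 a ε τ
  have t1 := Tst.mul_left (sm_F2.pow 2) hf.1.sq
  constructor
  · have h1 := g1_int hφ hf.1 (((sm_F2.pow 2).cmul (a ^ 2 / 8)).sub (Sm.const 9)) ex
      (fun p hp => by
        obtain ⟨hx, hy⟩ := hf.2 p hp
        have hx2 : ‖p.1‖ ^ 2 ≤ R ^ 2 := pow_le_pow_left₀ (norm_nonneg _) hx 2
        have hy2 : ‖p.2‖ ^ 2 ≤ R ^ 2 := pow_le_pow_left₀ (norm_nonneg _) hy 2
        have e1 := fun j => (hd p j j).2.1
        have e2 := fun j => (hd p j j).2.2.2.2.1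
        have e3 := fun j => (hd p j j).2.2.2.2.2.2.1
        simp only [e1, e2, e3, if_true, Fin.sum_univ_three]
        rw [if_neg (by decide), if_neg (by decide)]
        refine alg_x ha hτ hε (by rw [nsq]) (F2_eq p) ?_
        rw [nsq] at hx2 hy2
        rw [le_div_iff₀ (by positivity)] at hε'
        have h2 : (p.2 0 - p.1 0) * p.1 0 + (p.2 1 - p.1 1) * p.1 1 + (p.2 2 - p.1 2) * p.1 2
            ≤ R ^ 2 + 1 := by
          nlinarith [sq_nonneg (p.2 0 - 2 * p.1 0), sq_nonneg (p.2 1 - 2 * p.1 1),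
            sq_nonneg (p.2 2 - 2 * p.1 2), sq_nonneg R]
        have h3 := mul_le_mul_of_nonneg_left h2 hε.le
        linarith)
    have e : ∫ p, (a ^ 2 / 8 * F2 p ^ 2 - 9) * f p ^ 2
        = a ^ 2 / 8 * (∫ p, F2 p ^ 2 * f p ^ 2) - 9 * ∫ p, f p ^ 2 := by
      rw [← integral_const_mul, ← integral_const_mul,
        ← integral_sub (t1.const_mul _).integrable (hf.1.sq.const_mul _).integrable]
      exact integral_congr_ae (.of_forall fun p => by ring)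
    rw [e] at h1
    linarith
  · have h1 := g1_int hφ hf.1 ((sm_F2.pow 2).cmul (a ^ 2)) ey (fun p hp => by
      have e1 := fun j => (hd p j j).1
      have e2 := fun j => (hd p j j).2.2.1
      have e3 := fun j => (hd p j j).2.2.2.2.2.1
      simp only [e1, e2, e3, if_true, Fin.sum_univ_three]
      have hs : 1 ≤ 1 + ε * ‖p.1‖ ^ 2 := le_add_of_nonneg_right (by positivity)
      have hF := F2_eq p
      have hF0 : 0 ≤ F2 p := sq_nonneg _
      generalize 1 + ε * ‖p.1‖ ^ 2 = s at hs ⊢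
      generalize p.2 0 - p.1 0 = d0 at hF ⊢
      generalize p.2 1 - p.1 1 = d1 at hF ⊢
      generalize p.2 2 - p.1 2 = d2 at hF ⊢
      generalize F2 p = F at hF hF0 ⊢
      have e : F * (a * s) + 2 * d0 * (a * s * d0) + F * (a * s * d0) ^ 2 +
          (F * (a * s) + 2 * d1 * (a * s * d1) + F * (a * s * d1) ^ 2) +
          (F * (a * s) + 2 * d2 * (a * s * d2) + F * (a * s * d2) ^ 2)
          = 3 * (F * (a * s)) + (2 * (a * s) + a ^ 2 * F * s ^ 2) * (d0 ^ 2 + d1 ^ 2 + d2 ^ 2) := by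
        ring
      rw [e, ← hF]
      have h2 : 0 ≤ F * (a * s) := by positivity
      have h3 : a ^ 2 * F ^ 2 ≤ a ^ 2 * F ^ 2 * s ^ 2 :=
        le_mul_of_one_le_right (by positivity) (one_le_pow₀ hs)
      linarith)
    rw [← integral_const_mul]
    simpa only [mul_assoc] using h1

theorem s_G5 (h0 : S_phi) : S_G5 := by
  intro R
  obtain ⟨K, hK⟩ : ∃ K : ℝ, K = (1 + R ^ 2) ^ 2 + 4 * R ^ 2 * R ^ 2 := ⟨_, rfl⟩
  have hK0 : 0 ≤ K := by rw [hK]; positivity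
  refine ⟨12 * K + 13, 1, by positivity, one_pos, fun a ε τ ha hτ hε hε' f hf => ?_⟩
  obtain ⟨hφ, hd⟩ := h0 a ε τ
  have t1 : ∀ j, Tst fun p => Dm (phi a ε τ) (ex j) f p ^ 2 := fun j => (Tst.Dm hφ hf.1 _).sq
  have t2 : Tst (L1 (phi a ε τ) f) := tsum fun j => Tst.Dp hφ (Tst.Dp hφ hf.1 _) _
  have t3 := t2.sq.const_mul a⁻¹
  have t4 := hf.1.sq.const_mul a
  have t5 := (Tst.mul_left sm_F2 hf.1.sq).const_mul (a ^ 2)
  rw [int_sum t1, div_eq_inv_mul, ← integral_const_mul, ← integral_const_mul, ← integral_const_mul,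
    ← integral_add t4.integrable t5.integrable, ← integral_const_mul,
    ← integral_add t3.integrable ((t4.add t5).const_mul _).integrable]
  refine int_le 2 (tsum t1) (t3.add ((t4.add t5).const_mul _)) (nul_sum fun j =>
    nul_D ((Tst.Dp hφ hf.1 (ex j)).mul_right hf.1.sm) (ex j)) fun p => ?_
  refine (Finset.sum_le_sum fun j _ => g5_pt hφ hf.1.sm (ex j) p).trans ?_
  rw [Finset.sum_add_distrib, Finset.sum_sub_distrib, ← Finset.mul_sum, ← Finset.mul_sum,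
    ← Finset.mul_sum]
  refine add_le_add_left ?_ _
  have ha0 : 0 < a := by linarith
  have h1 : -(2 * f p * L1 (phi a ε τ) f p) ≤ a⁻¹ * L1 (phi a ε τ) f p ^ 2 + a * f p ^ 2 := by
    have e : a⁻¹ * L1 (phi a ε τ) f p ^ 2 + a * f p ^ 2 + 2 * f p * L1 (phi a ε τ) f p
        = a⁻¹ * (L1 (phi a ε τ) f p + a * f p) ^ 2 := by
      field_simp
      ring
    have : 0 ≤ a⁻¹ * (L1 (phi a ε τ) f p + a * f p) ^ 2 := by positivity
    linarith
  have hF0 : 0 ≤ F2 p := sq_nonneg _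
  have h2 : f p ^ 2 * ∑ j, D (ex j) (phi a ε τ) p ^ 2
      ≤ f p ^ 2 * (3 * (a + K * (a ^ 2 * F2 p))) := by
    by_cases hp : p ∈ tsupport f
    · refine mul_le_mul_of_nonneg_left ?_ (sq_nonneg _)
      obtain ⟨hx, hy⟩ := hf.2 p hp
      have hx2 : ‖p.1‖ ^ 2 ≤ R ^ 2 := pow_le_pow_left₀ (norm_nonneg _) hx 2
      have hF : F2 p ≤ 4 * R ^ 2 :=
        (pow_le_pow_left₀ (norm_nonneg _) ((norm_sub_le _ _).trans (add_le_add hy hx)) 2).trans
          (le_of_eq (by ring))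
      have e1 := fun j => (hd p j j).2.1
      simp only [e1, if_true, Fin.sum_univ_three]
      rw [if_neg (by decide), if_neg (by decide)]
      refine alg_5 hτ (nsq p.1) (F2_eq p) ?_
      rw [hK]
      refine add_le_add (pow_le_pow_left₀ (by positivity) (add_le_add_right ?_ _) 2)
        (mul_le_mul ?_ hx2 (sq_nonneg _) (by positivity))
      · exact (mul_le_of_le_one_left (sq_nonneg _) hε').trans hx2
      · exact (mul_le_of_le_one_left hF0 (pow_le_one₀ hε.le hε')).trans hF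
    · simp [image_eq_zero_of_notMem_tsupport hp]
  have h3 : 0 ≤ K * (a * f p ^ 2) := by positivity
  have h4 : 0 ≤ a ^ 2 * (F2 p * f p ^ 2) := by positivity
  have e : ∑ j, Dp (phi a ε τ) (ex j) (Dp (phi a ε τ) (ex j) f) p = L1 (phi a ε τ) f p := rfl
  rw [e]
  linarith

theorem s_C6 : S_C6 := by
  intro ι _ b R hb
  obtain ⟨B, hB⟩ := (isCompact_closedBall (0 : E3) R).exists_bound_of_continuousOn
    (f := fun y i c c' => b i c c' y) (continuous_pi fun i => continuous_pi fun c =>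
      continuous_pi fun c' => (hb i c c').cont).continuousOn
  obtain ⟨K, hK⟩ : ∃ K : ℝ, K = 3 * ((Fintype.card ι : ℝ) + 1) ^ 2 * B ^ 2 := ⟨_, rfl⟩
  have hK0 : 0 ≤ K := by rw [hK]; positivity
  refine ⟨6 + 2 * K, by positivity, fun φ om g hφ hom hg hL => ?_⟩
  have t1 : ∀ c i, Tst fun p => D (ey i) (fun p => om p * g c p) p ^ 2 := fun c i =>
    ((Tst.mul_left hom (hg c).1).D _).sq
  have t2 : ∀ c, Tst fun p =>
      (∑ i, D (ey i) om p ^ 2 + om p ^ 2 * (∑ i, D (ey i) φ p ^ 2 + 1)) * g c p ^ 2 := fun c =>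
    Tst.mul_left ((Sm.sum fun i _ => (hom.D _).pow 2).add ((hom.pow 2).mul
      ((Sm.sum fun i _ => (hφ.D _).pow 2).add (Sm.const 1)))) (hg c).1.sq
  rw [Finset.sum_congr rfl fun c _ => int_sum (t1 c), int_sum fun c => tsum (t1 c), int_sum t2,
    ← integral_const_mul]
  refine int_le 2 (tsum fun c => tsum (t1 c)) ((tsum t2).const_mul _)
    (nul_sum fun c => nul_sum fun i => nul_D (Tst.mul_left (hom.mul (hom.mul (hg c).1.sm))
      (Tst.Dp hφ (hg c).1 (ey i))) (ey i)) fun p => ?_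
  have hc := fun c i => c6_pt hφ hom (hg c).1.sm (ey i) p
  have h1 := young_sum (b := fun i c c' => b i c c' p.2) (B := B)
    (U := fun c i => D (ey i) (fun p => om p * g c p) p)
    (Y := fun c i => D (ey i) φ p * (om p * g c p) - D (ey i) om p * g c p)
    (u := fun c => om p * g c p) (fun i c c' => by
      by_cases hp : p ∈ tsupport (g c)
      · have h2 := hB p.2 (mem_closedBall_zero_iff.2 ((hg c).2 p hp).2)
        exact Or.inr ((norm_le_pi_norm _ c').trans ((norm_le_pi_norm _ c).trans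
          ((norm_le_pi_norm (fun i c c' => b i c c' p.2) i).trans h2)))
      · exact Or.inl (by rw [image_eq_zero_of_notMem_tsupport hp, mul_zero]))
  have h2 : ∀ c, ∑ i, om p ^ 2 * g c p * Dp φ (ey i) (Dp φ (ey i) (g c)) p +
      ∑ i, ∑ c', b i c c' p.2 * (D (ey i) (fun p => om p * g c' p) p +
        (D (ey i) φ p * (om p * g c' p) - D (ey i) om p * g c' p)) * (om p * g c p) = 0 := by
    intro c
    have h3 : om p ^ 2 * g c p * L2 φ b g c p = 0 := by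
      by_cases hp : p ∈ tsupport om
      · rw [hL p hp c, mul_zero]
      · simp [image_eq_zero_of_notMem_tsupport hp]
    rw [← h3, L2, mul_add, Finset.mul_sum, Finset.mul_sum]
    refine congrArg _ (Finset.sum_congr rfl fun i _ => ?_)
    rw [Finset.mul_sum]
    refine Finset.sum_congr rfl fun c' _ => ?_
    rw [← (hc c' i).2]
    ring
  have h3 := Finset.sum_eq_zero (s := Finset.univ) fun c _ => h2 c
  have h4 : ∑ c, ∑ i, D (ey i) (fun p => om p * g c p) p ^ 2 = _ :=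
    Finset.sum_congr rfl fun c _ => Finset.sum_congr rfl fun i _ => (hc c i).1
  have h5 : ∀ c, 3 * ∑ i, (D (ey i) φ p * (om p * g c p) - D (ey i) om p * g c p) ^ 2 +
      2 * K * (om p * g c p) ^ 2 ≤ (6 + 2 * K) *
        ((∑ i, D (ey i) om p ^ 2 + om p ^ 2 * (∑ i, D (ey i) φ p ^ 2 + 1)) * g c p ^ 2) := by
    intro c
    have h6 : ∑ i, (D (ey i) φ p * (om p * g c p) - D (ey i) om p * g c p) ^ 2 ≤
        2 * ((∑ i, D (ey i) om p ^ 2) * g c p ^ 2) +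
          2 * ((∑ i, D (ey i) φ p ^ 2) * (om p * g c p) ^ 2) := by
      rw [Finset.sum_mul, Finset.sum_mul, Finset.mul_sum, Finset.mul_sum, ← Finset.sum_add_distrib]
      refine Finset.sum_le_sum fun i _ => ?_
      nlinarith [sq_nonneg (D (ey i) φ p * (om p * g c p) + D (ey i) om p * g c p)]
    have h7 : 0 ≤ K * ((∑ i, D (ey i) om p ^ 2) * g c p ^ 2) := by positivity
    have h8 : 0 ≤ K * ((∑ i, D (ey i) φ p ^ 2) * (om p * g c p) ^ 2) := by positivity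
    have h9 := sq_nonneg (om p * g c p)
    linarith
  have h6 := Finset.sum_le_sum (s := Finset.univ) fun c _ => h5 c
  rw [← hK] at h1
  simp only [Finset.sum_add_distrib, Finset.sum_sub_distrib] at h3 h4
  rw [Finset.sum_add_distrib, ← Finset.mul_sum, ← Finset.mul_sum, ← Finset.mul_sum] at h6
  linarith

end Vale.Agent.P136
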