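import Vale.Agent.P136.Stmts

/-!
# P136: the sharp estimate with a cutoff near the diagonal
-/

open MeasureTheory Set Metric
open scoped ContDiff Topology

noncomputable section
namespace Vale.Agent.P136

namespace G2

lemma ti {m f : X6 → ℝ} (hm : Continuous m) (h : Tst f) : Integrable fun p => m p * f p :=
  haveI : (volume : Measure X6).IsAddHaarMeasure := Measure.prod.instIsAddHaarMeasure _ _
  h.integrable_cmul hm

lemma ti1 {f : X6 → ℝ} (h : Tst f) : Integrable f := by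
  simpa using ti (m := fun _ => 1) continuous_const h

lemma mono5 {f f1 f2 f3 f4 f5 : X6 → ℝ} (i1 : Tst f1) (i2 : Tst f2) (i3 : Tst f3) (i4 : Tst f4)
    (i5 : Tst f5) (c1 c2 c3 c4 c5 : ℝ) (h0 : ∀ p, 0 ≤ f p)
    (h : ∀ p, f p ≤ c1 * f1 p + c2 * f2 p + c3 * f3 p + c4 * f4 p + c5 * f5 p) :
    ∫ p, f p ≤ c1 * (∫ p, f1 p) + c2 * (∫ p, f2 p) + c3 * (∫ p, f3 p) + c4 * (∫ p, f4 p) +
      c5 * ∫ p, f5 p := by
  have j1 := i1.const_mul c1
  have j2 := j1.add (i2.const_mul c2)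
  have j3 := j2.add (i3.const_mul c3)
  have j4 := j3.add (i4.const_mul c4)
  have j5 := j4.add (i5.const_mul c5)
  refine (integral_mono_of_nonneg (Filter.Eventually.of_forall h0) (ti1 j5)
    (Filter.Eventually.of_forall h)).trans (le_of_eq ?_)
  rw [integral_add (ti1 j4) (ti1 (i5.const_mul c5)),
    integral_add (ti1 j3) (ti1 (i4.const_mul c4)),
    integral_add (ti1 j2) (ti1 (i3.const_mul c3)),
    integral_add (ti1 j1) (ti1 (i2.const_mul c2))]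
  simp only [integral_const_mul]

lemma mono3 {f f1 f2 f3 : X6 → ℝ} (i1 : Tst f1) (i2 : Tst f2) (i3 : Tst f3) (c1 c2 c3 : ℝ)
    (h0 : ∀ p, 0 ≤ f p) (h : ∀ p, f p ≤ c1 * f1 p + c2 * f2 p + c3 * f3 p) :
    ∫ p, f p ≤ c1 * (∫ p, f1 p) + c2 * (∫ p, f2 p) + c3 * ∫ p, f3 p := by
  simpa using mono5 i1 i2 i3 i1 i1 c1 c2 c3 0 0 h0 (by simpa using h)

lemma mono2 {f f1 f2 : X6 → ℝ} (i1 : Tst f1) (i2 : Tst f2) (c1 c2 : ℝ)
    (h0 : ∀ p, 0 ≤ f p) (h : ∀ p, f p ≤ c1 * f1 p + c2 * f2 p) :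
    ∫ p, f p ≤ c1 * (∫ p, f1 p) + c2 * ∫ p, f2 p := by
  simpa using mono3 i1 i2 i1 c1 c2 0 h0 (by simpa using h)

/-- the cutoff -/
def z (p : X6) : ℝ := zeta (p.2 - p.1)

/-- the cutoff times a coordinate difference -/
def om (k : Fin 3) (p : X6) : ℝ := (p.2 k - p.1 k) * z p

lemma sm_diff {w : E3 → ℝ} (h : Sm w) : Sm fun p : X6 => w (p.2 - p.1) :=
  h.comp (contDiff_snd.sub contDiff_fst)

lemma D_diff {w : E3 → ℝ} (h : Sm w) (v p : X6) :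
    D v (fun p : X6 => w (p.2 - p.1)) p = D (v.2 - v.1) w (p.2 - p.1) := by
  have h1 : HasFDerivAt (fun p : X6 => p.2 - p.1)
      (ContinuousLinearMap.snd ℝ E3 E3 - ContinuousLinearMap.fst ℝ E3 E3) p :=
    hasFDerivAt_snd.sub hasFDerivAt_fst
  have h2 := ((h.dAt (p.2 - p.1)).hasFDerivAt.comp p h1).fderiv
  unfold D
  exact congrArg (fun L : X6 →L[ℝ] ℝ => L v) h2

lemma tst_zeta : Tst (zeta : E3 → ℝ) := ⟨zeta.contDiff, zeta.hasCompactSupport⟩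

lemma sm_z : Sm z := sm_diff tst_zeta.sm

lemma sm_co (k : Fin 3) : Sm fun t : E3 => t k := by
  unfold Sm
  fun_prop

lemma sm_t (k : Fin 3) : Sm fun p : X6 => p.2 k - p.1 k := sm_diff (sm_co k)

lemma sm_om (k : Fin 3) : Sm (om k) := (sm_t k).mul sm_z

lemma sm_F2 : Sm F2 := sm_diff (w := fun t => ‖t‖ ^ 2) (contDiff_norm_sq ℝ)

lemma Dz (i : Fin 3) (p : X6) : D (ex i) z p = -D (ey i) z p := by
  unfold z
  rw [D_diff tst_zeta.sm, D_diff tst_zeta.sm]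
  simp only [D, ex, ey, zero_sub, sub_zero, map_neg]

lemma z_mem (p : X6) : 0 ≤ z p ∧ z p ≤ 1 := ⟨zeta.nonneg, zeta.le_one⟩

lemma z_sq (p : X6) : z p ^ 2 ≤ 1 := pow_le_one₀ (z_mem p).1 (z_mem p).2

lemma z_supp {p : X6} (h : z p ≠ 0) : ‖p.2 - p.1‖ ≤ 1 := by
  by_contra h1
  exact h (zeta.zero_of_le_dist (by simpa [zeta] using (not_le.1 h1).le))

lemma z_far (p : X6) : 1 ≤ z p ^ 2 + 16 * F2 p ^ 2 := by
  by_cases h : ‖p.2 - p.1‖ ≤ 1 / 2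
  · have : z p = 1 := zeta.one_of_mem_closedBall (by simpa [zeta] using h)
    rw [this]
    nlinarith [sq_nonneg (F2 p)]
  · have h1 : 1 / 4 ≤ F2 p := by
      unfold F2
      nlinarith [not_le.1 h]
    nlinarith [sq_nonneg (z p)]

lemma F2_eq (p : X6) : F2 p = ∑ i, (p.2 i - p.1 i) ^ 2 := by
  unfold F2
  rw [EuclideanSpace.real_norm_sq_eq]
  rfl

lemma F2_nonneg (p : X6) : 0 ≤ F2 p := sq_nonneg _

lemma om_sq (k : Fin 3) (p : X6) : om k p ^ 2 ≤ F2 p ∧ om k p ^ 2 ≤ 1 := by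
  have h1 : (p.2 k - p.1 k) ^ 2 ≤ F2 p := by
    rw [F2_eq]
    exact Finset.single_le_sum (f := fun i => (p.2 i - p.1 i) ^ 2) (fun _ _ => sq_nonneg _)
      (Finset.mem_univ k)
  have h2 : om k p ^ 2 ≤ F2 p := by
    unfold om
    rw [mul_pow]
    exact (mul_le_of_le_one_right (sq_nonneg _) (z_sq p)).trans h1
  refine ⟨h2, ?_⟩
  by_cases h : z p = 0
  · simp [om, h]
  · exact h2.trans (pow_le_one₀ (norm_nonneg _) (z_supp h))

lemma om_supp (k : Fin 3) {p : X6} (h : p ∈ tsupport (om k)) : ‖p.2 - p.1‖ ≤ 1 :=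
  closure_minimal (t := {p : X6 | ‖p.2 - p.1‖ ≤ 1})
    (fun _ hp => z_supp (right_ne_zero_of_mul hp)) (isClosed_le (by fun_prop) continuous_const) h

lemma bd : ∃ C : ℝ, 0 ≤ C ∧ ∀ p : X6, (∀ i, D (ey i) z p ^ 2 ≤ C) ∧
    ∀ k, ∑ i, D (ey i) (om k) p ^ 2 ≤ C := by
  have t1 : ∀ k : Fin 3, Tst fun t : E3 => t k * zeta t := fun k => Tst.mul_left (sm_co k) tst_zeta
  have t2 : Tst fun t : E3 => ∑ i : Fin 3, D (EuclideanSpace.single i 1) zeta t ^ 2 +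
      ∑ k : Fin 3, ∑ i : Fin 3, D (EuclideanSpace.single i 1) (fun t : E3 => t k * zeta t) t ^ 2 :=
    (Tst.sum _ fun i _ => (tst_zeta.D _).sq).add
      (Tst.sum _ fun k _ => Tst.sum _ fun i _ => ((t1 k).D _).sq)
  obtain ⟨C, hC⟩ := t2.sm.cont.bounded_above_of_compact_support t2.2
  refine ⟨C, (norm_nonneg _).trans (hC 0), fun p => ?_⟩
  have h1 := (le_abs_self _).trans (hC (p.2 - p.1))
  have e1 : ∀ i, D (ey i) z p = D (EuclideanSpace.single i 1) zeta (p.2 - p.1) := fun i => by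
    unfold z
    rw [D_diff tst_zeta.sm, ey, sub_zero]
  have e2 : ∀ k i, D (ey i) (om k) p =
      D (EuclideanSpace.single i 1) (fun t : E3 => t k * zeta t) (p.2 - p.1) := fun k i => by
    have := D_diff (t1 k).sm (ey i) p
    rw [ey, sub_zero] at this
    exact this
  simp only [← e1, ← e2] at h1
  have a1 : 0 ≤ ∑ i, D (ey i) z p ^ 2 := by positivity
  have a2 : 0 ≤ ∑ k, ∑ i, D (ey i) (om k) p ^ 2 := by positivity
  refine ⟨fun i => ?_, fun k => ?_⟩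
  · have := Finset.single_le_sum (f := fun i => D (ey i) z p ^ 2) (fun _ _ => sq_nonneg _)
      (Finset.mem_univ i)
    linarith
  · have := Finset.single_le_sum (f := fun k => ∑ i, D (ey i) (om k) p ^ 2)
      (fun _ _ => by positivity) (Finset.mem_univ k)
    linarith

lemma co_sq {x : E3} {R : ℝ} (h : ‖x‖ ≤ R) (i : Fin 3) : ‖x‖ ^ 2 ≤ R ^ 2 ∧ x i ^ 2 ≤ R ^ 2 := by
  have h1 : ‖x‖ ^ 2 ≤ R ^ 2 := pow_le_pow_left₀ (norm_nonneg _) h 2
  refine ⟨h1, le_trans ?_ h1⟩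
  rw [EuclideanSpace.real_norm_sq_eq]
  exact Finset.single_le_sum (f := fun i => x i ^ 2) (fun _ _ => sq_nonneg _) (Finset.mem_univ i)

lemma alg1 {s zz V A B E : ℝ} (hs : s ≤ 31 / 30) (hz : zz ^ 2 ≤ 1) :
    s * (zz * V + A - B - E) ^ 2 ≤ 16 / 15 * V ^ 2 + 102 * (A ^ 2 + B ^ 2 + E ^ 2) := by
  have h1 : (zz * V) ^ 2 ≤ V ^ 2 := by
    rw [mul_pow]
    exact mul_le_of_le_one_left (sq_nonneg _) hz
  have h2 : (zz * V + A - B - E) ^ 2 ≤ 32 / 31 * (zz * V) ^ 2 + 32 * (A - B - E) ^ 2 := by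
    nlinarith [sq_nonneg (zz * V - 31 * (A - B - E))]
  have h3 : (A - B - E) ^ 2 ≤ 3 * (A ^ 2 + B ^ 2 + E ^ 2) := by
    nlinarith [sq_nonneg (A + B), sq_nonneg (A + E), sq_nonneg (B - E)]
  have h4 := mul_le_mul_of_nonneg_right hs (sq_nonneg (zz * V + A - B - E))
  have h5 : 0 ≤ A ^ 2 + B ^ 2 + E ^ 2 := by positivity
  linarith

lemma alg2 {W : Fin 3 → ℝ} {u g : ℝ} (h : u ^ 2 ≤ g ^ 2) :
    (∑ k, (W k - u)) ^ 2 ≤ 6 * ∑ k, W k ^ 2 + 18 * g ^ 2 := by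
  simp only [Fin.sum_univ_three]
  nlinarith [sq_nonneg (W 0 - W 1), sq_nonneg (W 0 - W 2), sq_nonneg (W 1 - W 2),
    sq_nonneg (W 0 + W 1 + W 2 + 3 * u)]

lemma sqrt_le {k : ℝ} (h : k ≤ 51 / 50) : √k ^ 3 ≤ 31 / 30 := by
  have h1 : √k ≤ 101 / 100 := Real.sqrt_le_iff.2 ⟨by norm_num, by linarith⟩
  exact (pow_le_pow_left₀ (Real.sqrt_nonneg _) h1 3).trans (by norm_num)

section main

variable (h0 : S_phi) {a ε τ R : ℝ} {g q : X6 → ℝ}
include h0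

lemma tD (hg : Sm g) (k : Fin 3) (p : X6) :
    (p.2 k - p.1 k) * D (ey k) (fun p => z p * g p) p =
      D (ey k) (fun p => om k p * g p) p - z p * g p := by
  obtain ⟨-, -, -, -, -, -, -, -, -, b1, -, b2, -⟩ := (h0 0 0 0).2 p k k
  have e : (fun p => om k p * g p) = fun p : X6 => (p.2 k - p.1 k) * (z p * g p) :=
    funext fun p => mul_assoc _ _ _
  have s1 : Sm fun p : X6 => p.1 k := (sm_co k).comp contDiff_fst
  have s2 : Sm fun p : X6 => p.2 k := (sm_co k).comp contDiff_snd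
  rw [e, D_mul_at ((sm_t k).dAt p) ((sm_z.mul hg).dAt p), D_sub_at (s2.dAt p) (s1.dAt p), b1, b2,
    if_pos rfl]
  ring

lemma brk (hg : Sm g) (hq : Sm q) (i : Fin 3) (p : X6) :
    -D (ey i) (fun p => z p * (g p + q p)) p +
      a * (1 + ε * ‖p.1‖ ^ 2) * (p.2 i - p.1 i) * (z p * (g p + q p)) +
      D (ex i) (fun p => z p * g p) p + D (ey i) (fun p => z p * g p) p -
      (if i = 0 then τ else 0) * (z p * g p) =
    z p * (Dm (phi a ε τ) (ey i) q p - Dm (phi a ε τ) (ex i) g p) +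
      a * ε * F2 p * p.1 i * (z p * g p) - D (ey i) z p * (g p + q p) := by
  obtain ⟨b1, b2, -⟩ := (h0 a ε τ).2 p i i
  rw [D_mul_at (sm_z.dAt p) ((hg.add hq).dAt p), D_add_at (hg.dAt p) (hq.dAt p),
    D_mul_at (sm_z.dAt p) (hg.dAt p), D_mul_at (sm_z.dAt p) (hg.dAt p), Dz]
  simp only [Dm]
  rw [b1, b2]
  ring

lemma near_i {Cz : ℝ} (hC : ∀ p i, D (ey i) z p ^ 2 ≤ Cz) (hε : 0 ≤ ε) (hεR : ε * R ^ 2 ≤ 1 / 50)
    (hg : T6 R g) (hq : T6 R q) (i : Fin 3) :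
    ∫ p : X6, √(1 + ε * ‖p.1‖ ^ 2) ^ 3 *
      (-D (ey i) (fun p => z p * (g p + q p)) p +
        a * (1 + ε * ‖p.1‖ ^ 2) * (p.2 i - p.1 i) * (z p * (g p + q p)) +
        D (ex i) (fun p => z p * g p) p + D (ey i) (fun p => z p * g p) p -
        (if i = 0 then τ else 0) * (z p * g p) - ε * p.1 i / (1 + ε * ‖p.1‖ ^ 2) *
          ∑ k, (p.2 k - p.1 k) * D (ey k) (fun p => z p * g p) p) ^ 2 ≤
    16 / 15 * (∫ p, (Dm (phi a ε τ) (ey i) q p - Dm (phi a ε τ) (ex i) g p) ^ 2) +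
      102 * (a ^ 2 * ε ^ 2 * R ^ 2) * (∫ p, F2 p ^ 2 * g p ^ 2) +
      102 * Cz * (∫ p, (g p + q p) ^ 2) +
      612 * (ε ^ 2 * R ^ 2) * (∫ p, ∑ k, D (ey k) (fun p => om k p * g p) p ^ 2) +
      1836 * (ε ^ 2 * R ^ 2) * ∫ p, g p ^ 2 := by
  have hφ := (h0 a ε τ).1
  have C0 : 0 ≤ Cz := (sq_nonneg _).trans (hC 0 0)
  refine mono5 ((Tst.Dm hφ hq.1 _).sub (Tst.Dm hφ hg.1 _)).sq
    (Tst.mul_left (sm_F2.pow 2) hg.1.sq) (hg.1.add hq.1).sq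
    (Tst.sum _ fun k _ => ((Tst.mul_left (sm_om k) hg.1).D _).sq) hg.1.sq _ _ _ _ _
    (fun p => by positivity) fun p => ?_
  rw [brk h0 hg.1.sm hq.1.sm]
  simp only [tD h0 hg.1.sm]
  by_cases hp : ‖p.1‖ ≤ R
  · obtain ⟨c1, c2⟩ := co_sq hp i
    have k1 : 0 ≤ ε * ‖p.1‖ ^ 2 := by positivity
    have k2 := mul_le_mul_of_nonneg_left c1 hε
    have zg : (z p * g p) ^ 2 ≤ g p ^ 2 := by
      rw [mul_pow]
      exact mul_le_of_le_one_left (sq_nonneg _) (z_sq p)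
    refine (alg1 (sqrt_le (by linarith)) (z_sq p)).trans ?_
    have d1 : (a * ε * F2 p * p.1 i * (z p * g p)) ^ 2 ≤
        a ^ 2 * ε ^ 2 * R ^ 2 * (F2 p ^ 2 * g p ^ 2) := by
      calc _ = a ^ 2 * ε ^ 2 * p.1 i ^ 2 * (F2 p ^ 2 * (z p * g p) ^ 2) := by ring
        _ ≤ _ := by gcongr
    have d2 : (D (ey i) z p * (g p + q p)) ^ 2 ≤ Cz * (g p + q p) ^ 2 := by
      rw [mul_pow]
      exact mul_le_mul_of_nonneg_right (hC p i) (sq_nonneg _)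
    have d3 : (ε * p.1 i / (1 + ε * ‖p.1‖ ^ 2)) ^ 2 ≤ ε ^ 2 * R ^ 2 := by
      rw [div_pow, mul_pow]
      refine (div_le_self (by positivity) (one_le_pow₀ (by linarith))).trans ?_
      gcongr
    have d4 := mul_le_mul d3 (alg2 (W := fun k => D (ey k) (fun p => om k p * g p) p) zg)
      (sq_nonneg _) (by positivity)
    rw [← mul_pow] at d4
    linarith
  · have n1 : p ∉ tsupport g := fun h => hp (hg.2 p h).1
    have n2 : p ∉ tsupport q := fun h => hp (hq.2 p h).1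
    have n3 : ∀ k, D (ey k) (fun p => om k p * g p) p = 0 := fun k =>
      D_eq_zero_of_notMem (fun h => n1 (tsupport_mul_subset_right h)) _
    simp [Dm, n3, image_eq_zero_of_notMem_tsupport n1, image_eq_zero_of_notMem_tsupport n2,
      D_eq_zero_of_notMem n1, D_eq_zero_of_notMem n2]

lemma near (h3 : S_Qcv) {Cz : ℝ} (hC : ∀ p i, D (ey i) z p ^ 2 ≤ Cz) (ha : 0 ≤ a) (hε : 0 ≤ ε)
    (hεR : ε * R ^ 2 ≤ 1 / 50) (hτ : τ ≠ 0) (hg : T6 R g) (hq : T6 R q) :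
    4 * a * ∫ p, (z p * (g p + q p)) ^ 2 ≤
    16 / 15 * (∑ i, ∫ p, (Dm (phi a ε τ) (ey i) q p - Dm (phi a ε τ) (ex i) g p) ^ 2) +
      306 * (a ^ 2 * ε ^ 2 * R ^ 2) * (∫ p, F2 p ^ 2 * g p ^ 2) +
      306 * Cz * (∫ p, (g p + q p) ^ 2) +
      1836 * (ε ^ 2 * R ^ 2) * (∑ k, ∫ p, D (ey k) (fun p => om k p * g p) p ^ 2) +
      5508 * (ε ^ 2 * R ^ 2) * ∫ p, g p ^ 2 := by
  have t1 := Tst.mul_left sm_z (hg.1.add hq.1)
  have h4 := h3 a ε τ _ _ hε hτ t1 (Tst.mul_left sm_z hg.1)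
  have h5 := Finset.sum_le_sum fun i (_ : i ∈ Finset.univ) =>
    near_i h0 (a := a) (τ := τ) hC hε hεR hg hq i
  have h6 : ∫ p, (z p * (g p + q p)) ^ 2 ≤
      ∫ p : X6, (1 + ε * ‖p.1‖ ^ 2) * √(1 + ε * ‖p.1‖ ^ 2) ^ 3 * (z p * (g p + q p)) ^ 2 := by
    refine integral_mono (ti1 t1.sq) (ti (by fun_prop) t1.sq) fun p => ?_
    have k1 : 1 ≤ 1 + ε * ‖p.1‖ ^ 2 := le_add_of_nonneg_right (by positivity)
    exact le_mul_of_one_le_left (sq_nonneg _)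
      (one_le_mul_of_one_le_of_one_le k1 (one_le_pow₀ (Real.one_le_sqrt.2 k1)))
  have h7 := mul_le_mul_of_nonneg_left h6 (by positivity : 0 ≤ 4 * a)
  rw [← integral_finsetSum (f := fun k p => D (ey k) (fun p => om k p * g p) p ^ 2) _
    fun k _ => ti1 ((Tst.mul_left (sm_om k) hg.1).D _).sq]
  refine h7.trans (h4.trans (h5.trans (le_of_eq ?_)))
  simp only [Finset.sum_add_distrib, Finset.sum_const, Finset.card_univ, Fintype.card_fin,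
    nsmul_eq_mul, ← Finset.mul_sum]
  push_cast
  ring

lemma c6rhs {Cz : ℝ} (k : Fin 3) (hC : ∀ p, ∑ i, D (ey i) (om k) p ^ 2 ≤ Cz) (hε : 0 ≤ ε)
    (hεR : ε * R ^ 2 ≤ 1 / 50) (hg : T6 R g) :
    ∫ p, (∑ i, D (ey i) (om k) p ^ 2 + om k p ^ 2 * (∑ i, D (ey i) (phi a ε τ) p ^ 2 + 1)) *
      g p ^ 2 ≤ (Cz + 1) * (∫ p, g p ^ 2) + 4 * a ^ 2 * ∫ p, F2 p ^ 2 * g p ^ 2 := by
  refine mono2 hg.1.sq (Tst.mul_left (sm_F2.pow 2) hg.1.sq) _ _ (fun p => by positivity)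
    fun p => ?_
  by_cases hp : p ∈ tsupport g
  · have k1 : 0 ≤ ε * ‖p.1‖ ^ 2 := by positivity
    have k2 := mul_le_mul_of_nonneg_left (co_sq (hg.2 p hp).1 0).1 hε
    have e : ∑ i, D (ey i) (phi a ε τ) p ^ 2 = a ^ 2 * (1 + ε * ‖p.1‖ ^ 2) ^ 2 * F2 p := by
      rw [F2_eq, Finset.mul_sum]
      refine Finset.sum_congr rfl fun i _ => ?_
      rw [((h0 a ε τ).2 p i i).1]
      ring
    have d1 : (1 + ε * ‖p.1‖ ^ 2) ^ 2 ≤ 4 := by nlinarith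
    have F0 := F2_nonneg p
    have d2 : om k p ^ 2 * (a ^ 2 * (1 + ε * ‖p.1‖ ^ 2) ^ 2 * F2 p) ≤
        F2 p * (a ^ 2 * 4 * F2 p) := by
      have := (om_sq k p).1
      gcongr
    have d3 : ∑ i, D (ey i) (om k) p ^ 2 + om k p ^ 2 * (a ^ 2 * (1 + ε * ‖p.1‖ ^ 2) ^ 2 * F2 p + 1)
        ≤ Cz + 1 + 4 * a ^ 2 * F2 p ^ 2 := by linarith [(om_sq k p).2, hC p]
    rw [e]
    linarith [mul_le_mul_of_nonneg_right d3 (sq_nonneg (g p))]
  · simp [image_eq_zero_of_notMem_tsupport hp]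

lemma far2 (hg : T6 R g) (hq : T6 R q) (i : Fin 3) :
    ∫ p, F2 p * Dm (phi a ε τ) (ey i) q p ^ 2 ≤
      8 * R ^ 2 * (∫ p, (Dm (phi a ε τ) (ey i) q p - Dm (phi a ε τ) (ex i) g p) ^ 2) +
      2 * ∫ p, F2 p * Dm (phi a ε τ) (ex i) g p ^ 2 := by
  have hφ := (h0 a ε τ).1
  refine mono2 ((Tst.Dm hφ hq.1 _).sub (Tst.Dm hφ hg.1 _)).sq
    (Tst.mul_left sm_F2 (Tst.Dm hφ hg.1 _).sq) _ _
    (fun p => mul_nonneg (F2_nonneg p) (sq_nonneg _)) fun p => ?_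
  have F0 := F2_nonneg p
  by_cases hp : p ∈ tsupport q
  · obtain ⟨c1, c2⟩ := hq.2 p hp
    have c3 : F2 p ≤ (2 * R) ^ 2 :=
      pow_le_pow_left₀ (norm_nonneg _) ((norm_sub_le _ _).trans (by linarith)) 2
    set u := Dm (phi a ε τ) (ey i) q p
    set v := Dm (phi a ε τ) (ex i) g p
    have c4 := mul_le_mul_of_nonneg_right c3 (sq_nonneg (u - v))
    have c5 := mul_nonneg F0 (sq_nonneg (u - 2 * v))
    linarith
  · have : Dm (phi a ε τ) (ey i) q p = 0 :=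
      image_eq_zero_of_notMem_tsupport fun h => hp (tsupport_Dm _ _ _ h)
    rw [this, zero_pow two_ne_zero, mul_zero]
    positivity

omit h0 in
lemma far1 (hg : Tst g) (hq : Tst q) :
    ∫ p, (g p + q p) ^ 2 ≤ 1 * (∫ p, (z p * (g p + q p)) ^ 2) +
      32 * (∫ p, F2 p ^ 2 * g p ^ 2) + 32 * ∫ p, F2 p ^ 2 * q p ^ 2 := by
  refine mono3 (Tst.mul_left sm_z (hg.add hq)).sq (Tst.mul_left (sm_F2.pow 2) hg.sq)
    (Tst.mul_left (sm_F2.pow 2) hq.sq) _ _ _ (fun p => sq_nonneg _) fun p => ?_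
  have c1 := mul_le_mul_of_nonneg_right (z_far p) (sq_nonneg (g p + q p))
  have c2 := mul_nonneg (sq_nonneg (F2 p)) (sq_nonneg (g p - q p))
  linarith

end main

lemma fin {a ε R2 Cz C₂ Sr Sz SV S4 S0 SW S4q SF : ℝ} (ha : 0 ≤ a) (hε : ε ^ 2 ≤ 1) (hR : 0 ≤ R2)
    (hz : 0 ≤ Cz) (h2 : 0 ≤ C₂) (r0 : 0 ≤ Sr) (v0 : 0 ≤ SV) (f0 : 0 ≤ S4) (s0 : 0 ≤ S0)
    (g0 : 0 ≤ SF)
    (e1 : 4 * a * Sz ≤ 16 / 15 * SV + 306 * (a ^ 2 * ε ^ 2 * R2) * S4 + 306 * Cz * Sr +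
      1836 * (ε ^ 2 * R2) * SW + 5508 * (ε ^ 2 * R2) * S0)
    (e2 : SW ≤ 3 * (C₂ * ((Cz + 1) * S0 + 4 * a ^ 2 * S4)))
    (e3 : Sr ≤ Sz + 32 * S4 + 32 * S4q) (e4 : a ^ 2 * S4q ≤ 8 * R2 * SV + 2 * SF) :
    15 / 4 * (a ^ 2 * Sr) ≤ a * SV +
      (30000 * (R2 + 1) * (C₂ + 1) * (Cz + 1)) *
        (a ^ 3 * ε ^ 2 * S4 + a * S0 + a ^ 2 * S4 + SF + SV + a * Sr) := by
  set C := 30000 * (R2 + 1) * (C₂ + 1) * (Cz + 1) with hC
  have p1 := mul_nonneg hR h2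
  have p2 := mul_nonneg hR hz
  have p3 := mul_nonneg h2 hz
  have p4 := mul_nonneg p1 hz
  have x1 : 0 ≤ a ^ 3 * ε ^ 2 * S4 := by positivity
  have x2 : 0 ≤ a * S0 := by positivity
  have x3 : 0 ≤ a ^ 2 * S4 := by positivity
  have x6 : 0 ≤ a * Sr := by positivity
  have b1 := mul_le_mul_of_nonneg_right
    (show 306 * R2 + 1836 * 12 * (R2 * C₂) ≤ C by rw [hC]; linarith) x1
  have b2 := mul_le_mul_of_nonneg_right
    (show 5508 * (R2 * C₂ * (Cz + 1)) + 5508 * R2 ≤ C by rw [hC]; linarith) x2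
  have b3 := mul_le_mul_of_nonneg_right (show (120 : ℝ) ≤ C by rw [hC]; linarith) x3
  have b4 := mul_le_mul_of_nonneg_right (show (240 : ℝ) ≤ C by rw [hC]; linarith) g0
  have b5 := mul_le_mul_of_nonneg_right (show 960 * R2 ≤ C by rw [hC]; linarith) v0
  have b6 := mul_le_mul_of_nonneg_right (show 306 * Cz ≤ C by rw [hC]; linarith) x6
  have m1 := mul_le_mul_of_nonneg_left e1 ha
  have m2 := mul_le_mul_of_nonneg_left e2 (by positivity : 0 ≤ a * (1836 * (ε ^ 2 * R2)))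
  have m3 := mul_le_mul_of_nonneg_left e3 (sq_nonneg a)
  have m4 := mul_le_mul_of_nonneg_right hε
    (by positivity : 0 ≤ (5508 * (R2 * C₂ * (Cz + 1)) + 5508 * R2) * (a * S0))
  have y1 : 0 ≤ (306 * R2 + 1836 * 12 * (R2 * C₂)) * (a ^ 3 * ε ^ 2 * S4) := by positivity
  have y2 : 0 ≤ (5508 * (R2 * C₂ * (Cz + 1)) + 5508 * R2) * (a * S0) := by positivity
  have y3 : 0 ≤ 306 * Cz * (a * Sr) := by positivity
  clear_value C
  linarith

end G2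

open G2

theorem s_G2 (h0 : S_phi) (h1 : S_G1) (h2 : S_C6) (h3 : S_Qcv) : S_G2 := by
  intro ι _ b R hb
  obtain ⟨ε₁, ε₁0, H1⟩ := h1 R
  obtain ⟨C₂, C₂0, H2⟩ := h2 ι b R hb
  obtain ⟨Cz, Cz0, HZ⟩ := bd
  refine ⟨30000 * (R ^ 2 + 1) * (C₂ + 1) * (Cz + 1), min ε₁ (1 / (50 * (R ^ 2 + 1))),
    by positivity, by positivity, fun a ε τ ha hτ τ0 ε0 hε g q hg hq hL => ?_⟩
  have ε2 : ε * (50 * (R ^ 2 + 1)) ≤ 1 :=
    (le_div_iff₀ (by positivity)).1 (hε.trans (min_le_right _ _))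
  have ε3 := mul_nonneg ε0.le (sq_nonneg R)
  have hεR : ε * R ^ 2 ≤ 1 / 50 := by linarith
  have a0 : 0 ≤ a := by linarith
  have F0 := F2_nonneg
  refine fin (Sz := ∑ c, ∫ p, (z p * (g c p + q c p)) ^ 2)
    (SW := ∑ c, ∑ k, ∫ p, D (ey k) (fun p => om k p * g c p) p ^ 2) (S4q := q4 q) a0
    (pow_le_one₀ ε0.le (by linarith)) (sq_nonneg R) Cz0 C₂0 ?_ ?_ ?_ ?_ ?_ ?_ ?_ ?_ ?_
  · exact Finset.sum_nonneg fun c _ => integral_nonneg fun p => sq_nonneg _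
  · exact Finset.sum_nonneg fun c _ => Finset.sum_nonneg fun i _ =>
      integral_nonneg fun p => sq_nonneg _
  · exact Finset.sum_nonneg fun c _ => integral_nonneg fun p =>
      mul_nonneg (sq_nonneg _) (sq_nonneg _)
  · exact Finset.sum_nonneg fun c _ => integral_nonneg fun p => sq_nonneg _
  · exact Finset.sum_nonneg fun c _ => Finset.sum_nonneg fun i _ =>
      integral_nonneg fun p => mul_nonneg (F0 p) (sq_nonneg _)
  · have := Finset.sum_le_sum fun c (_ : c ∈ Finset.univ) =>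
      near h0 h3 (fun p => (HZ p).1) a0 ε0.le hεR τ0 (hg c) (hq c)
    simpa only [qV, q4, qr, q0, Finset.sum_add_distrib, ← Finset.mul_sum] using this
  · rw [Finset.sum_comm]
    refine (Finset.sum_le_sum (g := fun _ => C₂ * ((Cz + 1) * q0 g + 4 * a ^ 2 * q4 g))
      fun k _ => ?_).trans (by simp)
    have b1 := H2 (phi a ε τ) (om k) g (h0 a ε τ).1 (sm_om k) hg fun p hp => hL p (om_supp k hp)
    have b2 := Finset.sum_le_sum fun c (_ : c ∈ Finset.univ) =>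
      c6rhs h0 (a := a) (τ := τ) k (fun p => (HZ p).2 k) ε0.le hεR (hg c)
    simp only [Finset.sum_add_distrib, ← Finset.mul_sum] at b2
    refine le_trans (Finset.sum_le_sum fun c _ => ?_)
      (b1.trans (mul_le_mul_of_nonneg_left b2 C₂0))
    exact Finset.single_le_sum (f := fun i => ∫ p, D (ey i) (fun p => om k p * g c p) p ^ 2)
      (fun i _ => integral_nonneg fun p => sq_nonneg _) (Finset.mem_univ k)
  · have := Finset.sum_le_sum fun c (_ : c ∈ Finset.univ) => far1 (hg c).1 (hq c).1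
    simpa only [q4, qr, Finset.sum_add_distrib, ← Finset.mul_sum, one_mul] using this
  · have := Finset.sum_le_sum fun c (_ : c ∈ Finset.univ) =>
      (H1 a ε τ ha hτ ε0 (hε.trans (min_le_left _ _)) (q c) (hq c)).2.trans
        (Finset.sum_le_sum fun i _ => far2 h0 (hg c) (hq c) i)
    simpa only [qV, q4, qFZ, Finset.sum_add_distrib, ← Finset.mul_sum] using this

end Vale.Agent.P136
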