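import Vale.Agent.P136.Stmts

/-!
# P136: the gain from the linear weight
-/

open MeasureTheory Set Metric
open scoped ContDiff Topology

noncomputable section
namespace Vale.Agent.P136

namespace G3

lemma haar : (volume : Measure X6).IsAddHaarMeasure :=
  Measure.prod.instIsAddHaarMeasure _ _

lemma smF : Sm F2 := (contDiff_snd.sub contDiff_fst).norm_sq ℝ

lemma F_nonneg (p : X6) : 0 ≤ F2 p := sq_nonneg _

lemma smZ : Sm fun p : X6 => zeta (p.2 - p.1) :=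
  zeta.contDiff.comp (contDiff_snd.sub contDiff_fst)

lemma den_pos {a : ℝ} (ha : 1 ≤ a) (p : X6) : 0 < 1 + a * F2 p := by
  have := F_nonneg p
  positivity

lemma smV {a : ℝ} (ha : 1 ≤ a) : Sm (vpi a) :=
  ContDiff.div (smZ.cmul a) ((Sm.const 1).add (smF.cmul a)) fun p => (den_pos ha p).ne'

lemma v_bd {a : ℝ} (ha : 1 ≤ a) (p : X6) :
    0 ≤ vpi a p ∧ vpi a p ≤ a ∧ vpi a p * F2 p ≤ 1 := by
  have h1 := den_pos ha p
  have h2 := F_nonneg p
  have h3 : 0 ≤ zeta (p.2 - p.1) := zeta.nonneg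
  have h4 : zeta (p.2 - p.1) ≤ 1 := zeta.le_one
  have h5 : 0 ≤ a * F2 p := by positivity
  unfold vpi
  refine ⟨by positivity, ?_, ?_⟩
  · rw [div_le_iff₀ h1]
    nlinarith
  · rw [div_mul_eq_mul_div, div_le_one h1]
    nlinarith

lemma DZ (w p : X6) :
    D w (fun p : X6 => zeta (p.2 - p.1)) p = fderiv ℝ zeta (p.2 - p.1) (w.2 - w.1) := by
  have h1 : HasFDerivAt (fun p : X6 => p.2 - p.1)
      (ContinuousLinearMap.snd ℝ E3 E3 - ContinuousLinearMap.fst ℝ E3 E3) p :=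
    hasFDerivAt_snd.sub hasFDerivAt_fst
  have h2 : DifferentiableAt ℝ zeta (p.2 - p.1) :=
    (zeta.contDiff (n := 1)).differentiable (by simp) _
  exact congrArg (fun L : X6 →L[ℝ] ℝ => L w) (h2.hasFDerivAt.comp p h1).fderiv

lemma DV {a : ℝ} (ha : 1 ≤ a) (w p : X6) : D w (vpi a) p * (1 + a * F2 p) =
    a * fderiv ℝ zeta (p.2 - p.1) (w.2 - w.1) - vpi a p * (a * D w F2 p) := by
  have e : (fun p => vpi a p * (1 + a * F2 p)) = fun p : X6 => a * zeta (p.2 - p.1) :=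
    funext fun p => div_mul_cancel₀ _ (den_pos ha p).ne'
  have h1 := D_mul_at ((smV ha).dAt p) (((Sm.const 1).add (smF.cmul a)).dAt p) w
  rw [e, D_const_mul_at (smZ.dAt p), DZ, D_add_at ((Sm.const 1).dAt p) ((smF.cmul a).dAt p),
    D_const, D_const_mul_at (smF.dAt p)] at h1
  linarith

lemma exists_M : ∃ M : ℝ, ∀ (t : E3) (i : Fin 3),
    fderiv ℝ zeta t (EuclideanSpace.single i 1) ^ 2 ≤ M := by
  obtain ⟨C, hC⟩ := ((zeta.contDiff (n := 1)).continuous_fderiv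
    (by simp)).bounded_above_of_compact_support (zeta.hasCompactSupport.fderiv ℝ)
  refine ⟨C ^ 2, fun t i => ?_⟩
  have h1 := (fderiv ℝ zeta t).le_opNorm (EuclideanSpace.single i 1)
  rw [PiLp.norm_single, norm_one, mul_one, Real.norm_eq_abs] at h1
  rw [← sq_abs]
  exact pow_le_pow_left₀ (abs_nonneg _) (h1.trans (hC t)) 2

lemma F_eq (p : X6) : F2 p = ∑ i, (p.2 i - p.1 i) ^ 2 := by
  simp [F2, EuclideanSpace.real_norm_sq_eq]

lemma coord_le (p : X6) (i : Fin 3) : (p.2 i - p.1 i) ^ 2 ≤ F2 p := by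
  rw [F_eq]
  exact Finset.single_le_sum (f := fun i => (p.2 i - p.1 i) ^ 2) (fun _ _ => sq_nonneg _)
    (Finset.mem_univ i)

lemma DV_bd (h0 : S_phi) {a M : ℝ} (ha : 1 ≤ a)
    (hM : ∀ (t : E3) (i : Fin 3), fderiv ℝ zeta t (EuclideanSpace.single i 1) ^ 2 ≤ M)
    (p : X6) (i : Fin 3) : D (ey i) (vpi a) p ^ 2 ≤ a ^ 2 * (2 * M + 8 * vpi a p) := by
  have h1 := DV ha (ey i) p
  rw [((h0 a 0 0).2 p i i).2.2.2.2.2.1] at h1
  have h2 := hM (p.2 - p.1) i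
  have h3 : (ey i).2 - (ey i).1 = EuclideanSpace.single i 1 := sub_zero _
  rw [h3] at h1
  obtain ⟨v0, -, v2⟩ := v_bd ha p
  have h4 := coord_le p i
  have h5 : 0 ≤ a * F2 p := mul_nonneg (by linarith) (F_nonneg p)
  generalize fderiv ℝ zeta (p.2 - p.1) (EuclideanSpace.single i 1) = z at *
  generalize p.2 i - p.1 i = t at *
  generalize vpi a p = v at *
  generalize D (ey i) (vpi a) p = d at *
  have h6 : d ^ 2 ≤ (d * (1 + a * F2 p)) ^ 2 := by
    rw [mul_pow]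
    exact le_mul_of_one_le_right (sq_nonneg _) (one_le_pow₀ (by linarith))
  have h7 : v * t ^ 2 ≤ 1 := (mul_le_mul_of_nonneg_left h4 v0).trans v2
  have h8 : (z - v * (2 * t)) ^ 2 ≤ 2 * M + 8 * v := by
    nlinarith [sq_nonneg (z + v * (2 * t)), mul_le_mul_of_nonneg_left h7 v0]
  rw [h1, show a * z - v * (a * (2 * t)) = a * (z - v * (2 * t)) by ring, mul_pow] at h6
  exact h6.trans (mul_le_mul_of_nonneg_left h8 (sq_nonneg _))

lemma DV_zero (h0 : S_phi) {a : ℝ} (ha : 1 ≤ a) (p : X6) :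
    D (ex 0) (vpi a) p + D (ey 0) (vpi a) p = 0 := by
  have h1 := DV ha (ey 0) p
  have h2 := DV ha (ex 0) p
  rw [((h0 a 0 0).2 p 0 0).2.2.2.2.2.1] at h1
  rw [((h0 a 0 0).2 p 0 0).2.2.2.2.2.2.1] at h2
  have h3 : (ex 0).2 - (ex 0).1 = -((ey 0).2 - (ey 0).1) := by simp [ex, ey]
  rw [h3, map_neg] at h2
  apply mul_right_cancel₀ (den_pos ha p).ne'
  linarith

lemma supp_v (a : ℝ) : ∀ p ∈ tsupport (vpi a), ‖p.2 - p.1‖ ≤ 1 := by
  refine closure_minimal (fun p hp => ?_)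
    (isClosed_le (by fun_prop) continuous_const : IsClosed {p : X6 | ‖p.2 - p.1‖ ≤ 1})
  by_contra h
  have h1 : zeta (p.2 - p.1) = 0 :=
    zeta.zero_of_le_dist (by rw [dist_zero_right]; exact (not_le.1 h).le)
  exact hp (by simp [vpi, h1])

lemma phi_bd (h0 : S_phi) {a ε τ R : ℝ} (ha : 1 ≤ a) (he : 0 < ε) (he1 : ε ≤ 1) {p : X6}
    (hp : ‖p.1‖ ≤ R) : vpi a p ^ 2 * ∑ i, D (ey i) (phi a ε τ) p ^ 2 ≤
      a ^ 2 * ((1 + R ^ 2) ^ 2 * vpi a p) := by
  have e : ∑ i, D (ey i) (phi a ε τ) p ^ 2 = a ^ 2 * (1 + ε * ‖p.1‖ ^ 2) ^ 2 * F2 p := by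
    rw [F_eq, Finset.mul_sum]
    refine Finset.sum_congr rfl fun i _ => ?_
    rw [((h0 a ε τ).2 p i i).1]
    ring
  obtain ⟨v0, -, v2⟩ := v_bd ha p
  have h1 : ‖p.1‖ ^ 2 ≤ R ^ 2 := pow_le_pow_left₀ (norm_nonneg _) hp 2
  have h2 : (1 + ε * ‖p.1‖ ^ 2) ^ 2 ≤ (1 + R ^ 2) ^ 2 :=
    pow_le_pow_left₀ (by positivity) (by nlinarith [sq_nonneg ‖p.1‖]) 2
  rw [e]
  calc _ = a ^ 2 * ((1 + ε * ‖p.1‖ ^ 2) ^ 2 * vpi a p) * (vpi a p * F2 p) := by ring
    _ ≤ a ^ 2 * ((1 + ε * ‖p.1‖ ^ 2) ^ 2 * vpi a p) :=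
      mul_le_of_le_one_right (by positivity) v2
    _ ≤ _ := by gcongr

lemma zero_or {R : ℝ} {g : X6 → ℝ} (hg : T6 R g) (p : X6) : g p = 0 ∨ ‖p.1‖ ≤ R := by
  by_cases h : p ∈ tsupport g
  · exact Or.inr (hg.2 p h).1
  · exact Or.inl (image_eq_zero_of_notMem_tsupport h)

lemma comp (h0 : S_phi) {a ε τ R l m : ℝ} (ha : 1 ≤ a) (he : 0 < ε) (he1 : ε ≤ 1) (hl : 0 ≤ l)
    (hm : 0 < m) (hlm : τ ^ 2 = 4 * l * m) {g q : X6 → ℝ} (hg : T6 R g) (hq : T6 R q) :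
    τ ^ 2 / 2 * ∫ p, vpi a p * g p ^ 2 ≤
      a * (∫ p, (Dm (phi a ε τ) (ey 0) q p - Dm (phi a ε τ) (ex 0) g p) ^ 2) +
      a ^ 3 * ε ^ 2 * R ^ 2 * (∫ p, F2 p ^ 2 * g p ^ 2) +
      2 * l * (∫ p, D (ey 0) (fun p => vpi a p * g p) p ^ 2) +
      2 * l * a ^ 2 * (1 + R ^ 2) ^ 2 * (∫ p, vpi a p * g p ^ 2) +
      m * ∫ p, (g p + q p) ^ 2 := by
  have := haar
  have hφ := (h0 a ε τ).1
  have hv := smV ha
  have tg := hg.1
  have tr := tg.add hq.1
  have tvg := Tst.mul_left hv tg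
  have tS := Tst.mul_left hv tg.sq
  have i1 : Integrable (fun p => (Dm (phi a ε τ) (ey 0) q p - Dm (phi a ε τ) (ex 0) g p) ^ 2) :=
    ((Tst.Dm hφ hq.1 _).sub (Tst.Dm hφ tg _)).sq.integrable
  have i2 : Integrable (fun p => F2 p ^ 2 * g p ^ 2) :=
    (Tst.mul_left (smF.pow 2) tg.sq).integrable
  have i3 : Integrable (fun p => D (ey 0) (fun p => vpi a p * g p) p ^ 2) :=
    (tvg.D _).sq.integrable
  have i4 : Integrable (fun p => vpi a p * g p ^ 2) := tS.integrable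
  have i5 : Integrable (fun p => (g p + q p) ^ 2) := tr.sq.integrable
  have i6 : Integrable (fun p => Dm (phi a ε τ) (ey 0) (fun p => g p + q p) p *
      (vpi a p * g p)) := ((Tst.Dm hφ tr _).mul_right tvg.sm).integrable
  have i7 : Integrable (fun p => (g p + q p) *
      Dp (phi a ε τ) (ey 0) (fun p => vpi a p * g p) p) :=
    (tr.mul_right (Tst.Dp hφ tvg _).sm).integrable
  have i8 : Integrable (D (ex 0) fun p => vpi a p * g p ^ 2) := (tS.D _).integrable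
  have i9 : Integrable (D (ey 0) fun p => vpi a p * g p ^ 2) := (tS.D _).integrable
  have z1 := adj' (μ := volume) hφ tr tvg (ey 0)
  have z2 := integral_D (μ := volume) tS (ex 0)
  have z3 := integral_D (μ := volume) tS (ey 0)
  have key : ∀ p, τ ^ 2 / 2 * (vpi a p * g p ^ 2) ≤
      a * (Dm (phi a ε τ) (ey 0) q p - Dm (phi a ε τ) (ex 0) g p) ^ 2 +
      a ^ 3 * ε ^ 2 * R ^ 2 * (F2 p ^ 2 * g p ^ 2) +
      2 * l * D (ey 0) (fun p => vpi a p * g p) p ^ 2 +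
      2 * l * a ^ 2 * (1 + R ^ 2) ^ 2 * (vpi a p * g p ^ 2) + m * (g p + q p) ^ 2 +
      τ * (Dm (phi a ε τ) (ey 0) (fun p => g p + q p) p * (vpi a p * g p)) -
      τ * ((g p + q p) * Dp (phi a ε τ) (ey 0) (fun p => vpi a p * g p) p) +
      τ / 2 * D (ex 0) (fun p => vpi a p * g p ^ 2) p +
      τ / 2 * D (ey 0) (fun p => vpi a p * g p ^ 2) p := by
    intro p
    have e1 : ∀ w, D w (fun p => vpi a p * g p ^ 2) p =
        vpi a p * (2 * g p * D w g p) + D w (vpi a) p * g p ^ 2 := fun w => by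
      rw [D_mul_at (hv.dAt p) (tg.sq.sm.dAt p)]
      simp only [pow_two]
      rw [D_mul_at (tg.sm.dAt p) (tg.sm.dAt p)]
      ring
    have e2 := DV_zero h0 ha p
    have e3 : D (ex 0) (phi a ε τ) p + D (ey 0) (phi a ε τ) p = a * ε * F2 p * p.1 0 + τ := by
      rw [((h0 a ε τ).2 p 0 0).1, ((h0 a ε τ).2 p 0 0).2.1, if_pos rfl]
      ring
    obtain ⟨v0, v1, -⟩ := v_bd ha p
    have b1 : vpi a p ^ 2 * D (ey 0) (phi a ε τ) p ^ 2 * g p ^ 2 ≤
        a ^ 2 * ((1 + R ^ 2) ^ 2 * vpi a p) * g p ^ 2 := by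
      rcases zero_or hg p with h | h
      · simp [h]
      · refine mul_le_mul_of_nonneg_right (le_trans ?_ (phi_bd (τ := τ) h0 ha he he1 h))
          (sq_nonneg _)
        exact mul_le_mul_of_nonneg_left (Finset.single_le_sum
          (f := fun i => D (ey i) (phi a ε τ) p ^ 2) (fun _ _ => sq_nonneg _)
          (Finset.mem_univ 0)) (sq_nonneg _)
    have b2 : vpi a p * (a * ε * F2 p * p.1 0 * g p) ^ 2 ≤
        a ^ 3 * ε ^ 2 * R ^ 2 * (F2 p ^ 2 * g p ^ 2) := by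
      rcases zero_or hg p with h | h
      · simp [h]
      · have h1 : p.1 0 ^ 2 ≤ R ^ 2 := by
          rw [← sq_abs]
          exact pow_le_pow_left₀ (abs_nonneg _) ((PiLp.norm_apply_le p.1 0).trans h) 2
        calc _ = vpi a p * p.1 0 ^ 2 * (a * ε * F2 p * g p) ^ 2 := by ring
          _ ≤ a * R ^ 2 * (a * ε * F2 p * g p) ^ 2 := by gcongr
          _ = _ := by ring
    have e4 : Dm (phi a ε τ) (ey 0) (fun p => g p + q p) p =
        (Dm (phi a ε τ) (ey 0) q p - Dm (phi a ε τ) (ex 0) g p) -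
          (D (ex 0) g p + D (ey 0) g p) + (a * ε * F2 p * p.1 0 + τ) * g p := by
      rw [Dm_add tg.sm hq.1.sm, ← e3]
      simp only [Dm]
      ring
    have e5 : D (ex 0) (vpi a) p = -D (ey 0) (vpi a) p := by linarith
    rw [e1, e1, e4, Dp, e5]
    generalize Dm (phi a ε τ) (ey 0) q p - Dm (phi a ε τ) (ex 0) g p = V at *
    generalize D (ey 0) (fun p => vpi a p * g p) p = W at *
    generalize D (ey 0) (phi a ε τ) p = f at *
    generalize a * ε * F2 p * p.1 0 = s at *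
    generalize vpi a p = v at *
    generalize g p + q p = r at *
    generalize g p = G at *
    have y1 : 0 ≤ v * (V + τ / 2 * G) ^ 2 := by positivity
    have y2 : 0 ≤ v * (s * G + τ / 2 * G) ^ 2 := by positivity
    have y3 : v * V ^ 2 ≤ a * V ^ 2 := mul_le_mul_of_nonneg_right v1 (sq_nonneg _)
    have y4 : τ * (r * (W + f * (v * G))) ≤ l * (W + f * (v * G)) ^ 2 + m * r ^ 2 := by
      refine le_of_mul_le_mul_left ?_ hm
      have := sq_nonneg (m * r - τ / 2 * (W + f * (v * G)))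
      have h1 : τ ^ 2 * (W + f * (v * G)) ^ 2 = 4 * l * m * (W + f * (v * G)) ^ 2 := by rw [hlm]
      nlinarith
    have y5 : l * (W + f * (v * G)) ^ 2 ≤
        l * (2 * W ^ 2 + 2 * (a ^ 2 * ((1 + R ^ 2) ^ 2 * v) * G ^ 2)) :=
      mul_le_mul_of_nonneg_left (by nlinarith [sq_nonneg (W - f * (v * G))]) hl
    linarith [y1, y2, y3, y4, y5, b2]
  have j1 := iadd (i1.const_mul a) (i2.const_mul (a ^ 3 * ε ^ 2 * R ^ 2))
  have j2 := iadd j1 (i3.const_mul (2 * l))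
  have j3 := iadd j2 (i4.const_mul (2 * l * a ^ 2 * (1 + R ^ 2) ^ 2))
  have j4 := iadd j3 (i5.const_mul m)
  have j5 := iadd j4 (i6.const_mul τ)
  have j6 := isub j5 (i7.const_mul τ)
  have j7 := iadd j6 (i8.const_mul (τ / 2))
  have h := integral_mono (i4.const_mul _) (iadd j7 (i9.const_mul (τ / 2))) key
  rw [integral_add j7 (i9.const_mul _), integral_add j6 (i8.const_mul _),
    integral_sub j5 (i7.const_mul _), integral_add j4 (i6.const_mul _),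
    integral_add j3 (i5.const_mul _), integral_add j2 (i4.const_mul _),
    integral_add j1 (i3.const_mul _), integral_add (i1.const_mul _) (i2.const_mul _)] at h
  simp only [integral_const_mul] at h
  rw [z1, z2, z3] at h
  linarith

lemma wt_bd (h0 : S_phi) {a ε τ R M : ℝ} (ha : 1 ≤ a) (he : 0 < ε) (he1 : ε ≤ 1)
    (hM : ∀ (t : E3) (i : Fin 3), fderiv ℝ zeta t (EuclideanSpace.single i 1) ^ 2 ≤ M)
    {g : X6 → ℝ} (hg : T6 R g) :
    ∫ p, (∑ i, D (ey i) (vpi a) p ^ 2 +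
      vpi a p ^ 2 * (∑ i, D (ey i) (phi a ε τ) p ^ 2 + 1)) * g p ^ 2 ≤
      a ^ 2 * (6 * M) * (∫ p, g p ^ 2) +
        a ^ 2 * (25 + (1 + R ^ 2) ^ 2) * ∫ p, vpi a p * g p ^ 2 := by
  have := haar
  have hφ := (h0 a ε τ).1
  have hv := smV ha
  have i1 : Integrable fun p => g p ^ 2 := hg.1.sq.integrable
  have i2 : Integrable fun p => vpi a p * g p ^ 2 := (Tst.mul_left hv hg.1.sq).integrable
  rw [← integral_const_mul, ← integral_const_mul,
    ← integral_add (i1.const_mul _) (i2.const_mul _)]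
  refine integral_mono (Tst.mul_left ((Sm.sum fun i _ => (hv.D _).pow 2).add ((hv.pow 2).mul
    ((Sm.sum fun i _ => (hφ.D _).pow 2).add (Sm.const 1)))) hg.1.sq).integrable
    (iadd (i1.const_mul _) (i2.const_mul _)) fun p => ?_
  beta_reduce
  rcases zero_or hg p with h | h
  · simp [h]
  have h1 := phi_bd (τ := τ) h0 ha he he1 h
  have h2 := DV_bd h0 ha hM p 0
  have h3 := DV_bd h0 ha hM p 1
  have h4 := DV_bd h0 ha hM p 2
  obtain ⟨v0, v1, -⟩ := v_bd ha p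
  have h5 : vpi a p ^ 2 ≤ a ^ 2 * vpi a p := by
    rw [pow_two]
    exact mul_le_mul_of_nonneg_right (by nlinarith) v0
  calc _ ≤ (a ^ 2 * (6 * M) + a ^ 2 * (25 + (1 + R ^ 2) ^ 2) * vpi a p) * g p ^ 2 := by
        refine mul_le_mul_of_nonneg_right ?_ (sq_nonneg _)
        rw [Fin.sum_univ_three (fun i => D (ey i) (vpi a) p ^ 2)]
        linarith
    _ = _ := by ring

end G3

open G3 in
theorem s_G3 (h0 : S_phi) (h2 : S_C6) : S_G3 := by
  intro ι _ b R hb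
  obtain ⟨C, hC, h6⟩ := h2 ι b R hb
  obtain ⟨M, hM⟩ := exists_M
  have hM0 : 0 ≤ M := (sq_nonneg _).trans (hM 0 0)
  obtain ⟨k, hk⟩ : ∃ k : ℝ, k = (1 + R ^ 2) ^ 2 := ⟨_, rfl⟩
  have hk0 : 0 ≤ k := by rw [hk]; positivity
  obtain ⟨C1, hC1⟩ : ∃ C1 : ℝ, C1 = 2 * C * (6 * M + 25 + k) + 2 * k + 1 := ⟨_, rfl⟩
  have hC10 : 0 < C1 := by rw [hC1]; positivity
  refine ⟨4 * (1 + R ^ 2 + C1), by positivity, fun a ε τ ha hτ hτ0 he he1 g q hg hq hL => ?_⟩
  have ha0 : 0 < a := by linarith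
  obtain ⟨l, hl⟩ : ∃ l : ℝ, l = τ ^ 2 / (4 * (C1 * a ^ 2)) := ⟨_, rfl⟩
  have hl0 : 0 ≤ l := by rw [hl]; positivity
  have hlm : τ ^ 2 = 4 * l * (C1 * a ^ 2) := by
    rw [hl]
    field_simp
  have s1 := Finset.sum_le_sum fun c (_ : c ∈ Finset.univ) =>
    comp h0 ha he he1 hl0 (by positivity) hlm (hg c) (hq c)
  simp only [Finset.sum_add_distrib, ← Finset.mul_sum, ← hk] at s1
  have s2 := (h6 _ _ g (h0 a ε τ).1 (smV ha) hg fun p hp => hL p (supp_v a p hp)).trans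
    (mul_le_mul_of_nonneg_left (Finset.sum_le_sum fun c _ => wt_bd h0 ha he he1 hM (hg c)) hC)
  simp only [Finset.sum_add_distrib, ← Finset.mul_sum, ← hk] at s2
  have s3 : ∑ c, ∫ p, D (ey 0) (fun p => vpi a p * g c p) p ^ 2 ≤
      ∑ c, ∑ i, ∫ p, D (ey i) (fun p => vpi a p * g c p) p ^ 2 :=
    Finset.sum_le_sum fun c _ => Finset.single_le_sum
      (f := fun i => ∫ p, D (ey i) (fun p => vpi a p * g c p) p ^ 2)
      (fun _ _ => integral_nonneg fun _ => sq_nonneg _) (Finset.mem_univ 0)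
  have s4 : ∑ c, ∫ p, (Dm (phi a ε τ) (ey 0) (q c) p - Dm (phi a ε τ) (ex 0) (g c) p) ^ 2 ≤
      qV (phi a ε τ) g q :=
    Finset.sum_le_sum fun c _ => Finset.single_le_sum
      (f := fun i => ∫ p, (Dm (phi a ε τ) (ey i) (q c) p - Dm (phi a ε τ) (ex i) (g c) p) ^ 2)
      (fun _ _ => integral_nonneg fun _ => sq_nonneg _) (Finset.mem_univ 0)
  have n1 : 0 ≤ qV (phi a ε τ) g q := Finset.sum_nonneg fun _ _ => Finset.sum_nonneg fun _ _ =>
    integral_nonneg fun _ => sq_nonneg _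
  have n2 : 0 ≤ qr g q := Finset.sum_nonneg fun _ _ => integral_nonneg fun _ => sq_nonneg _
  have n3 : 0 ≤ q4 g := Finset.sum_nonneg fun _ _ => integral_nonneg fun _ => by positivity
  have n4 : 0 ≤ q0 g := Finset.sum_nonneg fun _ _ => integral_nonneg fun _ => sq_nonneg _
  have n5 : 0 ≤ qpi a g := Finset.sum_nonneg fun _ _ => integral_nonneg fun p =>
    mul_nonneg (v_bd ha p).1 (sq_nonneg _)
  change τ ^ 2 / 2 * qpi a g ≤ a * _ + _ * q4 g + 2 * l * _ + _ * qpi a g + _ * qr g q at s1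
  change _ ≤ C * (_ * q0 g + _ * qpi a g) at s2
  have s5 := s3.trans s2
  have s6 := mul_le_mul_of_nonneg_left s4 ha0.le
  generalize ∑ c, ∫ p, D (ey 0) (fun p => vpi a p * g c p) p ^ 2 = X at *
  generalize ∑ c, ∫ p, (Dm (phi a ε τ) (ey 0) (q c) p -
    Dm (phi a ε τ) (ex 0) (g c) p) ^ 2 = Y at *
  generalize qpi a g = S at *
  generalize qV (phi a ε τ) g q = V at *
  generalize qr g q = r at *
  generalize q4 g = g4 at *
  generalize q0 g = g0 at *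
  have t1 : 2 * X + 2 * a ^ 2 * k * S ≤ C1 * a ^ 2 * (S + g0) := by
    have u1 : 0 ≤ a ^ 2 * S := by positivity
    have u2 : 0 ≤ a ^ 2 * g0 := by positivity
    have u3 : 0 ≤ C * M * (a ^ 2 * S) := by positivity
    have u4 : 0 ≤ (C * (25 + k) + k) * (a ^ 2 * g0) := by positivity
    rw [hC1]
    linarith
  have t2 : l * (2 * X + 2 * a ^ 2 * k * S) ≤ τ ^ 2 / 4 * (S + g0) := by
    rw [hlm]
    linarith [mul_le_mul_of_nonneg_left t1 hl0]
  have t3 : τ ^ 2 * g0 ≤ a * g0 := mul_le_mul_of_nonneg_right hτ n4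
  have w1 : 0 ≤ (R ^ 2 + C1) * (a * V) := by positivity
  have w2 : 0 ≤ (1 + R ^ 2) * (a ^ 2 * r) := by positivity
  have w3 : 0 ≤ (1 + C1) * (a ^ 3 * ε ^ 2 * g4) := by positivity
  have w4 : 0 ≤ (R ^ 2 + C1) * (a * g0) := by positivity
  have w5 : 0 ≤ a * g0 := by positivity
  linarith

end Vale.Agent.P136
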