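import Vale.Agent.P136.Stmts

/-!
# P136: interior estimates for the derivatives of solutions of linear systems
-/

open MeasureTheory Set Metric
open scoped ContDiff Topology

noncomputable section
namespace Vale.Agent.P136

namespace IE
variable {ι : Type}

/-- The prolonged family. -/
def pr (W : ι → E3 → ℝ) : Option (Fin 3) × ι → E3 → ℝ
  | (none, a) => W a
  | (some l, a) => pd l (W a)

def prA (A : Coef ι) : Coef (Option (Fin 3) × ι) :=
  fun i p q => if p.1 = q.1 then A i p.2 q.2 else fun _ => 0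

def prA0 (A : Coef ι) (A0 : ι → ι → E3 → ℝ) : Option (Fin 3) × ι → Option (Fin 3) × ι → E3 → ℝ
  | (none, a), (none, a') => A0 a a'
  | (none, _), (some _, _) => fun _ => 0
  | (some l, a), (none, a') => pd l (A0 a a')
  | (some l, a), (some i, a') => fun y => pd l (A i a a') y + if i = l then A0 a a' y else 0

theorem sm_prA {A : Coef ι} (hA : SmC A) : SmC (prA A) := fun i p q => by
  unfold prA
  split_ifs
  · exact hA _ _ _
  · exact Sm.const 0

theorem sm_prA0 {A : Coef ι} {A0 : ι → ι → E3 → ℝ} (hA : SmC A) (h0 : ∀ a a', Sm (A0 a a')) :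
    ∀ p q, Sm (prA0 A A0 p q) := by
  rintro ⟨_ | l, a⟩ ⟨_ | i, a'⟩
  · exact h0 a a'
  · exact Sm.const 0
  · exact (h0 a a').D _
  · refine Sm.add ((hA i a a').D _) ?_
    split_ifs
    · exact h0 a a'
    · exact Sm.const 0

theorem smOn_pr {U : Set E3} (hU : IsOpen U) {W : ι → E3 → ℝ} (hW : SmOn U W) :
    SmOn U (pr W) := by
  rintro ⟨_ | l, a⟩
  · exact hW a
  · exact contDiffOn_pd hU (hW a) l

theorem lap_pd {U : Set E3} (hU : IsOpen U) {f : E3 → ℝ} (hf : ContDiffOn ℝ ∞ f U) (l : Fin 3)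
    {y : E3} (hy : y ∈ U) : lap (pd l f) y = pd l (lap f) y := by
  have h1 : ∀ j, DifferentiableAt ℝ (pd j (pd j f)) y := fun j =>
    dAt_of_on hU (contDiffOn_pd hU (contDiffOn_pd hU hf j) j) hy
  refine Eq.trans ?_ (D_sum_at Finset.univ (fun j _ => h1 j) _).symm
  refine Finset.sum_congr rfl fun j _ => ?_
  have e : EqOn (pd j (pd l f)) (pd l (pd j f)) U := fun z hz =>
    D_comm_at (hf.contDiffAt (hU.mem_nhds hz)) _ _
  rw [pd_congr_on hU e j hy]
  exact D_comm_at ((contDiffOn_pd hU hf j).contDiffAt (hU.mem_nhds hy)) _ _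

variable [Fintype ι]

theorem gsol_pr {A : Coef ι} {A0 : ι → ι → E3 → ℝ} (hA : SmC A) (h0 : ∀ a a', Sm (A0 a a'))
    {U : Set E3} (hU : IsOpen U) {W F : ι → E3 → ℝ} (hW : SmOn U W) (hF : SmOn U F)
    (h : GSol A A0 F U W) : GSol (prA A) (prA0 A A0) (pr F) U (pr W) := by
  rintro y hy ⟨_ | l, a⟩
  · simpa [Fintype.sum_prod_type, Fintype.sum_option, prA, prA0, pr] using h y hy a
  · have d1 : ∀ i a', DifferentiableAt ℝ (fun y => A i a a' y * pd i (W a') y) y := fun i a' =>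
      ((hA i a a').dAt y).mul (dAt_of_on hU (contDiffOn_pd hU (hW a') i) hy)
    have d2 : ∀ a', DifferentiableAt ℝ (fun y => A0 a a' y * W a' y) y := fun a' =>
      ((h0 a a').dAt y).mul (dAt_of_on hU (hW a') hy)
    have d3 : ∀ i, DifferentiableAt ℝ (fun y => ∑ a', A i a a' y * pd i (W a') y) y := fun i =>
      DifferentiableAt.fun_sum fun a' _ => d1 i a'
    have d4 : DifferentiableAt ℝ (fun y => ∑ i, ∑ a', A i a a' y * pd i (W a') y) y :=
      DifferentiableAt.fun_sum fun i _ => d3 i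
    have d5 : DifferentiableAt ℝ (fun y => ∑ a', A0 a a' y * W a' y) y :=
      DifferentiableAt.fun_sum fun a' _ => d2 a'
    have e1 : pd l (lap (W a)) y = ∑ i, ∑ a', (A i a a' y * pd i (pd l (W a')) y +
        pd l (A i a a') y * pd i (W a') y) +
        ∑ a', (A0 a a' y * pd l (W a') y + pd l (A0 a a') y * W a' y) + pd l (F a) y := by
      rw [pd_congr_on hU (fun z hz => h z hz a) l hy, pd_eq_D l,
        D_add_at (d4.fun_add d5) (dAt_of_on hU (hF a) hy), D_add_at d4 d5,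
        D_sum_at _ fun i _ => d3 i, D_sum_at _ fun a' _ => d2 a']
      congr 2
      · refine Finset.sum_congr rfl fun i _ => ?_
        rw [D_sum_at _ fun a' _ => d1 i a']
        refine Finset.sum_congr rfl fun a' _ => ?_
        rw [D_mul_at ((hA i a a').dAt y) (dAt_of_on hU (contDiffOn_pd hU (hW a') i) hy), pd_eq_D i,
          D_comm_at ((hW a').contDiffAt (hU.mem_nhds hy))]
        rfl
      · refine Finset.sum_congr rfl fun a' _ => ?_
        rw [D_mul_at ((h0 a a').dAt y) (dAt_of_on hU (hW a') hy)]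
        rfl
    have e2 : ∀ i, ∑ q, prA A i (some l, a) q y * pd i (pr W q) y =
        ∑ a', A i a a' y * pd i (pd l (W a')) y := fun i => by
      rw [Fintype.sum_prod_type, Finset.sum_eq_single (some l)]
      · simp [prA, pr]
      · intro o _ ho
        simp [prA, ho.symm]
      · simp
    have e3 : ∑ q, prA0 A A0 (some l, a) q y * pr W q y = ∑ a', pd l (A0 a a') y * W a' y +
        (∑ i, ∑ a', pd l (A i a a') y * pd i (W a') y + ∑ a', A0 a a' y * pd l (W a') y) := by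
      rw [Fintype.sum_prod_type, Fintype.sum_option]
      simp only [prA0, pr, add_mul, Finset.sum_add_distrib, ite_mul, zero_mul]
      congr 2
      rw [Finset.sum_comm]
      simp
    simp only [e2, e3]
    refine (lap_pd hU (hW a) l hy).trans (e1.trans ?_)
    simp only [Finset.sum_add_distrib, pr]
    ring

theorem sum_pr (g : (E3 → ℝ) → ℝ) (W : ι → E3 → ℝ) :
    ∑ p, g (pr W p) = ∑ a, g (W a) + ∑ l, ∑ a, g (pd l (W a)) := by
  rw [Fintype.sum_prod_type, Fintype.sum_option]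
  rfl

theorem nrm_pr (V : Set E3) (W : ι → E3 → ℝ) :
    nrm V (pr W) = nrm V W + ∑ l, nrm V fun a => pd l (W a) :=
  sum_pr (fun f => ∫ y in V, f y ^ 2) W

theorem nrm_pr2 (V : Set E3) (W : ι → E3 → ℝ) :
    nrm V (pr (pr W)) = nrm V W + 2 * ∑ l, nrm V (fun a => pd l (W a)) +
      ∑ j, ∑ k, nrm V fun a => pd j (pd k (W a)) := by
  have e : ∀ l, (nrm V fun p => pd l (pr W p)) =
      nrm V (fun a => pd l (W a)) + ∑ k, nrm V fun a => pd l (pd k (W a)) := fun l =>
    sum_pr (fun f => ∫ y in V, pd l f y ^ 2) W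
  rw [nrm_pr, nrm_pr]
  simp only [e, Finset.sum_add_distrib]
  ring

theorem nrm_nonneg (V : Set E3) (W : ι → E3 → ℝ) : 0 ≤ nrm V W :=
  Finset.sum_nonneg fun _ _ => integral_nonneg fun _ => sq_nonneg _

omit [Fintype ι] in
theorem int_sq {U : Set E3} {f : E3 → ℝ} (hf : ContinuousOn f U) {x : E3} {r : ℝ}
    (h : closedBall x r ⊆ U) : IntegrableOn (fun y => f y ^ 2) (ball x r) :=
  (((hf.mono h).pow 2).integrableOn_compact (isCompact_closedBall x r)).mono_set
    ball_subset_closedBall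

theorem nrm_mono {U : Set E3} {W : ι → E3 → ℝ} (hW : SmOn U W) {x : E3} {r ρ : ℝ}
    (h : closedBall x r ⊆ U) (hρ : ρ ≤ r) : nrm (ball x ρ) W ≤ nrm (ball x r) W :=
  Finset.sum_le_sum fun a _ => setIntegral_mono_set (int_sq (hW a).continuousOn h)
    (Filter.Eventually.of_forall fun _ => sq_nonneg _) (ball_subset_ball hρ).eventuallyLE

theorem exists_bd {κ : Type} [Finite κ] (g : κ → E3 → ℝ) (hg : ∀ k, Sm (g k)) (R : ℝ) :
    ∃ M, 0 ≤ M ∧ ∀ k, ∀ y ∈ closedBall (0 : E3) R, |g k y| ≤ M := by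
  have := Fintype.ofFinite κ
  obtain ⟨M, hM⟩ := (isCompact_closedBall (0 : E3) R).exists_bound_of_continuousOn
    (f := fun y k => g k y) (continuous_pi fun k => (hg k).cont).continuousOn
  exact ⟨max M 0, le_max_right _ _, fun k y hy =>
    ((norm_le_pi_norm (fun k => g k y) k).trans (hM y hy)).trans (le_max_left _ _)⟩

theorem step (h0 : S_ie0) {A : Coef ι} {A0 : ι → ι → E3 → ℝ} (hA : SmC A)
    (hA0 : ∀ a a', Sm (A0 a a')) (R : ℝ) : ∃ C : ℝ, 0 ≤ C ∧
    ∀ (W F : ι → E3 → ℝ) (U : Set E3) (x : E3) (r T : ℝ), 0 < r → r ≤ 1 → ‖x‖ ≤ R → IsOpen U →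
      closedBall x r ⊆ U → SmOn U W → SmOn U F → GSol A A0 F U W → nrm (ball x r) W ≤ T →
      r ^ 4 * nrm (ball x r) F ≤ T →
      ∑ a, W a x ^ 2 ≤ C * T / r ^ 3 ∧ nrm (ball x (r / 2)) (pr W) ≤ C * T / r ^ 2 := by
  obtain ⟨M, hM0, hM⟩ := exists_bd (κ := (Fin 3 × ι × ι) ⊕ (ι × ι))
    (Sum.elim (fun p => A p.1 p.2.1 p.2.2) fun p => A0 p.1 p.2)
    (by rintro (p | p); exacts [hA _ _ _, hA0 _ _]) (R + 1)
  obtain ⟨C, hC0, hC⟩ := h0 ι M
  refine ⟨C * (1 + Fintype.card ι) + 1, by positivity,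
    fun W F U x r T hr hr1 hx hU hxU hW hF hG hT hT' => ?_⟩
  have hf : ContinuousOn (fun y => ∑ a, |F a y|) U :=
    continuousOn_finsetSum _ fun a _ => (hF a).continuousOn.abs
  have hT0 : 0 ≤ T := (nrm_nonneg _ _).trans hT
  obtain ⟨g1, g2⟩ := hC W (fun y => ∑ a, |F a y|) U x r hr hU hxU hW hf fun y hy a => by
    have hy' : y ∈ closedBall (0 : E3) (R + 1) := by
      rw [mem_closedBall_zero_iff]
      have := norm_sub_norm_le y x
      have := mem_ball_iff_norm.1 hy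
      linarith
    have b1 : |∑ i, ∑ a', A i a a' y * pd i (W a') y| ≤ M * ∑ a', ∑ j, |pd j (W a') y| := by
      rw [Finset.sum_comm, Finset.mul_sum]
      refine (Finset.abs_sum_le_sum_abs _ _).trans (Finset.sum_le_sum fun a' _ => ?_)
      rw [Finset.mul_sum]
      refine (Finset.abs_sum_le_sum_abs _ _).trans (Finset.sum_le_sum fun j _ => ?_)
      rw [abs_mul]
      exact mul_le_mul_of_nonneg_right (hM (Sum.inl (j, a, a')) y hy') (abs_nonneg _)
    have b2 : |∑ a', A0 a a' y * W a' y| ≤ M * ∑ a', |W a' y| := by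
      rw [Finset.mul_sum]
      refine (Finset.abs_sum_le_sum_abs _ _).trans (Finset.sum_le_sum fun a' _ => ?_)
      rw [abs_mul]
      exact mul_le_mul_of_nonneg_right (hM (Sum.inr (a, a')) y hy') (abs_nonneg _)
    have b3 : |F a y| ≤ |∑ a, abs (F a y)| :=
      (Finset.single_le_sum (fun a _ => abs_nonneg (F a y)) (Finset.mem_univ a)).trans
        (le_abs_self _)
    have b4 : ∑ a', ∑ j, |pd j (W a') y| ≤ (∑ a', ∑ j, |pd j (W a') y|) / r :=
      le_div_self (by positivity) hr hr1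
    have b5 : ∑ a', |W a' y| ≤ (∑ a', |W a' y|) / r ^ 2 :=
      le_div_self (by positivity) (by positivity) (pow_le_one₀ hr.le hr1)
    rw [hG y (hxU (ball_subset_closedBall hy)) a, mul_add]
    refine (abs_add_three _ _ _).trans (add_le_add (add_le_add ?_ ?_) b3)
    · exact b1.trans (mul_le_mul_of_nonneg_left b4 hM0)
    · exact b2.trans (mul_le_mul_of_nonneg_left b5 hM0)
  have i1 : ∫ y in ball x r, (∑ a, |F a y|) ^ 2 ≤ Fintype.card ι * nrm (ball x r) F := by
    rw [nrm, ← integral_finsetSum _ fun a _ => int_sq (hF a).continuousOn hxU, ← integral_const_mul]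
    refine integral_mono (int_sq hf hxU)
      ((integrable_finsetSum _ fun a _ => int_sq (hF a).continuousOn hxU).const_mul _) fun y => ?_
    simpa only [sq_abs, Finset.card_univ] using
      sq_sum_le_card_mul_sum_sq (s := Finset.univ) (f := fun a => |F a y|)
  have i2 : r ^ 4 * ∫ y in ball x r, (∑ a, |F a y|) ^ 2 ≤ Fintype.card ι * T := by
    refine (mul_le_mul_of_nonneg_left i1 (by positivity)).trans ?_
    rw [mul_left_comm]
    exact mul_le_mul_of_nonneg_left hT' (Nat.cast_nonneg _)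
  have i3 : C * (nrm (ball x r) W + r ^ 4 * ∫ y in ball x r, (∑ a, |F a y|) ^ 2) ≤
      C * (1 + Fintype.card ι) * T := by
    rw [mul_assoc, add_mul, one_mul]
    exact mul_le_mul_of_nonneg_left (add_le_add hT i2) hC0
  constructor
  · refine g2.trans ?_
    rw [le_div_iff₀ (by positivity)]
    refine le_of_eq_of_le ?_ (i3.trans (by linarith))
    field_simp
  · have i4 : nrm (ball x (r / 2)) W ≤ T / r ^ 2 :=
      ((nrm_mono hW hxU (by linarith)).trans hT).trans
        (le_div_self hT0 (by positivity) (pow_le_one₀ hr.le hr1))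
    rw [Finset.sum_comm] at g1
    rw [nrm_pr, add_mul, add_div, one_mul, add_comm]
    refine add_le_add (g1.trans ?_) i4
    rw [le_div_iff₀ (by positivity)]
    refine le_of_eq_of_le ?_ i3
    field_simp

theorem src1 {U : Set E3} (hU : IsOpen U) {W F : ι → E3 → ℝ} (hF : SmOn U F) {x : E3} {r : ℝ}
    (hr : 0 < r) (hr1 : r ≤ 1) (hxU : closedBall x r ⊆ U) :
    nrm (ball x r) W ≤ ieN W F x r ∧ r ^ 4 * nrm (ball x r) F ≤ ieN W F x r ∧
      (r / 2) ^ 4 * nrm (ball x (r / 2)) (pr F) ≤ ieN W F x r / r ^ 2 ∧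
      (r / 2 / 2) ^ 4 * nrm (ball x (r / 2 / 2)) (pr (pr F)) ≤ ieN W F x r / r ^ 4 := by
  have h1 := mul_le_mul_of_nonneg_left (nrm_mono (smOn_pr hU hF) hxU (by linarith : r / 2 ≤ r))
    (by positivity : 0 ≤ r ^ 6)
  have h2 := mul_le_mul_of_nonneg_left (nrm_mono (smOn_pr hU (smOn_pr hU hF)) hxU
    (by linarith : r / 2 / 2 ≤ r)) (by positivity : 0 ≤ r ^ 8)
  rw [nrm_pr (ball x r)] at h1
  rw [nrm_pr2 (ball x r)] at h2
  rw [le_div_iff₀ (by positivity), le_div_iff₀ (by positivity), ieN]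
  have n0 := nrm_nonneg (ball x r) W
  have n1 := nrm_nonneg (ball x r) F
  have n2 : 0 ≤ ∑ j, nrm (ball x r) (fun a => pd j (F a)) :=
    Finset.sum_nonneg fun _ _ => nrm_nonneg _ _
  have n3 : 0 ≤ ∑ j, ∑ k, nrm (ball x r) (fun a => pd j (pd k (F a))) :=
    Finset.sum_nonneg fun _ _ => Finset.sum_nonneg fun _ _ => nrm_nonneg _ _
  generalize nrm (ball x (r / 2)) (pr F) = Y1 at h1
  generalize nrm (ball x (r / 2 / 2)) (pr (pr F)) = Y2 at h2
  generalize nrm (ball x r) W = a0 at n0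
  generalize nrm (ball x r) F = a1 at n1 h1 h2
  generalize ∑ j, nrm (ball x r) (fun a => pd j (F a)) = a2 at n2 h1 h2
  generalize ∑ j, ∑ k, nrm (ball x r) (fun a => pd j (pd k (F a))) = a3 at n3 h2
  have m1 : 0 ≤ r ^ 4 * a1 := by positivity
  have m2 : 0 ≤ r ^ 6 * a2 := by positivity
  have m3 : 0 ≤ r ^ 8 * a3 := by positivity
  have q1 : r ^ 6 ≤ r ^ 4 := pow_le_pow_of_le_one hr.le hr1 (by norm_num)
  have q2 : r ^ 8 ≤ r ^ 6 := pow_le_pow_of_le_one hr.le hr1 (by norm_num)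
  have q3 := mul_le_mul_of_nonneg_right q1 n1
  have q4 := mul_le_mul_of_nonneg_right (q2.trans q1) n1
  have q5 := mul_le_mul_of_nonneg_right q2 n2
  refine ⟨by linarith, by linarith, by linarith, by linarith⟩

theorem sup1 (W : ι → E3 → ℝ) (x : E3) :
    ∑ a, ∑ j, pd j (W a) x ^ 2 ≤ ∑ p, pr W p x ^ 2 := by
  rw [sum_pr (fun f => f x ^ 2), Finset.sum_comm]
  exact le_add_of_nonneg_left (Finset.sum_nonneg fun _ _ => sq_nonneg _)

theorem sup2 (W : ι → E3 → ℝ) (x : E3) :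
    ∑ a, ∑ j, ∑ k, pd j (pd k (W a)) x ^ 2 ≤ ∑ p, pr (pr W) p x ^ 2 := by
  refine le_trans ?_ (sup1 (pr W) x)
  rw [sum_pr (fun f => ∑ j, pd j f x ^ 2)]
  refine le_add_of_nonneg_of_le
    (Finset.sum_nonneg fun _ _ => Finset.sum_nonneg fun _ _ => sq_nonneg _) (le_of_eq ?_)
  rw [Finset.sum_comm (s := (Finset.univ : Finset (Fin 3)))]
  exact Finset.sum_congr rfl fun a _ => Finset.sum_comm

end IE

open IE in
theorem s_ie (h0 : S_ie0) : S_ie := by
  intro ι _ A A0 hA hA0 R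
  obtain ⟨C0, p0, s0⟩ := step h0 hA hA0 R
  obtain ⟨C1, p1, s1⟩ := step h0 (sm_prA hA) (sm_prA0 hA hA0) R
  obtain ⟨C2, p2, s2⟩ := step h0 (sm_prA (sm_prA hA)) (sm_prA0 (sm_prA hA) (sm_prA0 hA hA0)) R
  refine ⟨C0 + 8 * (C1 * (C0 + 1)) + 64 * (C2 * (4 * (C1 * (C0 + 1)) + 1)), by positivity,
    fun W F U x r hr hr1 hx hU hxU hW hF hG => ?_⟩
  obtain ⟨a0, a1, a2, a3⟩ := src1 (W := W) hU hF hr hr1 hxU
  generalize ieN W F x r = N at a0 a1 a2 a3
  have hN : 0 ≤ N := (nrm_nonneg _ _).trans a0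
  have k0 : 0 ≤ C0 * N := by positivity
  have k1 : 0 ≤ C1 * (C0 + 1) * N := by positivity
  have k2 : 0 ≤ C2 * (4 * (C1 * (C0 + 1)) + 1) * N := by positivity
  have r2 : 0 ≤ r ^ 2 := by positivity
  have r4 : 0 ≤ r ^ 4 := by positivity
  have e1 : C1 * ((C0 + 1) * N / r ^ 2) / (r / 2) ^ 2 = 4 * (C1 * (C0 + 1)) * N / r ^ 4 := by
    field_simp
    norm_num
  have e2 : C1 * ((C0 + 1) * N / r ^ 2) / (r / 2) ^ 3 = 8 * (C1 * (C0 + 1)) * N / r ^ 5 := by
    field_simp
    norm_num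
  have e3 : C2 * ((4 * (C1 * (C0 + 1)) + 1) * N / r ^ 4) / (r / 2 / 2) ^ 3 =
      64 * (C2 * (4 * (C1 * (C0 + 1)) + 1)) * N / r ^ 7 := by
    field_simp
    norm_num
  have l1 : r / 2 ≤ r := by linarith
  have l2 : r / 2 / 2 ≤ r := by linarith
  have hW1 := smOn_pr hU hW
  have hF1 := smOn_pr hU hF
  have hG1 := gsol_pr hA hA0 hU hW hF hG
  obtain ⟨b0, c0⟩ := s0 W F U x r N hr hr1 hx hU hxU hW hF hG a0 a1
  obtain ⟨b1, c1⟩ := s1 (pr W) (pr F) U x (r / 2) ((C0 + 1) * N / r ^ 2) (half_pos hr)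
    (l1.trans hr1) hx hU ((closedBall_subset_closedBall l1).trans hxU) hW1 hF1 hG1
    (c0.trans (div_le_div_of_nonneg_right (by linarith only [hN]) r2))
    (a2.trans (div_le_div_of_nonneg_right (by linarith only [k0]) r2))
  rw [e1] at c1
  obtain ⟨b2, -⟩ := s2 (pr (pr W)) (pr (pr F)) U x (r / 2 / 2)
    ((4 * (C1 * (C0 + 1)) + 1) * N / r ^ 4) (half_pos (half_pos hr)) (l2.trans hr1) hx hU
    ((closedBall_subset_closedBall l2).trans hxU)
    (smOn_pr hU hW1) (smOn_pr hU hF1) (gsol_pr (sm_prA hA) (sm_prA0 hA hA0) hU hW1 hF1 hG1)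
    (c1.trans (div_le_div_of_nonneg_right (by linarith only [hN]) r4))
    (a3.trans (div_le_div_of_nonneg_right (by linarith only [k1]) r4))
  rw [e2] at b1
  rw [e3] at b2
  exact ⟨b0.trans (div_le_div_of_nonneg_right (by linarith only [k1, k2]) (pow_pos hr 3).le),
    ((sup1 W x).trans b1).trans
      (div_le_div_of_nonneg_right (by linarith only [k0, k2]) (pow_pos hr 5).le),
    ((sup2 W x).trans b2).trans
      (div_le_div_of_nonneg_right (by linarith only [k0, k1]) (pow_pos hr 7).le)⟩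

end Vale.Agent.P136
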