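import Vale.Agent.P136.Stmts

/-!
# P136: the Laplace-type system generating solutions `u = w + ∇ f` of the Lamé system
-/

open MeasureTheory Set Metric
open scoped ContDiff Topology

noncomputable section
namespace Vale.Agent.P136
namespace Ike

variable {f g lam mu : E3 → ℝ} {x : E3} {U : Set E3} {W : YI → E3 → ℝ}

lemma pd_add (hf : DifferentiableAt ℝ f x) (hg : DifferentiableAt ℝ g x) (j : Fin 3) :
    pd j (fun y => f y + g y) x = pd j f x + pd j g x := D_add_at hf hg _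

lemma pd_sub (hf : DifferentiableAt ℝ f x) (hg : DifferentiableAt ℝ g x) (j : Fin 3) :
    pd j (fun y => f y - g y) x = pd j f x - pd j g x := D_sub_at hf hg _

lemma pd_mul (hf : DifferentiableAt ℝ f x) (hg : DifferentiableAt ℝ g x) (j : Fin 3) :
    pd j (fun y => f y * g y) x = f x * pd j g x + pd j f x * g x := D_mul_at hf hg _

lemma pd_neg (f : E3 → ℝ) (j : Fin 3) : pd j (fun y => -f y) = fun x => -pd j f x :=
  funext fun x => D_neg f _ x

lemma pd_const (c : ℝ) (j : Fin 3) : pd j (fun _ => c) = fun _ => 0 :=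
  funext fun x => D_const c _ x

lemma pd_sum {F : Fin 3 → E3 → ℝ} (hf : ∀ i, DifferentiableAt ℝ (F i) x) (j : Fin 3) :
    pd j (fun y => ∑ i, F i y) x = ∑ i, pd j (F i) x := D_sum_at _ (fun i _ => hf i) _

lemma pd_coord (i j : Fin 3) : pd j (fun y : E3 => y i) x = if i = j then 1 else 0 := by
  have : (fun y : E3 => y i) = (EuclideanSpace.proj i : E3 →L[ℝ] ℝ) := rfl
  rw [pd, this, ContinuousLinearMap.fderiv]
  simp

lemma pd_comm (hU : IsOpen U) (hf : ContDiffOn ℝ ∞ f U) (i j : Fin 3) :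
    EqOn (pd i (pd j f)) (pd j (pd i f)) U := fun _ hx =>
  D_comm_at (hf.contDiffAt (hU.mem_nhds hx)) _ _

lemma sm_pd (h : Sm f) (j : Fin 3) : Sm (pd j f) := h.D _

/-- The scalar equation. -/
def Ef (lam mu : E3 → ℝ) (W : YI → E3 → ℝ) : E3 → ℝ := fun y =>
  (lam y + 2 * mu y) * ∑ j, pd j (pd j (W none)) y + 2 * ∑ i, pd i mu y * pd i (W none) y +
    (lam y + mu y) * ∑ i, pd i (W (some i)) y

/-- The vector equation. -/
def Ew (lam mu : E3 → ℝ) (W : YI → E3 → ℝ) (k : Fin 3) : E3 → ℝ := fun y =>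
  mu y * lap (W (some k)) y + ∑ i, pd i mu y * (pd i (W (some k)) y + pd k (W (some i)) y) -
    pd k mu y * ∑ i, pd i (W (some i)) y - 2 * ∑ i, pd k (pd i mu) y * pd i (W none) y +
    2 * pd k mu y * (2 * ∑ i, pd i mu y * pd i (W none) y +
      (lam y + mu y) * ∑ i, pd i (W (some i)) y) * (lam y + 2 * mu y)⁻¹

/-- Kronecker symbol. -/
def dl (i j : Fin 3) : ℝ := if i = j then 1 else 0

/-- The coefficients of the system. -/
def bb (lam mu : E3 → ℝ) : Coef YI
  | i, none, none => fun y => 2 * pd i mu y * (lam y + 2 * mu y)⁻¹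
  | i, none, some j => fun y => dl i j * (lam y + mu y) * (lam y + 2 * mu y)⁻¹
  | i, some k, none => fun y =>
      (4 * pd k mu y * pd i mu y * (lam y + 2 * mu y)⁻¹ - 2 * pd k (pd i mu) y) * (mu y)⁻¹
  | i, some k, some j => fun y => (dl j k * pd i mu y + dl i k * pd j mu y +
      dl i j * pd k mu y * (2 * (lam y + mu y) * (lam y + 2 * mu y)⁻¹ - 1)) * (mu y)⁻¹

lemma smC_bb (hl : Sm lam) (hm : Sm mu) (h1 : ∀ y, mu y ≠ 0) (h2 : ∀ y, lam y + 2 * mu y ≠ 0) :
    SmC (bb lam mu) := by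
  have a1 : Sm fun y => (mu y)⁻¹ := hm.inv h1
  have a2 : Sm fun y => (lam y + 2 * mu y)⁻¹ := (hl.add (hm.cmul 2)).inv h2
  have a3 := sm_pd hm
  rintro i (_ | k) (_ | j)
  · exact ((a3 i).cmul 2).mul a2
  · exact ((hl.add hm).cmul _).mul a2
  · exact (((((a3 k).cmul 4).mul (a3 i)).mul a2).sub ((sm_pd (a3 i) k).cmul 2)).mul a1
  · exact ((((a3 i).cmul _).add ((a3 j).cmul _)).add (((a3 k).cmul _).mul
      ((((hl.add hm).cmul 2).mul a2).sub (Sm.const 1)))).mul a1

lemma sys_none (h2 : lam x + 2 * mu x ≠ 0) :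
    sysL (bb lam mu) W none x = 0 ↔ Ef lam mu W x = 0 := by
  rw [← mul_eq_zero_iff_left h2, iff_iff_eq]
  congr 1
  simp [sysL, lap, Ef, bb, dl, Fintype.sum_option, Fin.sum_univ_three]
  field_simp
  ring

lemma sys_some (h1 : mu x ≠ 0) (k : Fin 3) :
    sysL (bb lam mu) W (some k) x = 0 ↔ Ew lam mu W k x = 0 := by
  rw [← mul_eq_zero_iff_left h1, iff_iff_eq]
  congr 1
  generalize hq : (lam x + 2 * mu x)⁻¹ = q
  fin_cases k <;> simp [sysL, Ew, bb, dl, Fintype.sum_option, Fin.sum_univ_three, hq] <;>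
    field_simp <;> ring

lemma pd_ike (hU : IsOpen U) (hW : SmOn U W) (i j : Fin 3) :
    EqOn (pd j (ike W i)) (fun y => pd j (W (some i)) y + pd i (pd j (W none)) y) U := by
  intro y hy
  beta_reduce
  rw [← pd_comm hU (hW none) j i hy]
  exact pd_add (dAt_of_on hU (hW _) hy) (dAt_of_on hU (contDiffOn_pd hU (hW _) i) hy) j

lemma dv_ike (hU : IsOpen U) (hW : SmOn U W) : EqOn (dv (ike W))
    (fun y => ∑ i, pd i (W (some i)) y + ∑ j, pd j (pd j (W none)) y) U := by
  intro y hy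
  simp only [dv, ← Finset.sum_add_distrib]
  exact Finset.sum_congr rfl fun i _ => pd_ike hU hW i i hy

lemma lame_ike (hl : Sm lam) (hm : Sm mu) (hU : IsOpen U) (hW : SmOn U W) (hx : x ∈ U)
    (h2 : lam x + 2 * mu x ≠ 0) (k : Fin 3) : lame lam mu (ike W) k x =
      pd k (Ef lam mu W) x + Ew lam mu W k x -
        2 * pd k mu x * Ef lam mu W x * (lam x + 2 * mu x)⁻¹ := by
  have s1 := fun a j => contDiffOn_pd hU (hW a) j
  have d1 := fun a j => dAt_of_on hU (s1 a j) hx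
  have d2 := fun a j i => dAt_of_on hU (contDiffOn_pd hU (s1 a j) i) hx
  have dl := hl.dAt x
  have dm := hm.dAt x
  have dm1 := fun j => (sm_pd hm j).dAt x
  have e1 : lap (ike W k) x = lap (W (some k)) x + ∑ j, pd k (pd j (pd j (W none))) x := by
    simp only [lap, ← Finset.sum_add_distrib]
    refine Finset.sum_congr rfl fun j _ => ?_
    rw [pd_congr_on hU (pd_ike hU hW k j) j hx, pd_add (d1 _ _) (d2 _ _ _),
      pd_comm hU (s1 none j) j k hx]
  have e2 : pd k (dv (ike W)) x =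
      ∑ i, pd k (pd i (W (some i))) x + ∑ j, pd k (pd j (pd j (W none))) x := by
    rw [pd_congr_on hU (dv_ike hU hW) k hx, pd_add (by fun_prop) (by fun_prop),
      pd_sum (by fun_prop), pd_sum (by fun_prop)]
  have e3 : ∀ j, pd k (ike W j) x = pd k (W (some j)) x + pd k (pd j (W none)) x := fun j => by
    rw [pd_ike hU hW j k hx, pd_comm hU (hW none) k j hx]
  have e4 : ∀ j, pd j (ike W k) x = pd j (W (some k)) x + pd k (pd j (W none)) x := fun j =>
    pd_ike hU hW k j hx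
  unfold Ef
  simp (disch := fun_prop) only [lame, Ew, e1, e2, e3, e4, dv_ike hU hW hx, pd_add, pd_mul,
    pd_const, Fin.sum_univ_three]
  linear_combination 2 * pd k mu x * (pd 0 (pd 0 (W none)) x + pd 1 (pd 1 (W none)) x +
    pd 2 (pd 2 (W none)) x) * mul_inv_cancel₀ h2

lemma pd_zero_on (hU : IsOpen U) (h : ∀ y ∈ U, f y = 0) (j : Fin 3) : ∀ y ∈ U, pd j f y = 0 :=
  fun y hy => by rw [pd_congr_on hU (g := fun _ => 0) h j hy, pd_const]

lemma lame_zero {u : Fin 3 → E3 → ℝ} (hU : IsOpen U) (h : ∀ i, ∀ y ∈ U, u i y = 0) (hx : x ∈ U)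
    (k : Fin 3) : lame lam mu u k x = 0 := by
  have h1 := fun i j => pd_zero_on hU (h i) j
  have h2 : ∀ y ∈ U, dv u y = 0 := fun y hy => by simp [dv, h1 _ _ y hy]
  simp [lame, lap, h1 _ _ x hx, pd_zero_on hU (h1 _ _) _ x hx, h2 x hx, pd_zero_on hU h2 k x hx]

lemma pd_rot (Q : Fin 3 → Fin 3 → ℝ) (x₀ : E3) (i k : Fin 3) :
    pd k (rotW Q x₀ (some i)) = fun _ => Q i k := by
  funext y
  change pd k (fun y => ∑ j, Q i j * (y j - x₀ j)) y = _
  simp (disch := fun_prop) only [pd_sum, pd_mul, pd_sub, pd_const, pd_coord]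
  simp

lemma pos {c : ℝ} (hc : 0 < c) (h : UAdm c lam mu) (y : E3) : 0 < mu y ∧ 0 < lam y + 2 * mu y := by
  obtain ⟨h1, h2⟩ := h.2.2 y
  constructor <;> linarith

/-- The solutions of the system. -/
def Sol (b : Coef YI) (U : Set E3) (W : YI → E3 → ℝ) : Prop :=
  IsOpen U ∧ SmOn U W ∧ ∀ y ∈ U, ∀ a, sysL b W a y = 0

/-- Expressions bounded by the 2-jet. -/
def Bd (b : Coef YI) (R : ℝ) (F : (YI → E3 → ℝ) → E3 → ℝ) : Prop :=
  ∃ C : ℝ, 0 ≤ C ∧ ∀ U W, Sol b U W → ∀ x ∈ U, ‖x‖ ≤ R → F W x ^ 2 ≤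
    C * (∑ a, W a x ^ 2 + ∑ a, ∑ j, pd j (W a) x ^ 2 + ∑ a, ∑ j, ∑ k, pd j (pd k (W a)) x ^ 2)

variable {b : Coef YI} {R : ℝ} {F G : (YI → E3 → ℝ) → E3 → ℝ}

lemma Bd.congr (h : Bd b R G) (e : ∀ U W, Sol b U W → EqOn (F W) (G W) U) : Bd b R F :=
  h.imp fun _ h => ⟨h.1, fun U W s x hx hR => e U W s hx ▸ h.2 U W s x hx hR⟩

lemma Bd.add (h : Bd b R F) (h' : Bd b R G) : Bd b R fun W y => F W y + G W y := by
  obtain ⟨C, c0, h⟩ := h
  obtain ⟨C', c0', h'⟩ := h'
  refine ⟨2 * C + 2 * C', by positivity, fun U W s x hx hR => ?_⟩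
  nlinarith [h U W s x hx hR, h' U W s x hx hR, sq_nonneg (F W x - G W x)]

lemma Bd.mul (h : Bd b R F) (hg : Continuous g) : Bd b R fun W y => g y * F W y := by
  obtain ⟨C, c0, h⟩ := h
  obtain ⟨M, hM⟩ := (isCompact_closedBall (0 : E3) R).exists_bound_of_continuousOn
    (hg.pow 2).continuousOn
  refine ⟨|M| * C, by positivity, fun U W s x hx hR => ?_⟩
  rw [mul_pow, mul_assoc]
  exact mul_le_mul (((le_abs_self _).trans (hM x (by simpa using hR))).trans (le_abs_self M))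
    (h U W s x hx hR) (sq_nonneg _) (abs_nonneg M)

lemma bd0 (a : YI) : Bd b R fun W => W a := ⟨1, zero_le_one, fun U W _ x _ _ => by
  rw [one_mul, add_assoc]
  exact le_add_of_le_of_nonneg (Finset.single_le_sum (f := fun a => W a x ^ 2)
    (fun _ _ => sq_nonneg _) (Finset.mem_univ a)) (by positivity)⟩

lemma bd1 (a : YI) (j : Fin 3) : Bd b R fun W => pd j (W a) :=
  ⟨1, zero_le_one, fun U W _ x _ _ => by
    rw [one_mul]
    refine le_add_of_le_of_nonneg (le_add_of_nonneg_of_le (by positivity) ?_) (by positivity)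
    exact (Finset.single_le_sum (f := fun j => pd j (W a) x ^ 2) (fun _ _ => sq_nonneg _)
      (Finset.mem_univ j)).trans (Finset.single_le_sum (f := fun a => ∑ j, pd j (W a) x ^ 2)
      (fun _ _ => by positivity) (Finset.mem_univ a))⟩

lemma bd2 (a : YI) (j k : Fin 3) : Bd b R fun W => pd j (pd k (W a)) :=
  ⟨1, zero_le_one, fun U W _ x _ _ => by
    rw [one_mul]
    refine le_add_of_nonneg_of_le (by positivity) ?_
    exact ((Finset.single_le_sum (f := fun k => pd j (pd k (W a)) x ^ 2) (fun _ _ => sq_nonneg _)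
      (Finset.mem_univ k)).trans (Finset.single_le_sum
      (f := fun j => ∑ k, pd j (pd k (W a)) x ^ 2) (fun _ _ => by positivity)
      (Finset.mem_univ j))).trans (Finset.single_le_sum
      (f := fun a => ∑ j, ∑ k, pd j (pd k (W a)) x ^ 2) (fun _ _ => by positivity)
      (Finset.mem_univ a))⟩

/-- Expressions bounded by the 2-jet together with their first derivatives. -/
def Bd1 (b : Coef YI) (R : ℝ) (F : (YI → E3 → ℝ) → E3 → ℝ) : Prop :=
  (∀ U W, Sol b U W → ContDiffOn ℝ ∞ (F W) U) ∧ Bd b R F ∧ ∀ j, Bd b R fun W => pd j (F W)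

lemma Bd1.congr (h : Bd1 b R G) (e : ∀ U W, Sol b U W → EqOn (F W) (G W) U) : Bd1 b R F :=
  ⟨fun U W s => (h.1 U W s).congr (e U W s), h.2.1.congr e,
    fun j => (h.2.2 j).congr fun U W s => pd_congr_on s.1 (e U W s) j⟩

lemma Bd1.add (h : Bd1 b R F) (h' : Bd1 b R G) : Bd1 b R fun W y => F W y + G W y :=
  ⟨fun U W s => (h.1 U W s).add (h'.1 U W s), h.2.1.add h'.2.1,
    fun j => ((h.2.2 j).add (h'.2.2 j)).congr fun U W s _ hy =>
      pd_add (dAt_of_on s.1 (h.1 U W s) hy) (dAt_of_on s.1 (h'.1 U W s) hy) j⟩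

lemma Bd1.mul (h : Bd1 b R F) (hg : Sm g) : Bd1 b R fun W y => g y * F W y :=
  ⟨fun U W s => hg.contDiffOn.mul (h.1 U W s), h.2.1.mul hg.cont,
    fun j => (((h.2.2 j).mul hg.cont).add (h.2.1.mul (sm_pd hg j).cont)).congr fun U W s _ hy =>
      pd_mul (hg.dAt _) (dAt_of_on s.1 (h.1 U W s) hy) j⟩

lemma bd10 (a : YI) : Bd1 b R fun W => W a := ⟨fun _ _ s => s.2.1 a, bd0 a, bd1 a⟩

lemma bd11 (a : YI) (k : Fin 3) : Bd1 b R fun W => pd k (W a) :=
  ⟨fun _ _ s => contDiffOn_pd s.1 (s.2.1 a) k, bd1 a k, fun j => bd2 a j k⟩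

lemma bd_eps {c : ℝ} (hc : 0 < c) (h : UAdm c lam mu) (hb : IkeProp lam mu b) (m : XI) :
    Bd1 b R fun W => eps lam mu (ike W) m := by
  rcases m with i | _ | ⟨i, k⟩
  · exact (bd10 _).add (bd11 _ _)
  · have a : ∀ i, Bd1 b R fun W y =>
        pd i (W (some i)) y + -2 * (mu y)⁻¹ * pd i mu y * pd i (W none) y := fun i =>
      (bd11 _ _).add ((bd11 _ _).mul
        ((Sm.cmul (-2) (h.2.1.inv fun y => (pos hc h y).1.ne')).mul (sm_pd h.2.1 i)))
    refine (((a 0).add (a 1)).add (a 2)).congr fun U W s y hy => ?_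
    have e := (hb.2.1 U W s.1 s.2.1 s.2.2 y hy).2
    have := (pos hc h y).1.ne'
    simp only [eps, Sum.elim_inr, Sum.elim_inl, Fin.sum_univ_three] at e ⊢
    rw [div_mul_eq_mul_div, e]
    field_simp
    ring
  · refine ((bd11 (some i) k).add ((bd11 (some k) i).mul (Sm.const (-1)))).congr
      fun U W s y hy => ?_
    simp only [eps, Sum.elim_inr]
    rw [pd_ike s.1 s.2.1 i k hy, pd_ike s.1 s.2.1 k i hy]
    beta_reduce
    rw [pd_comm s.1 (s.2.1 none) i k hy]
    ring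

end Ike

open Ike

theorem s_ike : S_ike := by
  intro c lam mu hc h
  have h1 := fun y => (pos hc h y).1.ne'
  have h2 := fun y => (pos hc h y).2.ne'
  refine ⟨bb lam mu, smC_bb h.1 h.2.1 h1 h2, fun U W hU hW s y hy => ?_,
    fun Q x₀ hQ y a => ?_, fun U f hU hf s y hy a => ?_⟩
  · have e := fun y hy => (sys_none (h2 y)).1 (s y hy none)
    refine ⟨fun k => ?_, ?_⟩
    · rw [lame_ike h.1 h.2.1 hU hW hy (h2 y), pd_zero_on hU e k y hy, e y hy,
        (sys_some (h1 y) k).1 (s y hy _)]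
      ring
    · rw [dv_ike hU hW hy]
      linear_combination (norm := (unfold Ef; ring)) e y hy
  · have e : rotW Q x₀ none = fun _ => 0 := rfl
    have d : ∀ i, Q i i = 0 := fun i => by linarith [hQ i i]
    rcases a with _ | k
    · rw [sys_none (h2 y)]
      simp [Ef, e, pd_const, pd_rot, d]
    · rw [sys_some (h1 y)]
      simp [Ew, lap, e, pd_const, pd_rot, d, hQ k]
  · have hW : SmOn U (kerW f) := by
      rintro (_ | i)
      · exact hf
      · exact (contDiffOn_pd hU hf i).neg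
    have e : ∀ y ∈ U, Ef lam mu (kerW f) y = 0 := fun y hy => by
      have e1 : kerW f none = f := rfl
      have e2 : ∀ i, kerW f (some i) = fun y => -pd i f y := fun _ => rfl
      have e3 := s y hy
      have := h1 y
      simp only [sysL, bs, lap, Ef, e1, e2, pd_neg, Fin.sum_univ_three, Finset.univ_unique,
        Finset.sum_singleton] at e3 ⊢
      field_simp at e3
      linear_combination e3
    rcases a with _ | k
    · exact (sys_none (h2 y)).2 (e y hy)
    · have e4 := lame_ike h.1 h.2.1 hU hW hy (h2 y) k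
      rw [lame_zero (u := ike (kerW f)) hU (fun i y _ => neg_add_cancel _) hy,
        pd_zero_on hU e k y hy, e y hy] at e4
      exact (sys_some (h1 y) k).2 (by linear_combination -e4)

theorem s_ikeBd : S_ikeBd := by
  intro c R lam mu b hc h hb
  choose C c0 hC using fun m => (bd_eps (R := R) hc h hb m).2.1
  choose C' c0' hC' using fun m j => (bd_eps (R := R) hc h hb m).2.2 j
  refine ⟨∑ m, C m + ∑ m, ∑ j, C' m j, add_nonneg (Finset.sum_nonneg fun m _ => c0 m)
    (Finset.sum_nonneg fun m _ => Finset.sum_nonneg fun j _ => c0' m j),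
    fun U W hU hW s x hx hR => ?_⟩
  simp only [add_mul (∑ m, C m), Finset.sum_mul]
  exact add_le_add (Finset.sum_le_sum fun m _ => hC m U W ⟨hU, hW, s⟩ x hx hR)
    (Finset.sum_le_sum fun m _ => Finset.sum_le_sum fun j _ => hC' m j U W ⟨hU, hW, s⟩ x hx hR)

end Vale.Agent.P136
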