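import Vale.Agent.P136.Stmts

/-!
# P136: solutions with prescribed 2-jets
-/

open MeasureTheory Set Metric
open scoped ContDiff Topology

noncomputable section
namespace Vale.Agent.P136
namespace Jets

lemma intOn_sq {f : E3 → ℝ} (hf : Continuous f) (x : E3) (R : ℝ) :
    IntegrableOn (fun y => f y ^ 2) (ball x R) :=
  ((hf.pow 2).continuousOn.integrableOn_compact (isCompact_closedBall x R)).mono_set
    ball_subset_closedBall

lemma int_ball_le {f : E3 → ℝ} (hf : Continuous f) (x₀ : E3) : ∃ K : ℝ, 0 ≤ K ∧ ∀ r : ℝ, 0 < r →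
    r ≤ 1 → ∫ y in ball x₀ r, f y ^ 2 ≤ K * r ^ 3 := by
  obtain ⟨M, hM⟩ := (isCompact_closedBall x₀ 1).exists_bound_of_continuousOn
    (hf.pow 2).continuousOn
  have hM0 : 0 ≤ M := (norm_nonneg _).trans (hM x₀ (mem_closedBall_self zero_le_one))
  refine ⟨M * (Real.pi * 4 / 3), by positivity, fun r hr hr1 => ?_⟩
  have h1 := norm_setIntegral_le_of_norm_le_const (μ := volume) (s := ball x₀ r)
    (f := fun y => f y ^ 2) measure_ball_lt_top fun y hy =>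
      hM y (closedBall_subset_closedBall hr1 (ball_subset_closedBall hy))
  have h2 : volume.real (ball x₀ r) = r ^ 3 * (Real.pi * 4 / 3) := by
    rw [Measure.real, EuclideanSpace.volume_ball_fin_three, ENNReal.toReal_mul, ENNReal.toReal_pow,
      ENNReal.toReal_ofReal hr.le, ENNReal.toReal_ofReal (by positivity)]
  rw [h2] at h1
  exact (le_abs_self _).trans (h1.trans_eq (by ring))

lemma gauss : ∃ K : ℝ, 0 < K ∧ ∀ r : ℝ, 0 < r → ∀ x₀ : E3,
    ∫ y : E3, Real.exp (-(1 / (2 * r ^ 2)) * ‖y - x₀‖ ^ 2) = K * r ^ 3 := by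
  refine ⟨(2 * Real.pi) ^ (3 / 2 : ℝ), by positivity, fun r hr x₀ => ?_⟩
  rw [integral_sub_right_eq_self (fun y : E3 => Real.exp (-(1 / (2 * r ^ 2)) * ‖y‖ ^ 2)) x₀,
    GaussianFourier.integral_rexp_neg_mul_sq_norm (by positivity)]
  have h1 : Real.pi / (1 / (2 * r ^ 2)) = 2 * Real.pi * r ^ 2 := by field_simp
  have h2 : ((Module.finrank ℝ E3 : ℝ) / 2) = 3 / 2 := by simp
  rw [h1, h2, Real.mul_rpow (by positivity) (by positivity), ← Real.rpow_natCast r 2,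
    ← Real.rpow_mul hr.le, ← Real.rpow_natCast r 3]
  norm_num

lemma wgt {f : E3 → ℝ} (hf : Sm f) {x₀ : E3} {R : ℝ} (hx : x₀ ∈ ball (0 : E3) R) (h0 : f x₀ = 0) :
    ∃ K : ℝ, 0 ≤ K ∧ ∀ r : ℝ, 0 < r →
      ∫ y in ball (0 : E3) R, Real.exp (-(1 / r ^ 2 * ‖y - x₀‖ ^ 2)) * f y ^ 2 ≤ K * r ^ 5 := by
  obtain ⟨L, hL⟩ := (hf.contDiffOn (s := closedBall 0 R)).exists_lipschitzOnWith (by simp)
    (convex_closedBall 0 R) (isCompact_closedBall 0 R)
  obtain ⟨K, hK, hg⟩ := gauss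
  refine ⟨2 * L ^ 2 * K, by positivity, fun r hr => ?_⟩
  have hi : Integrable fun y : E3 => Real.exp (-(1 / (2 * r ^ 2)) * ‖y - x₀‖ ^ 2) :=
    Integrable.of_integral_ne_zero (by rw [hg r hr]; positivity)
  have hi' := hi.const_mul (2 * L ^ 2 * r ^ 2)
  calc _ ≤ ∫ y in ball (0 : E3) R,
        2 * L ^ 2 * r ^ 2 * Real.exp (-(1 / (2 * r ^ 2)) * ‖y - x₀‖ ^ 2) := by
        refine integral_mono_of_nonneg (.of_forall fun y => by positivity) hi'.integrableOn ?_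
        filter_upwards [ae_restrict_mem measurableSet_ball] with y hy
        have h1 := hL.dist_le_mul y (ball_subset_closedBall hy) x₀ (ball_subset_closedBall hx)
        rw [h0, dist_zero_right, dist_eq_norm, Real.norm_eq_abs] at h1
        have h2 : f y ^ 2 ≤ (L * ‖y - x₀‖) ^ 2 := by
          rw [← sq_abs]
          exact pow_le_pow_left₀ (abs_nonneg _) h1 2
        set u := 1 / (2 * r ^ 2) * ‖y - x₀‖ ^ 2 with hu
        have h3 : ‖y - x₀‖ ^ 2 = 2 * r ^ 2 * u := by rw [hu]; field_simp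
        have h4 : 1 / r ^ 2 * ‖y - x₀‖ ^ 2 = u + u := by rw [hu]; field_simp; ring
        have h5 : u * Real.exp (-u) ≤ 1 := by
          have h6 := Real.add_one_le_exp u
          rw [Real.exp_neg, ← div_eq_mul_inv, div_le_one (Real.exp_pos u)]
          linarith
        rw [neg_mul, ← hu, h4, neg_add, Real.exp_add]
        rw [mul_pow, h3] at h2
        have h7 := Real.exp_pos (-u)
        calc Real.exp (-u) * Real.exp (-u) * f y ^ 2
            ≤ Real.exp (-u) * Real.exp (-u) * (L ^ 2 * (2 * r ^ 2 * u)) := by gcongr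
          _ = 2 * L ^ 2 * r ^ 2 * Real.exp (-u) * (u * Real.exp (-u)) := by ring
          _ ≤ 2 * L ^ 2 * r ^ 2 * Real.exp (-u) * 1 := by gcongr
          _ = _ := mul_one _
    _ ≤ ∫ y : E3, 2 * L ^ 2 * r ^ 2 * Real.exp (-(1 / (2 * r ^ 2)) * ‖y - x₀‖ ^ 2) :=
        setIntegral_le_integral hi' (.of_forall fun y => by positivity)
    _ = _ := by rw [integral_const_mul, hg r hr]; ring

lemma ball_le_wgt {f : E3 → ℝ} {x₀ : E3} {R r : ℝ} (hr : 0 < r) (hs : ball x₀ r ⊆ ball 0 R)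
    (hf : IntegrableOn (fun y => f y ^ 2) (ball 0 R)) :
    ∫ y in ball x₀ r, f y ^ 2 ≤
      3 * ∫ y in ball (0 : E3) R, Real.exp (-(1 / r ^ 2 * ‖y - x₀‖ ^ 2)) * f y ^ 2 := by
  have hc : Continuous fun y : E3 => Real.exp (-(1 / r ^ 2 * ‖y - x₀‖ ^ 2)) := by fun_prop
  have hi : IntegrableOn (fun y => Real.exp (-(1 / r ^ 2 * ‖y - x₀‖ ^ 2)) * f y ^ 2) (ball 0 R) :=
    Integrable.bdd_mul (c := 1) hf hc.aestronglyMeasurable (.of_forall fun y => by
      rw [Real.norm_eq_abs, abs_of_pos (Real.exp_pos _), Real.exp_le_one_iff, neg_nonpos]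
      positivity)
  calc _ ≤ ∫ y in ball x₀ r, 3 * (Real.exp (-(1 / r ^ 2 * ‖y - x₀‖ ^ 2)) * f y ^ 2) := by
        refine setIntegral_mono_on (hf.mono_set hs) ((hi.mono_set hs).const_mul 3)
          measurableSet_ball fun y hy => ?_
        have h1 : ‖y - x₀‖ ^ 2 ≤ r ^ 2 :=
          pow_le_pow_left₀ (norm_nonneg _) (mem_ball_iff_norm.1 hy).le 2
        have h2 : 1 / r ^ 2 * ‖y - x₀‖ ^ 2 ≤ 1 := by
          rw [one_div, ← div_eq_inv_mul, div_le_one (by positivity)]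
          exact h1
        have h3 : 1 ≤ 3 * Real.exp (-(1 / r ^ 2 * ‖y - x₀‖ ^ 2)) := by
          rw [Real.exp_neg, ← div_eq_mul_inv, one_le_div (Real.exp_pos _)]
          exact (Real.exp_le_exp.2 h2).trans Real.exp_one_lt_three.le
        nlinarith [sq_nonneg (f y)]
    _ = 3 * ∫ y in ball x₀ r, Real.exp (-(1 / r ^ 2 * ‖y - x₀‖ ^ 2)) * f y ^ 2 :=
        integral_const_mul _ _
    _ ≤ _ := mul_le_mul_of_nonneg_left
        (setIntegral_mono_set hi (.of_forall fun y => by positivity) hs.eventuallyLE) (by norm_num)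

variable {ι : Type} [Fintype ι]

lemma sm_pd {f : E3 → ℝ} (hf : Sm f) (j : Fin 3) : Sm (pd j f) := hf.D _

lemma sm_sysL {b : Coef ι} (hb : SmC b) {p : ι → E3 → ℝ} (hp : ∀ c, Sm (p c)) (c : ι) :
    Sm (sysL b p c) :=
  (Sm.sum fun j _ => sm_pd (sm_pd (hp c) j) j).add
    (Sm.sum fun i _ => Sm.sum fun a' _ => (hb i c a').mul (sm_pd (hp a') i))

lemma nrm_le {F : ι → E3 → ℝ} (hF : ∀ c, Sm (F c)) (x₀ : E3) : ∃ K : ℝ, 0 ≤ K ∧ ∀ r : ℝ, 0 < r →
    r ≤ 1 → nrm (ball x₀ r) F ≤ K * r ^ 3 := by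
  choose K hK h using fun c => int_ball_le (hF c).cont x₀
  refine ⟨∑ c, K c, Finset.sum_nonneg fun c _ => hK c, fun r hr hr1 => ?_⟩
  rw [Finset.sum_mul]
  exact Finset.sum_le_sum fun c _ => h c r hr hr1

lemma wgt_sum {F : ι → E3 → ℝ} (hF : ∀ c, Sm (F c)) {x₀ : E3} {R : ℝ} (hx : x₀ ∈ ball (0 : E3) R)
    (h0 : ∀ c, F c x₀ = 0) : ∃ K : ℝ, 0 ≤ K ∧ ∀ r : ℝ, 0 < r → ∑ c,
      ∫ y in ball (0 : E3) R, Real.exp (-(1 / r ^ 2 * ‖y - x₀‖ ^ 2)) * F c y ^ 2 ≤ K * r ^ 5 := by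
  choose K hK h using fun c => wgt (hF c) hx (h0 c)
  refine ⟨∑ c, K c, Finset.sum_nonneg fun c _ => hK c, fun r hr => ?_⟩
  rw [Finset.sum_mul]
  exact Finset.sum_le_sum fun c _ => h c r hr

lemma nrm_le_wgt {F : ι → E3 → ℝ} {x₀ : E3} {R r : ℝ} (hr : 0 < r) (hs : ball x₀ r ⊆ ball 0 R)
    (hF : ∀ c, IntegrableOn (fun y => F c y ^ 2) (ball 0 R)) : nrm (ball x₀ r) F ≤
      3 * ∑ c, ∫ y in ball (0 : E3) R, Real.exp (-(1 / r ^ 2 * ‖y - x₀‖ ^ 2)) * F c y ^ 2 := by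
  rw [Finset.mul_sum]
  exact Finset.sum_le_sum fun c _ => ball_le_wgt hr hs (hF c)

/-- The right-hand side of the interior estimate is of order `r ^ 9`. -/
lemma ie_small (h1 : S_exist) {b : Coef ι} (hb : SmC b) {R : ℝ} {x₀ : E3}
    (hx : x₀ ∈ ball (0 : E3) R) {p : ι → E3 → ℝ} (hp : ∀ c, Sm (p c))
    (h0 : ∀ c, sysL b p c x₀ = 0) : ∃ K r₀ : ℝ, 0 ≤ K ∧ 0 < r₀ ∧ ∀ r : ℝ, 0 < r → r ≤ r₀ →
      ball x₀ r ⊆ ball 0 R → ∃ W ∈ SolSp b R,
        ieN (fun c y => 1 * W c y + (-1) * p c y) (fun c y => -sysL b p c y) x₀ r ≤ K * r ^ 9 := by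
  obtain ⟨C, a₀, hC, ha₀, h⟩ := h1 ι b R x₀ hb
  have hG := sm_sysL hb hp
  have hF : ∀ c, Sm fun y => -sysL b p c y := fun c => (hG c).neg
  obtain ⟨K₀, hK₀, k0⟩ := wgt_sum hG hx h0
  obtain ⟨K₁, hK₁, k1⟩ := wgt_sum hF hx fun c => by simp only [h0 c, neg_zero]
  choose K₂ hK₂ k2 using fun j => nrm_le (fun c => sm_pd (hF c) j) x₀
  choose K₃ hK₃ k3 using fun j k => nrm_le (fun c => sm_pd (sm_pd (hF c) k) j) x₀
  have hK₂' : 0 ≤ ∑ j, K₂ j := Finset.sum_nonneg fun j _ => hK₂ j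
  have hK₃' : 0 ≤ ∑ j, ∑ k, K₃ j k := Finset.sum_nonneg fun j _ => Finset.sum_nonneg fun k _ => hK₃ j k
  refine ⟨3 * (C * K₀) + 3 * K₁ + ∑ j, K₂ j + ∑ j, ∑ k, K₃ j k, 1 / a₀, by positivity,
    by positivity, fun r hr hr0 hs => ?_⟩
  have hr1 : r ≤ 1 := hr0.trans ((div_le_one (by positivity)).2 ha₀)
  have ha : a₀ ≤ 1 / r ^ 2 := by
    rw [le_div_iff₀ (by positivity)] at hr0 ⊢
    nlinarith
  obtain ⟨W, hW, hW'⟩ := h _ ha p hp
  refine ⟨W, hW, ?_⟩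
  have e0 : nrm (ball x₀ r) (fun c y => 1 * W c y + (-1) * p c y) ≤ 3 * (C * K₀) * r ^ 9 := by
    have e : (fun c y => 1 * W c y + (-1) * p c y) = fun c y => W c y - p c y := by
      funext c y
      ring
    rw [e]
    refine (nrm_le_wgt hr hs fun c => ?_).trans ?_
    · exact ((hW.2.1 c).sub ((memLp_two_iff_integrable_sq (hp c).cont.aestronglyMeasurable).2
        (intOn_sq (hp c).cont 0 R))).integrable_sq
    · have h2 := hW'.trans (mul_le_mul_of_nonneg_left (k0 r hr) hC)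
      rw [div_pow, one_pow, one_div, ← div_eq_inv_mul, div_le_iff₀ (by positivity)] at h2
      linarith [h2, show C * (K₀ * r ^ 5) * (r ^ 2) ^ 2 = C * K₀ * r ^ 9 by ring]
  have e1 : r ^ 4 * nrm (ball x₀ r) (fun c y => -sysL b p c y) ≤ 3 * K₁ * r ^ 9 := by
    have h2 := (nrm_le_wgt hr hs fun c => intOn_sq (hF c).cont 0 R).trans
      (mul_le_mul_of_nonneg_left (k1 r hr) (by norm_num))
    exact (mul_le_mul_of_nonneg_left h2 (by positivity)).trans_eq (by ring)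
  have e2 : r ^ 6 * ∑ j, nrm (ball x₀ r) (fun a => pd j fun y => -sysL b p a y) ≤
      (∑ j, K₂ j) * r ^ 9 := by
    have h2 := Finset.sum_le_sum fun j (_ : j ∈ Finset.univ) => k2 j r hr hr1
    rw [← Finset.sum_mul] at h2
    exact (mul_le_mul_of_nonneg_left h2 (by positivity)).trans_eq (by ring)
  have e3 : r ^ 8 * ∑ j, ∑ k, nrm (ball x₀ r) (fun a => pd j (pd k fun y => -sysL b p a y)) ≤
      (∑ j, ∑ k, K₃ j k) * r ^ 9 := by
    have h2 := Finset.sum_le_sum fun j (_ : j ∈ Finset.univ) =>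
      Finset.sum_le_sum fun k (_ : k ∈ Finset.univ) => k3 j k r hr hr1
    simp only [← Finset.sum_mul] at h2
    have h3 : r ^ 11 ≤ r ^ 9 := pow_le_pow_of_le_one hr.le hr1 (by norm_num)
    calc _ ≤ r ^ 8 * ((∑ j, ∑ k, K₃ j k) * r ^ 3) := mul_le_mul_of_nonneg_left h2 (by positivity)
      _ = (∑ j, ∑ k, K₃ j k) * r ^ 11 := by ring
      _ ≤ _ := mul_le_mul_of_nonneg_left h3 hK₃'
  unfold ieN
  linarith

/-- The raw 2-jet at a point. -/
def jet (x : E3) (W : ι → E3 → ℝ) : (ι → ℝ) × (ι → Fin 3 → ℝ) × (ι → Fin 3 → Fin 3 → ℝ) :=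
  (fun c => W c x, fun c j => pd j (W c) x, fun c j k => pd j (pd k (W c)) x)

omit [Fintype ι] in
lemma jet_lin {U : Set E3} (hU : IsOpen U) {x : E3} (hx : x ∈ U) {W W' : ι → E3 → ℝ}
    (h : SmOn U W) (h' : SmOn U W') (s t : ℝ) :
    jet x (fun c y => s * W c y + t * W' c y) = s • jet x W + t • jet x W' := by
  refine Prod.ext rfl (Prod.ext ?_ ?_)
  · funext c j
    exact pd_lin_on hU (h c) (h' c) s t j hx
  · funext c j k
    exact (pd_congr_on hU (pd_lin_on hU (h c) (h' c) s t k) j hx).trans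
      (pd_lin_on hU (contDiffOn_pd hU (h c) k) (contDiffOn_pd hU (h' c) k) s t j hx)

lemma norm_jet_le {x : E3} {v : ι → E3 → ℝ} {δ : ℝ} (hδ : 0 ≤ δ) (h0 : ∑ a, v a x ^ 2 ≤ δ ^ 2)
    (h1 : ∑ a, ∑ j, pd j (v a) x ^ 2 ≤ δ ^ 2)
    (h2 : ∑ a, ∑ j, ∑ k, pd j (pd k (v a)) x ^ 2 ≤ δ ^ 2) : ‖jet x v‖ ≤ δ := by
  have s : ∀ {κ : Type} [Fintype κ] {f : κ → ℝ} {d : ℝ}, (∀ i, 0 ≤ f i) → ∑ i, f i ≤ d →
      ∀ i, f i ≤ d := fun hf h i =>
    (Finset.single_le_sum (fun i _ => hf i) (Finset.mem_univ i)).trans h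
  refine norm_prod_le_iff.2 ⟨(pi_norm_le_iff_of_nonneg hδ).2 fun a => ?_, norm_prod_le_iff.2
    ⟨(pi_norm_le_iff_of_nonneg hδ).2 fun a => (pi_norm_le_iff_of_nonneg hδ).2 fun j => ?_,
      (pi_norm_le_iff_of_nonneg hδ).2 fun a => (pi_norm_le_iff_of_nonneg hδ).2 fun j =>
        (pi_norm_le_iff_of_nonneg hδ).2 fun k => ?_⟩⟩
  · exact abs_le_of_sq_le_sq (s (fun _ => by positivity) h0 a) hδ
  · exact abs_le_of_sq_le_sq (s (fun _ => by positivity) (s (fun _ => by positivity) h1 a) j) hδ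
  · exact abs_le_of_sq_le_sq (s (fun _ => by positivity) (s (fun _ => by positivity)
      (s (fun _ => by positivity) h2 a) j) k) hδ

lemma approx (h1 : S_exist) (h2 : S_ie) {b : Coef ι} (hb : SmC b) {R : ℝ} {x₀ : E3}
    (hx : x₀ ∈ ball (0 : E3) R) {p : ι → E3 → ℝ} (hp : ∀ c, Sm (p c))
    (h0 : ∀ c, sysL b p c x₀ = 0) {δ : ℝ} (hδ : 0 < δ) :
    ∃ W ∈ SolSp b R, ‖jet x₀ W - jet x₀ p‖ ≤ δ := by
  obtain ⟨K, r₀, hK, hr₀, h⟩ := ie_small h1 hb hx hp h0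
  obtain ⟨C, hC, h'⟩ := h2 ι (fun i a a' y => -b i a a' y) (fun _ _ _ => 0)
    (fun i a a' => (hb i a a').neg) (fun _ _ => Sm.const 0) R
  obtain ⟨r₁, hr₁, hs⟩ := nhds_basis_closedBall.mem_iff.1 (isOpen_ball.mem_nhds hx)
  obtain ⟨r, hr, k0, k1, k2, k3⟩ : ∃ r : ℝ, 0 < r ∧ r ≤ r₀ ∧ r ≤ r₁ ∧ r ≤ 1 ∧
      r ≤ δ ^ 2 / (C * K + 1) :=
    ⟨min (min r₀ r₁) (min 1 (δ ^ 2 / (C * K + 1))), by positivity,
      (min_le_left _ _).trans (min_le_left _ _), (min_le_left _ _).trans (min_le_right _ _),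
      (min_le_right _ _).trans (min_le_left _ _), (min_le_right _ _).trans (min_le_right _ _)⟩
  have hs' : closedBall x₀ r ⊆ ball 0 R := (closedBall_subset_closedBall k1).trans hs
  obtain ⟨W, hW, hN⟩ := h r hr k0 (ball_subset_closedBall.trans hs')
  have hp' : SmOn (ball 0 R) p := fun c => (hp c).contDiffOn
  refine ⟨W, hW, ?_⟩
  have hv : SmOn (ball 0 R) fun c y => 1 * W c y + (-1) * p c y := fun c =>
    (contDiffOn_const.mul (hW.1 c)).add (contDiffOn_const.mul (hp' c))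
  obtain ⟨e0, e1, e2⟩ := h' _ (fun c y => -sysL b p c y) (ball 0 R) x₀ r hr k2
    (mem_ball_zero_iff.1 hx).le isOpen_ball hs' hv (fun c => (sm_sysL hb hp c).neg.contDiffOn)
    fun y hy a => by
      have h3 := sysL_lin_on b isOpen_ball hW.1 hp' 1 (-1) a hy
      simp only [hW.2.2 y hy a] at h3
      simp only [neg_mul, Finset.sum_neg_distrib, zero_mul, Finset.sum_const_zero]
      unfold sysL at h3 ⊢
      simp only [neg_mul] at h3
      linarith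
  have e : ∀ n : ℕ, n ≤ 8 → C * ieN (fun c y => 1 * W c y + (-1) * p c y)
      (fun c y => -sysL b p c y) x₀ r / r ^ n ≤ δ ^ 2 := fun n hn => by
    rw [div_le_iff₀ (by positivity)]
    rw [le_div_iff₀ (by positivity)] at k3
    have h3 : r ^ 8 ≤ r ^ n := pow_le_pow_of_le_one hr.le k2 hn
    calc _ ≤ C * (K * r ^ 9) := mul_le_mul_of_nonneg_left hN hC
      _ = r * (C * K) * r ^ 8 := by ring
      _ ≤ δ ^ 2 * r ^ n := mul_le_mul (by nlinarith) h3 (by positivity) (by positivity)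
  have h4 := norm_jet_le hδ.le (e0.trans (e 3 (by norm_num))) (e1.trans (e 5 (by norm_num)))
    (e2.trans (e 7 (by norm_num)))
  rwa [jet_lin isOpen_ball hx hW.1 hp', one_smul, neg_one_smul, ← sub_eq_add_neg] at h4

lemma exact (h1 : S_exist) (h2 : S_ie) {b : Coef ι} (hb : SmC b) {R : ℝ} {x₀ : E3}
    (hx : x₀ ∈ ball (0 : E3) R) {p : ι → E3 → ℝ} (hp : ∀ c, Sm (p c))
    (h0 : ∀ c, sysL b p c x₀ = 0) : ∃ W ∈ SolSp b R, jet x₀ W = jet x₀ p := by
  let π : SolSp b R →ₗ[ℝ] (ι → ℝ) × (ι → Fin 3 → ℝ) × (ι → Fin 3 → Fin 3 → ℝ) :=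
    { toFun := fun W => jet x₀ W.1
      map_add' := fun W W' => by
        have h := jet_lin isOpen_ball hx W.2.1 W'.2.1 1 1
        simp only [one_mul, one_smul] at h
        exact h
      map_smul' := fun s W => by
        have h := jet_lin isOpen_ball hx W.2.1 W.2.1 s 0
        simp only [zero_mul, add_zero, zero_smul] at h
        exact h }
  have hc := (LinearMap.range π).closed_of_finiteDimensional
  have hm : jet x₀ p ∈ closure (SetLike.coe (LinearMap.range π)) :=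
    Metric.mem_closure_iff.2 fun ε hε => by
      obtain ⟨W, hW, h⟩ := approx h1 h2 hb hx hp h0 (half_pos hε)
      refine ⟨_, ⟨⟨W, hW⟩, rfl⟩, ?_⟩
      rw [dist_comm, dist_eq_norm]
      exact h.trans_lt (half_lt_self hε)
  rw [hc.closure_eq] at hm
  obtain ⟨W, hW⟩ := hm
  exact ⟨W.1, W.2, hW⟩

/-- Affine functions vanishing at `x`. -/
def lin (x : E3) (w : Fin 3 → ℝ) : E3 → ℝ := fun y => ∑ j, w j * (y j - x j)

lemma sm_co (x : E3) (j : Fin 3) : Sm fun y : E3 => y j - x j :=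
  Sm.sub (EuclideanSpace.proj j : E3 →L[ℝ] ℝ).contDiff (Sm.const _)

lemma pd_co (x : E3) (i j : Fin 3) (z : E3) :
    pd i (fun y : E3 => y j - x j) z = if j = i then 1 else 0 := by
  have h : HasFDerivAt (fun y : E3 => y j - x j) (EuclideanSpace.proj j : E3 →L[ℝ] ℝ) z :=
    (EuclideanSpace.proj j : E3 →L[ℝ] ℝ).hasFDerivAt.sub_const _
  simp only [pd, h.fderiv]
  simp

lemma sm_lin (x : E3) (w : Fin 3 → ℝ) : Sm (lin x w) := Sm.sum fun j _ => (sm_co x j).cmul _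

lemma lin_self (x : E3) (w : Fin 3 → ℝ) : lin x w x = 0 := by simp [lin]

lemma pd_lin (x : E3) (w : Fin 3 → ℝ) (i : Fin 3) (z : E3) : pd i (lin x w) z = w i := by
  unfold lin
  rw [pd_eq_D, D_sum_at _ fun j _ => ((sm_co x j).cmul _).dAt z]
  simp only [D_const_mul_at ((sm_co x _).dAt z), ← pd_eq_D, pd_co]
  simp

/-- Quadratic polynomials. -/
def quad (x : E3) (w₀ : ℝ) (w₁ : Fin 3 → ℝ) (w₂ : Fin 3 → Fin 3 → ℝ) : E3 → ℝ := fun y =>
  w₀ + ∑ j, (w₁ j + 1 / 2 * lin x (w₂ j) y) * (y j - x j)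

lemma sm_quad (x : E3) (w₀ : ℝ) (w₁ : Fin 3 → ℝ) (w₂ : Fin 3 → Fin 3 → ℝ) :
    Sm (quad x w₀ w₁ w₂) :=
  (Sm.const _).add (Sm.sum fun j _ => ((Sm.const _).add ((sm_lin x _).cmul _)).mul (sm_co x j))

lemma pd_quad (x : E3) (w₀ : ℝ) (w₁ : Fin 3 → ℝ) {w₂ : Fin 3 → Fin 3 → ℝ}
    (h : ∀ j k, w₂ j k = w₂ k j) (i : Fin 3) :
    pd i (quad x w₀ w₁ w₂) = fun z => w₁ i + lin x (w₂ i) z := by
  funext z
  have h1 : ∀ j, Sm fun y => w₁ j + 1 / 2 * lin x (w₂ j) y := fun j =>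
    (Sm.const _).add ((sm_lin x _).cmul _)
  have h2 : ∀ j, pd i (fun y => w₁ j + 1 / 2 * lin x (w₂ j) y) z = 1 / 2 * w₂ i j := fun j => by
    rw [pd_eq_D, D_add_at ((Sm.const _).dAt z) (((sm_lin x _).cmul _).dAt z), D_const,
      D_const_mul_at ((sm_lin x _).dAt z), ← pd_eq_D, pd_lin, zero_add, h]
  unfold quad
  rw [pd_eq_D, D_add_at ((Sm.const _).dAt z) ((Sm.sum fun j _ => (h1 j).mul (sm_co x j)).dAt z),
    D_const, D_sum_at _ fun j _ => ((h1 j).mul (sm_co x j)).dAt z]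
  simp only [D_mul_at ((h1 _).dAt z) ((sm_co x _).dAt z), ← pd_eq_D, pd_co, h2,
    Finset.sum_add_distrib, mul_ite, mul_one, mul_zero, Finset.sum_ite_eq', Finset.mem_univ, if_true,
    mul_assoc, ← Finset.mul_sum]
  unfold lin
  ring

lemma pd_pd_quad (x : E3) (w₀ : ℝ) (w₁ : Fin 3 → ℝ) {w₂ : Fin 3 → Fin 3 → ℝ}
    (h : ∀ j k, w₂ j k = w₂ k j) (j k : Fin 3) (z : E3) :
    pd j (pd k (quad x w₀ w₁ w₂)) z = w₂ j k := by
  rw [pd_quad x w₀ w₁ h, pd_eq_D, D_add_at ((Sm.const _).dAt z) ((sm_lin x _).dAt z), D_const,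
    ← pd_eq_D, pd_lin, zero_add, h]

end Jets

open Jets in
theorem s_jets (h1 : S_exist) (h2 : S_ie) : S_jets := by
  intro ι _ b R x₀ hb hx w₀ w₁ w₂ hs ht
  obtain ⟨l, hl⟩ : ∃ l : ι → ℝ, ∀ c, 3 * l c + ∑ i, ∑ a', b i c a' x₀ * w₁ a' i = 0 :=
    ⟨fun c => -(∑ i, ∑ a', b i c a' x₀ * w₁ a' i) / 3, fun c => by ring⟩
  have hs' : ∀ c j k, (w₂ c j k + if j = k then l c else 0) =
      w₂ c k j + if k = j then l c else 0 := fun c j k => by
    rw [hs c j k]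
    simp only [eq_comm]
  have ht' : ∀ c, ∑ j, (w₂ c j j + if j = j then l c else 0) = 3 * l c := fun c => by
    rw [Finset.sum_add_distrib, ht c]
    simp
  obtain ⟨W, hW, h⟩ := Jets.exact h1 h2 hb hx
    (p := fun c => quad x₀ (w₀ c) (w₁ c) fun j k => w₂ c j k + if j = k then l c else 0)
    (fun c => sm_quad _ _ _ _) fun c => by
      unfold sysL lap
      rw [(Finset.sum_congr rfl fun j _ => pd_pd_quad x₀ _ _ (hs' c) j j x₀).trans (ht' c)]
      simp only [pd_quad x₀ _ _ (hs' _), lin_self, add_zero]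
      exact hl c
  have e0 := congrArg Prod.fst h
  have e1 := congrArg (fun t => t.2.1) h
  have e2 := congrArg (fun t => t.2.2) h
  have e3 : ∀ c j k, pd j (pd k (W c)) x₀ = w₂ c j k + if j = k then l c else 0 := fun c j k =>
    (congrFun (congrFun (congrFun e2 c) j) k).trans (pd_pd_quad x₀ _ _ (hs' c) j k x₀)
  refine ⟨W, hW, fun c => ⟨?_, fun j => ?_, fun j k => ?_⟩⟩
  · refine (congrFun e0 c).trans ?_
    simp [jet, quad]
  · refine (congrFun (congrFun e1 c) j).trans ?_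
    simp only [jet, pd_quad x₀ _ _ (hs' c), lin_self, add_zero]
  · have e4 : lap (W c) x₀ = 3 * l c := by
      exact (Finset.sum_congr rfl fun j _ => e3 c j j).trans (ht' c)
    rw [e3, e4]
    split_ifs <;> ring

end Vale.Agent.P136
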