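import Vale.Agent.P136.Basic

/-! # P136: Korn and Poincare inequalities, and the Lax-Milgram solution -/

open MeasureTheory Set Metric
open scoped ContDiff Topology

noncomputable section
namespace Vale.Agent.P136

namespace LM

/-- The squared norm of the symmetric part. -/
def e2 (G : Fin 3 → Fin 3 → E3 → ℝ) (x : E3) : ℝ := ∑ i, ∑ j, ((G i j x + G j i x) / 2) ^ 2

lemma int_e2 {O : Set E3} {G : Fin 3 → Fin 3 → E3 → ℝ} (h : L2M O G) :
    Integrable (e2 G) (volume.restrict O) :=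
  integrable_finsetSum _ fun i _ => integrable_finsetSum _ fun j _ =>
    (((h i j).add (h j i)).mul_const (2 : ℝ)⁻¹).integrable_sq

lemma int_sq {O : Set E3} {G : Fin 3 → Fin 3 → E3 → ℝ} (h : L2M O G) :
    Integrable (fun x => ∑ i, ∑ j, G i j x ^ 2) (volume.restrict O) :=
  integrable_finsetSum _ fun i _ => integrable_finsetSum _ fun j _ => (h i j).integrable_sq

lemma e2_le_fdens {c : ℝ} {lam mu : E3 → ℝ} {x : E3} (hc : 0 < c) (h1 : c ≤ mu x)
    (h2 : c ≤ 3 * lam x + 2 * mu x) (G : Fin 3 → Fin 3 → E3 → ℝ) :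
    c * e2 G x ≤ fdens lam mu G G x := by
  have h0 : 0 ≤ e2 G x - (∑ i, G i i x) ^ 2 / 3 := by
    simp only [e2, Fin.sum_univ_three]
    nlinarith [sq_nonneg (G 0 0 x - G 1 1 x), sq_nonneg (G 0 0 x - G 2 2 x),
      sq_nonneg (G 1 1 x - G 2 2 x), sq_nonneg (G 0 1 x + G 1 0 x), sq_nonneg (G 0 2 x + G 2 0 x),
      sq_nonneg (G 1 2 x + G 2 1 x)]
  have e : fdens lam mu G G x = lam x * (∑ i, G i i x) ^ 2 + 2 * mu x * e2 G x := by
    simp only [fdens, e2, sq, mul_assoc]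
  rw [e]
  nlinarith [mul_nonneg (sub_nonneg.2 h2) (sq_nonneg (∑ i, G i i x)),
    mul_nonneg (by linarith : 0 ≤ 2 * mu x - c) h0]

lemma set_eq {O : Set E3} {f : E3 → ℝ} (hf : IsTest O f) (g : E3 → ℝ) :
    ∫ x in O, f x * g x = ∫ x, f x * g x :=
  setIntegral_eq_integral_of_forall_compl_eq_zero fun x hx => by
    rw [image_eq_zero_of_notMem_tsupport fun h => hx (hf.2.2 h), zero_mul]

lemma cross {O : Set E3} {f g : E3 → ℝ} (hf : IsTest O f) (hg : IsTest O g) (i j : Fin 3) :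
    ∫ x in O, pd j f x * pd i g x = ∫ x in O, pd i f x * pd j g x := by
  rw [set_eq (hf.pd j), set_eq (hf.pd i)]
  simp only [pd_eq_D]
  rw [ibp (hf.tst.D _) hg.tst.sm, ibp (hf.tst.D _) hg.tst.sm, D_comm hf.tst.sm]

lemma korn {O : Set E3} {w : Fin 3 → E3 → ℝ} (hw : ∀ i, IsTest O (w i)) :
    nrm2 O (grad w) ≤ 2 * ∫ x in O, e2 (grad w) x := by
  have hL := L2M.of_test O hw
  have im : ∀ i j k l, Integrable (fun x => grad w i j x * grad w k l x) (volume.restrict O) :=
    fun i j k l => integrable_mul_L2 (hL i j) (hL k l)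
  have a : ∫ x in O, ∑ i, ∑ j, grad w i j x * grad w j i x =
      ∫ x in O, ∑ i, ∑ j, grad w i i x * grad w j j x := by
    rw [integral_finsetSum _ fun i _ => integrable_finsetSum _ fun j _ => im _ _ _ _,
      integral_finsetSum _ fun i _ => integrable_finsetSum _ fun j _ => im _ _ _ _]
    refine Finset.sum_congr rfl fun i _ => ?_
    rw [integral_finsetSum _ fun j _ => im _ _ _ _, integral_finsetSum _ fun j _ => im _ _ _ _]
    exact Finset.sum_congr rfl fun j _ => cross (hw i) (hw j) i j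
  have b : 0 ≤ ∫ x in O, ∑ i, ∑ j, grad w i i x * grad w j j x :=
    integral_nonneg fun x => by
      simp only [← Finset.mul_sum, ← Finset.sum_mul]
      exact mul_self_nonneg _
  have c : 2 * ∫ x in O, e2 (grad w) x =
      nrm2 O (grad w) + ∫ x in O, ∑ i, ∑ j, grad w i j x * grad w j i x := by
    rw [nrm2_eq hL, ← integral_const_mul, ← integral_add (int_sq hL)
      (integrable_finsetSum _ fun i _ => integrable_finsetSum _ fun j _ => im _ _ _ _)]
    congr 1
    funext x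
    simp only [e2, Fin.sum_univ_three]
    ring
  linarith

lemma poinc {O : Set E3} {R : ℝ} (hO : IsOpen O) (hR : O ⊆ ball 0 R) {f : E3 → ℝ}
    (hf : IsTest O f) : ∫ x in O, f x ^ 2 ≤ 4 * R ^ 2 * ∫ x in O, pd 0 f x ^ 2 := by
  have hx0 : Sm (fun x : E3 => x 0) := (EuclideanSpace.proj (0 : Fin 3) : E3 →L[ℝ] ℝ).contDiff
  have d0 : ∀ x, pd 0 (fun x : E3 => x 0) x = 1 := fun x => by
    have := (EuclideanSpace.proj (0 : Fin 3) : E3 →L[ℝ] ℝ).fderiv (x := x)
    change fderiv ℝ (EuclideanSpace.proj (0 : Fin 3) : E3 →L[ℝ] ℝ) x _ = 1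
    rw [this]
    simp
  have hf2 : IsTest O (fun x => f x * f x) := hf.mul_left hf.1
  have a := weak_ibp hO hx0.contDiffOn hf2 0
  have d1 : ∀ x, pd 0 (fun x => f x * f x) x = 2 * f x * pd 0 f x := fun x => by
    simp only [pd_eq_D]
    rw [D_mul_at (hf.tst.sm.dAt x) (hf.tst.sm.dAt x)]
    ring
  simp only [d0, d1, one_mul] at a
  simp only [← sq] at a
  have m1 := hf.tst.memLp O
  have m2 := (hf.pd 0).tst.memLp O
  have b : -∫ x in O, x 0 * (2 * f x * pd 0 f x) ≤
      ∫ x in O, (1 / 2 * f x ^ 2 + 2 * R ^ 2 * pd 0 f x ^ 2) := by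
    rw [← integral_neg]
    refine setIntegral_mono_on ?_ (iadd (m1.integrable_sq.const_mul _)
      (m2.integrable_sq.const_mul _)) hO.measurableSet fun x hx => ?_
    · exact ((Tst.mul_left hx0 ((hf.tst.const_mul 2).mul_right
        (hf.pd 0).tst.sm)).neg.integrable (μ := volume)).integrableOn
    · have h1 : |x 0| ≤ R := (PiLp.norm_apply_le x 0).trans (mem_ball_zero_iff.1 (hR hx)).le
      have h2 : x 0 ^ 2 ≤ R ^ 2 := by
        rw [← sq_abs]
        exact pow_le_pow_left₀ (abs_nonneg _) h1 2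
      nlinarith [sq_nonneg (f x + 2 * x 0 * pd 0 f x),
        mul_le_mul_of_nonneg_right h2 (sq_nonneg (pd 0 f x))]
  rw [integral_add (m1.integrable_sq.const_mul _) (m2.integrable_sq.const_mul _),
    integral_const_mul, integral_const_mul] at b
  linarith

lemma poinc' {O : Set E3} {R : ℝ} (hO : IsOpen O) (hR : O ⊆ ball 0 R) {w : Fin 3 → E3 → ℝ}
    (hw : ∀ i, IsTest O (w i)) : nrm O w ≤ 4 * R ^ 2 * nrm2 O (grad w) := by
  simp only [nrm, nrm2]
  rw [Finset.mul_sum]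
  refine Finset.sum_le_sum fun i _ => (poinc hO hR (hw i)).trans ?_
  refine mul_le_mul_of_nonneg_left ?_ (by positivity)
  exact Finset.single_le_sum (f := fun j => ∫ x in O, grad w i j x ^ 2)
    (fun _ _ => integral_nonneg fun _ => sq_nonneg _) (Finset.mem_univ 0)

lemma e2_le {O : Set E3} {Z G : Fin 3 → Fin 3 → E3 → ℝ} (hZ : L2M O Z) (hG : L2M O G) :
    ∫ x in O, e2 G x ≤ 2 * (∫ x in O, e2 Z x) + 2 * nrm2 O (Z - G) := by
  rw [nrm2_eq (hZ.sub hG), ← integral_const_mul, ← integral_const_mul,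
    ← integral_add ((int_e2 hZ).const_mul _) ((int_sq (hZ.sub hG)).const_mul _)]
  refine integral_mono (int_e2 hG)
    (iadd ((int_e2 hZ).const_mul _) ((int_sq (hZ.sub hG)).const_mul _)) fun x => ?_
  have k : ∀ a b a' b' : ℝ, ((a + b) / 2) ^ 2 ≤
      2 * ((a' + b') / 2) ^ 2 + ((a' - a) ^ 2 + (b' - b) ^ 2) := fun a b a' b' => by
    nlinarith [sq_nonneg ((a' + b') / 2 + ((a' - a) + (b' - b)) / 2),
      sq_nonneg ((a' - a) - (b' - b))]
  have := Finset.sum_le_sum fun i (_ : i ∈ Finset.univ) => Finset.sum_le_sum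
    fun j (_ : j ∈ Finset.univ) => k (G i j x) (G j i x) (Z i j x) (Z j i x)
  simp only [e2, Fin.sum_univ_three, Pi.sub_apply] at this ⊢
  linarith

/-- The ambient Hilbert space of pairs. -/
abbrev V (O : Set E3) : Type :=
  PiLp 2 (fun _ : Fin 3 ⊕ Fin 3 × Fin 3 => Lp ℝ 2 (volume.restrict O))

variable {O : Set E3}

def uu (U : V O) : Fin 3 → E3 → ℝ := fun i => U (Sum.inl i)

def GG (U : V O) : Fin 3 → Fin 3 → E3 → ℝ := fun i j => U (Sum.inr (i, j))

lemma L2_GG (U : V O) : L2M O (GG U) := fun _ _ => Lp.memLp _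

lemma norm_sq_Lp (f : Lp ℝ 2 (volume.restrict O)) : ‖f‖ ^ 2 = ∫ x in O, f x ^ 2 := by
  rw [← real_inner_self_eq_norm_sq, L2.inner_def]
  simp [sq]

lemma norm_sq_V (U : V O) : ‖U‖ ^ 2 = nrm O (uu U) + nrm2 O (GG U) := by
  rw [PiLp.norm_sq_eq_of_L2, Fintype.sum_sum_type, Fintype.sum_prod_type]
  simp only [norm_sq_Lp]
  rfl

lemma sqrt_le (U : V O) : √(nrm2 O (GG U)) ≤ ‖U‖ :=
  Real.sqrt_le_iff.2 ⟨norm_nonneg _, by rw [norm_sq_V]; linarith [nrm_nonneg O (uu U)]⟩

/-- Pairs coming from test fields. -/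
def S (O : Set E3) : Submodule ℝ (V O) where
  carrier := {U | ∃ w : Fin 3 → E3 → ℝ, (∀ i, IsTest O (w i)) ∧
    (∀ i, uu U i =ᵐ[volume.restrict O] w i) ∧ ∀ i j, GG U i j =ᵐ[volume.restrict O] grad w i j}
  add_mem' := by
    rintro U U' ⟨w, h1, h2, h3⟩ ⟨w', h1', h2', h3'⟩
    refine ⟨w + w', fun i => (h1 i).add (h1' i),
      fun i => (Lp.coeFn_add _ _).trans ((h2 i).add (h2' i)), fun i j => ?_⟩
    rw [grad_add (fun i => (h1 i).1) (fun i => (h1' i).1)]
    exact (Lp.coeFn_add _ _).trans ((h3 i j).add (h3' i j))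
  zero_mem' := by
    refine ⟨0, fun _ => IsTest.zero O, fun i => Lp.coeFn_zero _ _ _, fun i j => ?_⟩
    have : grad (0 : Fin 3 → E3 → ℝ) = 0 := by funext i j x; simp [grad, pd]
    rw [this]
    exact Lp.coeFn_zero _ _ _
  smul_mem' := by
    rintro s U ⟨w, h1, h2, h3⟩
    refine ⟨s • w, fun i => (h1 i).mul_left (Sm.const s),
      fun i => (Lp.coeFn_smul _ _).trans ((h2 i).const_smul s), fun i j => ?_⟩
    rw [grad_smul s (fun i => (h1 i).1)]
    exact (Lp.coeFn_smul _ _).trans ((h3 i j).const_smul s)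

lemma int_eq_inner (f : Lp ℝ 2 (volume.restrict O)) {g : E3 → ℝ}
    (hg : MemLp g 2 (volume.restrict O)) : ∫ x in O, f x * g x = inner ℝ (hg.toLp g) f := by
  rw [L2.inner_def]
  refine integral_congr_ae (hg.coeFn_toLp.mono fun x hx => ?_)
  simp [hx]

lemma h10_of_mem (hO : IsOpen O) {U : V O} (hU : U ∈ (S O).topologicalClosure) :
    IsH10 O (uu U) (GG U) := by
  refine isH10_iff.2 ⟨⟨fun _ => Lp.memLp _, L2_GG U, fun i j ψ hψ => ?_⟩, fun δ hδ => ?_⟩
  · have p1 := (hψ.pd j).tst.memLp O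
    have p2 := hψ.tst.memLp O
    have cl : IsClosed {U : V O | ∫ x in O, uu U i x * pd j ψ x = -∫ x in O, GG U i j x * ψ x} := by
      simp only [uu, GG, int_eq_inner _ p1, int_eq_inner _ p2]
      exact isClosed_eq (by fun_prop) (by fun_prop)
    refine closure_minimal (s := (S O : Set (V O))) ?_ cl hU
    rintro U ⟨w, h1, h2, h3⟩
    exact ((isH10_of_test hO h1).1.congr (fun i => (h2 i).symm)
      (fun i j => (h3 i j).symm)).2.2 i j ψ hψ
  · obtain ⟨U', ⟨w, h1, h2, h3⟩, hd⟩ := Metric.mem_closure_iff.1 hU √δ (Real.sqrt_pos.2 hδ)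
    refine ⟨w, h1, ?_⟩
    rw [dist_eq_norm, Real.lt_sqrt (norm_nonneg _), norm_sq_V] at hd
    rwa [← nrm_congr (u := uu (U - U')) (u' := uu U - w) fun i =>
        (Lp.coeFn_sub _ _).trans ((Filter.EventuallyEq.refl _ _).sub (h2 i)),
      ← nrm2_congr (G := GG (U - U')) (G' := GG U - grad w) fun i j =>
        (Lp.coeFn_sub _ _).trans ((Filter.EventuallyEq.refl _ _).sub (h3 i j))]

/-- The pair attached to square integrable data. -/
def mkV {u : Fin 3 → E3 → ℝ} {G : Fin 3 → Fin 3 → E3 → ℝ}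
    (hu : ∀ i, MemLp (u i) 2 (volume.restrict O)) (hG : L2M O G) : V O :=
  WithLp.toLp 2 (Sum.elim (fun i => (hu i).toLp _) fun p => (hG p.1 p.2).toLp _)

lemma form_smul_left (lam mu : E3 → ℝ) (s : ℝ) (G G' : Fin 3 → Fin 3 → E3 → ℝ) :
    form O lam mu (s • G) G' = s * form O lam mu G G' := by
  simp only [form_eq]
  rw [← integral_const_mul]
  congr 1
  funext x
  simp only [fdens, Fin.sum_univ_three, Pi.smul_apply, smul_eq_mul]
  ring

variable {M : ℝ} {lam mu : E3 → ℝ}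

lemma fa (hO : MeasurableSet O) (hb : BdC O M lam mu) (U U' W : V O) :
    form O lam mu (GG (U + U')) (GG W) = form O lam mu (GG U) (GG W) +
      form O lam mu (GG U') (GG W) := by
  rw [← form_add_left hO hb (L2_GG U) (L2_GG U') (L2_GG W)]
  exact form_congr_left _ _ _ fun i j => Lp.coeFn_add _ _

lemma fs (s : ℝ) (U W : V O) :
    form O lam mu (GG (s • U)) (GG W) = s • form O lam mu (GG U) (GG W) := by
  rw [smul_eq_mul, ← form_smul_left]
  exact form_congr_left _ _ _ fun i j => Lp.coeFn_smul _ _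

/-- The energy form on the ambient space. -/
def BB (hO : MeasurableSet O) (hM : 0 ≤ M) (hb : BdC O M lam mu) : V O →L[ℝ] V O →L[ℝ] ℝ :=
  (LinearMap.mk₂ ℝ (fun U W : V O => form O lam mu (GG U) (GG W)) (fa hO hb) fs
    (fun U W W' => by simp only [form_comm O lam mu (GG U), fa hO hb])
    (fun s U W => by simp only [form_comm O lam mu (GG U), fs])).mkContinuous₂ (5 * M)
    fun U W => (abs_form_le hO hM hb (L2_GG U) (L2_GG W)).trans (by
      have := sqrt_le U
      have := sqrt_le W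
      gcongr)

lemma BB_apply (hO : MeasurableSet O) (hM : 0 ≤ M) (hb : BdC O M lam mu) (U W : V O) :
    BB hO hM hb U W = form O lam mu (GG U) (GG W) := rfl

/-- Lax-Milgram on a closed subspace. -/
lemma solve {X : Type} [NormedAddCommGroup X] [InnerProductSpace ℝ X] [CompleteSpace X]
    (T : Submodule ℝ X) (B : X →L[ℝ] X →L[ℝ] ℝ) {C : ℝ} (hC : 0 ≤ C)
    (h : ∀ U ∈ T.topologicalClosure, ‖U‖ ^ 2 ≤ C * B U U) (F : X) :
    ∃ Z ∈ T.topologicalClosure, ∀ W ∈ T, B Z W = -B F W := by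
  let H := T.topologicalClosure
  let B' : H →L[ℝ] H →L[ℝ] ℝ := B.bilinearComp H.subtypeL H.subtypeL
  have co : IsCoercive B' := by
    refine ⟨(C + 1)⁻¹, by positivity, fun U => ?_⟩
    have h1 : ‖U‖ ^ 2 ≤ C * B' U U := h U.1 U.2
    have h2 : 0 ≤ B' U U := by
      by_contra h3
      have h4 : U ≠ 0 := by
        rintro rfl
        simp at h3
      have h5 : 0 < ‖U‖ ^ 2 := pow_pos (norm_pos_iff.2 h4) 2
      nlinarith [mul_nonneg hC (neg_nonneg.2 (not_le.1 h3).le)]
    rw [mul_assoc, inv_mul_le_iff₀ (by positivity), ← sq]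
    linarith
  let l : H →L[ℝ] ℝ := -(B F).comp H.subtypeL
  let Z : H := co.continuousLinearEquivOfBilin.symm ((InnerProductSpace.toDual ℝ H).symm l)
  have hZ : ∀ W : H, B' Z W = l W := fun W => by
    rw [← co.continuousLinearEquivOfBilin_apply, ContinuousLinearEquiv.apply_symm_apply,
      InnerProductSpace.toDual_symm_apply]
  exact ⟨Z.1, Z.2, fun W hW => hZ ⟨W, T.le_topologicalClosure hW⟩⟩

end LM

open LM

theorem s_coer : S_coer := by
  intro R c hc
  refine ⟨8 * (4 * R ^ 2 + 1) / c, by positivity, fun O lam mu z Z hO hR hA hz => ?_⟩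
  obtain ⟨M, -, hb⟩ := exists_bdC hR hA.1.cont hA.2.1.cont
  have hZ : L2M O Z := hz.1.2.1
  have h1 : c * ∫ x in O, e2 Z x ≤ form O lam mu Z Z := by
    rw [← integral_const_mul]
    exact integral_mono ((int_e2 hZ).const_mul c) (integrableOn_fdens hO.measurableSet hb hZ hZ)
      fun x => e2_le_fdens hc (hA.2.2 x).1 (hA.2.2 x).2 Z
  have h2 : nrm O z + nrm2 O Z ≤ 8 * (4 * R ^ 2 + 1) * ∫ x in O, e2 Z x := by
    refine le_of_forall_pos_le_add fun e he => ?_
    obtain ⟨w, hw, hd⟩ := (isH10_iff.1 hz).2 (e / (8 * (4 * R ^ 2 + 1) + 2)) (by positivity)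
    have hL := L2M.of_test O hw
    have a1 := nrm_add_le (O := O) (u := w) (u' := z - w) (fun i => (hw i).tst.memLp O)
      fun i => (hz.1.1 i).sub ((hw i).tst.memLp O)
    have a2 := nrm2_add_le hL (hZ.sub hL)
    rw [add_sub_cancel] at a1 a2
    have a3 := poinc' hO hR hw
    have a4 := mul_le_mul_of_nonneg_left ((korn hw).trans
      (mul_le_mul_of_nonneg_left (e2_le hZ hL) zero_le_two)) (by positivity : 0 ≤ 4 * R ^ 2 + 1)
    rw [lt_div_iff₀ (by positivity)] at hd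
    nlinarith [mul_nonneg (sq_nonneg R) (nrm_nonneg O (z - w)), nrm_nonneg O (z - w)]
  refine h2.trans ?_
  rw [div_mul_eq_mul_div, mul_div_assoc]
  refine mul_le_mul_of_nonneg_left ?_ (by positivity)
  rw [le_div_iff₀ hc]
  linarith

theorem s_lm (h : S_coer) : S_lm := by
  intro R c O lam mu F hc hO hR hA hF
  obtain ⟨C, hC, h⟩ := h R c hc
  obtain ⟨M, hM, hb⟩ := exists_bdC hR hA.1.cont hA.2.1.cont
  have hm := hO.measurableSet
  let F' : V O := mkV (u := 0) (fun _ => MemLp.zero) hF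
  obtain ⟨Z, hZ, hZ'⟩ := solve (S O) (BB hm hM hb) hC (fun U hU => by
    rw [norm_sq_V, BB_apply]
    exact h O lam mu _ _ hO hR hA (h10_of_mem hO hU)) F'
  refine ⟨uu Z, GG Z, h10_of_mem hO hZ, fun w hw => ?_⟩
  have hL := L2M.of_test O hw
  let W : V O := mkV (fun i => (hw i).tst.memLp O) hL
  have hW : ∀ i j, GG W i j =ᵐ[volume.restrict O] grad w i j := fun i j => (hL i j).coeFn_toLp
  have h1 := hZ' W ⟨w, hw, fun i => ((hw i).tst.memLp O).coeFn_toLp, hW⟩
  rw [BB_apply, BB_apply] at h1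
  rw [form_congr_left lam mu (G₁ := GG F') (G₂ := F) _ fun i j => (hF i j).coeFn_toLp] at h1
  rw [form_comm, ← form_congr_left _ _ _ hW, form_add_right hm hb hF (L2_GG _) (L2_GG _),
    form_comm O lam mu _ F, form_comm O lam mu (GG W), h1, add_neg_cancel]

end Vale.Agent.P136
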