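import Vale.Agent.P136.Stmts

/-!
# P136: boundary layer integrals, Hardy inequality, comparison with a defining function
-/

open MeasureTheory Set Metric Filter
open scoped ContDiff Topology

noncomputable section
namespace Vale.Agent.P136
namespace Layer

variable {ρ : E3 → ℝ} {p v : E3} {r : ℝ}

lemma dir (hρ : Sm ρ) (h : fderiv ℝ ρ p ≠ 0) : ∃ (v : E3) (r : ℝ), 0 < r ∧ D v ρ p = 1 ∧
    (∀ x ∈ ball p r, 1 / 2 ≤ D v ρ x ∧ D v ρ x ≤ 2) ∧
    ∃ (j : Fin 3) (a : ℝ), ∀ f x, D v f x = a * pd j f x := by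
  obtain ⟨j, hj⟩ : ∃ j, fderiv ℝ ρ p (EuclideanSpace.single j 1) ≠ 0 := by
    by_contra H
    push Not at H
    refine h (ContinuousLinearMap.coe_injective
      ((EuclideanSpace.basisFun (Fin 3) ℝ).toBasis.ext fun i => ?_))
    simpa using H i
  set v : E3 := (pd j ρ p)⁻¹ • EuclideanSpace.single j (1 : ℝ) with hv
  have h1 : ∀ f x, D v f x = (pd j ρ p)⁻¹ * pd j f x := fun f x => by
    rw [D, hv, map_smul]
    rfl
  have h2 : D v ρ p = 1 := by
    rw [h1]
    exact inv_mul_cancel₀ hj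
  have h3 : ∀ᶠ x in 𝓝 p, D v ρ x ∈ Icc (1 / 2 : ℝ) 2 :=
    (hρ.D v).cont.continuousAt.eventually (Icc_mem_nhds (by rw [h2]; norm_num)
      (by rw [h2]; norm_num))
  obtain ⟨r, hr, h4⟩ := Metric.eventually_nhds_iff_ball.1 h3
  exact ⟨v, r, hr, h2, h4, j, _, h1⟩

lemma mvt {f : E3 → ℝ} (hf : Sm f) {x : E3} {s : ℝ} (hx : x ∈ ball p r)
    (hy : x + s • v ∈ ball p r) : ∃ z ∈ ball p r, f (x + s • v) - f x = s * D v f z := by
  obtain ⟨z, hz, h⟩ := domain_mvt (f' := fun z => fderiv ℝ f z)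
    (fun z _ => (hf.dAt z).hasFDerivAt.hasFDerivWithinAt) (convex_ball p r) hx hy
  refine ⟨z, (convex_ball p r).segment_subset hx hy hz, ?_⟩
  rw [h, add_sub_cancel_left, map_smul]
  rfl

lemma cross (hρ : Sm ρ) (h0 : ρ p = 0) (hr : 0 < r)
    (hv : ∀ x ∈ ball p r, 1 / 2 ≤ D v ρ x ∧ D v ρ x ≤ 2) :
    ∃ t ε : ℝ, 0 < t ∧ 0 < ε ∧ ∀ x ∈ ball p ε, (∀ s, |s| ≤ t → x + s • v ∈ ball p r) ∧
      t / 4 < ρ (x + t • v) ∧ ρ (x + (-t) • v) < 0 := by
  have hn := norm_nonneg v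
  set t := r / (2 * (‖v‖ + 1)) with ht
  have ht0 : 0 < t := by positivity
  have ht1 : t * ‖v‖ ≤ r / 2 := by
    have : t * (‖v‖ + 1) = r / 2 := by rw [ht]; field_simp
    linarith
  have h1 : ∀ x ∈ ball p (r / 2), ∀ s, |s| ≤ t → x + s • v ∈ ball p r := fun x hx s hs => by
    rw [mem_ball_iff_norm] at hx ⊢
    have k1 : ‖s • v‖ ≤ t * ‖v‖ := by
      rw [norm_smul]
      exact mul_le_mul_of_nonneg_right hs hn
    have k2 := norm_add_le (x - p) (s • v)
    rw [add_sub_right_comm]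
    linarith
  have hp : p ∈ ball p (r / 2) := mem_ball_self (by positivity)
  obtain ⟨z, hz, e1⟩ := mvt hρ (mem_ball_self hr) (h1 p hp t (abs_of_pos ht0).le)
  obtain ⟨z', hz', e2⟩ := mvt hρ (mem_ball_self hr)
    (h1 p hp (-t) (by rw [abs_neg]; exact (abs_of_pos ht0).le))
  have c1 : ∀ s : ℝ, ContinuousAt (fun x => ρ (x + s • v)) p := fun s =>
    (hρ.cont.comp (continuous_add_const _)).continuousAt
  have h2 : ∀ᶠ x in 𝓝 p, t / 4 < ρ (x + t • v) :=
    (c1 t).eventually (lt_mem_nhds (by nlinarith [(hv z hz).1]))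
  have h3 : ∀ᶠ x in 𝓝 p, ρ (x + (-t) • v) < 0 :=
    (c1 (-t)).eventually (gt_mem_nhds (by nlinarith [(hv z' hz').1]))
  have h4 : ∀ᶠ x in 𝓝 p, x ∈ ball p (r / 2) := ball_mem_nhds p (by positivity)
  obtain ⟨ε, hε, h5⟩ := Metric.eventually_nhds_iff_ball.1 (h4.and (h2.and h3))
  exact ⟨t, ε, ht0, hε, fun x hx => ⟨h1 x (h5 x hx).1, (h5 x hx).2⟩⟩

lemma cmp {k : E3 → ℝ} {M : ℝ} (hρ : Sm ρ) (hk : Sm k) (h0 : ρ p = 0) (hr : 0 < r)
    (hv : ∀ x ∈ ball p r, 1 / 2 ≤ D v ρ x ∧ D v ρ x ≤ 2) (hz : ∀ᶠ x in 𝓝 p, ρ x = 0 → k x = 0)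
    (hM : ∀ᶠ x in 𝓝 p, |D v k x| ≤ M) : ∀ᶠ x in 𝓝 p, |k x| ≤ 2 * M * |ρ x| := by
  have h4 : ∀ᶠ x in 𝓝 p, x ∈ ball p r := ball_mem_nhds p hr
  obtain ⟨r', hr', h1⟩ := Metric.eventually_nhds_iff_ball.1 (h4.and (hz.and hM))
  obtain ⟨t, ε, ht, hε, h2⟩ := cross hρ h0 hr' fun x hx => hv x (h1 x hx).1
  filter_upwards [ball_mem_nhds p hε] with x hx
  obtain ⟨k1, k2, k3⟩ := h2 x hx
  have hc : Continuous fun s : ℝ => ρ (x + s • v) := hρ.cont.comp (by fun_prop)
  obtain ⟨s, hs, k4⟩ := intermediate_value_Icc (show -t ≤ t by linarith) hc.continuousOn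
    (show (0 : ℝ) ∈ _ from ⟨k3.le, by linarith⟩)
  have hx' : x ∈ ball p r' := by simpa using k1 0 (by simpa using ht.le)
  have hy := k1 s (abs_le.2 hs)
  obtain ⟨z, hz, e1⟩ := mvt hρ hx' hy
  obtain ⟨z', hz', e2⟩ := mvt hk hx' hy
  have k5 : ρ (x + s • v) = 0 := k4
  rw [(h1 _ hy).2.1 k5, zero_sub] at e2
  rw [k5, zero_sub] at e1
  have k6 := (hv z (h1 z hz).1).1
  have k7 := (h1 z' hz').2.2
  rw [← abs_neg (k x), ← abs_neg (ρ x), e1, e2, abs_mul, abs_mul,
    abs_of_nonneg (show 0 ≤ D v ρ z by linarith)]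
  have k8 : 0 ≤ M := (abs_nonneg _).trans k7
  nlinarith [mul_le_mul_of_nonneg_left k7 (abs_nonneg s),
    mul_le_mul_of_nonneg_left k6 (mul_nonneg k8 (abs_nonneg s))]

lemma le_of_div {f g W : E3 → ℝ} (hf : Integrable f) (hg : Integrable g) (hW : Tst W) (v : E3)
    (h : ∀ x, f x + D v W x ≤ g x) : ∫ x, f x ≤ ∫ x, g x := by
  have h1 := integral_mono (iadd hf (hW.D v).integrable) hg h
  rwa [integral_add hf (hW.D v).integrable, integral_D hW, add_zero] at h1

lemma D_sq {q : E3 → ℝ} (hq : Sm q) (v x : E3) :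
    D v (fun y => q y ^ 2) x = 2 * q x * D v q x := by
  simp only [pow_two]
  rw [D_mul_at (hq.dAt x) (hq.dAt x)]
  ring

lemma bump (p : E3) (hr : 0 < r) : ∃ χ : E3 → ℝ, Tst χ ∧ (∀ x, 0 ≤ χ x ∧ χ x ≤ 1) ∧
    (∀ x ∈ ball p r, χ x = 1) ∧ tsupport χ ⊆ ball p (3 * r) := by
  let b : ContDiffBump p := ⟨r, 2 * r, hr, by linarith⟩
  refine ⟨b, ⟨b.contDiff, b.hasCompactSupport⟩, fun x => ⟨b.nonneg, b.le_one⟩,
    fun x hx => b.one_of_mem_closedBall (ball_subset_closedBall hx), ?_⟩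
  rw [b.tsupport_eq]
  exact closedBall_subset_ball (show 2 * r < 3 * r by linarith)

lemma upper (hρ : Sm ρ) (hr : 0 < r) (hv : ∀ x ∈ ball p (3 * r), 1 / 2 ≤ D v ρ x ∧ D v ρ x ≤ 2) :
    ∃ C : ℝ, ∀ N : ℝ, 1 ≤ N → ∫ x in ball p r, 1 / (1 + (N * ρ x) ^ 2) ≤ C / N := by
  obtain ⟨χ, hχ, h01, h1, hs⟩ := bump p hr
  refine ⟨4 * ∫ x, |D v χ x|, fun N hN => ?_⟩
  have hN0 : 0 < N := by linarith
  have hc : Continuous fun x => 1 / (1 + (N * ρ x) ^ 2) :=
    continuous_const.div (((hρ.cmul N).pow 2).cont.const_add 1) fun x => by positivity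
  have hA : Sm fun x => Real.arctan (N * ρ x) := ContDiff.arctan (hρ.cmul N)
  have hi := ((hc.continuousOn.integrableOn_compact (μ := volume)
    (isCompact_closedBall p r)).mono_set ball_subset_closedBall).integrable_indicator
      measurableSet_ball
  rw [← integral_indicator measurableSet_ball, mul_div_right_comm, ← integral_const_mul]
  refine le_of_div hi ((hχ.D v).integrable.abs.const_mul _)
    ((hχ.mul_right hA).const_mul (-(2 / N))) v fun x => ?_
  have e1 : D v (fun x => Real.arctan (N * ρ x)) x = N * (D v ρ x / (1 + (N * ρ x) ^ 2)) := by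
    rw [D, fderiv_arctan ((hρ.cmul N).dAt x)]
    change 1 / (1 + (N * ρ x) ^ 2) * D v (fun x => N * ρ x) x = _
    rw [D_const_mul_at (hρ.dAt x)]
    ring
  rw [D_const_mul_at ((hχ.sm.mul hA).dAt x), D_mul_at (hχ.sm.dAt x) (hA.dAt x), e1]
  have k1 : (ball p r).indicator (fun x => 1 / (1 + (N * ρ x) ^ 2)) x ≤
      2 * (χ x * (D v ρ x / (1 + (N * ρ x) ^ 2))) := by
    by_cases hx : x ∈ ball p r
    · rw [indicator_of_mem hx, h1 x hx, one_mul, ← mul_div_assoc]
      have := (hv x (ball_subset_ball (by linarith) hx)).1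
      gcongr
      linarith
    · rw [indicator_of_notMem hx]
      by_cases hx' : x ∈ tsupport χ
      · have k2 := (hv x (hs hx')).1
        have k3 := (h01 x).1
        have k4 : 0 ≤ D v ρ x := by linarith
        positivity
      · rw [image_eq_zero_of_notMem_tsupport hx', zero_mul, mul_zero]
  have k2 : |Real.arctan (N * ρ x)| ≤ 2 := by
    have := Real.arctan_lt_pi_div_two (N * ρ x)
    have := Real.neg_pi_div_two_lt_arctan (N * ρ x)
    have := Real.pi_le_four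
    rw [abs_le]
    constructor <;> linarith
  have k3 : -(D v χ x * Real.arctan (N * ρ x)) ≤ |D v χ x| * 2 := by
    refine (neg_le_abs _).trans ?_
    rw [abs_mul]
    exact mul_le_mul_of_nonneg_left k2 (abs_nonneg _)
  have k4 := mul_le_mul_of_nonneg_left k3 (show 0 ≤ 2 / N by positivity)
  have k5 : 2 / N * (χ x * (N * (D v ρ x / (1 + (N * ρ x) ^ 2)))) =
      2 * (χ x * (D v ρ x / (1 + (N * ρ x) ^ 2))) := by field_simp
  have k6 : 4 / N * |D v χ x| = 2 / N * (|D v χ x| * 2) := by ring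
  linarith

lemma lower (hρ : Sm ρ) (h0 : ρ p = 0) {r' : ℝ} (hr : 0 < r') (hrr : r' ≤ r)
    (hv : ∀ x ∈ ball p r', 1 / 2 ≤ D v ρ x ∧ D v ρ x ≤ 2) :
    ∃ c N₀ : ℝ, 0 < c ∧ 1 ≤ N₀ ∧ ∀ N : ℝ, N₀ ≤ N →
      c / N ≤ volume.real {x ∈ ball p r | 1 / N < ρ x ∧ ρ x < 2 / N} := by
  obtain ⟨t, ε, ht, hε, h2⟩ := cross hρ h0 hr hv
  have hvol : 0 < volume.real (ball p ε) :=
    ENNReal.toReal_pos (measure_ball_pos volume p hε).ne' measure_ball_lt_top.ne
  refine ⟨volume.real (ball p ε) / (8 * t + 1), max 1 (8 / t), by positivity, le_max_left _ _,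
    fun N hN => ?_⟩
  have hN1 : 1 ≤ N := (le_max_left _ _).trans hN
  have hN2 : 8 ≤ N * t := (div_le_iff₀ ht).1 ((le_max_right _ _).trans hN)
  have hN0 : 0 < N := by linarith
  set S := {x ∈ ball p r | 1 / N < ρ x ∧ ρ x < 2 / N} with hS
  set K := ⌈8 * t * N⌉₊ with hK
  have hK1 : 8 * t * N ≤ K := Nat.le_ceil _
  have hK2 : (K : ℝ) < 8 * t * N + 1 := Nat.ceil_lt_add_one (by positivity)
  have hK0 : (0 : ℝ) < K := lt_of_lt_of_le (by positivity) hK1
  set h := 2 * t / K with hh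
  have hh0 : 0 < h := by positivity
  have hh1 : K * h = 2 * t := by rw [hh]; field_simp
  have hh2 : h ≤ 1 / N / 4 := by
    rw [hh, div_div, div_le_div_iff₀ hK0 (by positivity)]
    linarith
  have hsub : ball p ε ⊆ ⋃ n ∈ Finset.range K,
      (fun x => x + (t - ((n + 1 : ℕ) : ℝ) * h) • v) ⁻¹' S := fun x hx => by
    obtain ⟨k1, k2, k3⟩ := h2 x hx
    have k4 : 2 / N ≤ t / 4 := by
      rw [div_le_div_iff₀ hN0 (by norm_num)]
      linarith
    obtain ⟨n, hn, hn'⟩ := Nat.exists_not_and_succ_of_not_zero_of_exists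
      (p := fun n : ℕ => K ≤ n ∨ ρ (x + (t - n * h) • v) < 2 / N)
      (by
        rintro (k5 | k5)
        · rw [Nat.le_zero.1 k5] at hK0
          simp at hK0
        · rw [Nat.cast_zero, zero_mul, sub_zero] at k5
          linarith) ⟨K, Or.inl le_rfl⟩
    push Not at hn
    have hb : ∀ m : ℕ, m ≤ K → x + (t - m * h) • v ∈ ball p r' := fun m hm => by
      have k5 : (m : ℝ) * h ≤ K * h := mul_le_mul_of_nonneg_right (by exact_mod_cast hm) hh0.le
      have k6 : 0 ≤ (m : ℝ) * h := by positivity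
      exact k1 _ (abs_le.2 ⟨by linarith, by linarith⟩)
    have k7 : ρ (x + (t - ((n + 1 : ℕ) : ℝ) * h) • v) < 2 / N := by
      rcases hn' with k5 | k5
      · rw [show n + 1 = K by omega, hh1, show t - 2 * t = -t by ring]
        exact k3.trans (by positivity)
      · exact k5
    have e1 : x + (t - ((n + 1 : ℕ) : ℝ) * h) • v + h • v = x + (t - n * h) • v := by
      rw [add_assoc, ← add_smul]
      push_cast
      ring_nf
    obtain ⟨z, hz, e2⟩ := mvt (s := h) hρ (hb (n + 1) hn.1) (by rw [e1]; exact hb n hn.1.le)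
    rw [e1] at e2
    refine mem_iUnion₂.2 ⟨n, Finset.mem_range.2 hn.1, ball_subset_ball hrr (hb _ hn.1), ?_, k7⟩
    have k8 := mul_le_mul_of_nonneg_left (hv z hz).2 hh0.le
    have k9 : 2 / N = 2 * (1 / N) := by ring
    have k10 : 0 < 1 / N := by positivity
    have := hn.2
    linarith
  have hfin : volume S ≠ ⊤ :=
    ((measure_mono (sep_subset _ _)).trans_lt measure_ball_lt_top).ne
  have h3 : volume.real (ball p ε) ≤ K * volume.real S := by
    refine (measureReal_mono hsub ?_).trans ((measureReal_biUnion_finset_le _ _).trans ?_)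
    · refine ((measure_biUnion_finset_le _ _).trans_lt ?_).ne
      refine ENNReal.sum_lt_top.2 fun n _ => ?_
      rw [measure_preimage_add_right]
      exact hfin.lt_top
    · simp only [Measure.real, measure_preimage_add_right, Finset.sum_const, Finset.card_range,
        nsmul_eq_mul, le_refl]
  rw [div_div, div_le_iff₀ (by positivity)]
  have h4 : (K : ℝ) ≤ (8 * t + 1) * N := by linarith
  nlinarith [mul_le_mul_of_nonneg_right h4 (measureReal_nonneg (μ := volume) (s := S))]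

lemma hardy1 {q : E3 → ℝ} (hρ : Sm ρ) (hq : Tst q) (hv : ∀ x, q x ≠ 0 → 1 / 2 ≤ D v ρ x) :
    ∫ x, q x ^ 2 ≤ ∫ x, 16 * D v (fun y => ρ y * q y) x ^ 2 := by
  refine le_of_div hq.sq.integrable (((Tst.mul_left hρ hq).D v).sq.integrable.const_mul _)
    ((Tst.mul_left hρ hq.sq).const_mul 4) v fun x => ?_
  rw [D_const_mul_at ((hρ.mul hq.sq.sm).dAt x), D_mul_at (hρ.dAt x) (hq.sq.sm.dAt x),
    D_mul_at (hρ.dAt x) (hq.sm.dAt x), D_sq hq.sm]
  have h1 : q x ^ 2 ≤ 2 * (D v ρ x * q x ^ 2) := by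
    by_cases h : q x = 0
    · simp [h]
    · nlinarith [mul_le_mul_of_nonneg_right (hv x h) (sq_nonneg (q x))]
  nlinarith [sq_nonneg (q x - 4 * (ρ x * D v q x + D v ρ x * q x))]

lemma poincare {w : E3 → ℝ} {R : ℝ} (hw : Tst w) (hs : tsupport w ⊆ ball 0 R) (j : Fin 3) :
    ∫ x, w x ^ 2 ≤ ∫ x, 4 * R ^ 2 * pd j w x ^ 2 := by
  have hl : Sm fun x : E3 => x j := (EuclideanSpace.proj j : E3 →L[ℝ] ℝ).contDiff
  refine le_of_div hw.sq.integrable ((hw.D _).sq.integrable.const_mul _)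
    ((Tst.mul_left hl hw.sq).const_mul (-2)) (EuclideanSpace.single j 1) fun x => ?_
  have e1 : D (EuclideanSpace.single j (1 : ℝ)) (fun x : E3 => x j) x = 1 := by
    have := (EuclideanSpace.proj j : E3 →L[ℝ] ℝ).fderiv (x := x)
    change fderiv ℝ (EuclideanSpace.proj j : E3 →L[ℝ] ℝ) x _ = 1
    rw [this]
    simp
  rw [D_const_mul_at ((hl.mul hw.sq.sm).dAt x), D_mul_at (hl.dAt x) (hw.sq.sm.dAt x), e1,
    D_sq hw.sm, ← pd_eq_D]
  have h1 : x j ^ 2 * pd j w x ^ 2 ≤ R ^ 2 * pd j w x ^ 2 := by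
    by_cases hx : x ∈ tsupport w
    · refine mul_le_mul_of_nonneg_right (sq_le_sq' ?_ ?_) (sq_nonneg _) <;>
        linarith [abs_le.1 ((PiLp.norm_apply_le x j).trans (mem_ball_zero_iff.1 (hs hx)).le)]
    · rw [pd_eq_D, D_eq_zero_of_notMem hx]
      simp
  nlinarith [sq_nonneg (w x + 2 * x j * pd j w x)]

lemma cs {μ : Measure E3} {f g : E3 → ℝ} (hf : Integrable (fun x => f x ^ 2) μ)
    (hg : Integrable (fun x => g x ^ 2) μ) (hfg : Integrable (fun x => f x * g x) μ) :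
    |∫ x, f x * g x ∂μ| ≤ √(∫ x, f x ^ 2 ∂μ) * √(∫ x, g x ^ 2 ∂μ) := by
  rw [← Real.sqrt_mul (integral_nonneg fun x => sq_nonneg _)]
  refine Real.abs_le_sqrt ?_
  have h := discrim_le_zero (a := ∫ x, f x ^ 2 ∂μ) (b := 2 * ∫ x, f x * g x ∂μ)
    (c := ∫ x, g x ^ 2 ∂μ) fun t => by
      rw [← integral_mul_const, ← integral_const_mul, ← integral_mul_const,
        ← integral_add (hf.mul_const _) ((hfg.const_mul _).mul_const _),
        ← integral_add (iadd (hf.mul_const _) ((hfg.const_mul _).mul_const _)) hg]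
      refine integral_nonneg fun x => ?_
      change (0 : ℝ) ≤ _
      linarith [sq_nonneg (t * f x + g x)]
  rw [discrim] at h
  linarith

end Layer

open Layer

theorem s_layer : S_layer := by
  intro ρ p hρ h0 hd
  obtain ⟨v, r, hr, -, hv, -⟩ := dir hρ hd
  refine ⟨r / 3, by positivity, upper (v := v) hρ (by positivity) ?_, fun r' hr' => ?_⟩
  · rwa [mul_div_cancel₀ _ (by norm_num : (3 : ℝ) ≠ 0)]
  · exact lower hρ h0 (lt_min hr hr') (min_le_right _ _)
      fun x hx => hv x (ball_subset_ball (min_le_left _ _) hx)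

theorem s_rho : S_rho := by
  intro ρ h p hρ hh h0 hd hz
  obtain ⟨v, r, hr, h1, hv, -⟩ := dir hρ hd
  constructor
  · have h2 : ∀ᶠ x in 𝓝 p, |D v h x| ≤ |D v h p| + 1 :=
      (hh.D v).cont.abs.continuousAt.eventually (ge_mem_nhds (by simp))
    obtain ⟨r', hr', h3⟩ := Metric.eventually_nhds_iff_ball.1 (cmp hρ hh h0 hr hv hz h2)
    exact ⟨r', _, hr', h3⟩
  have hk : Sm fun x => h x - D v h p * ρ x := hh.sub (hρ.cmul _)
  have h2 : ∀ ε : ℝ, 0 < ε → ∀ᶠ x in 𝓝 p, |h x - D v h p * ρ x| ≤ ε * |ρ x| := fun ε hε => by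
    have h3 : ∀ᶠ x in 𝓝 p, |D v (fun x => h x - D v h p * ρ x) x| ≤ ε / 2 := by
      refine (hk.D v).cont.abs.continuousAt.eventually (ge_mem_nhds ?_)
      beta_reduce
      rw [D_sub_at (hh.dAt p) ((hρ.cmul _).dAt p), D_const_mul_at (hρ.dAt p), h1]
      simpa using hε
    have h4 := cmp hρ hk h0 hr hv (hz.mono fun x hx h5 => by rw [hx h5, h5]; ring) h3
    rwa [mul_div_cancel₀ _ (two_ne_zero' ℝ)] at h4
  refine ⟨D v h p, ?_, fun hs => ?_⟩
  · have h3 : (fun x => h x - D v h p * ρ x) =o[𝓝 p] ρ :=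
      Asymptotics.isLittleO_iff.2 fun ε hε => h2 ε hε
    have h4 : ρ =O[𝓝 p] fun x => x - p := by
      simpa only [h0, sub_zero] using (hρ.dAt p).isBigO_sub
    have h5 : HasFDerivAt (fun x => h x - D v h p * ρ x) (0 : E3 →L[ℝ] ℝ) p := by
      rw [hasFDerivAt_iff_isLittleO]
      simpa [hz.self_of_nhds h0, h0] using h3.trans_isBigO h4
    exact sub_eq_zero.1 (((hh.dAt p).hasFDerivAt.fun_sub
      ((hρ.dAt p).hasFDerivAt.const_mul _)).unique h5)
  · obtain ⟨r', hr', h3⟩ := Metric.eventually_nhds_iff_ball.1 (h2 _ (half_pos hs))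
    refine ⟨r', _, hr', half_pos hs, fun x hx h4 => ?_⟩
    have h5 := (abs_le.1 (h3 x hx)).1
    rw [abs_of_pos h4] at h5
    linarith

theorem s_hardy : S_hardy := by
  intro R Ω U ρ p hΩ hR hρ hd hU hUΩ
  obtain ⟨v, r, hr, -, hv, j, a, ha⟩ := dir hρ hd
  obtain ⟨r', hr', hU'⟩ := Metric.mem_nhds_iff.1 hU
  have hm := lt_min hr hr'
  have h3 : 3 * (min r r' / 3) = min r r' := by ring
  obtain ⟨χ, hχ, h01, h1, hs⟩ := bump p (show 0 < min r r' / 3 by positivity)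
  rw [h3] at hs
  obtain ⟨M, hM⟩ := (hχ.D v).sm.cont.bounded_above_of_compact_support (hχ.D v).2
  refine ⟨min r r' / 3, by positivity,
    (ball_subset_ball (by linarith [min_le_right r r'])).trans hU',
    √(32 * (a ^ 2 + M ^ 2 * (4 * R ^ 2))), Real.sqrt_nonneg _, fun F w hF hFs hw => ?_⟩
  have hu : Tst fun x => χ x * w x := hχ.mul_right hw.1
  have hus : tsupport (fun x => χ x * w x) ⊆ {x | 0 < ρ x} := fun x hx =>
    (hUΩ x (hU' (ball_subset_ball (min_le_right _ _) (hs (tsupport_mul_subset_left hx))))).1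
      (hw.2.2 (tsupport_mul_subset_right hx))
  have hq : Tst fun x => χ x * w x * (ρ x)⁻¹ :=
    Tst.mul_on (isOpen_lt continuous_const hρ.cont) hu hus
      (hρ.contDiffOn.inv fun x hx => ne_of_gt hx)
  have e1 : (fun x => ρ x * (χ x * w x * (ρ x)⁻¹)) = fun x => χ x * w x := by
    funext x
    by_cases hx : χ x * w x = 0
    · rw [hx, zero_mul, mul_zero]
    · have : 0 < ρ x := hus (subset_tsupport _ hx)
      field_simp
  have e2 : (fun x => F x * w x) = fun x => ρ x * F x * (χ x * w x * (ρ x)⁻¹) := by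
    funext x
    rw [mul_right_comm, congrFun e1 x]
    by_cases hx : F x = 0
    · rw [hx, zero_mul, mul_zero]
    · rw [h1 x (hFs (subset_tsupport _ hx)), one_mul, mul_comm]
  have hFc : HasCompactSupport F := (isCompact_closedBall p _).of_isClosed_subset
    (isClosed_tsupport F) (hFs.trans ball_subset_closedBall)
  have i1 : Integrable fun x => (ρ x * F x) ^ 2 := by
    refine ((hρ.cont.mul hF).pow 2).integrable_of_hasCompactSupport ?_
    simp only [pow_two]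
    exact (hFc.mul_left (f := ρ)).mul_left
  have k1 := cs (μ := volume.restrict Ω) i1.integrableOn hq.sq.integrable.integrableOn
    (Tst.integrable_cmul (hρ.cont.mul hF) hq).integrableOn
  have k2 := hardy1 (v := v) hρ hq fun x hx => (hv x (ball_subset_ball (min_le_left _ _)
    (hs (subset_tsupport _ (left_ne_zero_of_mul (left_ne_zero_of_mul hx)))))).1
  rw [e1] at k2
  have hD : Tst (pd j w) := hw.tst.D _
  have k3 : ∫ x, 16 * D v (fun x => χ x * w x) x ^ 2 ≤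
      32 * (a ^ 2 * (∫ x, pd j w x ^ 2) + M ^ 2 * ∫ x, w x ^ 2) := by
    rw [← integral_const_mul, ← integral_const_mul,
      ← integral_add (hD.sq.integrable.const_mul _) (hw.tst.sq.integrable.const_mul _),
      ← integral_const_mul]
    refine integral_mono ((hu.D v).sq.integrable.const_mul _) ((iadd
      (hD.sq.integrable.const_mul _) (hw.tst.sq.integrable.const_mul _)).const_mul _) fun x => ?_
    beta_reduce
    rw [D_mul_at (hχ.sm.dAt x) (hw.tst.sm.dAt x), ha w x]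
    have m1 : χ x ^ 2 ≤ 1 := pow_le_one₀ (h01 x).1 (h01 x).2
    have m2 : D v χ x ^ 2 ≤ M ^ 2 := sq_le_sq' (abs_le.1 (hM x)).1 (abs_le.1 (hM x)).2
    nlinarith [mul_le_mul_of_nonneg_right m1 (sq_nonneg (a * pd j w x)),
      mul_le_mul_of_nonneg_right m2 (sq_nonneg (w x)),
      sq_nonneg (χ x * (a * pd j w x) - D v χ x * w x)]
  have k4 := poincare hw.tst (hw.2.2.trans hR) j
  rw [integral_const_mul] at k4
  have k5 : ∫ x, pd j w x ^ 2 ≤ ∑ j, ∫ x in Ω, pd j w x ^ 2 := by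
    rw [← setIntegral_eq_integral_of_forall_compl_eq_zero (s := Ω) fun x hx => by
      rw [pd_eq_D, D_eq_zero_of_notMem fun h => hx (hw.2.2 h), zero_pow two_ne_zero]]
    exact Finset.single_le_sum (f := fun j => ∫ x in Ω, pd j w x ^ 2)
      (fun j _ => integral_nonneg fun x => sq_nonneg _) (Finset.mem_univ j)
  have k6 := setIntegral_le_integral (s := Ω) (hq.sq.integrable (μ := volume))
    (Eventually.of_forall fun x => sq_nonneg _)
  have k7 : ∫ x in Ω, (χ x * w x * (ρ x)⁻¹) ^ 2 ≤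
      32 * (a ^ 2 + M ^ 2 * (4 * R ^ 2)) * ∑ j, ∫ x in Ω, pd j w x ^ 2 := by
    have m1 := mul_le_mul_of_nonneg_left k4 (sq_nonneg M)
    have m2 := mul_le_mul_of_nonneg_left k5
      (show 0 ≤ 32 * (a ^ 2 + M ^ 2 * (4 * R ^ 2)) by positivity)
    linarith
  rw [e2]
  refine k1.trans ?_
  have k8 := Real.sqrt_le_sqrt k7
  rw [Real.sqrt_mul (by positivity)] at k8
  rw [mul_comm √(32 * _), mul_assoc]
  exact mul_le_mul_of_nonneg_left k8 (Real.sqrt_nonneg _)

end Vale.Agent.P136
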