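import Vale.Agent.P136.Stmts

/-!
# P136: the lower bound obtained by a Fourier transform in the first variable
-/

open MeasureTheory Set
open scoped ContDiff Topology RealInnerProductSpace FourierTransform Real

noncomputable section
namespace Vale.Agent.P136
namespace LemQ

/-- integration in the first variable -/
def I (F : X6 → ℝ) (t : E3) : ℝ := ∫ s, F (s, t)

variable {F : X6 → ℝ}

lemma zero_off {V : Type} [Zero V] {G : X6 → V} {s : E3} (hs : s ∉ Prod.fst '' tsupport G)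
    (t : E3) : G (s, t) = 0 := image_eq_zero_of_notMem_tsupport fun h => hs ⟨_, h, rfl⟩

lemma slice (hF : Tst F) (t : E3) : Tst fun s => F (s, t) :=
  ⟨hF.1.comp (contDiff_id.prodMk contDiff_const),
    HasCompactSupport.intro (hF.2.image continuous_fst) fun _ hs => zero_off hs t⟩

lemma hasFDerivAt_I (hF : Tst F) (t : E3) : Integrable (fun s : E3 =>
      (fderiv ℝ F (s, t)).comp (ContinuousLinearMap.inr ℝ E3 E3)) ∧ HasFDerivAt (I F)
    (∫ s, (fderiv ℝ F (s, t)).comp (ContinuousLinearMap.inr ℝ E3 E3)) t := by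
  have hc : Continuous (fderiv ℝ F) := hF.1.continuous_fderiv (by simp)
  have hs : HasCompactSupport (fderiv ℝ F) := hF.2.fderiv ℝ
  obtain ⟨C, hC⟩ := hc.bounded_above_of_compact_support hs
  have hK := hs.image continuous_fst
  have hm : Continuous fun s : E3 => (fderiv ℝ F (s, t)).comp (ContinuousLinearMap.inr ℝ E3 E3) :=
    (hc.comp (continuous_id.prodMk continuous_const)).clm_comp continuous_const
  refine ⟨hm.integrable_of_hasCompactSupport (HasCompactSupport.intro hK fun s h => by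
    rw [zero_off h t, ContinuousLinearMap.zero_comp]), ?_⟩
  refine hasFDerivAt_integral_of_dominated_of_fderiv_le
    (F' := fun t s => (fderiv ℝ F (s, t)).comp (ContinuousLinearMap.inr ℝ E3 E3))
    (bound := (Prod.fst '' tsupport (fderiv ℝ F)).indicator fun _ =>
      C * ‖ContinuousLinearMap.inr ℝ E3 E3‖) Filter.univ_mem
    (Filter.Eventually.of_forall fun x => (slice hF x).1.continuous.aestronglyMeasurable)
    (slice hF t).integrable hm.aestronglyMeasurable (ae_of_all _ fun s x _ => ?_)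
    ((integrable_indicator_iff hK.measurableSet).2 (integrableOn_const hK.measure_lt_top.ne))
    (ae_of_all _ fun s x _ => (hF.sm.dAt (s, x)).hasFDerivAt.comp x (hasFDerivAt_prodMk_right s x))
  by_cases h : s ∈ Prod.fst '' tsupport (fderiv ℝ F)
  · rw [indicator_of_mem h]
    exact (ContinuousLinearMap.opNorm_comp_le _ _).trans
      (mul_le_mul_of_nonneg_right (hC _) (norm_nonneg _))
  · rw [indicator_of_notMem h, zero_off h x, ContinuousLinearMap.zero_comp, norm_zero]

lemma D_I (hF : Tst F) (v : E3) : D v (I F) = I (D (0, v) F) := by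
  funext t
  rw [D, (hasFDerivAt_I hF t).2.fderiv, ContinuousLinearMap.integral_apply (hasFDerivAt_I hF t).1]
  rfl

lemma contDiff_I (n : ℕ) : ∀ F : X6 → ℝ, Tst F → ContDiff ℝ n (I F) := by
  induction n with
  | zero => exact fun F hF => contDiff_zero.2 (continuous_iff_continuousAt.2 fun t =>
      (hasFDerivAt_I hF t).2.continuousAt)
  | succ n ih =>
    intro F hF
    rw [Nat.cast_succ, contDiff_succ_iff_fderiv_apply]
    refine ⟨fun t => (hasFDerivAt_I hF t).2.differentiableAt, by simp, fun v => ?_⟩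
    have h := ih _ (hF.D (0, v))
    rw [← D_I hF] at h
    exact h

lemma tst_I (hF : Tst F) : Tst (I F) := by
  refine ⟨contDiff_infty.2 fun n => contDiff_I n F hF,
    HasCompactSupport.intro (hF.2.image continuous_snd) fun t ht => ?_⟩
  have : ∀ s, F (s, t) = 0 := fun s => image_eq_zero_of_notMem_tsupport fun h => ht ⟨_, h, rfl⟩
  simp [I, this]

lemma I_D1 (hF : Tst F) (v t : E3) : I (D (v, 0) F) t = 0 := by
  rw [← integral_D (μ := volume) (slice hF t) v]
  refine integral_congr_ae (ae_of_all _ fun s => ?_)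
  have h := (HasFDerivAt.comp (f := fun e : E3 => (e, t)) s (hF.sm.dAt (s, t)).hasFDerivAt
    (hasFDerivAt_prodMk_left s t)).fderiv
  exact (congrArg (fun L : E3 →L[ℝ] ℝ => L v) h).symm

/-- integration against a weight in the first variable -/
def T (m : E3 → ℝ) (F : X6 → ℝ) : E3 → ℝ := I fun p => m p.1 * F p

lemma sm_fst {m : E3 → ℝ} (hm : Sm m) : Sm fun p : X6 => m p.1 := hm.comp contDiff_fst

lemma tst_T {m : E3 → ℝ} (hm : Sm m) (hF : Tst F) : Tst (T m F) :=
  tst_I (Tst.mul_left (sm_fst hm) hF)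

lemma D_fst {m : E3 → ℝ} (hm : Sm m) (w p : X6) : D w (fun p : X6 => m p.1) p = D w.1 m p.1 :=
  congrArg (fun L : X6 →L[ℝ] ℝ => L w) ((hm.dAt p.1).hasFDerivAt.comp p hasFDerivAt_fst).fderiv

lemma T_W {m m' : E3 → ℝ} (hm : Sm m) (hm' : Sm m') {r g : X6 → ℝ} (hr : Tst r) (hg : Tst g)
    (a τ k : ℝ) (i : Fin 3) (v : E3) (e : ∀ s, D v m s = k * m' s) (t : E3) :
    T m (fun p => -D (0, v) r p + a * p.2 i * r p + D (v, 0) g p - τ * g p) t =
      -D v (T m r) t + a * t i * T m r t - k * T m' g t - τ * T m g t := by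
  have h1 := Tst.mul_left (sm_fst hm) hr
  have h2 := Tst.mul_left (sm_fst hm) hg
  have h3 := Tst.mul_left (sm_fst hm') hg
  have i1 := (slice (h1.D (0, v)) t).neg.integrable (μ := volume)
  have i2 := ((slice h1 t).const_mul (a * t i)).integrable (μ := volume)
  have i3 := (slice (h2.D (v, 0)) t).integrable (μ := volume)
  have i4 := ((slice h3 t).const_mul k).integrable (μ := volume)
  have i5 := ((slice h2 t).const_mul τ).integrable (μ := volume)
  have h0 := I_D1 h2 v t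
  rw [T, T, T, T, D_I h1, ← add_zero (-_ + _ : ℝ), ← h0]
  simp only [I] at i2 i4 i5 ⊢
  rw [← integral_neg, ← integral_const_mul, ← integral_const_mul, ← integral_const_mul,
    ← integral_add i1 i2, ← integral_add (iadd i1 i2) i3,
    ← integral_sub (iadd (iadd i1 i2) i3) i4,
    ← integral_sub (isub (iadd (iadd i1 i2) i3) i4) i5]
  refine integral_congr_ae (ae_of_all _ fun s => ?_)
  simp only [D_mul_at ((sm_fst hm).dAt _) (hr.sm.dAt _),
    D_mul_at ((sm_fst hm).dAt _) (hg.sm.dAt _), D_fst hm, e]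
  simp only [D, map_zero]
  ring

def mc (ξ s : E3) : ℝ := Real.cos (2 * π * ⟪s, ξ⟫)
def ms (ξ s : E3) : ℝ := Real.sin (2 * π * ⟪s, ξ⟫)

lemma sm_lin (ξ : E3) : Sm fun s : E3 => 2 * π * ⟪s, ξ⟫ :=
  contDiff_const.mul (contDiff_id.inner ℝ contDiff_const)

lemma sm_mc (ξ : E3) : Sm (mc ξ) := Real.contDiff_cos.comp (sm_lin ξ)
lemma sm_ms (ξ : E3) : Sm (ms ξ) := Real.contDiff_sin.comp (sm_lin ξ)

lemma D_inner (ξ v s : E3) : D v (fun s : E3 => ⟪s, ξ⟫) s = ⟪v, ξ⟫ := by
  have h := ((innerSL ℝ).flip ξ).fderiv (x := s)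
  exact congrArg (fun L : E3 →L[ℝ] ℝ => L v) h

lemma D_lin (ξ v s : E3) : D v (fun s : E3 => 2 * π * ⟪s, ξ⟫) s = 2 * π * ⟪v, ξ⟫ := by
  rw [D_const_mul_at (differentiableAt_fun_id.inner ℝ (differentiableAt_const _)), D_inner]

lemma D_mc (ξ v s : E3) : D v (mc ξ) s = -(2 * π * ⟪v, ξ⟫) * ms ξ s := by
  have h := congrArg (fun L : E3 →L[ℝ] ℝ => L v) (fderiv_cos ((sm_lin ξ).dAt s))
  refine h.trans ?_
  rw [← D_lin ξ v s, smul_apply, smul_eq_mul, ms, D]
  ring

lemma D_ms (ξ v s : E3) : D v (ms ξ) s = (2 * π * ⟪v, ξ⟫) * mc ξ s := by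
  have h := congrArg (fun L : E3 →L[ℝ] ℝ => L v) (fderiv_sin ((sm_lin ξ).dAt s))
  refine h.trans ?_
  rw [← D_lin ξ v s, smul_apply, smul_eq_mul, mc, D]
  ring

/-- Plancherel's theorem for real test functions -/
lemma planch1 {f : E3 → ℝ} (hf : Tst f) :
    Integrable (fun ξ => (∫ s, mc ξ s * f s) ^ 2 + (∫ s, ms ξ s * f s) ^ 2) ∧
      ∫ ξ, ((∫ s, mc ξ s * f s) ^ 2 + (∫ s, ms ξ s * f s) ^ 2) = ∫ s, f s ^ 2 := by
  have h1 : HasCompactSupport fun s => (f s : ℂ) := hf.2.comp_left Complex.ofReal_zero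
  have h2 : ContDiff ℝ ∞ fun s => (f s : ℂ) := Complex.ofRealCLM.contDiff.comp hf.1
  have key : ∀ ξ, (∫ s, mc ξ s * f s) ^ 2 + (∫ s, ms ξ s * f s) ^ 2 =
      ‖𝓕 (h1.toSchwartzMap h2) ξ‖ ^ 2 := fun ξ => by
    have i1 := (Tst.mul_left (sm_mc ξ) hf).integrable (μ := volume)
    have i2 := (Tst.mul_left (sm_ms ξ) hf).integrable (μ := volume)
    have e : 𝓕 (h1.toSchwartzMap h2) ξ = ((∫ s, mc ξ s * f s : ℝ) : ℂ) +
        ((-∫ s, ms ξ s * f s : ℝ) : ℂ) * Complex.I := by
      rw [SchwartzMap.fourier_coe, Real.fourier_eq', ← integral_neg, ← integral_complex_ofReal,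
        ← integral_complex_ofReal, ← integral_mul_const,
        ← integral_add i1.ofReal (i2.neg.ofReal.mul_const _)]
      refine integral_congr_ae (ae_of_all _ fun s => ?_)
      show Complex.exp _ • (f s : ℂ) = _
      rw [Complex.exp_mul_I, ← Complex.ofReal_cos, ← Complex.ofReal_sin, neg_mul, neg_mul,
        Real.cos_neg, Real.sin_neg]
      simp only [mc, ms, smul_eq_mul]
      push_cast
      ring
    rw [e, Complex.sq_norm, Complex.normSq_add_mul_I, neg_sq]
  simp only [key]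
  refine ⟨(memLp_two_iff_integrable_sq_norm (𝓕 (h1.toSchwartzMap h2)).continuous.aestronglyMeasurable).1
    ((𝓕 (h1.toSchwartzMap h2)).memLp 2), ?_⟩
  rw [SchwartzMap.integral_norm_sq_fourier]
  refine integral_congr_ae (ae_of_all _ fun s => ?_)
  show ‖(f s : ℂ)‖ ^ 2 = _
  rw [Complex.norm_real, Real.norm_eq_abs, sq_abs]

lemma planch (hF : Tst F) :
    Integrable (fun ξ => (∫ t, T (mc ξ) F t ^ 2) + ∫ t, T (ms ξ) F t ^ 2) ∧
      ∫ ξ, ((∫ t, T (mc ξ) F t ^ 2) + ∫ t, T (ms ξ) F t ^ 2) = ∫ p, F p ^ 2 := by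
  have hc := hF.1.continuous
  have m1 : StronglyMeasurable fun z : E3 × E3 => T (mc z.1) F z.2 :=
    StronglyMeasurable.integral_prod_right' (f := fun w : (E3 × E3) × E3 =>
      mc w.1.1 w.2 * F (w.2, w.1.2)) (Continuous.stronglyMeasurable (by unfold mc; fun_prop))
  have m2 : StronglyMeasurable fun z : E3 × E3 => T (ms z.1) F z.2 :=
    StronglyMeasurable.integral_prod_right' (f := fun w : (E3 × E3) × E3 =>
      ms w.1.1 w.2 * F (w.2, w.1.2)) (Continuous.stronglyMeasurable (by unfold ms; fun_prop))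
  have e1 : ∀ t, ∫ ξ, (T (mc ξ) F t ^ 2 + T (ms ξ) F t ^ 2) = I (fun p => F p ^ 2) t :=
    fun t => (planch1 (slice hF t)).2
  have hi : Integrable (fun z : E3 × E3 => T (mc z.1) F z.2 ^ 2 + T (ms z.1) F z.2 ^ 2)
      (volume.prod volume) := by
    refine (integrable_prod_iff' ((m1.pow 2).add (m2.pow 2)).aestronglyMeasurable).2
      ⟨ae_of_all _ fun t => (planch1 (slice hF t)).1,
        (tst_I hF.sq).integrable.congr (ae_of_all _ fun t => ?_)⟩
    rw [← e1]
    exact integral_congr_ae (ae_of_all _ fun ξ => (Real.norm_of_nonneg (by positivity)).symm)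
  have e2 : ∀ ξ, (∫ t, T (mc ξ) F t ^ 2) + ∫ t, T (ms ξ) F t ^ 2 =
      ∫ t, (T (mc ξ) F t ^ 2 + T (ms ξ) F t ^ 2) := fun ξ =>
    (integral_add (tst_T (sm_mc ξ) hF).sq.integrable (tst_T (sm_ms ξ) hF).sq.integrable).symm
  simp only [e2]
  refine ⟨hi.integral_prod_left, ?_⟩
  rw [integral_integral_swap hi]
  simp only [e1]
  exact (integral_prod_symm _ hF.sq.integrable).symm

/-- the quadratic weight -/
def ph (a : ℝ) (t : E3) : ℝ := a / 2 * ⟪t, t⟫

lemma sm_ph (a : ℝ) : Sm (ph a) := contDiff_const.mul (contDiff_id.inner ℝ contDiff_id)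

lemma D_ph (a : ℝ) (v : E3) : D v (ph a) = fun t => a * ⟪t, v⟫ := by
  funext t
  have h := fderiv_inner_apply ℝ (differentiableAt_fun_id (𝕜 := ℝ) (x := t))
    (differentiableAt_fun_id (𝕜 := ℝ) (x := t)) v
  unfold ph
  rw [D_const_mul_at (differentiableAt_fun_id.inner ℝ differentiableAt_fun_id), D, h,
    fderiv_fun_id, ContinuousLinearMap.id_apply, real_inner_comm t v]
  ring

lemma DD_ph (a : ℝ) (v w t : E3) : D v (D w (ph a)) t = a * ⟪v, w⟫ := by
  rw [D_ph, D_const_mul_at (differentiableAt_fun_id.inner ℝ (differentiableAt_const _)), D_inner]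

lemma bil (a : ℝ) {f g : E3 → ℝ} (hf : Tst f) (hg : Tst g) (v w : E3) :
    ∫ t, Dm (ph a) v f t * Dm (ph a) w g t =
      (∫ t, Dp (ph a) w f t * Dp (ph a) v g t) + 2 * (a * ⟪v, w⟫) * ∫ t, f t * g t := by
  have hφ := sm_ph a
  rw [adj' hφ hf (Tst.Dm hφ hg w), Dp_Dm hφ hg.sm, adj hφ hf (Tst.Dp hφ hg v),
    ← integral_const_mul, ← integral_add
      (hf.mul_right (Tst.Dm hφ (Tst.Dp hφ hg v) w).sm).integrable
      ((hf.mul_right hg.sm).const_mul _).integrable]
  refine integral_congr_ae (ae_of_all _ fun t => ?_)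
  simp only [DD_ph]
  ring

lemma D_coord (k : E3) (f : E3 → ℝ) (t : E3) :
    D k f t = ∑ i, k i * D (EuclideanSpace.single i (1 : ℝ)) f t := by
  have e : k = ∑ i, k i • EuclideanSpace.single i (1 : ℝ) := by
    ext j
    fin_cases j <;> simp [Fin.sum_univ_three]
  conv_lhs => rw [D, e, map_sum]
  simp only [map_smul, smul_eq_mul, D]

lemma sq_add_int {f g : E3 → ℝ} (hf : Tst f) (hg : Tst g) (c : ℝ) :
    ∫ t, (f t + c * g t) ^ 2 =
      (∫ t, f t * f t) + 2 * c * (∫ t, f t * g t) + c ^ 2 * ∫ t, g t * g t := by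
  have i1 := (hf.mul_right hf.sm).integrable (μ := volume)
  have i2 := ((hf.mul_right hg.sm).const_mul (2 * c)).integrable (μ := volume)
  have i3 := ((hg.mul_right hg.sm).const_mul (c ^ 2)).integrable (μ := volume)
  rw [← integral_const_mul, ← integral_const_mul, ← integral_add i1 i2,
    ← integral_add (iadd i1 i2) i3]
  exact integral_congr_ae (ae_of_all _ fun t => by ring)

lemma sum_int {x y : Fin 3 → E3 → ℝ} (hx : ∀ i, Tst (x i)) (hy : ∀ i, Tst (y i)) (N : ℝ) :
    Tst (fun t => N * ∑ i, (x i t ^ 2 + y i t ^ 2)) ∧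
      ∫ t, N * ∑ i, (x i t ^ 2 + y i t ^ 2) = N * ∑ i, ((∫ t, x i t ^ 2) + ∫ t, y i t ^ 2) := by
  refine ⟨(Tst.sum _ fun i _ => (hx i).sq.add (hy i).sq).const_mul N, ?_⟩
  rw [integral_const_mul, integral_finsetSum _ fun i _ => ((hx i).sq.add (hy i).sq).integrable]
  exact congrArg _ (Finset.sum_congr rfl fun i _ =>
    integral_add (hx i).sq.integrable (hy i).sq.integrable)

lemma fib (a : ℝ) (e k : E3) (hN : 0 < ⟪e, e⟫ + ⟪k, k⟫) {u v G H : E3 → ℝ} (hu : Tst u)
    (hv : Tst v) (hG : Tst G) (hH : Tst H) :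
    4 * a * ((∫ t, u t ^ 2) + ∫ t, v t ^ 2) ≤ ∑ i,
      ((∫ t, (Dm (ph a) (EuclideanSpace.single i 1) u t + k i * H t - e i * G t) ^ 2) +
        ∫ t, (Dm (ph a) (EuclideanSpace.single i 1) v t - k i * G t - e i * H t) ^ 2) := by
  have hφ := sm_ph a
  have hm := fun w {f} (hf : Tst f) => Tst.Dm hφ hf w
  have hp := fun w {f} (hf : Tst f) => Tst.Dp hφ hf w
  obtain ⟨N, hNe⟩ : ∃ N, N = ⟪e, e⟫ + ⟪k, k⟫ := ⟨_, rfl⟩
  have hN' : N = ∑ i, (e i ^ 2 + k i ^ 2) := by
    simp only [hNe, PiLp.inner_apply, Fin.sum_univ_three, RCLike.inner_apply, conj_trivial]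
    ring
  have s1 := sum_int (fun i => hm (EuclideanSpace.single i 1) hu)
    (fun i => hm (EuclideanSpace.single i 1) hv) N
  have s2 := sum_int (fun i => hp (EuclideanSpace.single i 1) hu)
    (fun i => hp (EuclideanSpace.single i 1) hv) N
  have s3 := sum_int (fun i => ((hm (EuclideanSpace.single i 1) hu).add (hH.const_mul (k i))).sub
    (hG.const_mul (e i))) (fun i => ((hm (EuclideanSpace.single i 1) hv).sub
      (hG.const_mul (k i))).sub (hH.const_mul (e i))) N
  have t1 := ((hm e hu).add ((hm k hv).const_mul 1)).sq.integrable (μ := volume)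
  have t2 := ((hm k hu).add ((hm e hv).const_mul (-1))).sq.integrable (μ := volume)
  have t3 := ((hp e hu).add ((hp k hv).const_mul (-1))).sq.integrable (μ := volume)
  have t4 := ((hp k hu).add ((hp e hv).const_mul 1)).sq.integrable (μ := volume)
  have cm : ∀ (w : E3) f t, Dm (ph a) w f t =
      ∑ i, w i * Dm (ph a) (EuclideanSpace.single i 1) f t := fun w f t => by
    simp only [Dm, D_coord w, Fin.sum_univ_three]
    ring
  have cp : ∀ (w : E3) f t, Dp (ph a) w f t =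
      ∑ i, w i * Dp (ph a) (EuclideanSpace.single i 1) f t := fun w f t => by
    simp only [Dp, D_coord w, Fin.sum_univ_three]
    ring
  have h1 := integral_mono s1.1.integrable (iadd s3.1.integrable (iadd t1 t2)) fun t => by
    simp only [cm e, cm k, hN', Fin.sum_univ_three]
    generalize Dm (ph a) (EuclideanSpace.single 0 1) u t = x0
    generalize Dm (ph a) (EuclideanSpace.single 1 1) u t = x1
    generalize Dm (ph a) (EuclideanSpace.single 2 1) u t = x2
    generalize Dm (ph a) (EuclideanSpace.single 0 1) v t = y0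
    generalize Dm (ph a) (EuclideanSpace.single 1 1) v t = y1
    generalize Dm (ph a) (EuclideanSpace.single 2 1) v t = y2
    linear_combination sq_nonneg ((e 0 ^ 2 + k 0 ^ 2 + (e 1 ^ 2 + k 1 ^ 2) + (e 2 ^ 2 + k 2 ^ 2)) * G t -
      (e 0 * x0 + e 1 * x1 + e 2 * x2 + (k 0 * y0 + k 1 * y1 + k 2 * y2))) +
      sq_nonneg ((e 0 ^ 2 + k 0 ^ 2 + (e 1 ^ 2 + k 1 ^ 2) + (e 2 ^ 2 + k 2 ^ 2)) * H t -
      (e 0 * y0 + e 1 * y1 + e 2 * y2 - (k 0 * x0 + k 1 * x1 + k 2 * x2)))
  have h2 := integral_mono (iadd t3 t4) s2.1.integrable fun t => by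
    simp only [cp e, cp k, hN', Fin.sum_univ_three]
    generalize Dp (ph a) (EuclideanSpace.single 0 1) u t = x0
    generalize Dp (ph a) (EuclideanSpace.single 1 1) u t = x1
    generalize Dp (ph a) (EuclideanSpace.single 2 1) u t = x2
    generalize Dp (ph a) (EuclideanSpace.single 0 1) v t = y0
    generalize Dp (ph a) (EuclideanSpace.single 1 1) v t = y1
    generalize Dp (ph a) (EuclideanSpace.single 2 1) v t = y2
    linear_combination sq_nonneg (e 0 * x1 + k 0 * y1 - e 1 * x0 - k 1 * y0) +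
      sq_nonneg (e 0 * y1 - k 0 * x1 - e 1 * y0 + k 1 * x0) +
      sq_nonneg (e 0 * x2 + k 0 * y2 - e 2 * x0 - k 2 * y0) +
      sq_nonneg (e 0 * y2 - k 0 * x2 - e 2 * y0 + k 2 * x0) +
      sq_nonneg (e 1 * x2 + k 1 * y2 - e 2 * x1 - k 2 * y1) +
      sq_nonneg (e 1 * y2 - k 1 * x2 - e 2 * y1 + k 2 * x1)
  rw [s1.2, integral_add s3.1.integrable (iadd t1 t2), s3.2, integral_add t1 t2,
    sq_add_int (hm e hu) (hm k hv), sq_add_int (hm k hu) (hm e hv)] at h1
  rw [s2.2, integral_add t3 t4, sq_add_int (hp e hu) (hp k hv),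
    sq_add_int (hp k hu) (hp e hv)] at h2
  have e1 : ∀ i : Fin 3, ⟪EuclideanSpace.single i (1 : ℝ), EuclideanSpace.single i (1 : ℝ)⟫ = 1 :=
    fun i => by simp
  simp only [pow_two (Dm _ _ _ _), bil a hu hu, bil a hv hv, bil a hu hv, e1,
    real_inner_comm e k] at h1
  simp only [pow_two (Dp _ _ _ _)] at h2
  simp only [pow_two (u _), pow_two (v _)]
  refine le_of_mul_le_mul_left ?_ (hNe ▸ hN)
  rw [Fin.sum_univ_three] at h1 h2
  linear_combination h1 + h2 - 2 * a * ((∫ t, u t * u t) + ∫ t, v t * v t) * hNe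

end LemQ

open LemQ in
theorem s_Q : S_Q := by
  intro a τ r g hτ hr hg
  have hW : ∀ i : Fin 3, Tst fun p : X6 => -D (ey i) r p + a * p.2 i * r p + D (ex i) g p -
      (if i = 0 then τ else 0) * g p := fun i =>
    (((hr.D _).neg.add (Tst.mul_left (Sm.cmul a ((EuclideanSpace.proj i).contDiff.comp
      contDiff_snd)) hr)).add (hg.D _)).sub (hg.const_mul _)
  simp only [← (planch (hW _)).2]
  rw [← (planch hr).2, ← integral_const_mul, ← integral_finsetSum _ fun i _ => (planch (hW i)).1]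
  refine integral_mono ((planch hr).1.const_mul _)
    (integrable_finsetSum _ fun i _ => (planch (hW i)).1) fun ξ => ?_
  have hN : 0 < ⟪EuclideanSpace.single (0 : Fin 3) τ, EuclideanSpace.single (0 : Fin 3) τ⟫ +
      ⟪(2 * π) • ξ, (2 * π) • ξ⟫ :=
    add_pos_of_pos_of_nonneg (by simpa using sq_pos_of_ne_zero hτ) real_inner_self_nonneg
  refine (fib a _ _ hN (tst_T (sm_mc ξ) hr) (tst_T (sm_ms ξ) hr) (tst_T (sm_mc ξ) hg)
    (tst_T (sm_ms ξ) hg)).trans (le_of_eq (Finset.sum_congr rfl fun i _ => ?_))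
  have e0 : EuclideanSpace.single (0 : Fin 3) τ i = if i = 0 then τ else 0 := by simp
  have e1 : ∀ t : E3, ⟪t, EuclideanSpace.single i (1 : ℝ)⟫ = t i := fun t => by
    simp [EuclideanSpace.inner_single_right]
  have e2 : ⟪EuclideanSpace.single i (1 : ℝ), ξ⟫ = ξ i := by rw [real_inner_comm, e1]
  refine congrArg₂ (· + ·) (integral_congr_ae (ae_of_all _ fun t => ?_))
    (integral_congr_ae (ae_of_all _ fun t => ?_))
  · simp only [ex, ey, T_W (sm_mc ξ) (sm_ms ξ) hr hg a _ _ i _ (D_mc ξ _), Dm, D_ph, e0, e1, e2,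
      PiLp.smul_apply, smul_eq_mul]
    ring
  · simp only [ex, ey, T_W (sm_ms ξ) (sm_mc ξ) hr hg a _ _ i _ (D_ms ξ _), Dm, D_ph, e0, e1, e2,
      PiLp.smul_apply, smul_eq_mul]

end Vale.Agent.P136
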