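import Vale.Agent.P136.Basic

/-!
# P136: locality from the weighted estimate, and the final assembly
-/

open MeasureTheory Set Metric Filter
open scoped ContDiff Topology

noncomputable section
namespace Vale.Agent.P136

namespace Loc

lemma nonpos_of {I A A' a₀ : ℝ}
    (h : ∀ a, a₀ ≤ a → ∃ η₁ : ℝ, 0 < η₁ ∧ ∀ η, 0 < η → η ≤ η₁ → I ≤ A / a + A' * η ^ 2) :
    I ≤ 0 := by
  refine ge_of_tendsto (tendsto_const_nhds.div_atTop (tendsto_id (α := ℝ)) (a := A)) ?_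
  filter_upwards [eventually_ge_atTop a₀] with a ha
  obtain ⟨η₁, h1, h2⟩ := h a ha
  have hc : Continuous fun η : ℝ => A / a + A' * η ^ 2 := by fun_prop
  have ht := (hc.tendsto 0).mono_left (nhdsWithin_le_nhds (s := Ioi 0))
  simp only [ne_eq, OfNat.ofNat_ne_zero, not_false_eq_true, zero_pow, mul_zero, add_zero] at ht
  refine ge_of_tendsto ht ?_
  filter_upwards [Ioc_mem_nhdsGT h1] with η hη using h2 η hη.1 hη.2

lemma pd_sum {κ : Type} [Fintype κ] (t : κ → ℝ) (v : κ → Fin 3 → E3 → ℝ) {x : E3}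
    (hv : ∀ k i, DifferentiableAt ℝ (v k i) x) (i j : Fin 3) :
    pd j ((∑ k, t k • v k) i) x = ∑ k, t k * pd j (v k i) x := by
  have : (∑ k, t k • v k) i = fun y => ∑ k, t k * v k i y := by
    funext y; simp only [Finset.sum_apply, Pi.smul_apply, smul_eq_mul]
  rw [this, pd_eq_D, D_sum_at _ fun k _ => (hv k i).const_mul _]
  exact Finset.sum_congr rfl fun k _ => D_const_mul_at (hv k i) _ _

lemma eps_sum {κ : Type} [Fintype κ] (lam mu : E3 → ℝ) (t : κ → ℝ) (v : κ → Fin 3 → E3 → ℝ)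
    {x : E3} (hv : ∀ k i, DifferentiableAt ℝ (v k i) x) (m : XI) :
    eps lam mu (∑ k, t k • v k) m x = ∑ k, t k * eps lam mu (v k) m x := by
  rcases m with i | _ | ⟨i, k⟩
  · simp only [eps, Sum.elim_inl, Finset.sum_apply, Pi.smul_apply, smul_eq_mul]
  · simp only [eps, Sum.elim_inr, Sum.elim_inl, dv, pd_sum t v hv, Finset.mul_sum]
    rw [Finset.sum_comm]
    exact Finset.sum_congr rfl fun _ _ => Finset.sum_congr rfl fun _ _ => by ring
  · simp only [eps, Sum.elim_inr, pd_sum t v hv, mul_sub, Finset.sum_sub_distrib]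

lemma eps_coef {lam mu lam' mu' : E3 → ℝ} {x : E3} (h : lam x = lam' x ∧ mu x = mu' x)
    (u : Fin 3 → E3 → ℝ) (m : XI) : eps lam mu u m x = eps lam' mu' u m x := by
  rcases m with i | _ | ⟨i, k⟩
  · rfl
  · simp only [eps, Sum.elim_inr, Sum.elim_inl, h.1, h.2]
  · rfl

/-- The pointwise `H¹` density of `v - u`. -/
def ed (v u : Fin 3 → E3 → ℝ) (x : E3) : ℝ :=
  ∑ i, (v - u) i x ^ 2 + ∑ i, ∑ j, (grad v - grad u) i j x ^ 2

lemma eps_diff (lam mu : E3 → ℝ) (u v : Fin 3 → E3 → ℝ) (m : XI) {x : E3} {L : ℝ}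
    (hL : |(lam x + 2 * mu x) / mu x| ≤ L) :
    (eps lam mu u m x - eps lam mu v m x) ^ 2 ≤ (3 * L ^ 2 + 4) * ed v u x := by
  have h1 : ∀ i, (v - u) i x ^ 2 ≤ ∑ i, (v - u) i x ^ 2 := fun i =>
    Finset.single_le_sum (f := fun i => (v - u) i x ^ 2) (fun _ _ => sq_nonneg _)
      (Finset.mem_univ i)
  have h2 : ∀ i j, (grad v - grad u) i j x ^ 2 ≤ ∑ j, (grad v - grad u) i j x ^ 2 := fun i j =>
    Finset.single_le_sum (f := fun j => (grad v - grad u) i j x ^ 2) (fun _ _ => sq_nonneg _)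
      (Finset.mem_univ j)
  have h3 : ∀ i j, (grad v - grad u) i j x ^ 2 ≤ ∑ i, ∑ j, (grad v - grad u) i j x ^ 2 :=
    fun i j => (h2 i j).trans (Finset.single_le_sum
      (f := fun i => ∑ j, (grad v - grad u) i j x ^ 2)
      (fun _ _ => Finset.sum_nonneg fun _ _ => sq_nonneg _) (Finset.mem_univ i))
  have h4 : ∑ i, (grad v - grad u) i i x ^ 2 ≤ ∑ i, ∑ j, (grad v - grad u) i j x ^ 2 :=
    Finset.sum_le_sum fun i _ => h2 i i
  have p1 := (sq_nonneg _).trans (h1 0)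
  have p2 := (sq_nonneg _).trans (h3 0 0)
  have p3 := mul_nonneg (sq_nonneg L) p1
  have p4 := mul_nonneg (sq_nonneg L) p2
  unfold ed
  rcases m with i | _ | ⟨i, k⟩
  · have e : (eps lam mu u (Sum.inl i) x - eps lam mu v (Sum.inl i) x) ^ 2 = (v - u) i x ^ 2 := by
      simp only [eps, Sum.elim_inl, Pi.sub_apply]; ring
    rw [e]; linarith [h1 i]
  · have e : (eps lam mu u (Sum.inr (Sum.inl ())) x - eps lam mu v (Sum.inr (Sum.inl ())) x) ^ 2 =
        ((lam x + 2 * mu x) / mu x) ^ 2 * (∑ i, (grad v - grad u) i i x) ^ 2 := by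
      simp only [eps, Sum.elim_inr, Sum.elim_inl, Pi.sub_apply, grad, dv, Finset.sum_sub_distrib]
      ring
    have e2 := sq_sum_le_card_mul_sum_sq (s := Finset.univ) (f := fun i => (grad v - grad u) i i x)
    rw [Finset.card_univ, Fintype.card_fin] at e2
    push_cast at e2
    have e3 : ((lam x + 2 * mu x) / mu x) ^ 2 ≤ L ^ 2 := sq_le_sq' (abs_le.1 hL).1 (abs_le.1 hL).2
    have e4 := mul_le_mul e3 (e2.trans (mul_le_mul_of_nonneg_left h4 (by norm_num))) (sq_nonneg _)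
      (sq_nonneg _)
    rw [e]; linarith
  · have e : (eps lam mu u (Sum.inr (Sum.inr (i, k))) x -
        eps lam mu v (Sum.inr (Sum.inr (i, k))) x) ^ 2 =
        ((grad v - grad u) i k x - (grad v - grad u) k i x) ^ 2 := by
      simp only [eps, Sum.elim_inr, Pi.sub_apply, grad]
      ring
    rw [e]
    nlinarith [h3 i k, h3 k i, sq_nonneg ((grad v - grad u) i k x + (grad v - grad u) k i x)]

lemma eps_contOn {c : ℝ} (hc : 0 < c) {lam mu : E3 → ℝ} (h : UAdm c lam mu) {U : Set E3}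
    (hU : IsOpen U) {u : Fin 3 → E3 → ℝ} (hu : SmOn U u) (m : XI) :
    ContinuousOn (eps lam mu u m) U := by
  have hp : ∀ i j, ContinuousOn (pd j (u i)) U := fun i j =>
    (contDiffOn_pd hU (hu i) j).continuousOn
  rcases m with i | _ | ⟨i, k⟩
  · exact (hu i).continuousOn
  · exact ((h.1.cont.add (continuous_const.mul h.2.1.cont)).div h.2.1.cont
      fun x => (hc.trans_le (h.2.2 x).1).ne').continuousOn.mul
      (continuousOn_finsetSum _ fun i _ => hp i i)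
  · exact (hp i k).sub (hp k i)

lemma smOn_ike {U : Set E3} (hU : IsOpen U) {W : YI → E3 → ℝ} (hW : SmOn U W) :
    SmOn U (ike W) := fun i => (hW (some i)).add (contDiffOn_pd hU (hW none) i)

lemma ed_int {O : Set E3} {v u : Fin 3 → E3 → ℝ}
    (h0 : ∀ i, MemLp ((v - u) i) 2 (volume.restrict O)) (h1 : L2M O (grad v - grad u)) :
    IntegrableOn (ed v u) O ∧ ∫ x in O, ed v u x = nrm O (v - u) + nrm2 O (grad v - grad u) := by
  have i1 : Integrable (fun x => ∑ i, (v - u) i x ^ 2) (volume.restrict O) :=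
    integrable_finsetSum _ fun i _ => (h0 i).integrable_sq
  have i2 : Integrable (fun x => ∑ i, ∑ j, (grad v - grad u) i j x ^ 2) (volume.restrict O) :=
    integrable_finsetSum _ fun i _ => integrable_finsetSum _ fun j _ => (h1 i j).integrable_sq
  refine ⟨iadd i1 i2, ?_⟩
  unfold ed
  rw [integral_add i1 i2, nrm2_eq h1, integral_finsetSum _ fun i _ => (h0 i).integrable_sq]
  rfl

lemma ed_nonneg (v u : Fin 3 → E3 → ℝ) (x : E3) : 0 ≤ ed v u x :=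
  add_nonneg (Finset.sum_nonneg fun _ _ => sq_nonneg _)
    (Finset.sum_nonneg fun _ _ => Finset.sum_nonneg fun _ _ => sq_nonneg _)

lemma pw_bound {κ : Type} [Fintype κ] {t p q e : κ → ℝ} {Bs L N : ℝ} (ht : ∀ k, |t k| ≤ Bs)
    (he : ∀ k, (p k - q k) ^ 2 ≤ L * e k) (hN : (∑ k, t k * q k) ^ 2 ≤ N) :
    (∑ k, t k * p k) ^ 2 ≤ 2 * N + 2 * Fintype.card κ * Bs ^ 2 * L * ∑ k, e k := by
  have h1 := sq_sum_le_card_mul_sum_sq (s := Finset.univ) (f := fun k => t k * (p k - q k))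
  rw [Finset.card_univ] at h1
  have h2 : ∑ k, (t k * (p k - q k)) ^ 2 ≤ Bs ^ 2 * L * ∑ k, e k := by
    rw [Finset.mul_sum]
    refine Finset.sum_le_sum fun k _ => ?_
    rw [mul_pow, mul_assoc]
    exact mul_le_mul (sq_le_sq' (abs_le.1 (ht k)).1 (abs_le.1 (ht k)).2) (he k) (sq_nonneg _)
      (sq_nonneg _)
  have h3 := mul_le_mul_of_nonneg_left h2 (Nat.cast_nonneg (α := ℝ) (Fintype.card κ))
  have h4 : ∑ k, t k * p k = ∑ k, t k * q k + ∑ k, t k * (p k - q k) := by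
    rw [← Finset.sum_add_distrib]; exact Finset.sum_congr rfl fun _ _ => by ring
  rw [h4]
  nlinarith [sq_nonneg (∑ k, t k * q k - ∑ k, t k * (p k - q k))]

lemma lame_congr_on (lam mu : E3 → ℝ) {u v : Fin 3 → E3 → ℝ} {U : Set E3} (hU : IsOpen U)
    (h : ∀ i, EqOn (u i) (v i) U) (i : Fin 3) : EqOn (lame lam mu u i) (lame lam mu v i) U := by
  have h1 : ∀ i j, EqOn (pd j (u i)) (pd j (v i)) U := fun i j => pd_congr_on hU (h i) j
  have h2 : EqOn (dv u) (dv v) U := fun x hx => Finset.sum_congr rfl fun i _ => h1 i i hx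
  intro x hx
  simp only [lame, lap_congr_on hU (h i) hx, pd_congr_on hU h2 i hx, h2 hx, fun i j => h1 i j hx]

lemma sameDN_congr {Ω : Set E3} (hΩ : MeasurableSet Ω) {l₁ m₁ l₂ m₂ l₁' m₁' l₂' m₂' : E3 → ℝ}
    (h₁ : ∀ x ∈ Ω, l₁' x = l₁ x ∧ m₁' x = m₁ x) (h₂ : ∀ x ∈ Ω, l₂' x = l₂ x ∧ m₂' x = m₂ x)
    (h : SameDN Ω l₁ m₁ l₂ m₂) : SameDN Ω l₁' m₁' l₂' m₂' := by
  intro u₁ u₂ v G₁ G₂ G s₁ s₂ h3 h4
  rw [form_congr_coef hΩ h₁, form_congr_coef hΩ h₂]
  exact h u₁ u₂ v G₁ G₂ G ⟨s₁.1, fun w hw => by rw [← form_congr_coef hΩ h₁]; exact s₁.2 w hw⟩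
    ⟨s₂.1, fun w hw => by rw [← form_congr_coef hΩ h₂]; exact s₂.2 w hw⟩ h3 h4

lemma uadm_mono {c c' : ℝ} {lam mu : E3 → ℝ} (h : UAdm c lam mu) (hc : c' ≤ c) : UAdm c' lam mu :=
  ⟨h.1, h.2.1, fun x => ⟨hc.trans (h.2.2 x).1, hc.trans (h.2.2 x).2⟩⟩

lemma ne_univ {Ω : Set E3} (h : Bornology.IsBounded Ω) : Ω ≠ univ := fun e =>
  NormedSpace.unbounded_univ ℝ E3 (e ▸ h)

end Loc

open Loc in
theorem s_loc (h1 : S_eta) (h2 : S_sec) (h3 : S_est) (h4 : S_wj) : S_loc := by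
  intro c R₀ Ω lam₁ mu₁ lam₂ mu₂ b hS hDN hB κ _ W u s x₀ ρ hsub hT hs hjet
  obtain ⟨hc, hR, hΩ, hcl, a₁, a₂, -⟩ := id hS
  have hΩR : Ω ⊆ ball 0 R₀ := subset_closure.trans hcl
  have hbd : Bornology.IsBounded Ω := isBounded_ball.subset hΩR
  obtain ⟨M, -, hM⟩ := h1 c (R₀ + 3) Ω lam₁ mu₁ lam₂ mu₂ hΩ hbd a₁ a₂ hB
  obtain ⟨C₀, hC₀, hsec⟩ := h2 c R₀ M Ω lam₁ mu₁ lam₂ mu₂ b hS hDN
  obtain ⟨ε, τ, C₁, a₀, hε, hC₁, ha₀, hest⟩ := h3 c R₀ M C₀ Ω lam₁ mu₁ lam₂ mu₂ b hS hC₀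
  have hK := isCompact_closedBall x₀ ρ
  have hBΩ : ball x₀ ρ ⊆ Ω := ball_subset_closedBall.trans hsub
  obtain ⟨Bs, hBs⟩ := hK.exists_bound_of_continuousOn (f := fun x k => s k x) (continuousOn_pi.2 hs)
  have hBs' : ∀ x ∈ ball x₀ ρ, ∀ k, |s k x| ≤ Bs := fun x hx k =>
    (norm_le_pi_norm (fun k => s k x) k).trans (hBs x (ball_subset_closedBall hx))
  obtain ⟨L, hL⟩ := hK.exists_bound_of_continuousOn (f := fun x => (lam₁ x + 2 * mu₁ x) / mu₁ x)
    ((a₁.1.cont.add (continuous_const.mul a₁.2.1.cont)).div a₁.2.1.cont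
      fun x => (hc.trans_le (a₁.2.2 x).1).ne').continuousOn
  obtain ⟨d, hd, hdd⟩ := hK.exists_forall_le' (continuous_infDist_pt Ωᶜ).continuousOn (a := 0)
    fun x hx => (hΩ.isClosed_compl.notMem_iff_infDist_pos
      (nonempty_compl.2 (ne_univ hbd))).1 fun h => h (hsub hx)
  obtain ⟨C₂, hC₂, hwj⟩ := h4 YI κ b (R₀ + 4) R₀ ε τ Bs W (by linarith) hε.le
  have hu : ∀ k, IsH1 Ω (u k) (grad (u k)) := fun k => by
    have := (hT k).2.1.1.add (isH1_of_smOn_closure hΩ hΩR isOpen_ball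
      (hcl.trans (ball_subset_ball (by linarith))) (smOn_ike isOpen_ball (W k).2.1))
    rwa [sub_add_cancel, sub_add_cancel] at this
  suffices H : ∀ m, EqOn (fun x => (∑ k, s k x * eps lam₁ mu₁ (u k) m x) ^ 2) 0 (ball x₀ ρ) from
    fun x hx m => pow_eq_zero_iff two_ne_zero |>.1 (H m hx)
  intro m
  have hfc : ContinuousOn (fun x => (∑ k, s k x * eps lam₁ mu₁ (u k) m x) ^ 2) (closedBall x₀ ρ) :=
    (continuousOn_finsetSum _ fun k _ => (hs k).mul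
      ((eps_contOn hc a₁ hΩ (hT k).1 m).mono hsub)).pow 2
  have hfi : IntegrableOn (fun x => (∑ k, s k x * eps lam₁ mu₁ (u k) m x) ^ 2) (ball x₀ ρ) :=
    (hfc.integrableOn_compact hK).mono_set ball_subset_closedBall
  refine Measure.eqOn_open_of_ae_eq (μ := volume) ?_ isOpen_ball (hfc.mono ball_subset_closedBall)
    continuousOn_const
  refine (integral_eq_zero_iff_of_nonneg (fun x => sq_nonneg _) hfi).1
    (le_antisymm ?_ (integral_nonneg fun x => sq_nonneg _))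
  refine nonpos_of (a₀ := a₀) (A := 2 * (C₁ * C₂)) (A' := 2 * Fintype.card κ * Bs ^ 2 *
    (3 * L ^ 2 + 4) * ∑ k, C₀ * nrm (ball 0 (R₀ + 4)) (W k).1) fun a ha => ?_
  obtain ⟨η₀, hη₀, hest⟩ := hest a ha
  refine ⟨min η₀ (min 1 (d / 3)), by positivity, fun η hη hη' => ?_⟩
  simp only [le_min_iff] at hη'
  obtain ⟨lam, mu, hE⟩ := hM η hη hη'.2.1
  obtain ⟨T, hT'⟩ := hsec η lam mu hη hη'.2.1 hE
  obtain ⟨n, nc, ns, n0, ni, hn⟩ := hest η lam mu T hη hη'.1 hE hT'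
  have ha1 : 1 ≤ a := ha₀.trans ha
  have hΩ3 : Ω ⊆ ball 0 (R₀ + 3) := hΩR.trans (ball_subset_ball (by linarith))
  have he := fun k => ed_int (O := Ω) (v := T (W k)) (u := u k)
    (fun i => (((hT' (W k)).2.2.1 i).mono_measure (Measure.restrict_mono hΩ3 le_rfl)).sub
      ((hu k).1 i)) (((hT' (W k)).2.2.2.1.mono hΩ3).sub (hu k).2.1)
  have nint : Integrable n := nc.integrable_of_hasCompactSupport ns
  have i1 : IntegrableOn (fun x => 2 * (n x * (C₂ / (a ^ 3 * √a)))) (ball x₀ ρ) :=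
    ((nint.mul_const _).const_mul 2).integrableOn
  have i2 : IntegrableOn (fun x => ∑ k, ed (T (W k)) (u k) x) (ball x₀ ρ) :=
    integrable_finsetSum _ fun k _ => (he k).1.mono_set hBΩ
  have hpw : ∀ x ∈ ball x₀ ρ, (∑ k, s k x * eps lam₁ mu₁ (u k) m x) ^ 2 ≤
      2 * (n x * (C₂ / (a ^ 3 * √a))) + 2 * Fintype.card κ * Bs ^ 2 * (3 * L ^ 2 + 4) *
        ∑ k, ed (T (W k)) (u k) x := by
    intro x hx
    have hxR := hΩR (hBΩ hx)
    refine pw_bound (q := fun k => eps lam₁ mu₁ (T (W k)) m x) (hBs' x hx)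
      (fun k => eps_diff lam₁ mu₁ (u k) (T (W k)) m (hL x (ball_subset_closedBall hx))) ?_
    have e1 := hn x hxR (∑ k, s k x • W k) m
    rw [eps_coef (hE.2.2.2.2 x (by linarith [hdd x (ball_subset_closedBall hx), hη'.2.2])), map_sum]
      at e1
    simp only [map_smul] at e1
    rw [eps_sum lam₁ mu₁ _ _ fun k i => dAt_of_on isOpen_ball ((hT' (W k)).1 i) (hΩ3 (hBΩ hx))]
      at e1
    exact e1.trans (mul_le_mul_of_nonneg_left
      (hwj a ha1 x _ (mem_ball_zero_iff.1 hxR).le (hBs' x hx) (hjet x hx)) (n0 x))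
  refine (setIntegral_mono_on hfi (iadd i1 (i2.const_mul _)) measurableSet_ball hpw).trans ?_
  rw [integral_add i1 (i2.const_mul _), integral_const_mul, integral_const_mul, integral_mul_const,
    integral_finsetSum _ fun k _ => (he k).1.mono_set hBΩ]
  have hs0 : 0 < √a := Real.sqrt_pos.2 (by linarith)
  refine add_le_add ?_ ?_
  · have j1 := (setIntegral_le_integral (s := ball x₀ ρ) nint (ae_of_all _ n0)).trans ni
    have j2 := mul_le_mul_of_nonneg_right j1 (by positivity : 0 ≤ C₂ / (a ^ 3 * √a))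
    have j3 : C₁ * (a ^ 2 * √a) * (C₂ / (a ^ 3 * √a)) = C₁ * C₂ / a := by field_simp
    rw [mul_div_assoc 2]
    linarith
  · rw [mul_assoc _ _ (η ^ 2), Finset.sum_mul]
    refine mul_le_mul_of_nonneg_left (Finset.sum_le_sum fun k _ => ?_) (by positivity)
    have j1 := setIntegral_mono_set (he k).1 (ae_of_all _ (ed_nonneg _ _)) hBΩ.eventuallyLE
    have j2 := (hT' (W k)).2.2.2.2.2.2 (u k) (hT k)
    rw [(he k).2] at j1
    linarith

open Loc in
theorem s_main (h1 : S_ext) (h2 : S_bdry) (h3 : S_ike) (h4 : S_loc) (h5 : S_T) (h6 : S_E1)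
    (h7 : S_E2) : S_main := by
  intro Ω lam₁ mu₁ lam₂ mu₂ hΩ a₁ a₂ hDN
  obtain ⟨hO, hconn, hbd, -⟩ := id hΩ
  obtain ⟨c₁, hc₁, l₁, m₁, u₁, e₁⟩ := h1 Ω lam₁ mu₁ hbd a₁
  obtain ⟨c₂, hc₂, l₂, m₂, u₂, e₂⟩ := h1 Ω lam₂ mu₂ hbd a₂
  have hc : 0 < min c₁ c₂ := lt_min hc₁ hc₂
  replace u₁ := uadm_mono u₁ (min_le_left c₁ c₂)
  replace u₂ := uadm_mono u₂ (min_le_right c₁ c₂)
  have hDN' := sameDN_congr hO.measurableSet (fun x hx => e₁ x (subset_closure hx))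
    (fun x hx => e₂ x (subset_closure hx)) hDN
  obtain ⟨R₀, hR, hcl⟩ := hbd.closure.subset_ball_lt 0 0
  have hB := h2 _ Ω l₁ m₁ l₂ m₂ hc hΩ u₁ u₂ hDN'
  obtain ⟨b, hb⟩ := h3 _ l₂ m₂ hc u₂
  have hS : Setting (min c₁ c₂) R₀ Ω l₁ m₁ l₂ m₂ b := ⟨hc, hR, hO, hcl, u₁, u₂, hb⟩
  have hL := h4 _ R₀ Ω l₁ m₁ l₂ m₂ b hS hDN' hB
  have hE := h7 _ R₀ Ω l₁ m₁ l₂ m₂ b hS fun W x hx i => by
    obtain ⟨u, hu⟩ := (h5 R₀ _ Ω (ball 0 (R₀ + 4)) l₁ m₁ (ike W.1) hc hO (subset_closure.trans hcl)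
      isOpen_ball (hcl.trans (ball_subset_ball (by linarith))) u₁ (smOn_ike isOpen_ball W.2.1)).1
    rw [← lame_congr_on l₁ m₁ hO (fun i y hy => h6 _ R₀ Ω l₁ m₁ l₂ m₂ b hS hL W u hu y hy i) i hx]
    exact hu.2.2 x hx i
  have hm : ∀ x, m₂ x ≠ 0 := fun x => (hc.trans_le (u₂.2.2 x).1).ne'
  have hq : Sm fun x => m₁ x / m₂ x := ContDiff.div u₁.2.1 u₂.2.1 hm
  have hq0 : EqOn (fderiv ℝ fun x => m₁ x / m₂ x) 0 Ω := by
    intro x hx
    refine ContinuousLinearMap.coe_injective ((EuclideanSpace.basisFun (Fin 3) ℝ).toBasis.ext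
      fun j => ?_)
    have k1 := D_mul_at (hq.dAt x) (u₂.2.1.dAt x) (EuclideanSpace.single j 1)
    simp only [div_mul_cancel₀ _ (hm _), ← pd_eq_D] at k1
    have k2 := (hE x hx).2 j
    have k3 : pd j (fun x => m₁ x / m₂ x) x * m₂ x ^ 2 = 0 := by
      have k4 : m₁ x / m₂ x * m₂ x = m₁ x := div_mul_cancel₀ _ (hm x)
      linear_combination (-m₂ x) * k1 + k2 - pd j m₂ x * k4
    have k5 := (mul_eq_zero.1 k3).resolve_right (pow_ne_zero 2 (hm x))
    simpa [pd] using k5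
  obtain ⟨p, hp⟩ := nonempty_frontier_iff.2 ⟨hconn.nonempty, ne_univ hbd⟩
  intro x hx
  have k1 : EqOn (fun y => m₁ y / m₂ y) (fun _ => m₁ x / m₂ x) Ω := fun y hy =>
    hO.is_const_of_fderiv_eq_zero hconn.isPreconnected
      (fun z _ => (hq.dAt z).differentiableWithinAt) hq0 hy hx
  have k2 := k1.closure hq.cont continuous_const (frontier_subset_closure hp)
  simp only [(hB p hp).1, div_self (hm p)] at k2
  have k3 : m₁ x = m₂ x := (div_eq_one_iff_eq (hm x)).1 k2.symm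
  have k4 : l₁ x = l₂ x := by
    have := (hE x hx).1
    rw [k3, mul_comm] at this
    exact mul_left_cancel₀ (hm x) this
  rw [← (e₁ x (subset_closure hx)).1, ← (e₁ x (subset_closure hx)).2,
    ← (e₂ x (subset_closure hx)).1, ← (e₂ x (subset_closure hx)).2]
  exact ⟨k4, k3⟩

end Vale.Agent.P136
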