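import Vale.Agent.P136.Stmts

/-!
# P136: assembly of the main weighted estimate
-/

open MeasureTheory Set Metric
open scoped ContDiff Topology

noncomputable section
namespace Vale.Agent.P136
namespace ME

lemma cont_F2 : Continuous F2 := by unfold F2; fun_prop

lemma F2_nonneg (p : X6) : 0 ≤ F2 p := sq_nonneg _

lemma cont_vpi {a : ℝ} (ha : 0 ≤ a) : Continuous (vpi a) := by
  unfold vpi
  refine Continuous.div (continuous_const.mul (zeta.continuous.comp (by fun_prop)))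
    (continuous_const.add (continuous_const.mul cont_F2)) fun p => ?_
  have := F2_nonneg p
  positivity

lemma interp {K γ ε τ a : ℝ} (hK : 0 ≤ K) (hγ : 0 < γ) (hε : 0 < ε) (ha : 1 ≤ a)
    (hτ : (K / γ + 1) * (2 + 16 * K / ε) ≤ τ) (ha' : 4 * (1 + 16 * K / ε) ≤ a) (p : X6) :
    K * (a + a ^ 2 * F2 p) ≤ γ * τ ^ 2 * vpi a p + a ^ 3 * ε * F2 p ^ 2 / 8 := by
  have hF := F2_nonneg p
  set z := a * F2 p with hz
  have hz0 : 0 ≤ z := by positivity
  have hk : 0 ≤ 16 * K / ε := by positivity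
  have hv : 0 ≤ vpi a p := by
    unfold vpi; have := zeta.nonneg (x := p.2 - p.1); positivity
  have e1 : K * (a + a ^ 2 * F2 p) = a * (K * (1 + z)) := by rw [hz]; ring
  have e2 : a ^ 3 * ε * F2 p ^ 2 / 8 = a * (ε * z ^ 2 / 8) := by rw [hz]; ring
  rw [e1, e2]
  by_cases h : 1 + 16 * K / ε ≤ z
  · have h1 : 16 * K ≤ ε * z := by
      have : 16 * K / ε ≤ z := by linarith
      rwa [div_le_iff₀' hε] at this
    have h2 : K * (1 + z) ≤ ε * z ^ 2 / 8 := by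
      have : 1 ≤ z := by linarith
      nlinarith [mul_le_mul_of_nonneg_right h1 hz0, mul_le_mul_of_nonneg_left this hK]
    have h3 : 0 ≤ γ * τ ^ 2 * vpi a p := by positivity
    nlinarith [mul_le_mul_of_nonneg_left h2 (by linarith : 0 ≤ a)]
  · push Not at h
    have h1 : F2 p ≤ 1 / 4 := by
      by_contra hh
      push Not at hh
      nlinarith
    have h2 : zeta (p.2 - p.1) = 1 := by
      apply zeta.one_of_mem_closedBall
      rw [mem_closedBall, dist_zero_right]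
      show _ ≤ (1 / 2 : ℝ)
      unfold F2 at h1
      nlinarith [norm_nonneg (p.2 - p.1)]
    have h3 : vpi a p = a / (1 + z) := by unfold vpi; rw [h2, mul_one]
    have h4 : K * (1 + z) ^ 2 ≤ γ * τ ^ 2 := by
      have a1 : 1 + z ≤ 2 + 16 * K / ε := by linarith
      have a2 : 0 ≤ K / γ := by positivity
      have a3 : (K / γ + 1) * (1 + z) ≤ τ :=
        (mul_le_mul_of_nonneg_left a1 (by positivity)).trans hτ
      have a4 : ((K / γ + 1) * (1 + z)) ^ 2 ≤ τ ^ 2 := pow_le_pow_left₀ (by positivity) a3 2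
      have a5 : K / γ * (1 + z) ^ 2 ≤ ((K / γ + 1) * (1 + z)) ^ 2 := by
        rw [mul_pow]
        exact mul_le_mul_of_nonneg_right (by nlinarith) (by positivity)
      have a6 : K * (1 + z) ^ 2 = γ * (K / γ * (1 + z) ^ 2) := by field_simp
      rw [a6]; exact mul_le_mul_of_nonneg_left (a5.trans a4) hγ.le
    have h5 : a * (K * (1 + z)) ≤ γ * τ ^ 2 * (a / (1 + z)) := by
      rw [mul_div_assoc', le_div_iff₀ (by positivity)]
      nlinarith [mul_le_mul_of_nonneg_left h4 (by linarith : 0 ≤ a)]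
    rw [h3]
    have : 0 ≤ a * (ε * z ^ 2 / 8) := by positivity
    linarith

lemma core {AL AV AZ Ar Bg B2 BZ A4 At G C1 C2 C3 C5 K u ε a : ℝ}
    (n1 : 0 ≤ AL) (n2 : 0 ≤ AV) (n3 : 0 ≤ AZ) (n4 : 0 ≤ Ar) (n5 : 0 ≤ Bg) (n6 : 0 ≤ B2)
    (n7 : 0 ≤ BZ) (n8 : 0 ≤ A4) (hC1 : 0 ≤ C1) (hC2 : 0 ≤ C2) (hC3 : 0 ≤ C3)
    (hu : 7 * C2 * u ≤ 1 / 34) (hε0 : 0 ≤ ε) (hε : ε ≤ 1 / 4)
    (ha : |K| + C1 + 7 * C2 + 19 ≤ a)
    (hMI : AL + 15 / 2 * AV + 2 * AZ - 25 * Ar - C1 * (Bg + B2 + BZ) ≤ G)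
    (hG1 : A4 ≤ 8 * AZ + 72 * Bg) (hG5 : BZ ≤ AL / a + C5 * (Bg + B2))
    (hG2 : 15 / 4 * Ar ≤ AV + C2 * (u * (2 * A4 + AZ + AV + Ar) + Bg))
    (hG3 : At ≤ C3 * (AV + Ar + ε * A4 + Bg))
    (hI : (|K| + C1 + 7 * C2 + 19) * (1 + C5) * (Bg + B2) ≤ 1 / (4 * (C3 + 1)) * At + A4 / 8) :
    K * (Bg + BZ) ≤ G := by
  set K1 := |K| + C1 + 7 * C2 + 19 with hK1
  have hK := abs_nonneg K
  have hK1' : 0 < K1 := by positivity
  have s1 : 7 * C2 * u * (2 * A4 + AZ + AV + Ar) ≤ 1 / 34 * (17 * AZ + 144 * Bg + AV + Ar) :=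
    mul_le_mul hu (by linarith) (by positivity) (by norm_num)
  have s2 : 1 / (4 * (C3 + 1)) * At ≤ 1 / 4 * (AV + Ar + ε * A4 + Bg) := by
    have h0 : 0 ≤ AV + Ar + ε * A4 + Bg := by positivity
    rw [div_mul_eq_mul_div, div_le_iff₀ (by positivity)]
    nlinarith
  have s3 : ε * A4 ≤ 1 / 4 * (8 * AZ + 72 * Bg) := mul_le_mul hε hG1 n8 (by norm_num)
  have s4 : K1 * (AL / a) ≤ AL := by
    rw [mul_div_assoc', div_le_iff₀ (by linarith)]
    nlinarith
  have s5 : K1 * BZ ≤ K1 * (AL / a + C5 * (Bg + B2)) := mul_le_mul_of_nonneg_left hG5 hK1'.le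
  have s6 : K * (Bg + BZ) ≤ |K| * (Bg + B2 + BZ) :=
    (mul_le_mul_of_nonneg_right (le_abs_self K) (by positivity)).trans
      (mul_le_mul_of_nonneg_left (by linarith) hK)
  have s7 : 0 ≤ C2 * B2 := by positivity
  have s8 : 0 ≤ C2 * BZ := by positivity
  have s9 : K1 * (Bg + B2 + BZ) ≤ AL + 1 / (4 * (C3 + 1)) * At + A4 / 8 := by nlinarith
  rw [hK1] at s9
  nlinarith

end ME

open ME in
theorem s_ME (h1 : S_MI) (h2 : S_G1) (h3 : S_G5) (h4 : S_G2) (h5 : S_G3) : S_ME := by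
  intro ι _ b R K hb
  obtain ⟨C1, e1, a1, hC1, he1, H1⟩ := h1 ι b R hb
  obtain ⟨e2, he2, H2⟩ := h2 R
  obtain ⟨C5, e3, hC5, he3, H3⟩ := h3 R
  obtain ⟨C2, e4, hC2, he4, H4⟩ := h4 ι b R hb
  obtain ⟨C3, hC3, H5⟩ := h5 ι b R hb
  obtain ⟨u, hu0, hu1⟩ : ∃ u : ℝ, 0 < u ∧ 7 * C2 * u ≤ 1 / 34 := by
    refine ⟨1 / (34 * (7 * C2 + 1)), by positivity, ?_⟩
    rw [mul_one_div, div_le_div_iff₀ (by positivity) (by norm_num)]; linarith
  obtain ⟨ε, hε0, hεe1, hεe2, hεe3, hεe4, hεu, hε4⟩ : ∃ ε : ℝ, 0 < ε ∧ ε ≤ e1 ∧ ε ≤ e2 ∧ ε ≤ e3 ∧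
      ε ≤ e4 ∧ ε ≤ u ∧ ε ≤ 1 / 4 :=
    ⟨min (min (min e1 e2) (min e3 e4)) (min u (1 / 4)), by positivity,
      (min_le_left _ _).trans ((min_le_left _ _).trans (min_le_left _ _)),
      (min_le_left _ _).trans ((min_le_left _ _).trans (min_le_right _ _)),
      (min_le_left _ _).trans ((min_le_right _ _).trans (min_le_left _ _)),
      (min_le_left _ _).trans ((min_le_right _ _).trans (min_le_right _ _)),
      (min_le_right _ _).trans (min_le_left _ _), (min_le_right _ _).trans (min_le_right _ _)⟩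
  obtain ⟨K1, hK1⟩ : ∃ K1 : ℝ, K1 = |K| + C1 + 7 * C2 + 19 := ⟨_, rfl⟩
  obtain ⟨K2, hK2⟩ : ∃ K2 : ℝ, K2 = K1 * (1 + C5) := ⟨_, rfl⟩
  have hK1p : 0 < K1 := by rw [hK1]; positivity
  have hK2p : 0 < K2 := by rw [hK2]; positivity
  obtain ⟨γ, hγ⟩ : ∃ γ : ℝ, γ = 1 / (4 * (C3 + 1)) := ⟨_, rfl⟩
  have hγp : 0 < γ := by rw [hγ]; positivity
  obtain ⟨τ, hτ⟩ : ∃ τ : ℝ, τ = (K2 / γ + 1) * (2 + 16 * K2 / ε) := ⟨_, rfl⟩
  have hτp : 0 < τ := by rw [hτ]; positivity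
  obtain ⟨a0, hb1, hb2, hb3, hb4, hb5, hb6⟩ : ∃ a0 : ℝ, 1 ≤ a0 ∧ a1 ≤ a0 ∧ τ ^ 2 ≤ a0 ∧
      4 * (1 + 16 * K2 / ε) ≤ a0 ∧ K1 ≤ a0 ∧ 1 / (ε * u) ≤ a0 :=
    ⟨max (max 1 a1) (max (max (τ ^ 2) (4 * (1 + 16 * K2 / ε))) (max K1 (1 / (ε * u)))),
      (le_max_left _ _).trans (le_max_left _ _), (le_max_right _ _).trans (le_max_left _ _),
      ((le_max_left _ _).trans (le_max_left _ _)).trans (le_max_right _ _),
      ((le_max_right _ _).trans (le_max_left _ _)).trans (le_max_right _ _),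
      ((le_max_left _ _).trans (le_max_right _ _)).trans (le_max_right _ _),
      ((le_max_right _ _).trans (le_max_right _ _)).trans (le_max_right _ _)⟩
  refine ⟨ε, τ, a0, hε0, hb1, ?_⟩
  intro a ha g q hg hq hL
  have ha1 : 1 ≤ a := hb1.trans ha
  have ha2 : a1 ≤ a := hb2.trans ha
  have ha3 : τ ^ 2 ≤ a := hb3.trans ha
  have ha4 : 4 * (1 + 16 * K2 / ε) ≤ a := hb4.trans ha
  have ha5 : K1 ≤ a := hb5.trans ha
  have ha0 : 0 ≤ a := zero_le_one.trans ha1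
  have hε1 : ε ≤ 1 := hε4.trans (by norm_num)
  have ha6 : 1 ≤ u * (a * ε) := by
    have := hb6.trans ha
    rw [div_le_iff₀ (by positivity)] at this
    exact this.trans (le_of_eq (by ring))
  have ha7 : 1 ≤ u * a := by
    have : u * (a * ε) ≤ u * (a * 1) :=
      mul_le_mul_of_nonneg_left (mul_le_mul_of_nonneg_left hε1 ha0) hu0.le
    rw [mul_one] at this
    exact ha6.trans this
  set φ := phi a ε τ
  have n1 : 0 ≤ qL φ g := Finset.sum_nonneg fun _ _ => integral_nonneg fun _ => sq_nonneg _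
  have n2 : 0 ≤ qV φ g q := Finset.sum_nonneg fun _ _ => Finset.sum_nonneg fun _ _ =>
    integral_nonneg fun _ => sq_nonneg _
  have n3 : 0 ≤ qFZ φ g := Finset.sum_nonneg fun _ _ => Finset.sum_nonneg fun _ _ =>
    integral_nonneg fun p => mul_nonneg (F2_nonneg p) (sq_nonneg _)
  have n4 : 0 ≤ qr g q := Finset.sum_nonneg fun _ _ => integral_nonneg fun _ => sq_nonneg _
  have n5 : 0 ≤ q0 g := Finset.sum_nonneg fun _ _ => integral_nonneg fun _ => sq_nonneg _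
  have n6 : 0 ≤ q2 g := Finset.sum_nonneg fun _ _ =>
    integral_nonneg fun p => mul_nonneg (F2_nonneg p) (sq_nonneg _)
  have n7 : 0 ≤ qZ φ g := Finset.sum_nonneg fun _ _ => Finset.sum_nonneg fun _ _ =>
    integral_nonneg fun _ => sq_nonneg _
  have n8 : 0 ≤ q4 g := Finset.sum_nonneg fun _ _ =>
    integral_nonneg fun p => mul_nonneg (sq_nonneg _) (sq_nonneg _)
  have m1 := H1 a ε τ ha2 hε0 hεe1 g q hg hq fun p hp => hL p (Or.inl hp)
  have m2 : a ^ 2 / 8 * q4 g ≤ qFZ φ g + 9 * q0 g := by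
    simp only [q4, qFZ, q0, Finset.mul_sum, ← Finset.sum_add_distrib]
    exact Finset.sum_le_sum fun c _ => (H2 a ε τ ha1 ha3 hε0 hεe2 (g c) (hg c)).1
  have m3 : qZ φ g ≤ qL φ g / a + C5 * (a * q0 g + a ^ 2 * q2 g) := by
    simp only [qZ, qL, q0, q2, Finset.mul_sum, Finset.sum_div, ← Finset.sum_add_distrib]
    exact Finset.sum_le_sum fun c _ => H3 a ε τ ha1 ha3 hε0 hεe3 (g c) (hg c)
  have m4 := H4 a ε τ ha1 ha3 hτp.ne' hε0 hεe4 g q hg hq fun p hp => hL p (Or.inr hp)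
  have m5 := H5 a ε τ ha1 ha3 hτp hε0 hε1 g q hg hq fun p hp => hL p (Or.inr hp)
  have m6 : K2 * (a * q0 g + a ^ 2 * q2 g) ≤ γ * (τ ^ 2 * qpi a g) + a ^ 3 * ε * q4 g / 8 := by
    simp only [qpi, q4, q0, q2, Finset.mul_sum, Finset.sum_div, ← Finset.sum_add_distrib]
    refine Finset.sum_le_sum fun c _ => ?_
    have t := (hg c).1.sq
    have i0 : Integrable (fun p => g c p ^ 2) := t.integrable
    have i2 : Integrable (fun p => F2 p * g c p ^ 2) := t.integrable_cmul cont_F2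
    have i4 : Integrable (fun p => F2 p ^ 2 * g c p ^ 2) := t.integrable_cmul (cont_F2.pow 2)
    have i5 : Integrable (fun p => vpi a p * g c p ^ 2) :=
      t.integrable_cmul (cont_vpi ha0)
    rw [← integral_const_mul, ← integral_const_mul, ← integral_add (i0.const_mul _) (i2.const_mul _),
      ← integral_const_mul, ← integral_const_mul, ← integral_const_mul, ← integral_const_mul,
      ← integral_div, ← integral_add ((i5.const_mul _).const_mul _) ((i4.const_mul _).div_const _)]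
    refine integral_mono ((iadd (i0.const_mul _) (i2.const_mul _)).const_mul _)
      (iadd ((i5.const_mul _).const_mul _) ((i4.const_mul _).div_const _)) fun p => ?_
    have := mul_le_mul_of_nonneg_right (interp hK2p.le hγp hε0 ha1 hτ.ge ha4 p)
      (sq_nonneg (g c p))
    beta_reduce
    linarith
  refine core (AL := qL φ g) (AV := a * qV φ g q) (AZ := a * ε * qFZ φ g) (Ar := a ^ 2 * qr g q)
    (B2 := a ^ 2 * q2 g) (A4 := a ^ 3 * ε * q4 g) (At := τ ^ 2 * qpi a g) n1 (by positivity)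
    (by positivity) (by positivity) (by positivity) (by positivity) n7 (by positivity) hC1 hC2 hC3
    hu1 hε0.le hε4 (hK1 ▸ ha5) m1 ?_ m3 ?_ ?_ (by rw [← hK1, ← hK2, ← hγ]; exact m6)
  · have := mul_le_mul_of_nonneg_left m2 (by positivity : 0 ≤ 8 * (a * ε))
    have h' : a * ε * q0 g ≤ a * 1 * q0 g :=
      mul_le_mul_of_nonneg_right (mul_le_mul_of_nonneg_left hε1 ha0) n5
    linarith
  · refine m4.trans (add_le_add le_rfl (mul_le_mul_of_nonneg_left ?_ hC2))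
    have b1 : ε * (a ^ 3 * ε * q4 g) ≤ u * (a ^ 3 * ε * q4 g) :=
      mul_le_mul_of_nonneg_right hεu (by positivity)
    have b2 : 1 * (a ^ 2 * q4 g) ≤ u * (a * ε) * (a ^ 2 * q4 g) :=
      mul_le_mul_of_nonneg_right ha6 (by positivity)
    have b3 : 1 * qFZ φ g ≤ u * (a * ε) * qFZ φ g := mul_le_mul_of_nonneg_right ha6 n3
    have b4 : 1 * qV φ g q ≤ u * a * qV φ g q := mul_le_mul_of_nonneg_right ha7 n2
    have b5 : 1 * (a * qr g q) ≤ u * a * (a * qr g q) :=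
      mul_le_mul_of_nonneg_right ha7 (by positivity)
    linarith
  · refine m5.trans (le_of_eq ?_); ring

end Vale.Agent.P136
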