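import Vale.Agent.P136.Stmts

/-!
# P136: multiplication operators, derivative representatives, weighted norm of zero jets
-/

open MeasureTheory Set Metric Filter
open scoped ContDiff Topology

noncomputable section
namespace Vale.Agent.P136

namespace MF

/-- The measure on the ball. -/
abbrev mB (R : ℝ) : Measure E3 := volume.restrict (ball (0 : E3) R)

instance fin (R : ℝ) : IsFiniteMeasure (mB R) := isFiniteMeasure_restrict.2 measure_ball_lt_top.ne

lemma ae_ball (R : ℝ) : ∀ᵐ y ∂mB R, y ∈ ball (0 : E3) R := ae_restrict_mem measurableSet_ball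

lemma bdd {φ : E3 → ℝ} (h : Continuous φ) (R : ℝ) : ∃ C, ∀ᵐ y ∂mB R, ‖φ y‖ ≤ C := by
  obtain ⟨C, hC⟩ := (isCompact_closedBall (0 : E3) R).exists_bound_of_continuousOn h.continuousOn
  exact ⟨C, (ae_ball R).mono fun y hy => hC y (ball_subset_closedBall hy)⟩

lemma memTop {φ : E3 → ℝ} (h : Continuous φ) (R : ℝ) : MemLp φ ⊤ (mB R) := by
  obtain ⟨C, hC⟩ := bdd h R
  exact memLp_top_of_bound h.aestronglyMeasurable C hC

lemma memTwo {φ : E3 → ℝ} (h : Continuous φ) (R : ℝ) : MemLp φ 2 (mB R) := by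
  obtain ⟨C, hC⟩ := bdd h R
  exact MemLp.of_bound h.aestronglyMeasurable C hC

lemma mulTwo {φ u : E3 → ℝ} {R : ℝ} (h : Continuous φ) (hu : MemLp u 2 (mB R)) :
    MemLp (fun y => φ y * u y) 2 (mB R) := hu.mul' (memTop h R)

lemma mulInt {φ u : E3 → ℝ} {R : ℝ} (h : Continuous φ) (hu : Integrable u (mB R)) :
    Integrable (fun y => φ y * u y) (mB R) := by
  obtain ⟨C, hC⟩ := bdd h R
  exact hu.bdd_mul h.aestronglyMeasurable hC

lemma slice {m : X6 → ℝ} (hm : Sm m) (x : E3) : Continuous fun y => m (x, y) :=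
  hm.cont.comp (continuous_const.prodMk continuous_id)

lemma hasF {R : ℝ} {m : X6 → ℝ} {f : E3 → ℝ} (hm : Sm m) (hf : Integrable f (mB R)) (x₀ : E3) :
    DifferentiableAt ℝ (fun x => ∫ y, m (x, y) * f y ∂mB R) x₀ ∧
      ∀ v, fderiv ℝ (fun x => ∫ y, m (x, y) * f y ∂mB R) x₀ v =
        ∫ y, D ((v, 0) : X6) m (x₀, y) * f y ∂mB R := by
  have hc : Continuous fun p : X6 => (fderiv ℝ m p).comp (ContinuousLinearMap.inl ℝ E3 E3) :=
    (hm.continuous_fderiv (by simp)).clm_comp continuous_const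
  obtain ⟨C, hC⟩ := ((isCompact_closedBall x₀ 1).prod
    (isCompact_closedBall (0 : E3) R)).exists_bound_of_continuousOn hc.continuousOn
  have hb : ∀ᵐ y ∂mB R, ∀ x ∈ ball x₀ 1,
      ‖f y • (fderiv ℝ m (x, y)).comp (ContinuousLinearMap.inl ℝ E3 E3)‖ ≤ C * ‖f y‖ :=
    (ae_ball R).mono fun y hy x hx => by
      rw [norm_smul, mul_comm]
      exact mul_le_mul_of_nonneg_right
        (hC (x, y) ⟨ball_subset_closedBall hx, ball_subset_closedBall hy⟩) (norm_nonneg _)
  have hme : AEStronglyMeasurable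
      (fun y => f y • (fderiv ℝ m (x₀, y)).comp (ContinuousLinearMap.inl ℝ E3 E3)) (mB R) :=
    hf.1.smul (hc.comp (continuous_const.prodMk continuous_id)).aestronglyMeasurable
  have h1 := hasFDerivAt_integral_of_dominated_of_fderiv_le (μ := mB R)
    (F := fun x y => m (x, y) * f y)
    (F' := fun x y => f y • (fderiv ℝ m (x, y)).comp (ContinuousLinearMap.inl ℝ E3 E3))
    (ball_mem_nhds x₀ one_pos) (.of_forall fun x => (mulInt (slice hm x) hf).1)
    (mulInt (slice hm x₀) hf) hme hb (hf.norm.const_mul C) (.of_forall fun y x _ =>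
      (((hm.dAt (x, y)).hasFDerivAt.comp x (hasFDerivAt_prodMk_left x y)).mul_const (f y)))
  refine ⟨h1.differentiableAt, fun v => ?_⟩
  rw [h1.fderiv, ContinuousLinearMap.integral_apply ((hf.norm.const_mul C).mono' hme
    (hb.mono fun y hy => hy x₀ (mem_ball_self one_pos)))]
  refine integral_congr_ae (.of_forall fun y => ?_)
  simp [D, mul_comm]

lemma smI {R : ℝ} {m : X6 → ℝ} {f : E3 → ℝ} (hm : Sm m) (hf : Integrable f (mB R)) :
    Sm fun x => ∫ y, m (x, y) * f y ∂mB R := by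
  have key : ∀ n : ℕ, ∀ m : X6 → ℝ, Sm m → ContDiff ℝ n fun x => ∫ y, m (x, y) * f y ∂mB R := by
    intro n
    induction n with
    | zero =>
      intro m hm
      exact contDiff_zero.2 (Differentiable.continuous fun x => (hasF hm hf x).1)
    | succ n ih =>
      intro m hm
      rw [Nat.cast_succ, contDiff_succ_iff_fderiv_apply]
      refine ⟨fun x => (hasF hm hf x).1, fun h => absurd h (by simp), fun v => ?_⟩
      simp only [fun x => (hasF hm hf x).2 v]
      exact ih _ (hm.D _)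
  exact contDiff_infty.2 fun n => key n m hm

lemma inner_eq {R : ℝ} (u v : LB R) : inner ℝ u v = ∫ y, u y * v y ∂mB R := by
  rw [L2.inner_def]
  refine integral_congr_ae (.of_forall fun y => ?_)
  simp [mul_comm]

/-- Gaussian bound. -/
lemma gauss (x : E3) {a : ℝ} (ha : 1 ≤ a) :
    Integrable (fun y : E3 => Real.exp (-(a / 2) * ‖y - x‖ ^ 2)) ∧
      ∫ y : E3, Real.exp (-(a / 2) * ‖y - x‖ ^ 2) ≤ 27 / (a * √a) := by
  have h0 : 0 < a / 2 := by linarith
  have h1 := GaussianFourier.integral_rexp_neg_mul_sq_norm (V := E3) h0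
  have h2 : (0 : ℝ) < (Real.pi / (a / 2)) ^ ((Module.finrank ℝ E3 : ℝ) / 2) :=
    Real.rpow_pos_of_pos (div_pos Real.pi_pos h0) _
  refine ⟨(Integrable.of_integral_ne_zero (h1 ▸ h2.ne')).comp_sub_right x, ?_⟩
  rw [integral_sub_right_eq_self (fun y : E3 => Real.exp (-(a / 2) * ‖y‖ ^ 2)) x, h1]
  have h3 : 0 < √a := Real.sqrt_pos.2 (by linarith)
  have h4 : Real.pi / (a / 2) ≤ (3 / √a) ^ 2 := by
    rw [div_pow, Real.sq_sqrt (by linarith), div_le_div_iff₀ h0 (by linarith)]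
    nlinarith [Real.pi_le_four]
  refine (Real.rpow_le_rpow (div_pos Real.pi_pos h0).le h4 (by positivity)).trans (le_of_eq ?_)
  rw [← Real.rpow_natCast, ← Real.rpow_mul (by positivity), finrank_euclideanSpace_fin]
  have h5 : ((2 : ℕ) : ℝ) * (((3 : ℕ) : ℝ) / 2) = ((3 : ℕ) : ℝ) := by norm_num
  rw [h5, Real.rpow_natCast, div_pow, pow_succ (√a), Real.sq_sqrt (by linarith)]
  norm_num

lemma quartic {a t : ℝ} (ha : 1 ≤ a) :
    Real.exp (-(a * t ^ 2)) * t ^ 4 ≤ 8 / a ^ 2 * Real.exp (-(a / 2) * t ^ 2) := by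
  have h0 : 0 ≤ a / 2 * t ^ 2 := by positivity
  have h1 := Real.pow_div_factorial_le_exp _ h0 2
  have h2 : Real.exp (-(a * t ^ 2)) * Real.exp (a / 2 * t ^ 2) = Real.exp (-(a / 2) * t ^ 2) := by
    rw [← Real.exp_add]; congr 1; ring
  have h3 : t ^ 4 ≤ 8 / a ^ 2 * Real.exp (a / 2 * t ^ 2) := by
    rw [div_mul_eq_mul_div, le_div_iff₀ (by positivity)]
    norm_num [Nat.factorial] at h1
    nlinarith
  rw [← h2, mul_left_comm]
  exact mul_le_mul_of_nonneg_left h3 (Real.exp_pos _).le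

lemma far {a d t : ℝ} (ha : 1 ≤ a) (hd : 0 < d) (ht : d ≤ t) :
    Real.exp (-(a * t ^ 2)) ≤ 24 / d ^ 8 / (a ^ 3 * √a) := by
  have h1 := Real.pow_div_factorial_le_exp (a * d ^ 2) (by positivity) 4
  have h2 : √a ≤ a := Real.sqrt_le_self_iff.2 (Or.inr ha)
  have h3 : 0 < √a := Real.sqrt_pos.2 (by linarith)
  have h4 : Real.exp (a * d ^ 2) ≤ Real.exp (a * t ^ 2) := by gcongr
  rw [Real.exp_neg, div_div, inv_eq_one_div, div_le_div_iff₀ (Real.exp_pos _) (by positivity)]
  norm_num [Nat.factorial] at h1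
  have h5 : d ^ 8 * (a ^ 3 * √a) ≤ (a * d ^ 2) ^ 4 := by
    calc d ^ 8 * (a ^ 3 * √a) ≤ d ^ 8 * (a ^ 3 * a) := by gcongr
      _ = _ := by ring
  linarith

lemma taylor {κ : Type} [Fintype κ] {W : κ → E3 → ℝ} {R R' B : ℝ} (hR : R' < R)
    (hW : ∀ k, ContDiffOn ℝ ∞ (W k) (ball 0 R)) : ∃ C : ℝ, ∀ (x y : E3) (s : κ → ℝ), ‖x‖ ≤ R' →
      (∀ k, |s k| ≤ B) → ∑ k, s k * W k x = 0 → (∀ j, ∑ k, s k * pd j (W k) x = 0) →
      ‖y - x‖ ≤ (R - R') / 2 → |∑ k, s k * W k y| ≤ C * ‖y - x‖ ^ 2 := by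
  have hsub : closedBall (0 : E3) ((R + R') / 2) ⊆ ball 0 R :=
    closedBall_subset_ball (by linarith)
  have hL : ∀ k, ∃ L, LipschitzOnWith L (fderiv ℝ (W k)) (closedBall 0 ((R + R') / 2)) :=
    fun k => (((hW k).fderiv_of_isOpen isOpen_ball (m := 1) (by norm_cast)).mono
      hsub).exists_lipschitzOnWith one_ne_zero (convex_closedBall _ _) (isCompact_closedBall _ _)
  choose L hL using hL
  refine ⟨∑ k, B * L k, fun x y s hx hs h0 h1 hy => ?_⟩
  have hin : ∀ z ∈ closedBall x ‖y - x‖, z ∈ closedBall (0 : E3) ((R + R') / 2) := fun z hz => by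
    rw [mem_closedBall, dist_eq_norm] at hz
    rw [mem_closedBall_zero_iff]
    linarith [norm_le_insert' z x]
  have hd : ∀ z ∈ closedBall x ‖y - x‖, HasFDerivAt (fun y => ∑ k, s k * W k y)
      (∑ k, s k • fderiv ℝ (W k) z) z := fun z hz =>
    HasFDerivAt.fun_sum fun k _ =>
      (dAt_of_on isOpen_ball (hW k) (hsub (hin z hz))).hasFDerivAt.const_mul (s k)
  have hz : ∑ k, s k • fderiv ℝ (W k) x = 0 := by
    refine ContinuousLinearMap.coe_injective
      ((EuclideanSpace.basisFun (Fin 3) ℝ).toBasis.ext fun j => ?_)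
    simpa [pd] using h1 j
  have hxm : x ∈ closedBall x ‖y - x‖ := mem_closedBall_self (norm_nonneg _)
  have key := (convex_closedBall x ‖y - x‖).norm_image_sub_le_of_norm_hasFDerivWithin_le
    (C := (∑ k, B * L k) * ‖y - x‖) (fun z hz => (hd z hz).hasFDerivWithinAt) (fun z hz' => by
      rw [← sub_zero (∑ k, s k • fderiv ℝ (W k) z), ← hz, ← Finset.sum_sub_distrib,
        Finset.sum_mul]
      refine (norm_sum_le _ _).trans (Finset.sum_le_sum fun k _ => ?_)
      rw [← smul_sub, norm_smul, mul_assoc]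
      have h2 := (hL k).dist_le_mul z (hin z hz') x (hin x hxm)
      rw [dist_eq_norm] at h2
      refine mul_le_mul (hs k) (h2.trans ?_) (norm_nonneg _) ((abs_nonneg _).trans (hs k))
      exact mul_le_mul_of_nonneg_left hz' (L k).2) hxm
    (show y ∈ closedBall x ‖y - x‖ by rw [mem_closedBall, dist_eq_norm])
  rw [h0, sub_zero, mul_assoc, ← sq] at key
  exact key

lemma weight {a ε τ R' : ℝ} (ha : 1 ≤ a) (hε : 0 ≤ ε) {x : E3} (hx : ‖x‖ ≤ R') (y : E3) :
    Real.exp (-(2 * phi a ε τ (x, y))) ≤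
      Real.exp (2 * (|τ| * R')) * Real.exp (-(a * ‖y - x‖ ^ 2)) := by
  rw [← Real.exp_add]
  refine Real.exp_le_exp.2 ?_
  have h1 : |τ * x 0| ≤ |τ| * R' := by
    rw [abs_mul]
    exact mul_le_mul_of_nonneg_left ((PiLp.norm_apply_le x 0).trans hx) (abs_nonneg _)
  have h2 : 0 ≤ a * ‖y - x‖ ^ 2 * (ε * ‖x‖ ^ 2) := by positivity
  simp only [phi, F2]
  nlinarith [neg_abs_le (τ * x 0)]

lemma one_comp {κ : Type} [Fintype κ] {W : κ → E3 → ℝ} {R R' B : ℝ} (hR : R' < R)
    (hW : ∀ k, ContDiffOn ℝ ∞ (W k) (ball 0 R)) (hL : ∀ k, MemLp (W k) 2 (mB R)) :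
    ∃ C : ℝ, 0 ≤ C ∧ ∀ a : ℝ, 1 ≤ a → ∀ (x : E3) (s : κ → ℝ) (E : ℝ) (w : E3 → ℝ), ‖x‖ ≤ R' →
      (∀ k, |s k| ≤ B) → ∑ k, s k * W k x = 0 → (∀ j, ∑ k, s k * pd j (W k) x = 0) → 0 ≤ E →
      (∀ y, 0 ≤ w y ∧ w y ≤ E * Real.exp (-(a * ‖y - x‖ ^ 2))) →
      ∫ y in ball 0 R, w y * (∑ k, s k * W k y) ^ 2 ≤ E * C / (a ^ 3 * √a) := by
  obtain ⟨C, hC⟩ := taylor (B := B) hR hW
  have hd : 0 < (R - R') / 2 := by linarith
  have hI : Integrable (fun y => ∑ k, W k y ^ 2) (mB R) :=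
    integrable_finsetSum _ fun k _ => (hL k).integrable_sq
  have hI0 : 0 ≤ ∫ y, ∑ k, W k y ^ 2 ∂mB R := integral_nonneg fun y => by positivity
  refine ⟨C ^ 2 * 8 * 27 + 24 / ((R - R') / 2) ^ 8 * (Fintype.card κ * B ^ 2) *
    ∫ y, ∑ k, W k y ^ 2 ∂mB R, by positivity, fun a ha x s E w hx hs h0 h1 hE hw => ?_⟩
  obtain ⟨g1, g2⟩ := gauss x ha
  have ha0 : 0 < a := by linarith
  have hsq : 0 < √a := Real.sqrt_pos.2 ha0
  have hpt : ∀ y, Real.exp (-(a * ‖y - x‖ ^ 2)) * (∑ k, s k * W k y) ^ 2 ≤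
      C ^ 2 * (8 / a ^ 2) * Real.exp (-(a / 2) * ‖y - x‖ ^ 2) +
        24 / ((R - R') / 2) ^ 8 / (a ^ 3 * √a) * (Fintype.card κ * B ^ 2) * ∑ k, W k y ^ 2 := by
    intro y
    rcases le_total ‖y - x‖ ((R - R') / 2) with h | h
    · refine le_add_of_le_of_nonneg ?_ (by positivity)
      have h2 := pow_le_pow_left₀ (abs_nonneg _) (hC x y s hx hs h0 h1 h) 2
      rw [sq_abs, mul_pow, ← pow_mul] at h2
      have h3 := mul_le_mul_of_nonneg_left (quartic (t := ‖y - x‖) ha) (sq_nonneg C)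
      have h4 := mul_le_mul_of_nonneg_left h2 (Real.exp_pos (-(a * ‖y - x‖ ^ 2))).le
      rw [mul_left_comm] at h4
      rw [mul_assoc]
      exact h4.trans h3
    · refine le_add_of_nonneg_of_le (by positivity) ?_
      have h2 : ∑ k, s k ^ 2 ≤ Fintype.card κ * B ^ 2 := by
        refine (Finset.sum_le_card_nsmul _ _ (B ^ 2) fun k _ => ?_).trans (by simp)
        rw [← sq_abs]
        exact pow_le_pow_left₀ (abs_nonneg _) (hs k) 2
      have h3 := (Finset.sum_mul_sq_le_sq_mul_sq Finset.univ s fun k => W k y).trans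
        (mul_le_mul_of_nonneg_right h2 (by positivity))
      rw [mul_assoc]
      exact mul_le_mul (far ha hd h) h3 (sq_nonneg _) (by positivity)
  have hint := (g1.integrableOn (s := ball 0 R).const_mul (C ^ 2 * (8 / a ^ 2))).add
    (hI.const_mul (24 / ((R - R') / 2) ^ 8 / (a ^ 3 * √a) * (Fintype.card κ * B ^ 2)))
  refine (integral_mono_of_nonneg (.of_forall fun y => mul_nonneg (hw y).1 (sq_nonneg _))
    (hint.const_mul E) (.of_forall fun y => ?_)).trans ?_
  · refine (mul_le_mul_of_nonneg_right (hw y).2 (sq_nonneg _)).trans ?_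
    rw [mul_assoc]
    exact mul_le_mul_of_nonneg_left (hpt y) hE
  · rw [integral_const_mul, mul_div_assoc]
    refine mul_le_mul_of_nonneg_left ?_ hE
    rw [integral_add' (g1.integrableOn.const_mul _) (hI.const_mul _), integral_const_mul,
      integral_const_mul]
    have g3 := (setIntegral_le_integral (s := ball 0 R) g1
      (.of_forall fun y => (Real.exp_pos _).le)).trans g2
    have g4 := mul_le_mul_of_nonneg_left g3 (show 0 ≤ C ^ 2 * (8 / a ^ 2) by positivity)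
    refine (add_le_add g4 le_rfl).trans (le_of_eq ?_)
    field_simp

end MF

open MF in
theorem s_mf (h : S_w2s) : S_mf := by
  intro R m hm
  let M : E3 → LB R →L[ℝ] LB R := fun x =>
    (ContinuousLinearMap.mul ℝ ℝ).holderL (mB R) ⊤ 2 2 ((memTop (slice hm x) R).toLp _)
  have hM : ∀ x u, (M x u : E3 → ℝ) =ᵐ[mB R] fun y => m (x, y) * u y := fun x u => by
    filter_upwards [(ContinuousLinearMap.mul ℝ ℝ).coeFn_holder (r := 2)
      ((memTop (slice hm x) R).toLp _) u, (memTop (slice hm x) R).coeFn_toLp] with y h1 h2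
    rw [← h2]
    exact h1
  refine ⟨M, h E3 (LB R) (LB R) M fun u => ?_, hM⟩
  have h1 := h E3 (LB R) ℝ (fun x => innerSL ℝ (M x u)) fun v => by
    have e : (fun x => innerSL ℝ (M x u) v) = fun x => ∫ y, m (x, y) * (u y * v y) ∂mB R := by
      funext x
      rw [innerSL_apply_apply, inner_eq]
      refine integral_congr_ae ?_
      filter_upwards [hM x u] with y hy
      rw [hy, mul_assoc]
    rw [e]
    exact smI hm ((Lp.memLp u).integrable_mul (Lp.memLp v))
  let T : (LB R →L[ℝ] ℝ) →L[ℝ] LB R :=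
    (InnerProductSpace.toDual ℝ (LB R)).symm.toContinuousLinearEquiv.toContinuousLinearMap
  have e : (fun x => M x u) = fun x => T (innerSL ℝ (M x u)) :=
    funext fun x => ((InnerProductSpace.toDual ℝ (LB R)).symm_apply_apply (M x u)).symm
  rw [e]
  exact T.contDiff.comp h1

open MF in
theorem s_drep : S_drep := by
  intro R k κ θ hk hκ hθ hkκ x j
  set k' := fderiv ℝ k x (EuclideanSpace.single j 1)
  have hf : MemLp (fun y => θ y * k' y - D (ex j) κ (x, y)) 2 (mB R) :=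
    (mulTwo hθ (Lp.memLp k')).sub (memTwo (slice (hκ.D _) x) R)
  set f : E3 → ℝ := fun y => θ y * k' y - D (ex j) κ (x, y) with hfd
  have hw := mulTwo hθ hf
  have e : ∀ u : LB R, innerSL ℝ (hw.toLp _) u = ∫ y, θ y * u y * f y ∂mB R := fun u => by
    rw [innerSL_apply_apply, inner_eq]
    refine integral_congr_ae ?_
    filter_upwards [hw.coeFn_toLp] with y hy
    rw [hy]; ring
  have e2 : (fun x' => innerSL ℝ (hw.toLp _) (k x')) = fun x' => ∫ y, κ (x', y) * f y ∂mB R := by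
    funext x'
    rw [e]
    refine integral_congr_ae ?_
    filter_upwards [hkκ x'] with y hy
    rw [hy]
  have h1 := (hasF hκ (hf.integrable one_le_two) x).2 (EuclideanSpace.single j 1)
  have h2 := ((innerSL ℝ (hw.toLp _)).hasFDerivAt.comp x
    (hk.differentiable (by simp) x).hasFDerivAt).fderiv
  rw [← e2, show (fun x' => innerSL ℝ (hw.toLp _) (k x')) = innerSL ℝ (hw.toLp _) ∘ k from rfl,
    h2, ContinuousLinearMap.comp_apply, e] at h1
  have h3 : ∫ y, f y ^ 2 ∂mB R = 0 := by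
    have i1 : Integrable (fun y => θ y * k' y * f y) (mB R) :=
      (mulTwo hθ (Lp.memLp k')).integrable_mul hf
    have i2 : Integrable (fun y => D (ex j) κ (x, y) * f y) (mB R) :=
      (memTwo (slice (hκ.D _) x) R).integrable_mul hf
    have h4 := integral_sub i1 i2
    rw [show ∫ y, θ y * k' y * f y ∂mB R = ∫ y, D (ex j) κ (x, y) * f y ∂mB R from h1,
      sub_self] at h4
    rw [← h4]
    refine integral_congr_ae (.of_forall fun y => ?_)
    simp only [hfd]; ring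
  rw [integral_eq_zero_iff_of_nonneg (fun y => sq_nonneg _) hf.integrable_sq] at h3
  filter_upwards [h3] with y hy
  exact sub_eq_zero.1 (pow_eq_zero_iff two_ne_zero |>.1 hy)

open MF in
theorem s_wj : S_wj := by
  intro ι κ _ _ b R R' ε τ B W hR hε
  have h := fun c => one_comp (W := fun k => (W k).1 c) (B := B) hR (fun k => (W k).2.1 c)
    fun k => (W k).2.2.1 c
  choose C hC0 hC using h
  refine ⟨∑ c, Real.exp (2 * (|τ| * R')) * C c,
    Finset.sum_nonneg fun c _ => mul_nonneg (Real.exp_pos _).le (hC0 c),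
    fun a ha x s hx hs h0 => ?_⟩
  rw [wn, Finset.sum_div]
  refine Finset.sum_le_sum fun c _ => ?_
  have e : ∀ y, (∑ k, s k • W k).1 c y = ∑ k, s k * (W k).1 c y := fun y => by
    simp [Finset.sum_apply]
  simp only [e]
  exact hC c a ha x s _ _ hx hs (h0 c).1 (h0 c).2 (Real.exp_pos _).le
    fun y => ⟨(Real.exp_pos _).le, weight ha hε hx y⟩

end Vale.Agent.P136
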