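import Vale.Agent.P136.Stmts

/-!
# P136: the commutator step of the main weighted estimate
-/

open MeasureTheory Set Metric
open scoped ContDiff Topology

noncomputable section
namespace Vale.Agent.P136

namespace MI

instance haar : (volume : Measure X6).IsAddHaarMeasure := Measure.prod.instIsAddHaarMeasure _ _

/-- `f` is integrable with integral `r`. -/
def Has (f : X6 → ℝ) (r : ℝ) : Prop := Integrable f ∧ ∫ p, f p = r

variable {f g h φ : X6 → ℝ} {r s : ℝ}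

lemma has (hf : Tst f) : Has f (∫ p, f p) := ⟨hf.integrable, rfl⟩

lemma has2 (hf : Tst f) (hg : Tst g) : Has (fun p => f p * g p) (∫ p, f p * g p) :=
  has (hf.mul_right hg.sm)

lemma hasF (hf : Tst f) : Has (fun p => F2 p * f p ^ 2) (∫ p, F2 p * f p ^ 2) :=
  ⟨hf.sq.integrable_cmul (by unfold F2; fun_prop), rfl⟩

lemma Has.add (hf : Has f r) (hg : Has g s) : Has (fun p => f p + g p) (r + s) :=
  ⟨hf.1.add hg.1, by rw [integral_add hf.1 hg.1, hf.2, hg.2]⟩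

lemma Has.sub (hf : Has f r) (hg : Has g s) : Has (fun p => f p - g p) (r - s) :=
  ⟨hf.1.sub hg.1, by rw [integral_sub hf.1 hg.1, hf.2, hg.2]⟩

lemma Has.cmul (c : ℝ) (hf : Has f r) : Has (fun p => c * f p) (c * r) :=
  ⟨hf.1.const_mul c, by rw [integral_const_mul, hf.2]⟩

lemma Has.sum {ι : Type} [Fintype ι] {F : ι → X6 → ℝ} {r : ι → ℝ} (hF : ∀ i, Has (F i) (r i)) :
    Has (fun p => ∑ i, F i p) (∑ i, r i) :=
  ⟨integrable_finsetSum _ fun i _ => (hF i).1, by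
    rw [integral_finsetSum _ fun i _ => (hF i).1]
    exact Finset.sum_congr rfl fun i _ => (hF i).2⟩

lemma Has.le (hf : Has f r) (hg : Has g s) (h : ∀ p, f p ≤ g p) : r ≤ s :=
  hf.2 ▸ hg.2 ▸ integral_mono hf.1 hg.1 h

lemma Has.eq (hf : Has f r) (hg : Has g s) (h : ∀ p, f p = g p) : r = s :=
  le_antisymm (hf.le hg fun p => (h p).le) (hg.le hf fun p => (h p).ge)

/-- Sum of squares of the adjoint operators. -/
def dd (φ : X6 → ℝ) (w : Fin 3 → X6) (f : X6 → ℝ) : X6 → ℝ :=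
  fun p => ∑ j, Dm φ (w j) (Dm φ (w j) f) p

/-- The conjugated Laplacian. -/
def LL (φ : X6 → ℝ) (w : Fin 3 → X6) (f : X6 → ℝ) : X6 → ℝ :=
  fun p => ∑ j, Dp φ (w j) (Dp φ (w j) f) p

/-- The first-order commutator density. -/
def pert (φ : X6 → ℝ) (v : X6) (w : Fin 3 → X6) (f g : X6 → ℝ) : X6 → ℝ := fun p =>
  ∑ j, (4 * D v (D (w j) φ) p * Dm φ (w j) f p * g p - 2 * D (w j) (D v (D (w j) φ)) p * f p * g p)

lemma tst_dd (hφ : Sm φ) (hf : Tst f) (w : Fin 3 → X6) : Tst (dd φ w f) :=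
  Tst.sum _ fun j _ => Tst.Dm hφ (Tst.Dm hφ hf _) _

lemma tst_LL (hφ : Sm φ) (hf : Tst f) (w : Fin 3 → X6) : Tst (LL φ w f) :=
  Tst.sum _ fun j _ => Tst.Dp hφ (Tst.Dp hφ hf _) _

lemma tst_pert1 (hφ : Sm φ) (hf : Tst f) (hg : Tst g) (v w : X6) : Tst fun p =>
    4 * D v (D w φ) p * Dm φ w f p * g p - 2 * D w (D v (D w φ)) p * f p * g p :=
  (Tst.mul_left (((Sm.const _).mul ((hφ.D w).D v)).mul (hφ.Dm hf.sm w)) hg).sub
    (Tst.mul_left (((Sm.const _).mul (((hφ.D w).D v).D w)).mul hf.sm) hg)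

lemma tst_pert (hφ : Sm φ) (hf : Tst f) (hg : Tst g) (v : X6) (w : Fin 3 → X6) :
    Tst (pert φ v w f g) := Tst.sum _ fun j _ => tst_pert1 hφ hf hg v (w j)

lemma c1 (hφ : Sm φ) (hf : Tst f) (hg : Tst g) (v : X6) (w : Fin 3 → X6) :
    ∫ p, dd φ w f p * Dm φ v g p = (∫ p, Dp φ v f p * LL φ w g p) + ∫ p, pert φ v w f g p := by
  rw [(has2 (tst_dd hφ hf w) (Tst.Dm hφ hg v)).eq
      (Has.sum fun j => has2 (Tst.Dm hφ (Tst.Dm hφ hf (w j)) (w j)) (Tst.Dm hφ hg v))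
      fun p => Finset.sum_mul ..,
    (has2 (Tst.Dp hφ hf v) (tst_LL hφ hg w)).eq
      (Has.sum fun j => has2 (Tst.Dp hφ hf v) (Tst.Dp hφ (Tst.Dp hφ hg (w j)) (w j)))
      fun p => Finset.mul_sum ..,
    (has (tst_pert hφ hf hg v w)).eq (Has.sum fun j => has (tst_pert1 hφ hf hg v (w j)))
      fun p => rfl, ← Finset.sum_add_distrib]
  exact Finset.sum_congr rfl fun j _ => comm1 hφ hf hg v (w j)

lemma c2 (hφ : Sm φ) (hf : Tst f) (hg : Tst g) (v w : Fin 3 → X6) :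
    ∫ p, dd φ w f p * dd φ v g p = (∫ p, LL φ v f p * LL φ w g p) + ∑ j, ∑ i,
      ∫ p, commDens φ (v i) (w j) p (f p) (g p) (Dm φ (w j) f p) (Dm φ (v i) g p) := by
  rw [(has2 (tst_dd hφ hf w) (tst_dd hφ hg v)).eq
      (Has.sum fun j => Has.sum fun i => has2 (Tst.Dm hφ (Tst.Dm hφ hf (w j)) (w j))
        (Tst.Dm hφ (Tst.Dm hφ hg (v i)) (v i))) fun p => Finset.sum_mul_sum ..,
    (has2 (tst_LL hφ hf v) (tst_LL hφ hg w)).eq
      (Has.sum fun j => Has.sum fun i => has2 (Tst.Dp hφ (Tst.Dp hφ hf (v i)) (v i))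
        (Tst.Dp hφ (Tst.Dp hφ hg (w j)) (w j)))
      fun p => (Finset.sum_mul_sum ..).trans Finset.sum_comm, ← Finset.sum_add_distrib]
  refine Finset.sum_congr rfl fun j _ => ?_
  rw [← Finset.sum_add_distrib]
  exact Finset.sum_congr rfl fun i _ => comm2 hφ hf hg (v i) (w j)

lemma LL_mul {m : X6 → ℝ} (hφ : Sm φ) (hm : Sm m) (hf : Sm f) (w : Fin 3 → X6) (p : X6) :
    LL φ w (fun p => m p * f p) p = m p * LL φ w f p +
      2 * (∑ j, D (w j) m p * Dp φ (w j) f p) + (∑ j, D (w j) (D (w j) m) p) * f p := by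
  simp only [LL, Finset.mul_sum, Finset.sum_mul, ← Finset.sum_add_distrib]
  refine Finset.sum_congr rfl fun j _ => ?_
  rw [Dp_mul hm hf, Dp_add (hm.mul (hφ.Dp hf _)) ((hm.D _).mul hf), Dp_mul hm (hφ.Dp hf _),
    Dp_mul (hm.D _) hf]
  ring

lemma sm_snd {b : E3 → ℝ} (hb : Sm b) : Sm fun p : X6 => b p.2 := ContDiff.comp hb contDiff_snd

lemma D_ex {b : E3 → ℝ} (hb : Sm b) (j : Fin 3) : D (ex j) (fun p : X6 => b p.2) = fun _ => 0 := by
  funext p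
  have := ((hb.dAt p.2).hasFDerivAt.comp p hasFDerivAt_snd).fderiv
  exact (congrArg (fun L : X6 →L[ℝ] ℝ => L (ex j)) this).trans (by simp [ex])

lemma Dp_zero {p : X6} (hp : p ∉ tsupport f) (v : X6) : Dp φ v f p = 0 :=
  image_eq_zero_of_notMem_tsupport fun h => hp (tsupport_Dp φ f v h)

lemma Dm_zero {p : X6} (hp : p ∉ tsupport f) (v : X6) : Dm φ v f p = 0 :=
  image_eq_zero_of_notMem_tsupport fun h => hp (tsupport_Dm φ f v h)

lemma bdd {κ : Type} [Fintype κ] (F : κ → X6 → ℝ) (hF : ∀ k, Sm (F k)) (R : ℝ) :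
    ∃ M : ℝ, 0 ≤ M ∧ ∀ k p, ‖p.1‖ ≤ R → ‖p.2‖ ≤ R → |F k p| ≤ M := by
  obtain ⟨M, hM⟩ := (isCompact_closedBall (0 : X6) R).exists_bound_of_continuousOn
    (f := fun p k => F k p) (continuous_pi fun k => (hF k).cont).continuousOn
  refine ⟨|M|, abs_nonneg M, fun k p h1 h2 => ?_⟩
  exact ((norm_le_pi_norm (fun k => F k p) k).trans
    (hM p (mem_closedBall_zero_iff.2 (max_le h1 h2)))).trans (le_abs_self M)

/-- The part of the mixed second derivative of the weight proportional to `a ε`. -/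
def psi (i j : Fin 3) (p : X6) : ℝ :=
  -(if i = j then 1 else 0) * ‖p.1‖ ^ 2 + 2 * (p.2 i - p.1 i) * p.1 j

lemma sm_psi (i j : Fin 3) : Sm (psi i j) :=
  ((Sm.const _).mul (ContDiff.norm_sq ℝ contDiff_fst)).add (by unfold Sm; fun_prop)

lemma pert_eq (h0 : S_phi) (a ε τ : ℝ) (i : Fin 3) (g q h : X6 → ℝ) (p : X6) :
    pert (phi a ε τ) (ey i) ex g h p + pert (phi a ε τ) (ey i) ey q h p =
      (4 * a * (1 + ε * ‖p.1‖ ^ 2) * (Dm (phi a ε τ) (ey i) q p - Dm (phi a ε τ) (ex i) g p) +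
        8 * a * ε * ((p.2 i - p.1 i) * ∑ j, p.1 j * Dm (phi a ε τ) (ex j) g p)) * h p -
      2 * a * ε * (∑ j, D (ex j) (psi i j) p) * g p * h p := by
  have e1 : ∀ j, D (ex j) (D (ey i) (D (ex j) (phi a ε τ))) p = a * ε * D (ex j) (psi i j) p := by
    intro j
    have : D (ey i) (D (ex j) (phi a ε τ)) =
        fun p => -(if i = j then a else 0) + a * ε * psi i j p := by
      funext p
      rw [((h0 a ε τ).2 p i j).2.2.2.1, psi]
      split_ifs <;> ring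
    rw [this, D_add_at (differentiableAt_const _) (((sm_psi i j).cmul _).dAt p), D_const,
      D_const_mul_at ((sm_psi i j).dAt p), zero_add]
  have e2 : ∀ j, D (ey j) (D (ey i) (D (ey j) (phi a ε τ))) p = 0 := by
    intro j
    have hn : Sm fun p : X6 => ‖p.1‖ ^ 2 := ContDiff.norm_sq ℝ contDiff_fst
    have : D (ey i) (D (ey j) (phi a ε τ)) =
        fun p => (if i = j then a else 0) + (if i = j then a * ε else 0) * ‖p.1‖ ^ 2 := by
      funext p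
      rw [((h0 a ε τ).2 p i j).2.2.1]
      split_ifs <;> ring
    rw [this, D_add_at (differentiableAt_const _) ((hn.cmul _).dAt p), D_const,
      D_const_mul_at (hn.dAt p), ((h0 a ε τ).2 p j j).2.2.2.2.2.2.2.1, mul_zero, zero_add]
  simp only [pert, e1, e2, fun j => ((h0 a ε τ).2 p i j).2.2.1,
    fun j => ((h0 a ε τ).2 p i j).2.2.2.1, Fin.sum_univ_three]
  fin_cases i <;> simp <;> ring

lemma young {δ B t : ℝ} (hδ : 0 < δ) (ht : |t| ≤ B) (u v : ℝ) :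
    -(δ * u ^ 2 + B ^ 2 / δ * v ^ 2) ≤ 2 * u * (t * v) := by
  have h1 : t ^ 2 ≤ B ^ 2 := sq_le_sq' (abs_le.1 ht).1 (abs_le.1 ht).2
  have h2 : t ^ 2 / δ * v ^ 2 ≤ B ^ 2 / δ * v ^ 2 := by gcongr
  have h3 : δ * u ^ 2 + t ^ 2 / δ * v ^ 2 + 2 * u * (t * v) = δ * (u + t * v / δ) ^ 2 := by
    field_simp
    ring
  nlinarith [mul_nonneg hδ.le (sq_nonneg (u + t * v / δ))]

lemma pt {δ M K : ℝ} (hδ : 0 < δ) (hM : 0 ≤ M) : ∃ C : ℝ, 0 ≤ C ∧
    ∀ A L W q g V S β β2 η k a ε AA AA' VV FZ : ℝ, |β| ≤ M → |β2| ≤ M → |η| ≤ M → |k| ≤ K →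
      W ^ 2 ≤ M * AA' → 0 ≤ AA' → A ^ 2 ≤ AA → V ^ 2 ≤ VV → S ^ 2 ≤ FZ → 1 ≤ a → 0 < ε → ε ≤ 1 →
      -(δ * L ^ 2 + δ * (a * VV) + δ * (a * ε * FZ) + C * (AA + AA' + a * q ^ 2 + a * g ^ 2)) ≤
        2 * (A * (β * L + 2 * W + β2 * q)) +
          2 * ((4 * a * k * V + 8 * a * ε * S) * (β * q) - 2 * a * ε * η * g * (β * q)) := by
  refine ⟨M ^ 2 / δ + (4 * K * M) ^ 2 / δ + (8 * M) ^ 2 / δ + (2 * M * M) ^ 2 + M ^ 2 + 4 * M + 2,
    by positivity, ?_⟩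
  intro A L W q g V S β β2 η k a ε AA AA' VV FZ h1 h2 h3 h4 h5 h5' h6 h7 h8 ha hε hε1
  have ha0 : 0 ≤ a := by linarith
  have y1 := young hδ h1 L A
  have y2 : -(A ^ 2 + 4 * W ^ 2) ≤ 4 * A * W := by nlinarith [sq_nonneg (A + 2 * W)]
  have y3 := young one_pos h2 A q
  have y4 := mul_le_mul_of_nonneg_left (young (t := 4 * k * β) (B := 4 * K * M) hδ (by
    rw [abs_mul, abs_mul, abs_of_pos four_pos]
    exact mul_le_mul (by linarith) h1 (abs_nonneg _) (by linarith [abs_nonneg k])) V q) ha0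
  have y5 := mul_le_mul_of_nonneg_left (young (t := 8 * β) (B := 8 * M) hδ (by
    rw [abs_mul, abs_of_pos (by norm_num : (0 : ℝ) < 8)]
    linarith) S q) (mul_nonneg ha0 hε.le)
  have y6 := mul_le_mul_of_nonneg_left (young (t := -2 * η * β) (B := 2 * M * M) one_pos (by
    rw [abs_mul, abs_mul, abs_neg, abs_two]
    exact mul_le_mul (by linarith) h1 (abs_nonneg _) (by linarith)) g q) (mul_nonneg ha0 hε.le)
  rw [div_one] at y3 y6
  have p1 : 0 ≤ M ^ 2 / δ := by positivity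
  have p2 : 0 ≤ (4 * K * M) ^ 2 / δ := by positivity
  have p3 : 0 ≤ (8 * M) ^ 2 / δ := by positivity
  have p4 : 0 ≤ (2 * M * M) ^ 2 := by positivity
  have p5 : 0 ≤ M ^ 2 := by positivity
  generalize M ^ 2 / δ = u1 at *
  generalize (4 * K * M) ^ 2 / δ = u2 at *
  generalize (8 * M) ^ 2 / δ = u3 at *
  generalize (2 * M * M) ^ 2 = u4 at *
  generalize M ^ 2 = u5 at *
  have q1 : a * ε * q ^ 2 ≤ a * q ^ 2 := by nlinarith [mul_nonneg ha0 (sq_nonneg q)]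
  have q2 : a * ε * g ^ 2 ≤ a * g ^ 2 := by nlinarith [mul_nonneg ha0 (sq_nonneg g)]
  have q3 : q ^ 2 ≤ a * q ^ 2 := by nlinarith [sq_nonneg q]
  have q4 : 0 ≤ AA := (sq_nonneg A).trans h6
  have q5 := mul_nonneg ha0 (sq_nonneg q)
  have q6 := mul_nonneg ha0 (sq_nonneg g)
  have s1 := add_nonneg (add_nonneg h5' q5) q6
  have s2 := add_nonneg (add_nonneg q4 h5') q6
  have s3 := add_nonneg (add_nonneg q4 q5) q6
  linarith [mul_le_mul_of_nonneg_left h6 p1, mul_le_mul_of_nonneg_left q1 p3,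
    mul_le_mul_of_nonneg_left q1 p4, mul_le_mul_of_nonneg_left q3 p5,
    mul_le_mul_of_nonneg_left h7 (mul_nonneg hδ.le ha0),
    mul_le_mul_of_nonneg_left h8 (mul_nonneg hδ.le (mul_nonneg ha0 hε.le)),
    mul_nonneg p1 s1, mul_nonneg p2 s2, mul_nonneg p3 s2, mul_nonneg p4 s2, mul_nonneg p5 s2,
    mul_nonneg hM s3]

lemma out {R : ℝ} (hf : T6 R f) {p : X6} (hp : ¬(‖p.1‖ ≤ R ∧ ‖p.2‖ ≤ R)) : p ∉ tsupport f :=
  fun h => hp (hf.2 p h)

lemma F2_nonneg (p : X6) : 0 ≤ F2 p := sq_nonneg _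

lemma term (h0 : S_phi) {κ : Type} [Fintype κ] (β : κ → E3 → ℝ) (hβ : ∀ k, Sm (β k)) (R : ℝ)
    {δ : ℝ} (hδ : 0 < δ) : ∃ C : ℝ, 0 ≤ C ∧ ∀ a ε τ : ℝ, 1 ≤ a → 0 < ε → ε ≤ 1 →
    ∀ (k : κ) (i : Fin 3) (φ g q q' : X6 → ℝ), φ = phi a ε τ → T6 R g → T6 R q → T6 R q' →
      -(δ * (∫ p, LL φ ey q' p * LL φ ey q' p) +
          δ * (a * ∑ j, ∫ p, (Dm φ (ey j) q p - Dm φ (ex j) g p) ^ 2) +
          δ * (a * ε * (R ^ 2 * ∑ j, ∫ p, F2 p * Dm φ (ex j) g p ^ 2)) +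
          C * ((∑ j, ∫ p, Dp φ (ey j) q p ^ 2) + (∑ j, ∫ p, Dp φ (ey j) q' p ^ 2) +
            a * (∫ p, q' p ^ 2) + a * ∫ p, g p ^ 2)) ≤
        2 * (∫ p, Dp φ (ey i) q p * LL φ ey (fun p => β k p.2 * q' p) p) +
          2 * ((∫ p, pert φ (ey i) ex g (fun p => β k p.2 * q' p) p) +
            ∫ p, pert φ (ey i) ey q (fun p => β k p.2 * q' p) p) := by
  obtain ⟨M1, m1, b1⟩ := bdd (fun k p => β k p.2) (fun k => sm_snd (hβ k)) R
  obtain ⟨M2, m2, b2⟩ := bdd (fun k p => ∑ j, D (ey j) (D (ey j) fun p => β k p.2) p)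
    (fun k => Sm.sum fun j _ => ((sm_snd (hβ k)).D _).D _) R
  obtain ⟨M3, m3, b3⟩ := bdd (fun i p => ∑ j, D (ex j) (psi i j) p)
    (fun i => Sm.sum fun j _ => (sm_psi i j).D _) R
  obtain ⟨M4, m4, b4⟩ := bdd (fun k p => ∑ j, D (ey j) (fun p => β k p.2) p ^ 2)
    (fun k => Sm.sum fun j _ => ((sm_snd (hβ k)).D _).pow 2) R
  obtain ⟨C, hC, H⟩ := pt (K := 1 + R ^ 2) (M := M1 + M2 + M3 + M4) hδ (by positivity)
  refine ⟨C, hC, fun a ε τ ha hε hε1 k i φ g q q' e hg hq hq' => ?_⟩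
  have hφ : Sm φ := e ▸ (h0 a ε τ).1
  have tb := Tst.mul_left (sm_snd (hβ k)) hq'.1
  rw [neg_eq_neg_one_mul]
  refine Has.le (Has.cmul (-1) (((((has2 (tst_LL hφ hq'.1 ey) (tst_LL hφ hq'.1 ey)).cmul δ).add
    (((Has.sum fun j => has ((Tst.Dm hφ hq.1 (ey j)).sub (Tst.Dm hφ hg.1 (ex j))).sq).cmul a).cmul
      δ)).add ((((Has.sum fun j => hasF (Tst.Dm hφ hg.1 (ex j))).cmul _).cmul _).cmul δ)).add
    (((((Has.sum fun j => has (Tst.Dp hφ hq.1 (ey j)).sq).add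
      (Has.sum fun j => has (Tst.Dp hφ hq'.1 (ey j)).sq)).add ((has hq'.1.sq).cmul a)).add
      ((has hg.1.sq).cmul a)).cmul C)))
    (((has2 (Tst.Dp hφ hq.1 (ey i)) (tst_LL hφ tb ey)).cmul 2).add
      (((has (tst_pert hφ hg.1 tb (ey i) ex)).add (has (tst_pert hφ hq.1 tb (ey i) ey))).cmul 2))
    fun p => ?_
  have n1 : ∀ u : Fin 3 → ℝ, 0 ≤ ∑ j, u j ^ 2 := fun u => Finset.sum_nonneg fun j _ => sq_nonneg _
  have n2 : ∀ u : Fin 3 → ℝ, u i ^ 2 ≤ ∑ j, u j ^ 2 := fun u =>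
    Finset.single_le_sum (f := fun j => u j ^ 2) (fun j _ => sq_nonneg _) (Finset.mem_univ i)
  rw [LL_mul hφ (sm_snd (hβ k)) hq'.1.sm, e, pert_eq h0, ← e, neg_one_mul, ← pow_two,
    ← Finset.mul_sum]
  by_cases hp : ‖p.1‖ ≤ R ∧ ‖p.2‖ ≤ R
  · have x1 : ‖p.1‖ ^ 2 ≤ R ^ 2 := pow_le_pow_left₀ (norm_nonneg _) hp.1 2
    refine H _ _ _ _ _ _ _ _ _ _ _ _ _ _ _ _ _ ((b1 k p hp.1 hp.2).trans (by linarith))
      ((b2 k p hp.1 hp.2).trans (by linarith)) ((b3 i p hp.1 hp.2).trans (by linarith)) ?_ ?_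
      (n1 _) (n2 fun j => Dp φ (ey j) q p) (n2 fun j => Dm φ (ey j) q p - Dm φ (ex j) g p) ?_
      ha hε hε1
    · rw [abs_of_nonneg (by positivity)]
      nlinarith [sq_nonneg ‖p.1‖]
    · exact (Finset.sum_mul_sq_le_sq_mul_sq _ _ _).trans (mul_le_mul_of_nonneg_right
        ((le_abs_self _).trans ((b4 k p hp.1 hp.2).trans (by linarith))) (n1 _))
    · have x2 : (p.2 i - p.1 i) ^ 2 ≤ F2 p := by
        rw [F2, EuclideanSpace.real_norm_sq_eq]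
        exact n2 fun j => (p.2 - p.1) j
      have x3 := Finset.sum_mul_sq_le_sq_mul_sq Finset.univ (fun j => p.1 j)
        fun j => Dm φ (ex j) g p
      rw [← EuclideanSpace.real_norm_sq_eq] at x3
      rw [mul_pow, mul_left_comm]
      exact mul_le_mul x2 (x3.trans (mul_le_mul_of_nonneg_right x1 (n1 _))) (sq_nonneg _)
        (F2_nonneg p)
  · have := F2_nonneg p
    rw [Dp_zero (out hq hp), image_eq_zero_of_notMem_tsupport (out hq' hp)]
    simp only [zero_mul, mul_zero, sub_zero, add_zero, neg_nonpos]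
    positivity

lemma formb (h0 : S_phi) (h1 : S_pw) (R : ℝ) : ∃ C ε₀ : ℝ, 0 ≤ C ∧ 0 < ε₀ ∧
    ∀ a ε τ : ℝ, 1 ≤ a → 0 < ε → ε ≤ ε₀ → ∀ φ g q : X6 → ℝ, φ = phi a ε τ → T6 R g → T6 R q →
      (∫ p, L1 φ g p ^ 2) + 2 * (∫ p, LL φ ey g p * LL φ ex q p) +
        (∫ p, LL φ ey q p * LL φ ey q p) +
        (31 / 4 * a * (∑ j, ∫ p, (Dm φ (ey j) q p - Dm φ (ex j) g p) ^ 2) +
          3 * (a * ε * ∑ j, ∫ p, F2 p * Dm φ (ex j) g p ^ 2) -
          49 / 2 * a ^ 2 * (∫ p, (g p + q p) ^ 2) -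
          C * (a * (∫ p, g p ^ 2) + a ^ 2 * (∫ p, F2 p * g p ^ 2) +
            ∑ j, ∫ p, Dm φ (ex j) g p ^ 2)) ≤
      (∫ p, dd φ ex g p * dd φ ex g p) + 2 * (∫ p, dd φ ex g p * dd φ ey q p) +
        ∫ p, dd φ ey q p * dd φ ey q p := by
  obtain ⟨C, ε₀, hC, hε₀, H⟩ := h1 R
  refine ⟨C, ε₀, hC, hε₀, fun a ε τ ha hε hε1 φ g q e hg hq => ?_⟩
  have hφ : Sm φ := e ▸ (h0 a ε τ).1
  have k := Has.le (((((Has.sum fun j => has ((Tst.Dm hφ hq.1 (ey j)).sub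
      (Tst.Dm hφ hg.1 (ex j))).sq).cmul (31 / 4 * a)).add
      (((Has.sum fun j => hasF (Tst.Dm hφ hg.1 (ex j))).cmul (a * ε)).cmul 3)).sub
      ((has (hg.1.add hq.1).sq).cmul (49 / 2 * a ^ 2))).sub
      (((((has hg.1.sq).cmul a).add ((hasF hg.1).cmul (a ^ 2))).add
        (Has.sum fun j => has (Tst.Dm hφ hg.1 (ex j)).sq)).cmul C))
    (((Has.sum fun j => Has.sum fun l => has (tst_commDens hφ hg.1 hg.1 (ex l) (ex j))).add
      ((Has.sum fun j => Has.sum fun i => has (tst_commDens hφ hg.1 hq.1 (ey i) (ex j))).cmul 2)).add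
      (Has.sum fun i => Has.sum fun k => has (tst_commDens hφ hq.1 hq.1 (ey k) (ey i)))) fun p => by
    by_cases hp : ‖p.1‖ ≤ R ∧ ‖p.2‖ ≤ R
    · have := H a ε τ ha hε hε1 p (g p) (q p) (fun j => Dm φ (ex j) g p) (fun j => Dm φ (ey j) q p)
        hp.1 hp.2
      rw [← e, formDens, Finset.sum_comm (f := fun i j => commDens φ (ey i) (ex j) p _ _ _ _)] at this
      rw [← Finset.mul_sum]
      linarith
    · simp [Dm_zero (out hq hp), Dm_zero (out hg hp), image_eq_zero_of_notMem_tsupport (out hq hp),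
        image_eq_zero_of_notMem_tsupport (out hg hp), commDens]
  have e1 : ∫ p, L1 φ g p ^ 2 = ∫ p, LL φ ex g p * LL φ ex g p := by
    simp only [pow_two]
    rfl
  rw [c2 hφ hg.1 hg.1, c2 hφ hg.1 hq.1, c2 hφ hq.1 hq.1, e1]
  linarith

variable {ι : Type} [Fintype ι]

lemma expand (hφ : Sm φ) {b : Coef ι} (hb : SmC b) {q : ι → X6 → ℝ} (hg : Tst g)
    (hq : ∀ c, Tst (q c)) (c : ι) :
    (∫ p, dd φ ex g p * dd φ ex g p) + 2 * (∫ p, dd φ ex g p * dd φ ey (q c) p) +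
      (∫ p, dd φ ey (q c) p * dd φ ey (q c) p) +
      (2 * (∑ i, ∑ c', ∫ p, Dp φ (ey i) g p * LL φ ex (fun p => b i c' c p.2 * q c' p) p) +
        ∑ i, ∑ c', (2 * (∫ p, Dp φ (ey i) (q c) p * LL φ ey (fun p => b i c' c p.2 * q c' p) p) +
          2 * ((∫ p, pert φ (ey i) ex g (fun p => b i c' c p.2 * q c' p) p) +
            ∫ p, pert φ (ey i) ey (q c) (fun p => b i c' c p.2 * q c' p) p))) ≤
      ∫ p, (d1 φ g p + d2 φ b q c p) ^ 2 := by
  have tb := fun i c' => Tst.mul_left (sm_snd (hb i c' c)) (hq c')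
  have tx := tst_dd hφ hg ex
  have ty := tst_dd hφ (hq c) ey
  have k := Has.le ((((has2 tx tx).add ((has2 tx ty).cmul 2)).add (has2 ty ty)).add
      (Has.sum fun i => Has.sum fun c' => ((has2 tx (Tst.Dm hφ (tb i c') (ey i))).add
        (has2 ty (Tst.Dm hφ (tb i c') (ey i)))).cmul 2))
    (has (tx.add (ty.add (Tst.sum Finset.univ fun i _ => Tst.sum Finset.univ fun c' _ =>
      Tst.Dm hφ (tb i c') (ey i)))).sq) fun p => by
    simp only [← add_mul, ← Finset.mul_sum]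
    nlinarith [sq_nonneg (∑ i, ∑ c', Dm φ (ey i) (fun p => b i c' c p.2 * q c' p) p)]
  refine le_trans (le_of_eq ?_) k
  simp only [c1 hφ hg (tb _ _), c1 hφ (hq c) (tb _ _), Finset.mul_sum, ← Finset.sum_add_distrib]
  refine congrArg _ (Finset.sum_congr rfl fun i _ => Finset.sum_congr rfl fun c' _ => ?_)
  ring

lemma cross (hφ : Sm φ) {b : Coef ι} (hb : SmC b) {g q : ι → X6 → ℝ} (hg : ∀ c, Tst (g c))
    (hq : ∀ c, Tst (q c)) (hL : ∀ p, (∃ c, p ∈ tsupport (q c)) → ∀ c, L2 φ b g c p = 0) :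
    (∑ c, ∫ p, LL φ ey (g c) p * LL φ ex (q c) p) + ∑ c, ∑ i, ∑ c',
      ∫ p, Dp φ (ey i) (g c) p * LL φ ex (fun p => b i c' c p.2 * q c' p) p = 0 := by
  refine Has.eq ((Has.sum fun c => has2 (tst_LL hφ (hg c) ey) (tst_LL hφ (hq c) ex)).add
    (Has.sum fun c => Has.sum fun i => Has.sum fun c' => has2 (Tst.Dp hφ (hg c) (ey i))
      (tst_LL hφ (Tst.mul_left (sm_snd (hb i c' c)) (hq c')) ex)))
    (g := fun _ => 0) ⟨integrable_zero _ _ _, integral_zero _ _⟩ fun p => ?_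
  have e : ∀ i c' c, LL φ ex (fun p => b i c' c p.2 * q c' p) p = b i c' c p.2 * LL φ ex (q c') p := by
    intro i c' c
    rw [LL_mul hφ (sm_snd (hb i c' c)) (hq c').sm]
    simp [D_ex (hb i c' c), D_const]
  have e2 : (∑ c, LL φ ey (g c) p * LL φ ex (q c) p) + ∑ c, ∑ i, ∑ c',
      Dp φ (ey i) (g c) p * LL φ ex (fun p => b i c' c p.2 * q c' p) p =
      ∑ c, L2 φ b g c p * LL φ ex (q c) p := by
    simp only [e, L2, add_mul, Finset.sum_add_distrib]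
    refine congrArg₂ _ rfl ?_
    rw [Finset.sum_comm, Finset.sum_congr rfl fun i _ => Finset.sum_comm, Finset.sum_comm]
    simp only [Finset.sum_mul]
    refine Finset.sum_congr rfl fun c _ => Finset.sum_congr rfl fun i _ =>
      Finset.sum_congr rfl fun c' _ => ?_
    ring
  rw [e2]
  refine Finset.sum_eq_zero fun c _ => ?_
  by_cases hp : p ∈ tsupport (q c)
  · rw [hL p ⟨c, hp⟩, zero_mul]
  · refine mul_eq_zero_of_right _ (Finset.sum_eq_zero fun j _ => Dp_zero (fun h => hp ?_) _)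
    exact tsupport_Dp φ _ _ h

lemma Dp_le (h0 : S_phi) {a ε τ : ℝ} (ha : 0 ≤ a) (hε : 0 ≤ ε) {q : X6 → ℝ} (hg : Tst g)
    (hq : Tst q) (j : Fin 3) : ∫ p, Dp (phi a ε τ) (ey j) q p ^ 2 ≤
      2 * (∫ p, (Dm (phi a ε τ) (ey j) q p - Dm (phi a ε τ) (ex j) g p) ^ 2) +
        2 * ∫ p, Dm (phi a ε τ) (ex j) g p ^ 2 := by
  have hφ := (h0 a ε τ).1
  have k1 := sq_Dm (μ := volume) hφ hq (ey j)
  have k2 : 0 ≤ ∫ p, D (ey j) (D (ey j) (phi a ε τ)) p * q p ^ 2 := integral_nonneg fun p => by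
    simp only [((h0 a ε τ).2 p j j).2.2.1, if_true, Pi.zero_apply]
    positivity
  have k3 := Has.le (has (Tst.Dm hφ hq (ey j)).sq)
    (((has ((Tst.Dm hφ hq (ey j)).sub (Tst.Dm hφ hg (ex j))).sq).cmul 2).add
      ((has (Tst.Dm hφ hg (ex j)).sq).cmul 2)) fun p => by
    nlinarith [sq_nonneg (Dm (phi a ε τ) (ey j) q p - 2 * Dm (phi a ε τ) (ex j) g p)]
  linarith

end MI

open MI in
theorem s_MI (h0 : S_phi) (h1 : S_pw) : S_MI := by
  intro ι _ b R hb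
  have hn : (0 : ℝ) ≤ Fintype.card ι := Nat.cast_nonneg _
  obtain ⟨δ, hδ, d1, d2⟩ : ∃ δ : ℝ, 0 < δ ∧ 3 * Fintype.card ι * δ ≤ 1 / 8 ∧
      3 * Fintype.card ι * δ * R ^ 2 ≤ 1 := by
    have h2 : (0 : ℝ) < 24 * (Fintype.card ι + 1) * (R ^ 2 + 1) := by positivity
    refine ⟨1 / (24 * (Fintype.card ι + 1) * (R ^ 2 + 1)), by positivity, ?_, ?_⟩
    · rw [mul_one_div, div_le_iff₀ h2]
      nlinarith [mul_nonneg hn (sq_nonneg R), sq_nonneg R]
    · rw [mul_one_div, div_mul_eq_mul_div, div_le_one h2]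
      nlinarith [mul_nonneg hn (sq_nonneg R), sq_nonneg R]
  obtain ⟨C₁, hC₁, H1⟩ := term h0 (fun k : Fin 3 × ι × ι => b k.1 k.2.1 k.2.2)
    (fun k => hb _ _ _) R hδ
  obtain ⟨C₂, ε₀, hC₂, hε₀, H2⟩ := formb h0 h1 R
  have hC : 0 ≤ 3 * Fintype.card ι * C₁ := by positivity
  refine ⟨C₂ + 4 * (3 * Fintype.card ι * C₁), min ε₀ 1, 1 + 32 * (3 * Fintype.card ι * C₁),
    by positivity, lt_min hε₀ one_pos, fun a ε τ ha hε hε1 g q hg hq hL => ?_⟩
  have ha1 : 1 ≤ a := by linarith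
  have hφ := (h0 a ε τ).1
  have k1 := Finset.sum_le_sum fun c (_ : c ∈ Finset.univ) =>
    expand hφ hb (hg c).1 (fun c => (hq c).1) c
  have k2 := Finset.sum_le_sum fun c (_ : c ∈ Finset.univ) =>
    H2 a ε τ ha1 hε (hε1.trans (min_le_left _ _)) _ _ _ rfl (hg c) (hq c)
  have k3 := cross hφ hb (fun c => (hg c).1) (fun c => (hq c).1) hL
  have k4 := Finset.sum_le_sum fun c (_ : c ∈ Finset.univ) =>
    Finset.sum_le_sum fun i (_ : i ∈ Finset.univ) =>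
      Finset.sum_le_sum fun c' (_ : c' ∈ Finset.univ) =>
        H1 a ε τ ha1 hε (hε1.trans (min_le_right _ _)) (i, c', c) i _ _ _ _ rfl (hg c) (hq c) (hq c')
  have k5 := Finset.sum_le_sum fun c (_ : c ∈ Finset.univ) =>
    Finset.sum_le_sum fun j (_ : j ∈ Finset.univ) =>
      Dp_le (τ := τ) h0 (zero_le_one.trans ha1) hε.le (hg c).1 (hq c).1 j
  have k6 := Finset.sum_le_sum fun c (_ : c ∈ Finset.univ) => Has.le (has (hq c).1.sq)
    (((has ((hg c).1.add (hq c).1).sq).cmul 2).add ((has (hg c).1.sq).cmul 2)) fun p => by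
      nlinarith [sq_nonneg (2 * g c p + q c p)]
  have n1 : 0 ≤ ∑ c, ∫ p, LL (phi a ε τ) ey (q c) p * LL (phi a ε τ) ey (q c) p :=
    Finset.sum_nonneg fun c _ => integral_nonneg fun p => mul_self_nonneg _
  have n2 : 0 ≤ qV (phi a ε τ) g q := Finset.sum_nonneg fun c _ => Finset.sum_nonneg fun j _ =>
    integral_nonneg fun p => sq_nonneg _
  have n3 : 0 ≤ qFZ (phi a ε τ) g := Finset.sum_nonneg fun c _ => Finset.sum_nonneg fun j _ =>
    integral_nonneg fun p => mul_nonneg (F2_nonneg p) (sq_nonneg _)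
  have n4 : 0 ≤ qr g q := Finset.sum_nonneg fun c _ => integral_nonneg fun p => sq_nonneg _
  have n5 : 0 ≤ q0 g := Finset.sum_nonneg fun c _ => integral_nonneg fun p => sq_nonneg _
  have n6 : 0 ≤ q2 g := Finset.sum_nonneg fun c _ =>
    integral_nonneg fun p => mul_nonneg (F2_nonneg p) (sq_nonneg _)
  simp only [Finset.sum_add_distrib, Finset.sum_sub_distrib, Finset.sum_neg_distrib,
    ← Finset.mul_sum, Finset.sum_const, Finset.card_univ, Fintype.card_fin, nsmul_eq_mul,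
    Nat.cast_ofNat] at k1 k2 k4 k5 k6
  unfold qL qV qFZ qr q0 q2 qZ qG at *
  have ha0 : 0 ≤ a := by linarith
  linarith [mul_le_mul_of_nonneg_right d1 n1, mul_le_mul_of_nonneg_right d1 (mul_nonneg ha0 n2),
    mul_le_mul_of_nonneg_right d2 (mul_nonneg (mul_nonneg ha0 hε.le) n3),
    mul_le_mul_of_nonneg_left k5 hC, mul_le_mul_of_nonneg_left k6 (mul_nonneg hC ha0),
    mul_le_mul_of_nonneg_right ha n2, mul_le_mul_of_nonneg_right ha (mul_nonneg ha0 n4),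
    mul_nonneg ha0 n4, mul_nonneg (mul_nonneg hC ha0) n4, mul_nonneg (mul_nonneg hC ha0) n5,
    mul_nonneg (mul_nonneg hC (sq_nonneg a)) n6]

end Vale.Agent.P136
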