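import Vale.Agent.P136.PhiD

/-!
# P136: the pointwise quadratic inequality
-/

noncomputable section
namespace Vale.Agent.P136
namespace Phi

lemma young {X P Q : ℝ} (hP : 0 ≤ P) (hQ : 0 ≤ Q) (h : X ^ 2 ≤ 4 * P * Q) : -(P + Q) ≤ X :=
  (abs_le_of_sq_le_sq' (by nlinarith [sq_nonneg (P - Q)]) (add_nonneg hP hQ)).1

lemma scalar {a ε n F z v c1 c2 c3 c4 c5 g r : ℝ} (ha : 1 ≤ a) (h0 : 0 < ε) (h1 : ε ≤ 1)
    (hn : 0 ≤ n) (hF : 0 ≤ F) (hz : 0 ≤ z) (hv : 0 ≤ v) (en : ε * n ≤ 1 / 1000)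
    (eF : ε * F ≤ 4 / 1000) (k1 : c1 ^ 2 ≤ n * z) (k2 : c2 ^ 2 ≤ F * v) (k3 : c3 ^ 2 ≤ n * F)
    (k4 : c4 ^ 2 ≤ F * z) (k5 : c5 ^ 2 ≤ n * v) :
    31 / 4 * a * v + 3 * (a * ε * F) * z - 49 / 2 * a ^ 2 * r ^ 2 -
      30000 * ((a + a ^ 2 * F) * g ^ 2 + z) ≤
    8 * (a * ε * F * z + 4 * a * ε * c1 * c2 + a * (1 + ε * n) * v) -
      8 * (3 * a ^ 2 * (1 + ε * n) ^ 2 * r ^ 2 +
        2 * (-4 * a ^ 2 * (1 + ε * n) * ε * c3 + 4 * a ^ 2 * ε ^ 2 * n * F) * g * r +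
        (6 * a ^ 2 * (1 + ε * n) * ε * F + a ^ 2 * ε ^ 2 * (3 * F ^ 2 - 8 * F * c3 + 8 * c3 ^ 2)) *
          g ^ 2) -
      8 * a * ε * (-4 * g * c4 + 6 * r * c1 + g * (6 * c2 - 4 * c5)) +
      2 * a * ε * (60 * g ^ 2 + 36 * g * (r - g)) := by
  have a0 : 0 ≤ a := by linarith
  have e2n : ε ^ 2 * n ≤ 1 / 1000 := by nlinarith [mul_nonneg h0.le hn]
  have e2F : ε ^ 2 * F ≤ 4 / 1000 := by nlinarith [mul_nonneg h0.le hF]
  have e2 : ε ^ 2 ≤ 1 := by nlinarith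
  have m0 : 0 ≤ ε * n := mul_nonneg h0.le hn
  have f0 : 0 ≤ ε * F := mul_nonneg h0.le hF
  have l1 : ε ^ 2 * c1 ^ 2 ≤ z / 1000 :=
    calc ε ^ 2 * c1 ^ 2 ≤ ε ^ 2 * (n * z) := by gcongr
      _ = ε ^ 2 * n * z := by ring
      _ ≤ 1 / 1000 * z := by gcongr
      _ = z / 1000 := by ring
  have l2 : ε ^ 2 * c2 ^ 2 ≤ v / 250 :=
    calc ε ^ 2 * c2 ^ 2 ≤ ε ^ 2 * (F * v) := by gcongr
      _ = ε ^ 2 * F * v := by ring
      _ ≤ 4 / 1000 * v := by gcongr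
      _ = v / 250 := by ring
  have l3 : ε ^ 2 * c3 ^ 2 ≤ F / 1000 :=
    calc ε ^ 2 * c3 ^ 2 ≤ ε ^ 2 * (n * F) := by gcongr
      _ = ε ^ 2 * n * F := by ring
      _ ≤ 1 / 1000 * F := by gcongr
      _ = F / 1000 := by ring
  have l3' : (ε * c3) ^ 2 ≤ 1 ^ 2 :=
    calc (ε * c3) ^ 2 = ε ^ 2 * c3 ^ 2 := by ring
      _ ≤ ε ^ 2 * (n * F) := by gcongr
      _ = (ε * n) * (ε * F) := by ring
      _ ≤ (1 / 1000) * (4 / 1000) := by gcongr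
      _ ≤ 1 ^ 2 := by norm_num
  have l4 : ε ^ 2 * c4 ^ 2 ≤ F * z :=
    calc ε ^ 2 * c4 ^ 2 ≤ 1 * (F * z) := by gcongr
      _ = F * z := one_mul _
  have l5 : ε ^ 2 * c5 ^ 2 ≤ v / 1000 :=
    calc ε ^ 2 * c5 ^ 2 ≤ ε ^ 2 * (n * v) := by gcongr
      _ = ε ^ 2 * n * v := by ring
      _ ≤ 1 / 1000 * v := by gcongr
      _ = v / 1000 := by ring
  have kk : (1 + ε * n) ^ 2 ≤ 101 / 100 := by nlinarith
  have t1 : -(v / 16 + 5 * (ε * F * z)) ≤ 32 * ε * c1 * c2 := young (by positivity) (by positivity)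
    (calc (32 * ε * c1 * c2) ^ 2 = 1024 * ε ^ 2 * (c1 ^ 2 * c2 ^ 2) := by ring
      _ ≤ 1024 * ε ^ 2 * ((n * z) * (F * v)) := by gcongr
      _ = 1024 * (ε * n) * (ε * F * z * v) := by ring
      _ ≤ 1024 * (1 / 1000) * (ε * F * z * v) := by gcongr
      _ ≤ 5 / 4 * (ε * F * z * v) := by gcongr; norm_num
      _ = _ := by ring)
  have t2 : -(r ^ 2 / 16 + 68 * (F * g ^ 2)) ≤ 64 * (1 + ε * n) * ε * c3 * g * r :=
    young (by positivity) (by positivity)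
    (calc (64 * (1 + ε * n) * ε * c3 * g * r) ^ 2 =
        4096 * (1 + ε * n) ^ 2 * (ε ^ 2 * c3 ^ 2) * (g ^ 2 * r ^ 2) := by ring
      _ ≤ 4096 * (101 / 100) * (F / 1000) * (g ^ 2 * r ^ 2) := by gcongr
      _ = 4096 * (101 / 100) / 1000 * (F * (g ^ 2 * r ^ 2)) := by ring
      _ ≤ 17 * (F * (g ^ 2 * r ^ 2)) := by gcongr; norm_num
      _ = _ := by ring)
  have t3 : -(r ^ 2 / 16 + 4 * (F * g ^ 2)) ≤ -64 * ε ^ 2 * n * F * g * r :=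
    young (by positivity) (by positivity)
    (calc (-64 * ε ^ 2 * n * F * g * r) ^ 2 =
        4096 * (ε * n) ^ 2 * (ε ^ 2 * F) * (F * (g ^ 2 * r ^ 2)) := by ring
      _ ≤ 4096 * (1 / 1000) ^ 2 * (4 / 1000) * (F * (g ^ 2 * r ^ 2)) := by gcongr
      _ ≤ 1 * (F * (g ^ 2 * r ^ 2)) := by gcongr; norm_num
      _ = _ := by ring)
  have t4 : 8 * (6 * (1 + ε * n) * ε * F + ε ^ 2 * (3 * F ^ 2 - 8 * F * c3 + 8 * c3 ^ 2)) ≤
      248 * F := by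
    have u1 : (1 + ε * n) * (ε * F) ≤ 2 * (1 * F) := by
      gcongr
      linarith
    have u2 : ε ^ 2 * F * F ≤ 1 * F := by
      gcongr
      linarith
    have u3 : -(ε * c3) * (ε * F) ≤ 1 * (1 * F) := by
      gcongr
      linarith [(abs_le_of_sq_le_sq' l3' zero_le_one).1]
    nlinarith
  have t5 : -(16 * (a ^ 2 * F * g ^ 2) + 16 * z) ≤ 32 * a * ε * g * c4 :=
    young (by positivity) (by positivity)
    (calc (32 * a * ε * g * c4) ^ 2 = 1024 * a ^ 2 * g ^ 2 * (ε ^ 2 * c4 ^ 2) := by ring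
      _ ≤ 1024 * a ^ 2 * g ^ 2 * (F * z) := by gcongr
      _ = _ := by ring)
  have t6 : -(a ^ 2 * r ^ 2 / 16 + 10 * z) ≤ -48 * a * ε * r * c1 :=
    young (by positivity) (by positivity)
    (calc (-48 * a * ε * r * c1) ^ 2 = 2304 * (a ^ 2 * r ^ 2) * (ε ^ 2 * c1 ^ 2) := by ring
      _ ≤ 2304 * (a ^ 2 * r ^ 2) * (z / 1000) := by gcongr
      _ = 2304 / 1000 * (a ^ 2 * r ^ 2 * z) := by ring
      _ ≤ 5 / 2 * (a ^ 2 * r ^ 2 * z) :=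
        mul_le_mul_of_nonneg_right (by norm_num) (by positivity)
      _ = _ := by ring)
  have t7 : -(v / 16 + 40 * g ^ 2) ≤ -48 * ε * g * c2 :=
    young (by positivity) (by positivity)
    (calc (-48 * ε * g * c2) ^ 2 = 2304 * g ^ 2 * (ε ^ 2 * c2 ^ 2) := by ring
      _ ≤ 2304 * g ^ 2 * (v / 250) := by gcongr
      _ = 2304 / 250 * (g ^ 2 * v) := by ring
      _ ≤ 10 * (g ^ 2 * v) := by gcongr; norm_num
      _ = _ := by ring)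
  have t8 : -(v / 16 + 5 * g ^ 2) ≤ 32 * ε * g * c5 :=
    young (by positivity) (by positivity)
    (calc (32 * ε * g * c5) ^ 2 = 1024 * g ^ 2 * (ε ^ 2 * c5 ^ 2) := by ring
      _ ≤ 1024 * g ^ 2 * (v / 1000) := by gcongr
      _ = 1024 / 1000 * (g ^ 2 * v) := by ring
      _ ≤ 5 / 4 * (g ^ 2 * v) := mul_le_mul_of_nonneg_right (by norm_num) (by positivity)
      _ = _ := by ring)
  have t9 : -(a ^ 2 * r ^ 2 / 16 + 20736 * g ^ 2) ≤ 72 * a * ε * g * r :=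
    young (by positivity) (by positivity)
    (calc (72 * a * ε * g * r) ^ 2 = 5184 * (a ^ 2 * r ^ 2 * g ^ 2) * ε ^ 2 := by ring
      _ ≤ 5184 * (a ^ 2 * r ^ 2 * g ^ 2) * 1 := by gcongr
      _ = _ := by ring)
  have a2 : 0 ≤ a ^ 2 := sq_nonneg a
  have s1 := mul_le_mul_of_nonneg_left t1 a0
  have s2 := mul_le_mul_of_nonneg_left t2 a2
  have s3 := mul_le_mul_of_nonneg_left t3 a2
  have s4 := mul_le_mul_of_nonneg_left t4 (mul_nonneg a2 (sq_nonneg g))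
  have s7 := mul_le_mul_of_nonneg_left t7 a0
  have s8 := mul_le_mul_of_nonneg_left t8 a0
  have s10 := mul_le_mul_of_nonneg_left kk (mul_nonneg a2 (sq_nonneg r))
  have s11 := mul_le_mul_of_nonneg_right ha (sq_nonneg g)
  have p1 : 0 ≤ a * (ε * n) * v := by positivity
  have p2 : 0 ≤ a * v := by positivity
  have p3 : 0 ≤ a ^ 2 * r ^ 2 := by positivity
  have p4 : 0 ≤ a ^ 2 * F * g ^ 2 := by positivity
  have p5 : 0 ≤ a * ε * g ^ 2 := by positivity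
  have p6 : 0 ≤ g ^ 2 := sq_nonneg g
  linarith

lemma cs (u w : Fin 3 → ℝ) : (∑ i, u i * w i) ^ 2 ≤ (∑ i, u i ^ 2) * ∑ i, w i ^ 2 :=
  Finset.sum_mul_sq_le_sq_mul_sq _ u w

lemma ident (a ε τ : ℝ) (p : X6) (g q : ℝ) (Zx Zy : Fin 3 → ℝ) {n F z v c1 c2 c3 c4 c5 r : ℝ}
    (hn : n = ∑ i, p.1 i ^ 2) (hF : F = ∑ i, (p.2 i - p.1 i) ^ 2) (hz : z = ∑ i, Zx i ^ 2)
    (hv : v = ∑ i, (Zy i - Zx i) ^ 2) (h1 : c1 = ∑ i, p.1 i * Zx i)
    (h2 : c2 = ∑ i, (p.2 i - p.1 i) * (Zy i - Zx i)) (h3 : c3 = ∑ i, p.1 i * (p.2 i - p.1 i))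
    (h4 : c4 = ∑ i, (p.2 i - p.1 i) * Zx i) (h5 : c5 = ∑ i, p.1 i * (Zy i - Zx i))
    (hr : r = g + q) : formDens (phi a ε τ) p g q Zx Zy =
    8 * (a * ε * F * z + 4 * a * ε * c1 * c2 + a * (1 + ε * n) * v) -
      8 * (3 * a ^ 2 * (1 + ε * n) ^ 2 * r ^ 2 +
        2 * (-4 * a ^ 2 * (1 + ε * n) * ε * c3 + 4 * a ^ 2 * ε ^ 2 * n * F) * g * r +
        (6 * a ^ 2 * (1 + ε * n) * ε * F + a ^ 2 * ε ^ 2 * (3 * F ^ 2 - 8 * F * c3 + 8 * c3 ^ 2)) *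
          g ^ 2) -
      8 * a * ε * (-4 * g * c4 + 6 * r * c1 + g * (6 * c2 - 4 * c5)) +
      2 * a * ε * (60 * g ^ 2 + 36 * g * (r - g)) := by
  have e1 : ‖p.1‖ ^ 2 = n := by rw [hn, EuclideanSpace.real_norm_sq_eq]
  have e2 : F2 p = F := by
    rw [hF, F2, EuclideanSpace.real_norm_sq_eq]
    rfl
  have d2' : ∀ v w : X6, D v (D w (phi a ε τ)) p = a * A w v * (1 + ε * n) +
      2 * a * ε * (A w p * B v p) + 2 * a * ε * (A v p * B w p) + a * ε * B w v * F :=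
    fun v w => by rw [Phi.d2, ← e1, ← e2]
  simp only [formDens, commDens, d4, d3', d2', A_ex, A_ey, B_ex, B_ey, ex1, ex2, ey1, ey2,
    Fin.sum_univ_three]
  simp only [Fin.sum_univ_three] at hn hF hz hv h1 h2 h3 h4 h5
  simp only [Fin.isValue, ↓reduceIte, Fin.reduceEq]
  subst hn hF hz hv h1 h2 h3 h4 h5 hr
  ring

end Phi

open Phi in
theorem s_pw : S_pw := by
  intro R
  refine ⟨30000, 1 / (1000 * (1 + R ^ 2)), by norm_num, by positivity,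
    fun a ε τ ha h0 hε p g q Zx Zy hx hy => ?_⟩
  have hR : 0 ≤ R := (norm_nonneg _).trans hx
  have h1 : ε * (1000 * (1 + R ^ 2)) ≤ 1 := (le_div_iff₀ (by positivity)).1 hε
  have h2 : 0 ≤ ε * R ^ 2 := by positivity
  have e1 : ‖p.1‖ ^ 2 = ∑ i, p.1 i ^ 2 := EuclideanSpace.real_norm_sq_eq _
  have e2 : F2 p = ∑ i, (p.2 i - p.1 i) ^ 2 := by
    rw [F2, EuclideanSpace.real_norm_sq_eq]
    rfl
  have b1 : ε * ‖p.1‖ ^ 2 ≤ ε * R ^ 2 := by gcongr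
  have b2 : ε * F2 p ≤ ε * (2 * R) ^ 2 := by
    have : ‖p.2 - p.1‖ ≤ 2 * R := (norm_sub_le _ _).trans (by linarith)
    unfold F2
    gcongr
  rw [ident a ε τ p g q Zx Zy e1 e2 rfl rfl rfl rfl rfl rfl rfl rfl]
  refine scalar ha h0 (by linarith) (sq_nonneg _) (sq_nonneg _) (by positivity) (by positivity)
    (by linarith) (by linarith) ?_ ?_ ?_ ?_ ?_
  · rw [e1]
    exact cs _ _
  · rw [e2]
    exact cs _ _
  · rw [e1, e2]
    exact cs _ _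
  · rw [e2]
    exact cs _ _
  · rw [e1]
    exact cs _ _

end Vale.Agent.P136
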