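import Vale.Agent.P136.SobA

/-!
# P136: the Caccioppoli inequality and the interior supremum bound
-/

open MeasureTheory Set Metric
open scoped ContDiff Topology

noncomputable section
namespace Vale.Agent.P136

namespace Sob

lemma tst_bdd {g : E3 → ℝ} (hg : Tst g) : ∃ K : ℝ, ∀ y, |g y| ≤ K :=
  hg.1.continuous.bounded_above_of_compact_support hg.2

lemma pd_scale {g : E3 → ℝ} (hg : Sm g) (x : E3) (r c : ℝ) (j : Fin 3) :
    pd j (fun y => c * g (r⁻¹ • (y - x))) = fun y => c * r⁻¹ * pd j g (r⁻¹ • (y - x)) := by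
  funext y
  have h1 : HasFDerivAt (fun y : E3 => r⁻¹ • (y - x)) (r⁻¹ • ContinuousLinearMap.id ℝ E3) y :=
    ((hasFDerivAt_id y).sub_const x).const_smul r⁻¹
  have h2 := ((hg.dAt _).hasFDerivAt.comp y h1).const_mul c
  have h3 : fderiv ℝ (fun y => c * g (r⁻¹ • (y - x))) y = _ := h2.fderiv
  simp only [pd]
  rw [h3]
  simp [mul_assoc]

lemma bump {s t : ℝ} (hs : 0 < s) (hst : s < t) : ∃ K : ℝ, 0 ≤ K ∧ ∀ (x : E3) (r : ℝ), 0 < r →
    ∃ θ : E3 → ℝ, Tst θ ∧ tsupport θ ⊆ closedBall x (t * r) ∧ (∀ y, 0 ≤ θ y ∧ θ y ≤ 1) ∧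
      (∀ y ∈ closedBall x (s * r), θ y = 1) ∧ (∀ j y, |pd j θ y| ≤ K / r) ∧
      ∀ j y, |pd j (pd j θ) y| ≤ K / r ^ 2 := by
  let θ0 : ContDiffBump (0 : E3) := ⟨s, t, hs, hst⟩
  have h0 : Tst θ0 := ⟨θ0.contDiff, θ0.hasCompactSupport⟩
  choose K1 hK1 using fun j => tst_bdd (tst_pd h0 j)
  choose K2 hK2 using fun j => tst_bdd (tst_pd (tst_pd h0 j) j)
  have p1 : ∀ j, 0 ≤ K1 j := fun j => (abs_nonneg _).trans (hK1 j 0)
  have p2 : ∀ j, 0 ≤ K2 j := fun j => (abs_nonneg _).trans (hK2 j 0)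
  have q0 : ∀ j, K1 j + K2 j ≤ ∑ j, (K1 j + K2 j) := fun j =>
    Finset.single_le_sum (f := fun j => K1 j + K2 j) (fun j _ => add_nonneg (p1 j) (p2 j))
      (Finset.mem_univ j)
  refine ⟨∑ j, (K1 j + K2 j), Finset.sum_nonneg fun j _ => add_nonneg (p1 j) (p2 j),
    fun x r hr => ?_⟩
  have hn : ∀ y : E3, ‖r⁻¹ • (y - x)‖ = dist y x / r := fun y => by
    rw [norm_smul, Real.norm_of_nonneg (inv_nonneg.2 hr.le), dist_eq_norm, inv_mul_eq_div]
  have hsup : tsupport (fun y => 1 * θ0 (r⁻¹ • (y - x))) ⊆ closedBall x (t * r) := by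
    refine closure_minimal (fun y hy => ?_) isClosed_closedBall
    by_contra h
    refine hy ?_
    rw [mem_closedBall, not_le] at h
    have : θ0 (r⁻¹ • (y - x)) = 0 := θ0.zero_of_le_dist (by
      rw [dist_zero_right, hn, le_div_iff₀ hr]
      exact h.le)
    simp only [this, mul_zero]
  refine ⟨fun y => 1 * θ0 (r⁻¹ • (y - x)), ⟨contDiff_const.mul (h0.1.comp
    ((contDiff_id.sub contDiff_const).const_smul r⁻¹)),
    (isCompact_closedBall x (t * r)).of_isClosed_subset (isClosed_tsupport _) hsup⟩, hsup,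
    fun y => ?_, fun y hy => ?_, fun j y => ?_, fun j y => ?_⟩
  · simp only [one_mul]
    exact ⟨θ0.nonneg, θ0.le_one⟩
  · simp only [one_mul]
    refine θ0.one_of_mem_closedBall ?_
    rw [mem_closedBall_zero_iff, hn, div_le_iff₀ hr]
    exact hy
  · rw [pd_scale h0.sm]
    simp only [one_mul]
    rw [abs_mul, abs_of_pos (inv_pos.2 hr), inv_mul_eq_div]
    exact div_le_div_of_nonneg_right ((hK1 j _).trans (by linarith [q0 j, p2 j])) hr.le
  · rw [pd_scale h0.sm, pd_scale (tst_pd h0 j).sm]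
    simp only [one_mul]
    rw [abs_mul, abs_of_pos (by positivity), ← pow_two, inv_pow, inv_mul_eq_div]
    exact div_le_div_of_nonneg_right ((hK2 j _).trans (by linarith [q0 j, p1 j])) (by positivity)

lemma abs_sq_le {κ : Type} [Fintype κ] (g : κ → ℝ) :
    (∑ k, |g k|) ^ 2 ≤ Fintype.card κ * ∑ k, g k ^ 2 := by
  have := sq_sum_le_card_mul_sum_sq (s := Finset.univ) (f := fun k => |g k|)
  simpa only [sq_abs, Finset.card_univ] using this

lemma abs_sq_le2 {ι : Type} [Fintype ι] (g : ι → Fin 3 → ℝ) :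
    (∑ a, ∑ j, |g a j|) ^ 2 ≤ 3 * Fintype.card ι * ∑ a, ∑ j, g a j ^ 2 := by
  have := abs_sq_le (κ := ι × Fin 3) fun k => g k.1 k.2
  rw [Fintype.sum_prod_type, Fintype.sum_prod_type, Fintype.card_prod, Fintype.card_fin] at this
  push_cast at this
  linarith

lemma intOn {g : E3 → ℝ} {U : Set E3} {x : E3} {r s : ℝ} (hB : closedBall x r ⊆ U)
    (hg : ContinuousOn g U) (hs : s ≤ r) : IntegrableOn g (ball x s) :=
  ((hg.mono hB).integrableOn_compact (isCompact_closedBall x r)).mono_set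
    (ball_subset_closedBall.trans (closedBall_subset_closedBall hs))

lemma pd_mul_on {f g : E3 → ℝ} {U : Set E3} (hU : IsOpen U) (hf : ContDiffOn ℝ ∞ f U)
    (hg : ContDiffOn ℝ ∞ g U) (j : Fin 3) :
    EqOn (pd j fun y => f y * g y) (fun y => f y * pd j g y + pd j f y * g y) U := fun _ hy =>
  D_mul_at (dAt_of_on hU hf hy) (dAt_of_on hU hg hy) _

lemma lap_mul_on {f g : E3 → ℝ} {U : Set E3} (hU : IsOpen U) (hf : ContDiffOn ℝ ∞ f U)
    (hg : ContDiffOn ℝ ∞ g U) {y : E3} (hy : y ∈ U) :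
    lap (fun y => f y * g y) y =
      f y * lap g y + ∑ j, (2 * (pd j f y * pd j g y) + pd j (pd j f) y * g y) := by
  simp only [lap, Finset.mul_sum, ← Finset.sum_add_distrib]
  refine Finset.sum_congr rfl fun j _ => ?_
  have h1 := contDiffOn_pd hU hf j
  have h2 := contDiffOn_pd hU hg j
  rw [pd_congr_on hU (pd_mul_on hU hf hg j) j hy]
  have h3 : pd j (fun y => f y * pd j g y + pd j f y * g y) y =
      pd j (fun y => f y * pd j g y) y + pd j (fun y => pd j f y * g y) y :=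
    D_add_at (dAt_of_on hU (hf.mul h2) hy) (dAt_of_on hU (h1.mul hg) hy) _
  rw [h3, pd_mul_on hU hf h2 j hy, pd_mul_on hU h1 hg j hy]
  ring

variable {ι : Type} [Fintype ι]

/-- Squared gradient. -/
def GG (W : ι → E3 → ℝ) (y : E3) : ℝ := ∑ a, ∑ j, pd j (W a) y ^ 2

/-- Squared value. -/
def SS (W : ι → E3 → ℝ) (y : E3) : ℝ := ∑ a, W a y ^ 2

lemma GG_nonneg (W : ι → E3 → ℝ) (y : E3) : 0 ≤ GG W y :=
  Finset.sum_nonneg fun _ _ => Finset.sum_nonneg fun _ _ => sq_nonneg _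

lemma SS_nonneg (W : ι → E3 → ℝ) (y : E3) : 0 ≤ SS W y := Finset.sum_nonneg fun _ _ => sq_nonneg _

lemma GG_cont {W : ι → E3 → ℝ} {U : Set E3} (hU : IsOpen U) (hW : SmOn U W) :
    ContinuousOn (GG W) U :=
  continuousOn_finsetSum _ fun a _ => continuousOn_finsetSum _ fun j _ =>
    (contDiffOn_pd hU (hW a) j).continuousOn.pow 2

lemma SS_cont {W : ι → E3 → ℝ} {U : Set E3} (hW : SmOn U W) : ContinuousOn (SS W) U :=
  continuousOn_finsetSum _ fun a _ => (hW a).continuousOn.pow 2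

lemma nrm_eq {W : ι → E3 → ℝ} {U : Set E3} {x : E3} {r : ℝ} (hB : closedBall x r ⊆ U)
    (hW : SmOn U W) : nrm (ball x r) W = ∫ y in ball x r, SS W y :=
  (integral_finsetSum _ fun a _ => intOn hB ((hW a).continuousOn.pow 2) le_rfl).symm

lemma grad_eq {W : ι → E3 → ℝ} {U : Set E3} {x : E3} {r s : ℝ} (hU : IsOpen U)
    (hB : closedBall x r ⊆ U) (hW : SmOn U W) (hs : s ≤ r) :
    ∑ a, ∑ j, ∫ y in ball x s, pd j (W a) y ^ 2 = ∫ y in ball x s, GG W y := by
  have h : ∀ a j, IntegrableOn (fun y => pd j (W a) y ^ 2) (ball x s) := fun a j =>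
    intOn hB ((contDiffOn_pd hU (hW a) j).continuousOn.pow 2) hs
  unfold GG
  rw [integral_finsetSum _ fun a _ => integrable_finsetSum _ fun j _ => h a j]
  exact Finset.sum_congr rfl fun a _ => (integral_finsetSum _ fun j _ => h a j).symm

/-- The pointwise inequality behind the Caccioppoli estimate. -/
lemma cacc_arith {N M K ρ r θ φ P Q G S A B : ℝ} (hN : 0 ≤ N) (hM : 0 ≤ M) (hK : 0 ≤ K) (hr : r * ρ = 1)
    (h0 : 0 ≤ θ) (h1 : θ ≤ 1) (hφ : 0 ≤ φ) (hQ0 : 0 ≤ Q) (hG : 0 ≤ G) (hP : P ^ 2 ≤ 3 * N * G)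
    (hQ : Q ^ 2 ≤ N * S) (hA : -A ≤ Q * (M * (P * ρ + Q * ρ ^ 2) + φ))
    (hB : -B ≤ K * ρ * (Q * P)) :
    θ ^ 2 * G - (((3 * N + 1) * (M + 2 * K) ^ 2 + 2 * M + 1) * N * ρ ^ 2 * S + r ^ 2 * φ ^ 2) ≤
      2 * (θ ^ 2 * G + θ ^ 2 * A + 2 * θ * B) := by
  have t0 : θ ^ 2 ≤ 1 := by nlinarith
  have a1 := mul_le_mul_of_nonneg_left hA (sq_nonneg θ)
  have a2 := mul_le_mul_of_nonneg_left hB h0
  have a3 : θ ^ 2 * (M * (Q * ρ) ^ 2) ≤ M * (Q * ρ) ^ 2 :=
    mul_le_of_le_one_left (by positivity) t0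
  have a4 : θ ^ 2 * (Q * φ) ≤ Q * φ := mul_le_of_le_one_left (by positivity) t0
  have a5 : 2 * (Q * φ) ≤ (Q * ρ) ^ 2 + r ^ 2 * φ ^ 2 := by
    have : Q * φ = Q * ρ * (r * φ) := by
      calc Q * φ = Q * φ * (r * ρ) := by rw [hr, mul_one]
        _ = _ := by ring
    rw [this]
    nlinarith [sq_nonneg (Q * ρ - r * φ)]
  have a6 : 2 * (θ * P * ((θ * M + 2 * K) * (Q * ρ))) ≤
      θ ^ 2 * G + (3 * N + 1) * ((θ * M + 2 * K) * (Q * ρ)) ^ 2 := by
    refine le_of_mul_le_mul_left ?_ (show 0 < 3 * N + 1 by positivity)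
    have b1 := sq_nonneg (θ * P - (3 * N + 1) * ((θ * M + 2 * K) * (Q * ρ)))
    have b2 := mul_le_mul_of_nonneg_left hP (sq_nonneg θ)
    have b3 : 0 ≤ θ ^ 2 * G := by positivity
    linarith
  have a7 : ((θ * M + 2 * K) * (Q * ρ)) ^ 2 ≤ (M + 2 * K) ^ 2 * (Q * ρ) ^ 2 := by
    rw [mul_pow]
    refine mul_le_mul_of_nonneg_right (pow_le_pow_left₀ (by positivity) ?_ 2) (sq_nonneg _)
    nlinarith
  have a8 := mul_le_mul_of_nonneg_left a7 (show 0 ≤ 3 * N + 1 by positivity)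
  have a9 : (Q * ρ) ^ 2 ≤ N * ρ ^ 2 * S := by
    have := mul_le_mul_of_nonneg_right hQ (sq_nonneg ρ)
    linarith
  have a10 := mul_le_mul_of_nonneg_left a9
    (show 0 ≤ (3 * N + 1) * (M + 2 * K) ^ 2 + 2 * M + 1 by positivity)
  linarith

/-- The hypothesis on the Laplacian with a nonnegative constant. -/
lemma hyp_abs {M r P Q φ L : ℝ} (hr : 0 < r) (hP : 0 ≤ P) (hQ : 0 ≤ Q)
    (h : L ≤ M * (P / r + Q / r ^ 2) + φ) : L ≤ |M| * (P * r⁻¹ + Q * r⁻¹ ^ 2) + φ := by
  have h1 : M * (P / r + Q / r ^ 2) ≤ |M| * (P / r + Q / r ^ 2) :=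
    mul_le_mul_of_nonneg_right (le_abs_self M) (by positivity)
  rw [inv_pow, ← div_eq_mul_inv, ← div_eq_mul_inv]
  linarith

lemma cacc (ι : Type) [Fintype ι] (M : ℝ) : ∃ C : ℝ, 1 ≤ C ∧
    ∀ (W : ι → E3 → ℝ) (f : E3 → ℝ) (U : Set E3) (x : E3) (r : ℝ), 0 < r → IsOpen U →
    closedBall x r ⊆ U → SmOn U W → ContinuousOn f U →
    (∀ y ∈ ball x r, ∀ a, |lap (W a) y| ≤
      M * ((∑ a', ∑ j, |pd j (W a') y|) / r + (∑ a', |W a' y|) / r ^ 2) + |f y|) →
    ∫ y in ball x (r / 2), GG W y ≤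
      C * ((∫ y in ball x r, SS W y) / r ^ 2 + r ^ 2 * ∫ y in ball x r, f y ^ 2) := by
  obtain ⟨K, hK, hb⟩ := bump (s := 1 / 2) (t := 3 / 4) (by norm_num) (by norm_num)
  set N : ℝ := (Fintype.card ι : ℝ) with hN
  have hN0 : 0 ≤ N := Nat.cast_nonneg _
  set C : ℝ := ((3 * N + 1) * (|M| + 2 * K) ^ 2 + 2 * |M| + 1) * N with hC
  have hC0 : 0 ≤ C := by positivity
  refine ⟨C + 1, by linarith, fun W f U x r hr hU hB hW hf h => ?_⟩
  obtain ⟨θ, hθ, hs, h01, h1, hd, -⟩ := hb x r hr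
  have hs' : tsupport θ ⊆ ball x r := hs.trans (closedBall_subset_ball (by linarith))
  have hBU : ball x r ⊆ U := ball_subset_closedBall.trans hB
  have hθ2 : tsupport (fun y => θ y ^ 2) ⊆ ball x r := by
    simp only [pow_two]
    exact (tsupport_mul_subset_left (f := θ) (g := θ)).trans hs'
  have hT : ∀ a j, Tst fun y => θ y ^ 2 * (W a y * pd j (W a) y) := fun a j =>
    Tst.mul_on hU hθ.sq (hθ2.trans hBU) ((hW a).mul (contDiffOn_pd hU (hW a) j))
  have i0 : ∀ a j, ∫ y in ball x r, pd j (fun y => θ y ^ 2 * (W a y * pd j (W a) y)) y = 0 := by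
    intro a j
    have z : ∀ y, y ∉ ball x r → pd j (fun y => θ y ^ 2 * (W a y * pd j (W a) y)) y = 0 :=
      fun y hy => D_eq_zero_of_notMem (fun h' => hy (hθ2 (tsupport_mul_subset_left h'))) _
    rw [setIntegral_eq_integral_of_forall_compl_eq_zero z]
    exact integral_D (hT a j) _
  have i1 : ∀ a j, IntegrableOn (pd j fun y => θ y ^ 2 * (W a y * pd j (W a) y)) (ball x r) :=
    fun a j => (tst_pd (hT a j) j).integrable.integrableOn
  have i2 : ∫ y in ball x r, 2 * ∑ a, ∑ j,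
      pd j (fun y => θ y ^ 2 * (W a y * pd j (W a) y)) y = 0 := by
    rw [integral_const_mul, integral_finsetSum _ fun a _ => integrable_finsetSum _ fun j _ => i1 a j,
      Finset.sum_eq_zero fun a _ => by
        rw [integral_finsetSum _ fun j _ => i1 a j, Finset.sum_eq_zero fun j _ => i0 a j],
      mul_zero]
  have c1 : IntegrableOn (fun y => θ y ^ 2 * GG W y) (ball x r) :=
    intOn hB ((hθ.sm.cont.continuousOn.pow 2).mul (GG_cont hU hW)) le_rfl
  have c2 : IntegrableOn (fun y => C * r⁻¹ ^ 2 * SS W y) (ball x r) :=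
    (intOn hB (SS_cont hW) le_rfl).const_mul _
  have c3 : IntegrableOn (fun y => r ^ 2 * f y ^ 2) (ball x r) :=
    (intOn hB (hf.pow 2) le_rfl).const_mul _
  have key : ∫ y in ball x r, (θ y ^ 2 * GG W y - (C * r⁻¹ ^ 2 * SS W y + r ^ 2 * f y ^ 2)) ≤
      ∫ y in ball x r, 2 * ∑ a, ∑ j, pd j (fun y => θ y ^ 2 * (W a y * pd j (W a) y)) y := by
    refine setIntegral_mono_on (isub c1 (iadd c2 c3))
      ((integrable_finsetSum _ fun a _ => integrable_finsetSum _ fun j _ => i1 a j).const_mul 2)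
      measurableSet_ball fun y hy => ?_
    have hy' := hBU hy
    have e1 : ∀ a j, pd j (fun y => θ y ^ 2 * (W a y * pd j (W a) y)) y =
        θ y ^ 2 * pd j (W a) y ^ 2 + θ y ^ 2 * (W a y * pd j (pd j (W a)) y) +
          2 * θ y * (pd j θ y * (W a y * pd j (W a) y)) := by
      intro a j
      have q1 := contDiffOn_pd hU (hW a) j
      have q2 : pd j (fun y => θ y ^ 2) y = θ y * pd j θ y + pd j θ y * θ y := by
        simp only [pow_two]
        exact D_mul_at (hθ.sm.dAt y) (hθ.sm.dAt y) _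
      rw [pd_mul_on hU hθ.sq.1.contDiffOn ((hW a).mul q1) j hy']
      simp only
      rw [pd_mul_on hU (hW a) q1 j hy', q2]
      ring
    have e2 : ∑ a, ∑ j, pd j (fun y => θ y ^ 2 * (W a y * pd j (W a) y)) y =
        θ y ^ 2 * GG W y + θ y ^ 2 * ∑ a, W a y * lap (W a) y +
          2 * θ y * ∑ a, ∑ j, pd j θ y * (W a y * pd j (W a) y) := by
      simp only [e1, GG, lap, Finset.mul_sum, Finset.sum_add_distrib]
    have p0 : 0 ≤ ∑ a', ∑ j, |pd j (W a') y| :=
      Finset.sum_nonneg fun _ _ => Finset.sum_nonneg fun _ _ => abs_nonneg _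
    have q0 : 0 ≤ ∑ a', |W a' y| := Finset.sum_nonneg fun _ _ => abs_nonneg _
    rw [e2, ← sq_abs (f y)]
    refine cacc_arith (P := ∑ a', ∑ j, |pd j (W a') y|) (Q := ∑ a', |W a' y|) hN0 (abs_nonneg M) hK
      (mul_inv_cancel₀ hr.ne') (h01 y).1 (h01 y).2 (abs_nonneg _) q0 (GG_nonneg W y)
      (abs_sq_le2 fun a j => pd j (W a) y) (abs_sq_le fun a => W a y) ?_ ?_
    · rw [← Finset.sum_neg_distrib, Finset.sum_mul]
      refine Finset.sum_le_sum fun a _ => (neg_le_abs _).trans ?_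
      rw [abs_mul]
      exact mul_le_mul_of_nonneg_left (hyp_abs hr p0 q0 (h y hy a)) (abs_nonneg _)
    · rw [Finset.mul_sum, Finset.mul_sum, ← Finset.sum_neg_distrib]
      refine Finset.sum_le_sum fun a _ => ?_
      rw [Finset.mul_sum, Finset.mul_sum, ← Finset.sum_neg_distrib]
      refine Finset.sum_le_sum fun j _ => (neg_le_abs _).trans ?_
      rw [abs_mul, abs_mul, ← div_eq_mul_inv]
      have q1 : |W a y| ≤ ∑ a', |W a' y| :=
        Finset.single_le_sum (f := fun a' => |W a' y|) (fun _ _ => abs_nonneg _) (Finset.mem_univ a)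
      have q2 := hd j y
      gcongr
  rw [i2, integral_sub c1 (iadd c2 c3), integral_add c2 c3, integral_const_mul,
    integral_const_mul] at key
  have k1 : ∫ y in ball x (r / 2), GG W y ≤ ∫ y in ball x r, θ y ^ 2 * GG W y := by
    rw [← setIntegral_congr_fun (f := fun y => θ y ^ 2 * GG W y) measurableSet_ball fun y hy => by
      simp only [h1 y (closedBall_subset_closedBall (by linarith) (ball_subset_closedBall hy)),
        one_pow, one_mul]]
    exact setIntegral_mono_set c1 (.of_forall fun y => mul_nonneg (sq_nonneg _) (GG_nonneg W y))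
      (ball_subset_ball (by linarith)).eventuallyLE
  have k2 : 0 ≤ (∫ y in ball x r, SS W y) / r ^ 2 :=
    div_nonneg (integral_nonneg fun y => SS_nonneg W y) (sq_nonneg _)
  have k3 : 0 ≤ C * (r ^ 2 * ∫ y in ball x r, f y ^ 2) :=
    mul_nonneg hC0 (mul_nonneg (sq_nonneg _) (integral_nonneg fun y => sq_nonneg _))
  rw [inv_pow, mul_assoc, inv_mul_eq_div] at key
  linarith

lemma sup_arith {N L ρ φ P Q G S v : ℝ} (hP : P ^ 2 ≤ 3 * N * G) (hQ : Q ^ 2 ≤ N * S)
    (h : |v| ≤ L * (P * ρ + Q * ρ ^ 2) + |φ|) :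
    v ^ 2 ≤ 9 * N * L ^ 2 * ρ ^ 2 * G + 3 * N * L ^ 2 * ρ ^ 4 * S + 3 * φ ^ 2 := by
  have h1 := pow_le_pow_left₀ (abs_nonneg v) h 2
  rw [sq_abs] at h1
  have h2 := mul_le_mul_of_nonneg_left hP (show 0 ≤ L ^ 2 * ρ ^ 2 by positivity)
  have h3 := mul_le_mul_of_nonneg_left hQ (show 0 ≤ L ^ 2 * ρ ^ 4 by positivity)
  have h4 := sq_abs φ
  nlinarith [sq_nonneg (L * P * ρ - L * Q * ρ ^ 2), sq_nonneg (L * P * ρ - |φ|),
    sq_nonneg (L * Q * ρ ^ 2 - |φ|)]

end Sob

open Sob in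
theorem s_ie0 : S_ie0 := by
  intro ι _ M
  obtain ⟨C0, hC0, hsob⟩ := s_sob
  obtain ⟨C1, hC1, hc⟩ := cacc ι M
  obtain ⟨K, hK, hb⟩ := bump (s := 1 / 4) (t := 3 / 8) (by norm_num) (by norm_num)
  set N : ℝ := (Fintype.card ι : ℝ) with hN
  have hN0 : 0 ≤ N := Nat.cast_nonneg _
  set L : ℝ := |M| + 3 * K with hL
  set C2 : ℝ := 9 * N * L ^ 2 * C1 + 3 * N * L ^ 2 + 3 with hC2
  have hC1' : 0 ≤ C1 := by linarith
  have hC20 : 0 ≤ C2 := by positivity
  refine ⟨C1 + N * (C0 * (1 + C2)), by positivity, fun W f U x r hr hU hB hW hf h => ?_⟩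
  have hcc := hc W f U x r hr hU hB hW hf h
  have s0 : 0 ≤ ∫ y in ball x r, SS W y := integral_nonneg fun y => SS_nonneg W y
  have f0 : 0 ≤ ∫ y in ball x r, f y ^ 2 := integral_nonneg fun y => sq_nonneg _
  rw [nrm_eq hB hW, grad_eq hU hB hW (by linarith)]
  refine ⟨hcc.trans (mul_le_mul_of_nonneg_right (le_add_of_nonneg_right (by positivity))
    (by positivity)), ?_⟩
  obtain ⟨θ, hθ, hs, h01, h1, hd, hdd⟩ := hb x r hr
  have hs' : tsupport θ ⊆ ball x (r / 2) := hs.trans (closedBall_subset_ball (by linarith))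
  have hb2 : ball x (r / 2) ⊆ ball x r := ball_subset_ball (by linarith)
  have hBU : ball x r ⊆ U := ball_subset_closedBall.trans hB
  have iS := intOn hB (SS_cont hW) le_rfl
  have iF := intOn hB (hf.pow 2) le_rfl
  have key : ∀ a, W a x ^ 2 ≤ C0 * (1 + C2) *
      ((∫ y in ball x r, SS W y) / r ^ 3 + r * ∫ y in ball x r, f y ^ 2) := by
    intro a
    have hu : Tst fun y => θ y * W a y := Tst.mul_on hU hθ ((hs'.trans hb2).trans hBU) (hW a)
    have hus : ∀ y, y ∉ ball x (r / 2) → y ∉ tsupport fun y => θ y * W a y := fun y hy h' =>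
      hy (hs' (tsupport_mul_subset_left h'))
    have k0 := hsob r hr _ hu x
    simp only [h1 x (mem_closedBall_self (by positivity)), one_mul] at k0
    have k1 : ∫ y, (θ y * W a y) ^ 2 ≤ ∫ y in ball x r, SS W y := by
      rw [← setIntegral_eq_integral_of_forall_compl_eq_zero (s := ball x r) fun y hy => by
        rw [image_eq_zero_of_notMem_tsupport (hus y fun h' => hy (hb2 h'))]
        norm_num]
      refine setIntegral_mono_on hu.sq.integrable.integrableOn iS measurableSet_ball fun y _ => ?_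
      have q1 : W a y ^ 2 ≤ SS W y :=
        Finset.single_le_sum (f := fun a => W a y ^ 2) (fun _ _ => sq_nonneg _) (Finset.mem_univ a)
      have q2 : θ y ^ 2 ≤ 1 := pow_le_one₀ (h01 y).1 (h01 y).2
      rw [mul_pow]
      exact (mul_le_of_le_one_left (sq_nonneg _) q2).trans q1
    have c1 : IntegrableOn (fun y => 9 * N * L ^ 2 * r⁻¹ ^ 2 * GG W y) (ball x (r / 2)) :=
      (intOn hB (GG_cont hU hW) (by linarith)).const_mul _
    have c2 : IntegrableOn (fun y => 3 * N * L ^ 2 * r⁻¹ ^ 4 * SS W y) (ball x (r / 2)) :=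
      (iS.mono_set hb2).const_mul _
    have c3 : IntegrableOn (fun y => 3 * f y ^ 2) (ball x (r / 2)) :=
      (iF.mono_set hb2).const_mul _
    have k2 : ∫ y, lap (fun y => θ y * W a y) y ^ 2 ≤ ∫ y in ball x (r / 2),
        (9 * N * L ^ 2 * r⁻¹ ^ 2 * GG W y + 3 * N * L ^ 2 * r⁻¹ ^ 4 * SS W y + 3 * f y ^ 2) := by
      rw [← setIntegral_eq_integral_of_forall_compl_eq_zero (s := ball x (r / 2)) fun y hy => by
        have : lap (fun y => θ y * W a y) y = 0 := Finset.sum_eq_zero fun j _ =>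
          D_eq_zero_of_notMem (fun h' => hus y hy (tsupport_D _ _ h')) _
        rw [this]
        norm_num]
      refine setIntegral_mono_on (tst_lap hu).sq.integrable.integrableOn (iadd (iadd c1 c2) c3)
        measurableSet_ball fun y hy => ?_
      have p0 : 0 ≤ ∑ a', ∑ j, |pd j (W a') y| :=
        Finset.sum_nonneg fun _ _ => Finset.sum_nonneg fun _ _ => abs_nonneg _
      have q0 : 0 ≤ ∑ a', |W a' y| := Finset.sum_nonneg fun _ _ => abs_nonneg _
      refine sup_arith (P := ∑ a', ∑ j, |pd j (W a') y|) (Q := ∑ a', |W a' y|)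
        (abs_sq_le2 fun a j => pd j (W a) y) (abs_sq_le fun a => W a y) ?_
      have q1 : |W a y| ≤ ∑ a', |W a' y| :=
        Finset.single_le_sum (f := fun a' => |W a' y|) (fun _ _ => abs_nonneg _) (Finset.mem_univ a)
      have p1 : ∑ j, |pd j (W a) y| ≤ ∑ a', ∑ j, |pd j (W a') y| :=
        Finset.single_le_sum (f := fun a' => ∑ j, |pd j (W a') y|)
          (fun _ _ => Finset.sum_nonneg fun _ _ => abs_nonneg _) (Finset.mem_univ a)
      have t1 := hyp_abs hr p0 q0 (h y (hb2 hy) a)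
      have t2 : |θ y * lap (W a) y| ≤ |lap (W a) y| := by
        rw [abs_mul, abs_of_nonneg (h01 y).1]
        exact mul_le_of_le_one_left (abs_nonneg _) (h01 y).2
      have t3 : |∑ j, (2 * (pd j θ y * pd j (W a) y) + pd j (pd j θ) y * W a y)| ≤
          ∑ j, (2 * (K * r⁻¹ * |pd j (W a) y|) + K * r⁻¹ ^ 2 * ∑ a', |W a' y|) := by
        refine (Finset.abs_sum_le_sum_abs _ _).trans (Finset.sum_le_sum fun j _ => ?_)
        refine (abs_add_le _ _).trans ?_
        have u1 := hd j y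
        have u2 := hdd j y
        rw [abs_mul, abs_mul, abs_mul, abs_two, inv_pow, ← div_eq_mul_inv, ← div_eq_mul_inv]
        gcongr
      have t3' : ∑ j, (2 * (K * r⁻¹ * |pd j (W a) y|) + K * r⁻¹ ^ 2 * ∑ a', |W a' y|) =
          2 * (K * r⁻¹ * ∑ j, |pd j (W a) y|) + 3 * (K * r⁻¹ ^ 2 * ∑ a', |W a' y|) := by
        simp only [Fin.sum_univ_three]
        ring
      have t4 := mul_le_mul_of_nonneg_left p1 (show 0 ≤ K * r⁻¹ by positivity)
      have t5 : 0 ≤ K * r⁻¹ * ∑ a', ∑ j, |pd j (W a') y| := by positivity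
      rw [lap_mul_on hU hθ.1.contDiffOn (hW a) (hBU (hb2 hy))]
      refine (abs_add_le _ _).trans ?_
      rw [hL]
      linarith
    rw [integral_add (iadd c1 c2) c3, integral_add c1 c2, integral_const_mul, integral_const_mul,
      integral_const_mul] at k2
    have m1 : ∫ y in ball x (r / 2), SS W y ≤ ∫ y in ball x r, SS W y :=
      setIntegral_mono_set iS (.of_forall fun y => SS_nonneg W y) hb2.eventuallyLE
    have m2 : ∫ y in ball x (r / 2), f y ^ 2 ≤ ∫ y in ball x r, f y ^ 2 :=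
      setIntegral_mono_set iF (.of_forall fun y => sq_nonneg _) hb2.eventuallyLE
    have k3 : r * ∫ y, lap (fun y => θ y * W a y) y ^ 2 ≤
        C2 * ((∫ y in ball x r, SS W y) / r ^ 3 + r * ∫ y in ball x r, f y ^ 2) := by
      calc r * ∫ y, lap (fun y => θ y * W a y) y ^ 2
          ≤ r * (9 * N * L ^ 2 * r⁻¹ ^ 2 * (C1 * ((∫ y in ball x r, SS W y) / r ^ 2 +
              r ^ 2 * ∫ y in ball x r, f y ^ 2)) +
            3 * N * L ^ 2 * r⁻¹ ^ 4 * (∫ y in ball x r, SS W y) +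
            3 * ∫ y in ball x r, f y ^ 2) := by
            refine mul_le_mul_of_nonneg_left (k2.trans ?_) hr.le
            gcongr
        _ = (9 * N * L ^ 2 * C1 + 3 * N * L ^ 2) * ((∫ y in ball x r, SS W y) / r ^ 3) +
            (9 * N * L ^ 2 * C1 + 3) * (r * ∫ y in ball x r, f y ^ 2) := by
            field_simp
            ring
        _ ≤ _ := by
            have u1 : 0 ≤ (∫ y in ball x r, SS W y) / r ^ 3 := by positivity
            have u2 : 0 ≤ N * L ^ 2 * (r * ∫ y in ball x r, f y ^ 2) := by positivity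
            rw [hC2]
            linarith
    have k4 : (∫ y, (θ y * W a y) ^ 2) / r ^ 3 ≤ (∫ y in ball x r, SS W y) / r ^ 3 := by gcongr
    have k5 : 0 ≤ r * ∫ y in ball x r, f y ^ 2 := by positivity
    refine k0.trans ?_
    rw [mul_assoc]
    refine mul_le_mul_of_nonneg_left ?_ hC0
    linarith
  have k6 := Finset.sum_le_sum fun a (_ : a ∈ Finset.univ) => key a
  rw [Finset.sum_const, Finset.card_univ, nsmul_eq_mul] at k6
  have k7 : 0 ≤ C1 * ((∫ y in ball x r, SS W y) / r ^ 3 + r * ∫ y in ball x r, f y ^ 2) := by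
    positivity
  linarith

end Vale.Agent.P136
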