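import Vale.Agent.P136.Basic

/-!
# P136: the solution with given boundary values; energy comparison
-/

open MeasureTheory Set Metric
open scoped ContDiff Topology

noncomputable section
namespace Vale.Agent.P136

namespace TT

lemma eqOn_of_nrm {Ω : Set E3} (hΩ : IsOpen Ω) {u u' : Fin 3 → E3 → ℝ} (hu : SmOn Ω u)
    (hu' : SmOn Ω u') (hm : ∀ i, MemLp ((u - u') i) 2 (volume.restrict Ω))
    (h : nrm Ω (u - u') ≤ 0) : ∀ x ∈ Ω, ∀ i, u i x = u' i x := by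
  intro x hx i
  have h1 : ∫ y in Ω, (u - u') i y ^ 2 ≤ nrm Ω (u - u') :=
    Finset.single_le_sum (f := fun i => ∫ y in Ω, (u - u') i y ^ 2)
      (fun _ _ => integral_nonneg fun _ => sq_nonneg _) (Finset.mem_univ i)
  have h2 : ∫ y in Ω, (u - u') i y ^ 2 = 0 :=
    le_antisymm (h1.trans h) (integral_nonneg fun _ => sq_nonneg _)
  have h3 := (integral_eq_zero_iff_of_nonneg (fun _ => sq_nonneg _) (hm i).integrable_sq).1 h2
  have h4 : u i =ᵐ[volume.restrict Ω] u' i := by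
    filter_upwards [h3] with y hy
    simp only [Pi.sub_apply, Pi.zero_apply] at hy
    exact sub_eq_zero.1 (pow_eq_zero_iff two_ne_zero |>.1 hy)
  exact Measure.eqOn_open_of_ae_eq h4 hΩ (hu i).continuousOn (hu' i).continuousOn hx

lemma form_zero (h4 : S_green) {Ω : Set E3} (hΩ : IsOpen Ω) {lam mu : E3 → ℝ} (hl : Sm lam)
    (hm : Sm mu) {u : Fin 3 → E3 → ℝ} (hu : SmOn Ω u) (h : ∀ x ∈ Ω, ∀ i, lame lam mu u i x = 0)
    {w : Fin 3 → E3 → ℝ} (hw : ∀ i, IsTest Ω (w i)) : form Ω lam mu (grad u) (grad w) = 0 := by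
  rw [h4 Ω lam mu u w hΩ hl hm hu hw, neg_eq_zero]
  refine Finset.sum_eq_zero fun i _ => ?_
  rw [setIntegral_congr_fun hΩ.measurableSet (g := fun _ => 0)
    fun x hx => by simp only [h x hx i, zero_mul]]
  simp

end TT

theorem s_T (h1 : S_lm) (h2 : S_coer) (h3 : S_weylLame) (h4 : S_green) : S_T := by
  intro R c Ω U lam mu u₂ hc hΩ hR hU hs ha hu
  have hH : IsH1 Ω u₂ (grad u₂) := isH1_of_smOn_closure hΩ hR hU hs hu
  have hL : L2M Ω (grad u₂) := hH.2.1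
  refine ⟨?_, fun u₁ u₁' t t' => ?_, fun h => ?_⟩
  · obtain ⟨z, Z, hz, hw⟩ := h1 R c Ω lam mu (grad u₂) hc hΩ hR ha hL
    obtain ⟨u', s1, s2, s3, s4⟩ := h3 Ω c lam mu (u₂ + z) (grad u₂ + Z) hΩ hc ha ⟨hH.add hz.1, hw⟩
    refine ⟨u', s1, hz.congr (fun i => ?_) (fun i j => ?_), s4⟩
    · filter_upwards [s2 i] with x hx
      simp only [Pi.add_apply, Pi.sub_apply] at hx ⊢
      linarith
    · filter_upwards [s3 i j] with x hx
      simp only [Pi.add_apply, Pi.sub_apply, grad] at hx ⊢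
      linarith
  · obtain ⟨C, -, hC⟩ := h2 R c hc
    obtain ⟨M, hM, hb⟩ := exists_bdC hR ha.1.cont ha.2.1.cont
    have e := t.2.1.sub t'.2.1
    rw [sub_sub_sub_cancel_right, sub_sub_sub_cancel_right] at e
    have l1 : L2M Ω (grad u₁) := by
      have := L2M.add t.2.1.1.2.1 hL
      rwa [sub_add_cancel] at this
    have l2 : L2M Ω (grad u₁') := by
      have := L2M.add t'.2.1.1.2.1 hL
      rwa [sub_add_cancel] at this
    have f0 : form Ω lam mu (grad u₁ - grad u₁') (grad u₁ - grad u₁') = 0 := by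
      refine form_density_zero hΩ.measurableSet hM hb (l1.sub l2) (fun w hw => ?_) e
      rw [form_sub_left hΩ.measurableSet hb l1 l2 (L2M.of_test Ω hw),
        TT.form_zero h4 hΩ ha.1 ha.2.1 t.1 t.2.2 hw,
        TT.form_zero h4 hΩ ha.1 ha.2.1 t'.1 t'.2.2 hw, sub_zero]
    have f1 := hC Ω lam mu _ _ hΩ hR ha e
    rw [f0, mul_zero] at f1
    exact TT.eqOn_of_nrm hΩ t.1 t'.1 e.1.1 (by linarith [nrm2_nonneg Ω (grad u₁ - grad u₁')])
  · refine ⟨fun i => (hu i).mono (subset_closure.trans hs), ?_, h⟩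
    rw [sub_self, sub_self]
    exact isH10_zero hΩ

theorem s_cmp (h1 : S_lm) (h2 : S_coer) : S_cmp := by
  intro R c Ω lam₁ mu₁ lam₂ mu₂ hc hΩ hR a₁ a₂ hDN
  obtain ⟨C, hC0, hC⟩ := h2 R c hc
  refine ⟨C, hC0, fun v K hv hK hb => ?_⟩
  have hm := hΩ.measurableSet
  have hH : IsH1 Ω v (grad v) :=
    isH1_of_smOn_closure hΩ hR isOpen_univ (subset_univ _) fun i => (hv i).contDiffOn
  have hL : L2M Ω (grad v) := hH.2.1
  obtain ⟨M₁, hM₁, b₁⟩ := exists_bdC hR a₁.1.cont a₁.2.1.cont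
  obtain ⟨M₂, hM₂, b₂⟩ := exists_bdC hR a₂.1.cont a₂.2.1.cont
  obtain ⟨z₁, Z₁, hz₁, w₁⟩ := h1 R c Ω lam₁ mu₁ (grad v) hc hΩ hR a₁ hL
  obtain ⟨z₂, Z₂, hz₂, w₂⟩ := h1 R c Ω lam₂ mu₂ (grad v) hc hΩ hR a₂ hL
  have l₁ : L2M Ω Z₁ := hz₁.1.2.1
  have l₂ : L2M Ω Z₂ := hz₂.1.2.1
  have e := hDN (v + z₁) (v + z₂) v (grad v + Z₁) (grad v + Z₂) (grad v) ⟨hH.add hz₁.1, w₁⟩
    ⟨hH.add hz₂.1, w₂⟩ (by
      rw [add_sub_add_left_eq_sub, add_sub_add_left_eq_sub]; exact hz₁.sub hz₂) hH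
  rw [form_add_left hm b₁ hL l₁ hL, form_add_left hm b₂ hL l₂ hL, form_comm Ω lam₁ mu₁ Z₁,
    form_comm Ω lam₂ mu₂ Z₂] at e
  have d₁ := form_density_zero hm hM₁ b₁ (hL.add l₁) w₁ hz₁
  have d₂ := form_density_zero hm hM₂ b₂ (hL.add l₂) w₂ hz₂
  rw [form_add_left hm b₁ hL l₁ l₁] at d₁
  rw [form_add_left hm b₂ hL l₂ l₂] at d₂
  have c₁ := hC Ω lam₁ mu₁ _ _ hΩ hR a₁ hz₁
  have c₂ := hC Ω lam₂ mu₂ _ _ hΩ hR a₂ hz₂
  have p₂ : 0 ≤ form Ω lam₂ mu₂ Z₂ Z₂ := by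
    by_contra hn
    have hn' := (not_le.1 hn).le
    have n0 : nrm2 Ω Z₂ = 0 := le_antisymm
      (by nlinarith [nrm_nonneg Ω z₂, mul_nonneg hC0 (neg_nonneg.2 hn')]) (nrm2_nonneg _ _)
    have := abs_form_le hm hM₂ b₂ l₂ l₂
    rw [n0, Real.sqrt_zero, mul_zero, abs_nonpos_iff] at this
    exact hn this.ge
  have k := form_density hm hM₁ b₁ hL hK hb hz₁
  have k' := neg_abs_le (form Ω lam₁ mu₁ (grad v) Z₁)
  set s := √(nrm2 Ω Z₁) with hs
  have s0 : 0 ≤ s := Real.sqrt_nonneg _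
  have s2 : s ^ 2 = nrm2 Ω Z₁ := Real.sq_sqrt (nrm2_nonneg _ _)
  have s3 : s ^ 2 ≤ C * (K * s) := by
    have : form Ω lam₁ mu₁ Z₁ Z₁ ≤ K * s := by linarith
    have := mul_le_mul_of_nonneg_left this hC0
    linarith [nrm_nonneg Ω z₁]
  have s4 : s ≤ C * K := by
    by_contra hn
    have hn' := not_le.1 hn
    have : 0 < s := lt_of_le_of_lt (mul_nonneg hC0 hK) hn'
    nlinarith
  have s5 := mul_le_mul_of_nonneg_left s4 hK
  nlinarith

end Vale.Agent.P136
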