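import Vale.Agent.P136.Stmts

/-! Boundary WKB fields for the Lame operator. -/

open MeasureTheory Set Metric Complex
open scoped ContDiff Topology

noncomputable section
namespace Vale.Agent.P136

namespace WKB

abbrev Cs (f : E3 → ℂ) : Prop := ContDiff ℝ ∞ f

def pc (j : Fin 3) (F : E3 → ℂ) : E3 → ℂ := fun x => fderiv ℝ F x (EuclideanSpace.single j 1)

lemma Cs.dAt {f : E3 → ℂ} (h : Cs f) (x : E3) : DifferentiableAt ℝ f x :=
  (h.differentiable (by simp)) x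

lemma Cs.pc {f : E3 → ℂ} (h : Cs f) (j : Fin 3) : Cs (pc j f) :=
  (h.fderiv_right (m := ∞) (by simp)).clm_apply contDiff_const

lemma cs_re {f : E3 → ℝ} (h : Sm f) : Cs fun x => (f x : ℂ) := ofRealCLM.contDiff.comp h

lemma sm_pd {f : E3 → ℝ} (h : Sm f) (j : Fin 3) : Sm (pd j f) := h.D _

lemma pc_add {f g : E3 → ℂ} (hf : Cs f) (hg : Cs g) (j : Fin 3) (x : E3) :
    pc j (fun y => f y + g y) x = pc j f x + pc j g x := by
  simp only [pc]; rw [fderiv_fun_add (hf.dAt x) (hg.dAt x)]; rfl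

lemma pc_sub {f g : E3 → ℂ} (hf : Cs f) (hg : Cs g) (j : Fin 3) (x : E3) :
    pc j (fun y => f y - g y) x = pc j f x - pc j g x := by
  simp only [pc]; rw [fderiv_fun_sub (hf.dAt x) (hg.dAt x)]; rfl

lemma pc_mul {f g : E3 → ℂ} (hf : Cs f) (hg : Cs g) (j : Fin 3) (x : E3) :
    pc j (fun y => f y * g y) x = f x * pc j g x + pc j f x * g x := by
  simp only [pc]; rw [fderiv_fun_mul (hf.dAt x) (hg.dAt x)]
  simp only [add_apply, smul_apply, smul_eq_mul]; ring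

lemma pc_const (c : ℂ) (j : Fin 3) (x : E3) : pc j (fun _ => c) x = 0 := by simp [pc]

lemma pc_exp {f : E3 → ℂ} (hf : Cs f) (j : Fin 3) (x : E3) :
    pc j (fun y => cexp (f y)) x = cexp (f x) * pc j f x := by
  simp only [pc]; rw [(hf.dAt x).hasFDerivAt.cexp.fderiv]; simp

lemma pc_pow {f : E3 → ℂ} (hf : Cs f) (n : ℕ) (j : Fin 3) (x : E3) :
    pc j (fun y => f y ^ n) x = n * f x ^ (n - 1) * pc j f x := by
  simp only [pc]; rw [((hf.dAt x).hasFDerivAt.pow n).fderiv]; simp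

lemma pc_re {f : E3 → ℝ} (hf : Sm f) (j : Fin 3) (x : E3) :
    pc j (fun y => (f y : ℂ)) x = (pd j f x : ℂ) := by
  have := (ofRealCLM.hasFDerivAt.comp x (hf.dAt x).hasFDerivAt).fderiv
  simp only [pc, pd]
  change fderiv ℝ (ofRealCLM ∘ f) x _ = _
  rw [this]; rfl

lemma pc_sum {f : Fin 3 → E3 → ℂ} (hf : ∀ i, Cs (f i)) (j : Fin 3) (x : E3) :
    pc j (fun y => ∑ i, f i y) x = ∑ i, pc j (f i) x := by
  simp only [pc]; rw [fderiv_fun_sum fun i _ => (hf i).dAt x]; simp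

lemma pd_L (L : ℂ →L[ℝ] ℝ) {f : E3 → ℂ} (hf : Cs f) (j : Fin 3) :
    pd j (fun y => L (f y)) = fun x => L (pc j f x) := by
  funext x
  have := (L.hasFDerivAt.comp x (hf.dAt x).hasFDerivAt).fderiv
  simp only [pc, pd]
  change fderiv ℝ (L ∘ f) x _ = _
  rw [this]; rfl

/-- the phase -/
structure Dat (ρ : E3 → ℝ) where
  θ : E3 → ℂ
  ζ : Fin 3 → E3 → ℂ
  b : Fin 3 → E3 → ℂ
  m : E3 → ℝ
  hρ : Sm ρ
  hθ : Cs θ
  hζ : ∀ j, Cs (ζ j)
  hb : ∀ j, Cs (b j)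
  hm : Continuous m
  dθ : ∀ j x, pc j θ x = ζ j x - ρ x * b j x
  re : ∀ x, (θ x).re = -(m x * ρ x)

def Amp (K : Set E3) (a : E3 → ℂ) : Prop := Cs a ∧ ∀ x ∉ K, a x = 0

variable {ρ : E3 → ℝ} {K : Set E3}

lemma Amp.mul {g a : E3 → ℂ} (hg : Cs g) (ha : Amp K a) : Amp K fun x => g x * a x :=
  ⟨hg.mul ha.1, fun x hx => by simp [ha.2 x hx]⟩

lemma Amp.add {a a' : E3 → ℂ} (ha : Amp K a) (ha' : Amp K a') : Amp K fun x => a x + a' x :=
  ⟨ha.1.add ha'.1, fun x hx => by simp [ha.2 x hx, ha'.2 x hx]⟩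

lemma Amp.pc (hK : IsClosed K) {a : E3 → ℂ} (ha : Amp K a) (j : Fin 3) : Amp K (pc j a) := by
  refine ⟨ha.1.pc j, fun x hx => ?_⟩
  have : a =ᶠ[𝓝 x] fun _ => 0 := by
    filter_upwards [hK.isOpen_compl.mem_nhds hx] with y hy using ha.2 y hy
  simp [WKB.pc, this.fderiv_eq]

def T (d : Dat ρ) (l j : ℕ) (a : E3 → ℂ) (N : ℝ) (x : E3) : ℂ :=
  (N : ℂ) ^ l * ((N : ℂ) * ρ x) ^ j * a x * cexp (N * d.θ x)

inductive Sym (d : Dat ρ) (K : Set E3) (k : ℕ) : (ℝ → E3 → ℂ) → Prop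
  | base (l j : ℕ) (a : E3 → ℂ) (hl : l ≤ k) (ha : Amp K a) : Sym d K k (T d l j a)
  | add {F G : ℝ → E3 → ℂ} (hF : Sym d K k F) (hG : Sym d K k G) :
      Sym d K k fun N x => F N x + G N x

variable {d : Dat ρ} {k : ℕ}

lemma cs_T {a : E3 → ℂ} (ha : Cs a) (l j : ℕ) (N : ℝ) : Cs (T d l j a N) :=
  ((contDiff_const.mul ((contDiff_const.mul (cs_re d.hρ)).pow j)).mul ha).mul
    (contDiff_const.mul d.hθ).cexp

lemma Sym.amp {F : ℝ → E3 → ℂ} (h : Sym d K k F) (N : ℝ) : Amp K (F N) := by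
  induction h with
  | base l j a hl ha => exact ⟨cs_T ha.1 l j N, fun x hx => by simp [T, ha.2 x hx]⟩
  | add _ _ h1 h2 => exact h1.add h2

lemma Sym.mono {F : ℝ → E3 → ℂ} (h : Sym d K k F) : Sym d K (k + 1) F := by
  induction h with
  | base l j a hl ha => exact .base l j a (by omega) ha
  | add _ _ h1 h2 => exact h1.add h2

lemma Sym.congr {F G : ℝ → E3 → ℂ} (h : Sym d K k F) (e : ∀ N x, G N x = F N x) :
    Sym d K k G := by
  rw [show G = F from funext fun N => funext (e N)]; exact h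

lemma Sym.mul {F : ℝ → E3 → ℂ} {g : E3 → ℂ} (hg : Cs g) (h : Sym d K k F) :
    Sym d K k fun N x => g x * F N x := by
  induction h with
  | base l j a hl ha => exact (Sym.base l j _ hl (ha.mul hg)).congr fun N x => by simp [T]; ring
  | add _ _ h1 h2 => exact (h1.add h2).congr fun N x => by ring

lemma Sym.sum {F : Fin 3 → ℝ → E3 → ℂ} (h : ∀ i, Sym d K k (F i)) :
    Sym d K k fun N x => ∑ i, F i N x :=
  (((h 0).add (h 1)).add (h 2)).congr fun N x => by simp [Fin.sum_univ_three]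

def nu (ρ : E3 → ℝ) (i : Fin 3) (x : E3) : ℂ := (pd i ρ x : ℂ)

lemma cs_nu (h : Sm ρ) (i : Fin 3) : Cs (nu ρ i) := cs_re (sm_pd h i)

lemma pc_T {a : E3 → ℂ} (ha : Cs a) (l j : ℕ) (i : Fin 3) (N : ℝ) (x : E3) :
    pc i (T d l j a N) x = (T d (l + 1) (j - 1) (fun y => (j * nu ρ i y) * a y) N x +
      T d (l + 1) j (fun y => d.ζ i y * a y) N x) +
      (T d l j (pc i a) N x + T d l (j + 1) (fun y => -d.b i y * a y) N x) := by
  have h1 : Cs fun y => (N : ℂ) * ρ y := contDiff_const.mul (cs_re d.hρ)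
  have h2 : Cs fun y => (N : ℂ) * d.θ y := contDiff_const.mul d.hθ
  unfold T
  rw [pc_mul ((contDiff_const.mul (h1.pow j)).mul ha) h2.cexp,
    pc_mul (contDiff_const.mul (h1.pow j)) ha, pc_mul contDiff_const (h1.pow j), pc_pow h1,
    pc_exp h2, pc_mul contDiff_const d.hθ, pc_mul contDiff_const (cs_re d.hρ), pc_re d.hρ, d.dθ]
  simp only [pc_const, nu]
  ring

lemma Sym.pc (hK : IsClosed K) {F : ℝ → E3 → ℂ} (h : Sym d K k F) (i : Fin 3) :
    Sym d K (k + 1) fun N => pc i (F N) := by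
  induction h with
  | base l j a hl ha =>
    exact (((Sym.base _ _ _ (by omega) (ha.mul (contDiff_const.mul (cs_nu d.hρ i)))).add
      (Sym.base _ _ _ (by omega) (ha.mul (d.hζ i)))).add
      ((Sym.base _ _ _ (by omega) (ha.pc hK i)).add
      (Sym.base _ _ _ (by omega) (ha.mul (d.hb i).neg)))).congr fun N x => pc_T ha.1 l j i N x
  | add hF hG h1 h2 =>
    exact (h1.add h2).congr fun N x => pc_add (hF.amp N).1 (hG.amp N).1 i x

lemma pow_exp_le {t m₀ : ℝ} (ht : 0 ≤ t) (hm : 0 < m₀) (j : ℕ) :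
    t ^ j * Real.exp (-(m₀ * t)) ≤ j.factorial / m₀ ^ j := by
  have h := Real.pow_div_factorial_le_exp (m₀ * t) (by positivity) j
  rw [Real.exp_neg, ← div_eq_mul_inv, div_le_div_iff₀ (Real.exp_pos _) (by positivity)]
  rw [div_le_iff₀ (by positivity), mul_pow] at h
  linarith

lemma norm_E (d : Dat ρ) (N : ℝ) (x : E3) :
    ‖cexp (N * d.θ x)‖ = Real.exp (-(d.m x * (N * ρ x))) := by
  rw [Complex.norm_exp, re_ofReal_mul, d.re]; congr 1; ring

lemma Sym.bound (hK : IsCompact K) (hm : ∀ x ∈ K, 0 < d.m x) {F : ℝ → E3 → ℂ}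
    (h : Sym d K k F) : ∃ C : ℝ, 0 ≤ C ∧ ∀ N : ℝ, 1 ≤ N → ∀ x, 0 ≤ ρ x →
      ‖F N x‖ ≤ C * N ^ k / (1 + (N * ρ x) ^ 2) := by
  induction h with
  | base l j a hl ha =>
    obtain ⟨m₀, hm₀, hm₁⟩ : ∃ m₀ : ℝ, 0 < m₀ ∧ ∀ x ∈ K, m₀ ≤ d.m x :=
      hK.exists_forall_le' d.hm.continuousOn hm
    obtain ⟨A, hA⟩ := hK.exists_bound_of_continuousOn ha.1.continuous.continuousOn
    refine ⟨|A| * (j.factorial / m₀ ^ j + (j + 2).factorial / m₀ ^ (j + 2)), by positivity,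
      fun N hN x hx => ?_⟩
    by_cases hxK : x ∈ K
    · obtain ⟨t, ht⟩ : ∃ t, t = N * ρ x := ⟨_, rfl⟩
      have hN0 : 0 ≤ N := by linarith
      have ht0 : 0 ≤ t := ht ▸ mul_nonneg hN0 hx
      have e : ‖T d l j a N x‖ = N ^ l * t ^ j * ‖a x‖ * Real.exp (-(d.m x * t)) := by
        rw [T, norm_mul, norm_E, ← ofReal_mul, ← ht]
        simp [abs_of_nonneg hN0, abs_of_nonneg ht0]
      rw [e, ← ht, le_div_iff₀ (by positivity)]
      have h1 := pow_exp_le ht0 hm₀ j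
      have h2 := pow_exp_le ht0 hm₀ (j + 2)
      calc _ ≤ N ^ k * t ^ j * |A| * Real.exp (-(m₀ * t)) * (1 + t ^ 2) := by
            gcongr
            exacts [(hA x hxK).trans (le_abs_self A), hm₁ x hxK]
        _ = |A| * (t ^ j * Real.exp (-(m₀ * t)) + t ^ (j + 2) * Real.exp (-(m₀ * t))) * N ^ k := by
            ring
        _ ≤ _ := by gcongr
    · have : 0 ≤ N := by linarith
      simp only [T, ha.2 x hxK, mul_zero, zero_mul, norm_zero]; positivity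
  | add _ _ h1 h2 =>
    obtain ⟨C, hC, h1⟩ := h1
    obtain ⟨C', hC', h2⟩ := h2
    refine ⟨C + C', by positivity, fun N hN x hx => (norm_add_le _ _).trans ?_⟩
    rw [add_mul, add_div]
    exact add_le_add (h1 N hN x hx) (h2 N hN x hx)

lemma bound_fin {ι : Type} [Fintype ι] (hK : IsCompact K) (hm : ∀ x ∈ K, 0 < d.m x)
    {F : ι → ℝ → E3 → ℂ} (h : ∀ i, Sym d K k (F i)) : ∃ C : ℝ, 0 ≤ C ∧ ∀ N : ℝ, 1 ≤ N →
      ∀ x, 0 ≤ ρ x → ∀ i, ‖F i N x‖ ≤ C * N ^ k / (1 + (N * ρ x) ^ 2) := by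
  choose C hC hb using fun i => (h i).bound hK hm
  refine ⟨∑ i, C i, Finset.sum_nonneg fun i _ => hC i, fun N hN x hx i =>
    (hb i N hN x hx).trans ?_⟩
  have : 0 ≤ N := by linarith
  gcongr
  exact Finset.single_le_sum (fun i _ => hC i) (Finset.mem_univ i)

def W (d : Dat ρ) (l : ℕ) (A B : E3 → ℂ) (N : ℝ) (x : E3) : ℂ :=
  (N : ℂ) ^ l * (N * ρ x * A x + B x) * cexp (N * d.θ x)

lemma W_eq (l : ℕ) (A B : E3 → ℂ) (N : ℝ) :
    W d l A B N = fun x => T d l 1 A N x + T d l 0 B N x := by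
  funext x; simp only [W, T]; ring

lemma sym_W {A B : E3 → ℂ} (hA : Amp K A) (hB : Amp K B) (l : ℕ) : Sym d K l (W d l A B) :=
  ((Sym.base l 1 A le_rfl hA).add (Sym.base l 0 B le_rfl hB)).congr fun N x => by rw [W_eq]

lemma pc_W (hK : IsClosed K) {A B : E3 → ℂ} (hA : Amp K A) (hB : Amp K B) (l : ℕ) (i : Fin 3) :
    ∃ R, Sym d K l R ∧ ∀ N, pc i (W d l A B N) = fun x => W d (l + 1) (fun y => d.ζ i y * A y)
      (fun y => nu ρ i y * A y + d.ζ i y * B y) N x + R N x := by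
  refine ⟨_, ((Sym.base l 1 _ le_rfl (hA.pc hK i)).add
    (Sym.base l 2 _ le_rfl (hA.mul (d.hb i).neg))).add ((Sym.base l 0 _ le_rfl (hB.pc hK i)).add
    (Sym.base l 1 _ le_rfl (hB.mul (d.hb i).neg))), fun N => funext fun x => ?_⟩
  rw [W_eq, pc_add (cs_T hA.1 _ _ _) (cs_T hB.1 _ _ _), pc_T hA.1, pc_T hB.1]
  simp only [W, T]
  push_cast
  ring

lemma pc_pc_W (hK : IsClosed K) {A B : E3 → ℂ} (hA : Amp K A) (hB : Amp K B) (i j : Fin 3) :
    ∃ R, Sym d K 1 R ∧ ∀ N x, pc i (pc j (W d 0 A B N)) x =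
      W d 2 (fun y => d.ζ i y * (d.ζ j y * A y)) (fun y => nu ρ i y * (d.ζ j y * A y) +
        d.ζ i y * (nu ρ j y * A y + d.ζ j y * B y)) N x + R N x := by
  obtain ⟨R, hR, e⟩ := pc_W (d := d) hK hA hB 0 j
  have hA' := hA.mul (d.hζ j)
  have hB' := (hA.mul (cs_nu d.hρ j)).add (hB.mul (d.hζ j))
  obtain ⟨R', hR', e'⟩ := pc_W (d := d) hK hA' hB' (0 + 1) i
  refine ⟨_, hR'.add (hR.pc hK i), fun N x => ?_⟩
  rw [e, pc_add ((sym_W hA' hB' _).amp N).1 (hR.amp N).1, e', add_assoc]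

/-- the complex Lame operator -/
def lc (lam mu : E3 → ℝ) (u : Fin 3 → E3 → ℂ) (i : Fin 3) (x : E3) : ℂ :=
  (mu x * ∑ j, pc j (pc j (u i)) x + ((lam x + mu x : ℝ) : ℂ) * ∑ j, pc i (pc j (u j)) x) +
    ((pd i lam x : ℂ) * ∑ j, pc j (u j) x +
      ∑ j, (pd j mu x : ℂ) * (pc j (u i) x + pc i (u j) x))

lemma dv_L (L : ℂ →L[ℝ] ℝ) {u : Fin 3 → E3 → ℂ} (hu : ∀ i, Cs (u i)) :
    dv (fun i y => L (u i y)) = fun x => L (∑ j, pc j (u j) x) := by
  funext x; simp only [dv, pd_L L (hu _), map_sum]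

lemma lame_L (L : ℂ →L[ℝ] ℝ) (lam mu : E3 → ℝ) {u : Fin 3 → E3 → ℂ} (hu : ∀ i, Cs (u i))
    (i : Fin 3) (x : E3) : lame lam mu (fun i y => L (u i y)) i x = L (lc lam mu u i x) := by
  have h : Cs fun x => ∑ j, pc j (u j) x := ContDiff.sum fun j _ => (hu j).pc j
  simp only [lame, lap, lc, dv_L L hu]
  rw [pd_L L h]
  simp only [pd_L L (hu _), pd_L L ((hu _).pc _),
    pc_sum fun j => (hu j).pc j, ← real_smul, map_add, map_smul, map_sum, smul_eq_mul]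
  ring

lemma sym_lc (hK : IsClosed K) {lam mu : E3 → ℝ} (hl : Sm lam) (hmu : Sm mu)
    {A B : Fin 3 → E3 → ℂ} (hA : ∀ i, Amp K (A i)) (hB : ∀ i, Amp K (B i)) (i : Fin 3)
    (h1 : ∀ x, mu x * ∑ j, d.ζ j x * (d.ζ j x * A i x) +
      ((lam x + mu x : ℝ) : ℂ) * ∑ j, d.ζ i x * (d.ζ j x * A j x) = 0)
    (h2 : ∀ x, mu x * ∑ j, (nu ρ j x * (d.ζ j x * A i x) +
        d.ζ j x * (nu ρ j x * A i x + d.ζ j x * B i x)) +
      ((lam x + mu x : ℝ) : ℂ) * ∑ j, (nu ρ i x * (d.ζ j x * A j x) +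
        d.ζ i x * (nu ρ j x * A j x + d.ζ j x * B j x)) = 0) :
    Sym d K 1 fun N => lc lam mu (fun i => W d 0 (A i) (B i) N) i := by
  choose R hR e using fun a b c => pc_pc_W (d := d) hK (hA c) (hB c) a b
  have h0 : ∀ a c, Sym d K 1 fun N => pc a (W d 0 (A c) (B c) N) := fun a c =>
    (sym_W (hA c) (hB c) 0).pc hK a
  refine ((((Sym.sum fun j => hR j j i).mul (cs_re hmu)).add
    ((Sym.sum fun j => hR i j j).mul (cs_re (hl.add hmu)))).add
    (((Sym.sum fun j => h0 j j).mul (cs_re (sm_pd hl i))).add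
    (Sym.sum fun j => ((h0 j i).add (h0 i j)).mul (cs_re (sm_pd hmu j))))).congr fun N x => ?_
  simp only [lc, e]
  congr 1
  have h1 := h1 x
  have h2 := h2 x
  simp only [W, Fin.sum_univ_three] at h1 h2 ⊢
  linear_combination (N : ℂ) ^ 2 * (N * ρ x) * cexp (N * d.θ x) * h1 +
    (N : ℂ) ^ 2 * cexp (N * d.θ x) * h2

lemma lower (hK : IsCompact K) (hm : ∀ x ∈ K, 0 < d.m x) {R : ℝ → E3 → ℂ} (hR : Sym d K 0 R)
    {a : E3 → ℂ} (ha : Continuous a) {K₀ : Set E3} (hK₀ : IsCompact K₀) (h0 : ∀ x ∈ K₀, a x ≠ 0) :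
    ∃ c N₀ : ℝ, 0 < c ∧ 1 ≤ N₀ ∧ ∀ N : ℝ, N₀ ≤ N → ∀ x ∈ K₀, 0 ≤ ρ x → ρ x < 2 / N →
      c * N ^ 2 ≤ ‖N * a x * cexp (N * d.θ x) + R N x‖ ^ 2 := by
  obtain ⟨C, hC, hb⟩ := hR.bound hK hm
  obtain ⟨a₀, ha₀, ha₁⟩ : ∃ a₀ : ℝ, 0 < a₀ ∧ ∀ x ∈ K₀, a₀ ≤ ‖a x‖ :=
    hK₀.exists_forall_le' ha.norm.continuousOn fun x hx => norm_pos_iff.2 (h0 x hx)
  obtain ⟨M, hM⟩ := hK₀.exists_bound_of_continuousOn d.hm.continuousOn
  obtain ⟨c, hc, ec⟩ : ∃ c : ℝ, 0 < c ∧ c = a₀ * Real.exp (-(M * 2)) := ⟨_, by positivity, rfl⟩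
  refine ⟨(c / 2) ^ 2, 1 + 2 * C / c, by positivity, le_add_of_nonneg_right (by positivity),
    fun N hN x hx hρ hρ' => ?_⟩
  have h1 : 0 ≤ 2 * C / c := by positivity
  have hN0 : 0 < N := by linarith
  have h2 : ‖R N x‖ ≤ C := by
    refine (hb N (by linarith) x hρ).trans ?_
    rw [pow_zero, mul_one]
    exact div_le_self hC (le_add_of_nonneg_right (by positivity))
  have h3 : N * c ≤ ‖N * a x * cexp (N * d.θ x)‖ := by
    rw [norm_mul, norm_mul, norm_E, Complex.norm_real, Real.norm_of_nonneg hN0.le, ec, mul_assoc]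
    have h4 : N * ρ x ≤ 2 := by rw [lt_div_iff₀ hN0] at hρ'; linarith
    have h5 : d.m x * (N * ρ x) ≤ M * 2 :=
      mul_le_mul ((le_abs_self _).trans (hM x hx)) h4 (by positivity)
        ((abs_nonneg _).trans (hM x hx))
    gcongr
    exact ha₁ x hx
  have h6 : 2 * C ≤ N * c := by
    rw [← div_le_iff₀ hc]; linarith
  have h7 := norm_sub_le (N * a x * cexp (N * d.θ x) + R N x) (R N x)
  rw [add_sub_cancel_right] at h7
  rw [← mul_pow]
  exact pow_le_pow_left₀ (by positivity) (by linarith) 2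

lemma extend {f : E3 → ℝ} {U : Set E3} {p : E3} (hU : IsOpen U) (hp : p ∈ U)
    (hf : ContDiffOn ℝ ∞ f U) : ∃ g, Sm g ∧ g =ᶠ[𝓝 p] f := by
  obtain ⟨ε, hε, hs⟩ := Metric.isOpen_iff.1 hU p hp
  let χ : ContDiffBump p := ⟨ε / 4, ε / 2, by positivity, by linarith⟩
  have h1 : tsupport χ ⊆ U := by
    rw [χ.tsupport_eq]
    exact (closedBall_subset_ball (show ε / 2 < ε by linarith)).trans hs
  refine ⟨_, (Tst.mul_on hU ⟨χ.contDiff, χ.hasCompactSupport⟩ h1 hf).1, ?_⟩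
  filter_upwards [χ.eventuallyEq_one] with x hx
  simp [hx]

lemma exists_dat {p : E3} (hρ : Sm ρ) (hp : fderiv ℝ ρ p ≠ 0) : ∃ d : Dat ρ, ∀ᶠ x in 𝓝 p,
    0 < d.m x ∧ ∑ j, d.ζ j x * d.ζ j x = 0 ∧ ∑ j, nu ρ j x * d.ζ j x ≠ 0 := by
  obtain ⟨n, hn⟩ : ∃ n : E3 → ℝ, n = fun x => ∑ j, pd j ρ x ^ 2 := ⟨_, rfl⟩
  have sn : Sm n := hn ▸ Sm.sum fun j _ => (sm_pd hρ j).pow 2
  have hk : ∃ k, 0 < n p - pd k ρ p ^ 2 := by
    by_contra hcon
    push Not at hcon
    have h0 := hcon 0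
    have h1 := hcon 1
    have h2 := hcon 2
    simp only [hn, Fin.sum_univ_three] at h0 h1 h2
    have hz : ∀ j, pd j ρ p = 0 := fun j => by
      have := sq_nonneg (pd 0 ρ p)
      have := sq_nonneg (pd 1 ρ p)
      have := sq_nonneg (pd 2 ρ p)
      fin_cases j <;> exact pow_eq_zero_iff (two_ne_zero) |>.1 (by simp; nlinarith)
    apply hp
    refine ContinuousLinearMap.coe_injective ((EuclideanSpace.basisFun (Fin 3) ℝ).toBasis.ext
      fun j => ?_)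
    simpa [pd] using hz j
  obtain ⟨k, hk⟩ := hk
  have sq : Sm fun x => n x - pd k ρ x ^ 2 := sn.sub ((sm_pd hρ k).pow 2)
  have hU : IsOpen {x | 0 < n x - pd k ρ x ^ 2} := isOpen_lt continuous_const sq.cont
  have hn0 : ∀ x, 0 < n x - pd k ρ x ^ 2 → 0 < n x := fun x hx => by
    linarith [sq_nonneg (pd k ρ x)]
  obtain ⟨m, sm, em⟩ := extend (f := fun x => √(n x - pd k ρ x ^ 2) / n x) hU hk
    ((sq.contDiffOn.sqrt fun x hx => ne_of_gt hx).div sn.contDiffOn fun x hx => (hn0 x hx).ne')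
  obtain ⟨c, sc, ec⟩ := extend (f := fun x => pd k ρ x / n x) hU hk
    ((sm_pd hρ k).contDiffOn.div sn.contDiffOn fun x hx => (hn0 x hx).ne')
  have sβ : Cs fun x => (m x : ℂ) + c x * I := (cs_re sm).add ((cs_re sc).mul contDiff_const)
  have sx : Sm fun x : E3 => x k := (EuclideanSpace.proj k : E3 →L[ℝ] ℝ).contDiff
  have dx : ∀ j x, pd j (fun x : E3 => x k) x = if j = k then 1 else 0 := fun j x => by
    have := (EuclideanSpace.proj k : E3 →L[ℝ] ℝ).fderiv (x := x)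
    simp only [pd]
    change fderiv ℝ (EuclideanSpace.proj k : E3 →L[ℝ] ℝ) x _ = _
    rw [this]; simp [Pi.single_apply, eq_comm]
  refine ⟨⟨fun x => I * (x k : ℝ) - (m x + c x * I) * ρ x,
    fun j x => I * (if j = k then 1 else 0) - (m x + c x * I) * nu ρ j x,
    fun j => pc j fun x => (m x : ℂ) + c x * I, m, hρ,
    (contDiff_const.mul (cs_re sx)).sub (sβ.mul (cs_re hρ)),
    fun j => contDiff_const.sub (sβ.mul (cs_nu hρ j)), fun j => sβ.pc j, sm.cont,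
    fun j x => ?_, fun x => by simp⟩, ?_⟩
  · rw [pc_sub (contDiff_const.mul (cs_re sx)) (sβ.mul (cs_re hρ)),
      pc_mul contDiff_const (cs_re sx), pc_mul sβ (cs_re hρ), pc_re sx, pc_re hρ, dx, pc_const, nu]
    split_ifs <;> simp <;> ring
  · filter_upwards [em, ec, hU.mem_nhds hk] with x hm hc hx
    have hx : 0 < n x - pd k ρ x ^ 2 := hx
    have hn1 := hn0 x hx
    have hm0 : 0 < m x := by rw [hm]; exact div_pos (Real.sqrt_pos.2 hx) hn1
    have e1 : (c x : ℂ) * n x = nu ρ k x := by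
      rw [hc, nu]; norm_cast; field_simp
    have e2 : ((m x : ℂ) * n x) ^ 2 = n x - nu ρ k x ^ 2 := by
      rw [hm, nu]; norm_cast
      rw [div_mul_cancel₀ _ hn1.ne', Real.sq_sqrt hx.le]
    have e3 : (n x : ℂ) = ∑ j, nu ρ j x ^ 2 := by simp [hn, nu]
    have e4 : ∑ j, (if j = k then (1 : ℂ) else 0) * (if j = k then 1 else 0) = 1 := by simp
    have e5 : ∑ j, (if j = k then (1 : ℂ) else 0) * nu ρ j x = nu ρ k x := by simp
    have hn2 : (n x : ℂ) ≠ 0 := by exact_mod_cast hn1.ne'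
    have hm2 : (m x : ℂ) ≠ 0 := by exact_mod_cast hm0.ne'
    simp only [Fin.sum_univ_three] at e3 e4 e5 ⊢
    refine ⟨hm0, mul_left_cancel₀ hn2 ?_, ?_⟩
    · linear_combination (n x : ℂ) * I ^ 2 * e4 - 2 * n x * I * (m x + c x * I) * e5 -
        n x * (m x + c x * I) ^ 2 * e3 + e2 +
        (2 * I * m x * n x + I ^ 2 * (c x * n x - nu ρ k x)) * e1 +
        (n x - nu ρ k x ^ 2) * I_sq
    · intro h
      apply mul_ne_zero hm2 hn2
      linear_combination -h + I * e5 + (m x + c x * I) * e3 - I * e1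

def LL (s : Fin 2) : ℂ →L[ℝ] ℝ := ![reCLM, imCLM] s

lemma LL_le (s : Fin 2) (z : ℂ) : |LL s z| ≤ ‖z‖ := by
  fin_cases s
  exacts [abs_re_le_norm z, abs_im_le_norm z]

lemma LL_sq (z : ℂ) : ∑ s, LL s z ^ 2 = ‖z‖ ^ 2 := by
  rw [Complex.sq_norm, normSq_apply, Fin.sum_univ_two]
  simp [LL, sq]

lemma isTest_L (L : ℂ →L[ℝ] ℝ) {U : Set E3} (hK : IsCompact K) (hU : K ⊆ U) {a : E3 → ℂ}
    (ha : Amp K a) : IsTest U fun x => L (a x) := by
  have h : tsupport (fun x => L (a x)) ⊆ K := closure_minimal (fun x hx => by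
    by_contra h; exact hx (by simp [ha.2 x h])) hK.isClosed
  exact ⟨L.contDiff.comp ha.1, hK.of_isClosed_subset (isClosed_tsupport _) h, h.trans hU⟩

lemma bump (p : E3) {r : ℝ} (hr : 0 < r) : ∃ χ : E3 → ℂ, Amp (closedBall p (3 / 4 * r)) χ ∧
    ∀ x ∈ closedBall p (r / 2), χ x = 1 := by
  let χ : ContDiffBump p := ⟨r / 2, 3 / 4 * r, by positivity, by linarith⟩
  refine ⟨fun x => (χ x : ℂ), ⟨cs_re χ.contDiff, fun x hx => ?_⟩, fun x hx => ?_⟩
  · simp [χ.zero_of_le_dist (le_of_lt (by simpa using hx))]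
  · simp [χ.one_of_mem_closedBall hx]

end WKB

open WKB

theorem s_wkbMu : S_wkbMu := by
  intro ρ lam mu p hρ hl hmu _ hp
  obtain ⟨d, hd⟩ := exists_dat hρ hp
  obtain ⟨k, hk⟩ : ∃ k, d.ζ k p ≠ 0 := by
    by_contra hcon
    push Not at hcon
    exact hd.self_of_nhds.2.2 (by simp [hcon])
  obtain ⟨r₀, hr₀, hb⟩ := Metric.eventually_nhds_iff_ball.1
    (hd.and ((d.hζ k).continuous.continuousAt.eventually_ne hk))
  refine ⟨r₀, hr₀, fun r hr hrr => ?_⟩
  obtain ⟨χ, hχ, hχ1⟩ := bump p hr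
  have hK := isCompact_closedBall p (3 / 4 * r)
  have hKr : closedBall p (3 / 4 * r) ⊆ ball p r := closedBall_subset_ball (by linarith)
  have hK0 : ∀ x ∈ closedBall p (3 / 4 * r), _ := fun x hx => hb x (ball_subset_ball hrr (hKr hx))
  have hm := fun x hx => (hK0 x hx).1.1
  have hz : ∀ x, (∑ j, d.ζ j x * d.ζ j x) * χ x = 0 := fun x => by
    by_cases hx : x ∈ closedBall p (3 / 4 * r)
    · rw [(hK0 x hx).1.2.1, zero_mul]
    · rw [hχ.2 x hx, mul_zero]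
  have hA : Amp (closedBall p (3 / 4 * r)) fun _ => 0 := ⟨contDiff_const, fun _ _ => rfl⟩
  have hB := fun i => hχ.mul (d.hζ i)
  obtain ⟨C₁, hC₁, b₁⟩ := bound_fin hK hm fun i => sym_lc (d := d) hK.isClosed hl hmu
    (fun _ => hA) hB i (fun x => by simp) fun x => by
      have := hz x
      simp only [Fin.sum_univ_three] at this ⊢
      linear_combination (mu x + ((lam x + mu x : ℝ) : ℂ)) * d.ζ i x * this
  choose R hR eR using fun i => pc_W (d := d) hK.isClosed hA (hB i) 0 i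
  obtain ⟨C₂, hC₂, b₂⟩ := (Sym.sum hR).bound hK hm
  obtain ⟨c, N₀, hc, hN₀, b₃⟩ := lower hK hm (hR k)
    (a := fun x => d.ζ k x * (d.ζ k x * χ x))
    ((d.hζ k).continuous.mul (hB k).1.continuous) (isCompact_closedBall p (r / 2)) fun x hx => by
      have := (hK0 x (closedBall_subset_closedBall (by linarith) hx)).2
      simp [hχ1 x hx, this]
  refine ⟨C₁ + C₂ ^ 2, c, N₀, by positivity, hc, hN₀, fun N hN => ?_⟩
  have hN1 : 1 ≤ N := hN₀.trans hN
  have hW := fun i => (sym_W (d := d) hA (hB i) 0).amp N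
  refine ⟨fun s i x => LL s (W d 0 (fun _ => 0) (fun y => d.ζ i y * χ y) N x),
    fun s i => isTest_L _ hK hKr (hW i), fun x hx => ⟨fun s i => ?_, fun s => ?_, ?_⟩⟩
  · rw [lame_L _ _ _ fun i => (hW i).1]
    refine ((LL_le _ _).trans (b₁ N hN1 x hx i)).trans ?_
    rw [pow_one]
    gcongr
    exact le_add_of_nonneg_right (by positivity)
  · rw [dv_L _ fun i => (hW i).1]
    have e : ∑ j, pc j (W d 0 (fun _ => 0) (fun y => d.ζ j y * χ y) N) x = ∑ j, R j N x := by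
      have := hz x
      simp only [eR, W, Fin.sum_univ_three] at this ⊢
      linear_combination N * cexp (N * d.θ x) * this
    have h1 := (LL_le s _).trans (b₂ N hN1 x hx)
    rw [pow_zero, mul_one] at h1
    have h2 : 1 ≤ 1 + (N * ρ x) ^ 2 := le_add_of_nonneg_right (by positivity)
    simp only [e]
    calc _ ≤ (C₂ / (1 + (N * ρ x) ^ 2)) ^ 2 := by
          rw [← sq_abs]; exact pow_le_pow_left₀ (abs_nonneg _) h1 2
      _ ≤ (C₁ + C₂ ^ 2) / (1 + (N * ρ x) ^ 2) := by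
          rw [div_pow]
          gcongr
          exacts [le_add_of_nonneg_left hC₁, le_self_pow₀ h2 two_ne_zero]
  · intro h1 _ h3
    refine (b₃ N hN x (ball_subset_closedBall h1) hx h3).trans ?_
    rw [← LL_sq]
    refine Finset.sum_le_sum fun s _ => ?_
    refine le_trans ?_ (Finset.single_le_sum
      (fun i _ => Finset.sum_nonneg fun j _ => sq_nonneg _) (Finset.mem_univ k))
    refine le_trans (le_of_eq ?_) (Finset.single_le_sum (fun j _ => sq_nonneg _) (Finset.mem_univ k))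
    simp only [pd_L _ (hW _).1, eR, add_self_div_two]
    simp [W]

theorem s_wkbLam : S_wkbLam := by
  intro ρ lam mu p hρ hl hmu _ hp hmp hlp
  obtain ⟨d, hd⟩ := exists_dat hρ hp
  have hU : IsOpen {x | 0 < lam x + mu x} := isOpen_lt continuous_const (hl.add hmu).cont
  obtain ⟨g, sg, eg⟩ := extend (f := fun x => -2 * mu x / (lam x + mu x)) hU hlp
    ((hmu.cmul _).contDiffOn.div (hl.add hmu).contDiffOn fun x hx => ne_of_gt hx)
  have hg : ∀ᶠ x in 𝓝 p, ((lam x + mu x : ℝ) : ℂ) * g x = -2 * mu x ∧ (g x : ℂ) ≠ 0 := by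
    filter_upwards [eg, hU.mem_nhds hlp, hmu.cont.continuousAt.eventually_ne hmp.ne'] with x h1 h2 h3
    have h2 : lam x + mu x ≠ 0 := ne_of_gt h2
    rw [h1]
    norm_cast
    exact ⟨by push_cast; field_simp, div_ne_zero (mul_ne_zero (by norm_num) h3) h2⟩
  obtain ⟨r₀, hr₀, hb⟩ := Metric.eventually_nhds_iff_ball.1 (hd.and hg)
  refine ⟨r₀, hr₀, fun r hr hrr => ?_⟩
  obtain ⟨χ, hχ, hχ1⟩ := bump p hr
  have hK := isCompact_closedBall p (3 / 4 * r)
  have hKr : closedBall p (3 / 4 * r) ⊆ ball p r := closedBall_subset_ball (by linarith)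
  have hK0 : ∀ x ∈ closedBall p (3 / 4 * r), _ := fun x hx => hb x (ball_subset_ball hrr (hKr hx))
  have hm := fun x hx => (hK0 x hx).1.1
  have hz : ∀ x, (∑ j, d.ζ j x * d.ζ j x) * χ x = 0 := fun x => by
    by_cases hx : x ∈ closedBall p (3 / 4 * r)
    · rw [(hK0 x hx).1.2.1, zero_mul]
    · rw [hχ.2 x hx, mul_zero]
  have hz' : ∀ x, (((lam x + mu x : ℝ) : ℂ) * g x + 2 * mu x) * χ x = 0 := fun x => by
    by_cases hx : x ∈ closedBall p (3 / 4 * r)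
    · rw [(hK0 x hx).2.1]; ring
    · rw [hχ.2 x hx, mul_zero]
  have hA := fun i => hχ.mul (d.hζ i)
  have hB := fun i => hχ.mul (g := fun y => ((g y : ℂ) - 1) * nu ρ i y)
    (((cs_re sg).sub contDiff_const).mul (cs_nu hρ i))
  obtain ⟨C₁, hC₁, b₁⟩ := bound_fin hK hm fun i => sym_lc (d := d) hK.isClosed hl hmu hA hB i
    (fun x => by
      have := hz x
      simp only [Fin.sum_univ_three] at this ⊢
      linear_combination (mu x + ((lam x + mu x : ℝ) : ℂ)) * d.ζ i x * this) fun x => by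
      have h1 := hz x
      have h2 := hz' x
      simp only [Fin.sum_univ_three] at h1 ⊢
      linear_combination (mu x * (g x - 1) + ((lam x + mu x : ℝ) : ℂ)) * nu ρ i x * h1 +
        d.ζ i x * (nu ρ 0 x * d.ζ 0 x + nu ρ 1 x * d.ζ 1 x + nu ρ 2 x * d.ζ 2 x) * h2
  choose R hR eR using fun i => pc_W (d := d) hK.isClosed (hA i) (hB i) 0 i
  obtain ⟨C₂, hC₂, b₂⟩ := bound_fin hK hm fun q : Fin 3 × Fin 3 =>
    (sym_W (d := d) (hA q.1) (hB q.1) 0).pc hK.isClosed q.2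
  obtain ⟨c, N₀, hc, hN₀, b₃⟩ := lower hK hm (Sym.sum hR)
    (a := fun x => g x * (∑ j, nu ρ j x * d.ζ j x) * χ x)
    (((cs_re sg).continuous.mul (continuous_finset_sum _ fun j _ =>
      (cs_nu hρ j).continuous.mul (d.hζ j).continuous)).mul hχ.1.continuous)
    (isCompact_closedBall p (r / 2)) fun x hx => by
      have := hK0 x (closedBall_subset_closedBall (by linarith) hx)
      rw [hχ1 x hx, mul_one]
      exact mul_ne_zero this.2.2 this.1.2.2
  refine ⟨C₁ + 9 * C₂ ^ 2, c, N₀, by positivity, hc, hN₀, fun N hN => ?_⟩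
  have hN1 : 1 ≤ N := hN₀.trans hN
  have hW := fun i => (sym_W (d := d) (hA i) (hB i) 0).amp N
  refine ⟨fun s i x => LL s (W d 0 (fun y => d.ζ i y * χ y)
    (fun y => ((g y : ℂ) - 1) * nu ρ i y * χ y) N x),
    fun s i => isTest_L _ hK hKr (hW i), fun x hx => ⟨fun s i => ?_, fun s => ?_, ?_⟩⟩
  · rw [lame_L _ _ _ fun i => (hW i).1]
    refine ((LL_le _ _).trans (b₁ N hN1 x hx i)).trans ?_
    rw [pow_one]
    gcongr
    exact le_add_of_nonneg_right (by positivity)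
  · simp only [esq, pd_L _ (hW _).1]
    have h1 := fun i j => abs_le.1 ((LL_le s _).trans (b₂ N hN1 x hx (i, j)))
    simp only [zero_add, pow_one] at h1
    calc _ ≤ ∑ _i : Fin 3, ∑ _j : Fin 3, (C₂ * N / (1 + (N * ρ x) ^ 2)) ^ 2 :=
          Finset.sum_le_sum fun i _ => Finset.sum_le_sum fun j _ =>
            sq_le_sq' (by linarith [(h1 i j).1, (h1 j i).1]) (by linarith [(h1 i j).2, (h1 j i).2])
      _ = 9 * C₂ ^ 2 * N ^ 2 / (1 + (N * ρ x) ^ 2) ^ 2 := by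
          simp only [Fin.sum_univ_three, div_pow]; ring
      _ ≤ _ := by
          gcongr
          exact le_add_of_nonneg_left hC₁
  · intro h1 _ h3
    refine (b₃ N hN x (ball_subset_closedBall h1) hx h3).trans (le_of_eq ?_)
    simp only [dv_L _ fun i => (hW i).1, LL_sq]
    congr 2
    have := hz x
    simp only [eR, W, Fin.sum_univ_three] at this ⊢
    linear_combination -(N * (N * ρ x) * cexp (N * d.θ x)) * this

end Vale.Agent.P136
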