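import Vale.Agent.P136.Basic

/-!
# P136: interior regularity for weak solutions of the Lamé system
-/

open MeasureTheory Set Metric
open scoped ContDiff Topology SchwartzMap

noncomputable section
namespace Vale.Agent.P136

namespace WeylLame

variable {U : Set E3} {k : ℕ} {f g ψ : E3 → ℝ}

/-- Locally square integrable and of local Sobolev order `k`. -/
def R (k : ℕ) (U : Set E3) (f : E3 → ℝ) : Prop := LocL2 U f ∧ WK k U f

lemma zero_out (h : IsTest U ψ) {x : E3} (hx : x ∉ U) : ψ x = 0 :=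
  image_eq_zero_of_notMem_tsupport fun h' => hx (h.2.2 h')

lemma setI (h : IsTest U ψ) (f : E3 → ℝ) : ∫ x in U, f x * ψ x = ∫ x, f x * ψ x :=
  setIntegral_eq_integral_of_forall_compl_eq_zero fun x hx => by rw [zero_out h hx, mul_zero]

lemma integ (hf : LocL2 U f) (h : IsTest U ψ) : Integrable fun x => f x * ψ x := by
  have := (hf ψ h).mono_exponent_of_measure_support_ne_top (p := 1) (s := tsupport ψ)
    (fun x hx => by rw [image_eq_zero_of_notMem_tsupport hx, zero_mul])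
    h.2.1.isCompact.measure_lt_top.ne (by norm_num)
  simpa only [mul_comm] using memLp_one_iff_integrable.1 this

lemma sm_pds (hf : Sm f) (β : List (Fin 3)) : Sm (pds β f) := by
  induction β with
  | nil => exact hf
  | cons j β ih => exact ih.D _

lemma integ' (hf : LocL2 U f) (h : IsTest U ψ) (β : List (Fin 3)) (Θ : 𝓢(E3, ℝ)) :
    Integrable fun x => f x * ψ x * pds β Θ x := by
  simpa only [mul_assoc, mul_comm (ψ _)] using
    integ hf (h.mul_left (sm_pds (Θ.smooth ⊤) β))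

lemma R.mul {m : E3 → ℝ} (hm : Sm m) (h : R k U f) : R k U fun x => m x * f x := by
  refine ⟨fun θ hθ => ?_, fun θ hθ β hβ => ?_⟩
  · simpa only [mul_assoc, mul_left_comm (θ _)] using h.1 _ (hθ.mul_left hm)
  · simpa only [mul_assoc, mul_left_comm (f _) (m _)] using h.2 _ (hθ.mul_left hm) β hβ

lemma R.add (h : R k U f) (h' : R k U g) : R k U fun x => f x + g x := by
  refine ⟨fun θ hθ => ?_, fun θ hθ β hβ => ?_⟩
  · simp only [mul_add]
    exact (h.1 θ hθ).add (h'.1 θ hθ)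
  · obtain ⟨C, hC⟩ := h.2 θ hθ β hβ
    obtain ⟨C', hC'⟩ := h'.2 θ hθ β hβ
    refine ⟨C + C', fun Θ => ?_⟩
    simp only [add_mul]
    rw [integral_add (integ' h.1 hθ β Θ) (integ' h'.1 hθ β Θ)]
    exact (abs_add_le _ _).trans (add_le_add (hC Θ) (hC' Θ))

lemma R.zero : R k U fun _ => 0 :=
  ⟨fun θ _ => by simp, fun θ _ β _ => ⟨0, fun Θ => by simp⟩⟩

lemma R.sum {F : Fin 3 → E3 → ℝ} (h : ∀ i, R k U (F i)) : R k U fun x => ∑ i, F i x := by
  simpa only [Fin.sum_univ_three] using ((h 0).add (h 1)).add (h 2)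

lemma R.of_memLp (hU : IsOpen U) (h : MemLp f 2 (volume.restrict U)) : R 0 U f := by
  have h1 : LocL2 U f := fun θ hθ => by
    have h2 : MemLp (fun x => θ x * f x) 2 (volume.restrict U) :=
      h.mul' (hθ.1.continuous.memLp_top_of_hasCompactSupport hθ.2.1 _)
    refine ((memLp_indicator_iff_restrict hU.measurableSet).2 h2).ae_eq (.of_forall fun x => ?_)
    by_cases hx : x ∈ U
    · rw [indicator_of_mem hx]
    · simp [hx, zero_out hθ hx]
  refine ⟨h1, fun θ hθ β hβ => ⟨√(∫ x, (θ x * f x) ^ 2), fun Θ => ?_⟩⟩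
  obtain rfl : β = [] := List.length_eq_zero_iff.1 (Nat.le_zero.1 hβ)
  have i1 := (h1 θ hθ).integrable_sq
  have i2 := (Θ.memLp 2 volume).integrable_sq
  rw [← one_mul √(∫ x, (θ x * f x) ^ 2)]
  refine le_sqrt_mul_sqrt zero_le_one (integral_nonneg fun _ => sq_nonneg _)
    (integral_nonneg fun _ => sq_nonneg _) fun s hs => ?_
  rw [one_mul, ← integral_const_mul, ← integral_const_mul,
    ← integral_add (i1.const_mul _) (i2.const_mul _), ← integral_div]
  refine abs_integral_le_integral_abs.trans (integral_mono (integ' h1 hθ [] Θ).abs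
    ((iadd (i1.const_mul _) (i2.const_mul _)).div_const _) fun x => ?_)
  have a1 : 0 ≤ s⁻¹ * (s * |θ x * f x| - |Θ x|) ^ 2 := by positivity
  have a2 : s⁻¹ * (s * |θ x * f x| - |Θ x|) ^ 2 =
      s * (θ x * f x) ^ 2 + s⁻¹ * Θ x ^ 2 - 2 * (|θ x * f x| * |Θ x|) := by
    rw [← sq_abs (θ x * f x), ← sq_abs (Θ x)]
    field_simp
    ring
  change |f x * θ x * Θ x| ≤ _
  rw [mul_comm (f x), abs_mul]
  beta_reduce
  linarith

lemma step (h1 : S_wkStep) (hU : IsOpen U) {F : Fin 3 → E3 → ℝ} {H : E3 → ℝ} (i j : Fin 3)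
    (hf : R k U f) (hF : ∀ i, R k U (F i)) (hH : R (k + 1) U H)
    (h : ∀ ψ, IsTest U ψ → ∫ x, f x * lap ψ x =
      (∫ x, H x * pd i (pd j ψ) x) - ∑ i, ∫ x, F i x * pd i ψ x) : R (k + 1) U f := by
  have hH' := fun a b : Fin 3 =>
    hH.mul (Sm.const ((if a = i then 1 else 0) * if b = j then 1 else 0))
  refine ⟨hf.1, h1 k U f (fun _ => 0) F _ hU hf.1 (R.zero (k := k)).1 (fun i => (hF i).1)
    (fun a b => (hH' a b).1) hf.2 R.zero.2 (fun i => (hF i).2) (fun a b => (hH' a b).2)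
    fun ψ hψ => ?_⟩
  simp only [mul_assoc, integral_const_mul]
  simp [h ψ hψ]

lemma test_lap (h : IsTest U ψ) : IsTest U (lap ψ) := by
  have : lap ψ = fun x => pd 0 (pd 0 ψ) x + pd 1 (pd 1 ψ) x + pd 2 (pd 2 ψ) x :=
    funext fun x => Fin.sum_univ_three _
  rw [this]
  exact (((h.pd 0).pd 0).add ((h.pd 1).pd 1)).add ((h.pd 2).pd 2)

lemma int_lap (hf : LocL2 U f) (h : IsTest U ψ) :
    ∫ x, f x * lap ψ x = ∑ j, ∫ x, f x * pd j (pd j ψ) x := by
  simp only [lap, Finset.mul_sum]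
  exact integral_finsetSum _ fun j _ => integ hf ((h.pd j).pd j)

lemma int_sum {F : Fin 3 → E3 → ℝ} (hf : ∀ i, LocL2 U (F i)) (h : IsTest U ψ) :
    ∫ x, (∑ i, F i x) * ψ x = ∑ i, ∫ x, F i x * ψ x := by
  simp only [Finset.sum_mul]
  exact integral_finsetSum _ fun j _ => integ (hf j) h

variable {lam mu : E3 → ℝ} {u : Fin 3 → E3 → ℝ} {G : Fin 3 → Fin 3 → E3 → ℝ}

lemma weak (h : IsH1 U u G) (hψ : IsTest U ψ) (i j : Fin 3) :
    ∫ x, u i x * pd j ψ x = -∫ x, G i j x * ψ x := by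
  rw [← setI hψ, ← setI (hψ.pd j)]
  exact h.2.2 i j ψ hψ

lemma curl (h : IsH1 U u G) (hψ : IsTest U ψ) (i j l : Fin 3) :
    ∫ x, G i j x * pd l ψ x = ∫ x, G i l x * pd j ψ x := by
  rw [← neg_inj, ← weak h (hψ.pd l), ← weak h (hψ.pd j),
    show pd j (pd l ψ) = pd l (pd j ψ) from D_comm hψ.1 _ _]

/-- The test field with one component. -/
def one (i : Fin 3) (ψ : E3 → ℝ) : Fin 3 → E3 → ℝ := fun a => if a = i then ψ else fun _ => 0

lemma one_test (h : IsTest U ψ) (i a : Fin 3) : IsTest U (one i ψ a) := by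
  unfold one
  split_ifs
  exacts [h, IsTest.zero U]

lemma grad_one (i a b : Fin 3) (x : E3) :
    grad (one i ψ) a b x = if a = i then pd b ψ x else 0 := by
  unfold grad one
  split_ifs
  exacts [rfl, D_const _ _ _]

/-- The lower order term. -/
def Q (lam mu : E3 → ℝ) (G : Fin 3 → Fin 3 → E3 → ℝ) (i : Fin 3) (x : E3) : ℝ :=
  lam x * pd i (fun y => (mu y)⁻¹) x * ∑ a, G a a x +
    ∑ b, mu x * pd b (fun y => (mu y)⁻¹) x * (G i b x + G b i x)

lemma R.Q (hl : Sm lam) (hm : Sm mu) (h0 : ∀ x, mu x ≠ 0) (h : ∀ i j, R k U (G i j)) (i : Fin 3) :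
    R k U (Q lam mu G i) :=
  (R.mul (hl.mul (Sm.D (hm.inv h0) _)) (R.sum fun a => h a a)).add
    (R.sum fun b => R.mul (hm.mul (Sm.D (hm.inv h0) _)) ((h i b).add (h b i)))

lemma main (hl : Sm lam) (hm : Sm mu) (h0 : ∀ x, mu x ≠ 0) (h : IsSol U lam mu u G)
    (hG : ∀ i j, R k U (G i j)) (hψ : IsTest U ψ) (i j : Fin 3) :
    ∫ x, G i j x * lap ψ x =
      (∫ x, -(lam x * (mu x)⁻¹ + 1) * (∑ a, G a a x) * pd i (pd j ψ) x) -
        ∫ x, Q lam mu G i x * pd j ψ x := by
  have hg : Sm fun y => (mu y)⁻¹ := hm.inv h0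
  have hχ := hψ.pd j
  have e := h.2 _ (one_test (hχ.mul_left hg) i)
  have hd := R.sum fun a => hG a a
  have i1 := integ (hd.mul (hl.mul hg)).1 (hχ.pd i)
  have i2 := fun b => integ (hG i b).1 (hχ.pd b)
  have i3 := fun b => integ (hG b i).1 (hχ.pd b)
  have i4 := integ (R.Q hl hm h0 hG i).1 hχ
  have e1 : ∀ x, fdens lam mu G (grad (one i fun x => (mu x)⁻¹ * pd j ψ x)) x =
      lam x * (mu x)⁻¹ * (∑ a, G a a x) * pd i (pd j ψ) x + ∑ b, G i b x * pd b (pd j ψ) x +
        ∑ b, G b i x * pd b (pd j ψ) x + Q lam mu G i x * pd j ψ x := fun x => by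
    have e2 : ∀ b, pd b (fun x => (mu x)⁻¹ * pd j ψ x) x =
        (mu x)⁻¹ * pd b (pd j ψ) x + pd b (fun y => (mu y)⁻¹) x * pd j ψ x := fun b =>
      D_mul_at (hg.dAt x) (Sm.dAt hχ.1 x) _
    have := h0 x
    simp only [fdens, grad_one, e2, Q, Fin.sum_univ_three]
    fin_cases i <;> simp <;> field_simp <;> ring
  rw [form_eq, setIntegral_eq_integral_of_forall_compl_eq_zero fun x hx => by
    simp [e1, zero_out hχ hx, fun b => zero_out (hχ.pd b) hx]] at e
  simp only [e1] at e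
  rw [integral_add (iadd (iadd i1 (integrable_finsetSum _ fun b _ => i2 b))
      (integrable_finsetSum _ fun b _ => i3 b)) i4,
    integral_add (iadd i1 (integrable_finsetSum _ fun b _ => i2 b))
      (integrable_finsetSum _ fun b _ => i3 b),
    integral_add i1 (integrable_finsetSum _ fun b _ => i2 b),
    integral_finsetSum _ fun b _ => i2 b, integral_finsetSum _ fun b _ => i3 b] at e
  have e3 : ∑ b, ∫ x, G i b x * pd b (pd j ψ) x = ∫ x, G i j x * lap ψ x := by
    rw [int_lap (hG i j).1 hψ]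
    refine Finset.sum_congr rfl fun b _ => ?_
    rw [show pd b (pd j ψ) = pd j (pd b ψ) from D_comm hψ.1 _ _, curl h.1 (hψ.pd b)]
  have e4 : ∑ b, ∫ x, G b i x * pd b (pd j ψ) x = ∫ x, (∑ a, G a a x) * pd i (pd j ψ) x := by
    rw [int_sum (fun a => (hG a a).1) (hχ.pd i)]
    exact Finset.sum_congr rfl fun b _ => curl h.1 hχ _ _ _
  have e5 : ∫ x, -(lam x * (mu x)⁻¹ + 1) * (∑ a, G a a x) * pd i (pd j ψ) x =
      -((∫ x, lam x * (mu x)⁻¹ * (∑ a, G a a x) * pd i (pd j ψ) x) +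
        ∫ x, (∑ a, G a a x) * pd i (pd j ψ) x) := by
    rw [← integral_add i1 (integ hd.1 (hχ.pd i)), ← integral_neg]
    congr 1
    funext x
    ring
  rw [e3, e4] at e
  linarith

lemma reg (h1 : S_wkStep) (hU : IsOpen U) (hl : Sm lam) (hm : Sm mu) (h0 : ∀ x, mu x ≠ 0)
    (h2 : ∀ x, lam x * (mu x)⁻¹ + 2 ≠ 0) (h : IsSol U lam mu u G) (k : ℕ) :
    ∀ i j, R k U (G i j) := by
  induction k with
  | zero => exact fun i j => R.of_memLp hU (h.1.2.1 i j)
  | succ k hG =>
    have hν : Sm fun x => lam x * (mu x)⁻¹ := hl.mul (hm.inv h0)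
    have hd := R.sum fun a => hG a a
    have hQ := R.Q hl hm h0 hG
    have hD : R (k + 1) U fun x => (lam x * (mu x)⁻¹ + 2) * ∑ a, G a a x := by
      refine step h1 hU 0 0 (hd.mul (hν.add (Sm.const 2))) hQ R.zero fun ψ hψ => ?_
      have e := Finset.sum_congr rfl fun i (_ : i ∈ Finset.univ) => main hl hm h0 h hG hψ i i
      have hd' := hd.mul (hν.add (Sm.const 1)).neg
      rw [Finset.sum_sub_distrib, ← int_sum (fun a => (hG a a).1) (test_lap hψ),
        ← int_lap hd'.1 hψ, eq_sub_iff_add_eq, ← eq_sub_iff_add_eq'] at e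
      rw [e, ← integral_sub (integ hd'.1 (test_lap hψ)) (integ hd.1 (test_lap hψ))]
      simp only [zero_mul, integral_zero, zero_sub, ← integral_neg]
      congr 1
      funext x
      ring
    have hd1 : R (k + 1) U fun x => ∑ a, G a a x := by
      convert hD.mul ((hν.add (Sm.const 2)).inv h2) using 2 with x
      exact (inv_mul_cancel_left₀ (h2 x) _).symm
    intro i j
    refine step h1 hU i j (hG i j) (fun a => (hQ i).mul (Sm.const (if a = j then 1 else 0)))
      (hd1.mul (hν.add (Sm.const 1)).neg) fun ψ hψ => ?_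
    simp only [mul_assoc _ (Q lam mu G i _), integral_const_mul]
    simp [main hl hm h0 h hG hψ i j]

lemma fund (hU : IsOpen U) (hf : LocallyIntegrableOn f U)
    (h : ∀ ψ, IsTest U ψ → ∫ x in U, f x * ψ x = 0) : f =ᵐ[volume.restrict U] fun _ => 0 :=
  (ae_restrict_iff' hU.measurableSet).2
    (hU.ae_eq_zero_of_integral_contDiff_smul_eq_zero hf fun ψ h1 h2 h3 => by
      simpa only [setI ⟨h1, h2, h3⟩, smul_eq_mul, mul_comm (ψ _)] using h ψ ⟨h1, h2, h3⟩)

end WeylLame

open WeylLame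

theorem s_weylLame (h1 : S_wkStep) (h2 : S_wkSmooth) (h3 : S_green) : S_weylLame := by
  intro U c lam mu u G hU hc hA h
  obtain ⟨hl, hm, hb⟩ := hA
  have h0 : ∀ x, 0 < mu x := fun x => hc.trans_le (hb x).1
  have hG := reg h1 hU hl hm (fun x => (h0 x).ne') (fun x => by
    have a1 := h0 x
    have a2 : 0 < lam x + 2 * mu x := by linarith [(hb x).2]
    have : lam x * (mu x)⁻¹ + 2 = (lam x + 2 * mu x) / mu x := by field_simp
    rw [this]
    positivity) h
  have hu : ∀ k i, R k U (u i) := fun k i => by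
    induction k with
    | zero => exact R.of_memLp hU (h.1.1 i)
    | succ k ih =>
      refine step h1 hU 0 0 ih (hG k i) R.zero fun ψ hψ => ?_
      rw [int_lap ih.1 hψ]
      simp [fun j => weak h.1 (hψ.pd j) i j]
  choose u' hs he using fun i => h2 U (u i) hU (hu 0 i).1 fun k => (hu k i).2
  have hpd := fun i j => contDiffOn_pd hU (hs i) j
  have hgr : ∀ i j, G i j =ᵐ[volume.restrict U] pd j (u' i) := fun i j => by
    have a1 : LocallyIntegrableOn (G i j) U :=
      locallyIntegrableOn_of_locallyIntegrable_restrict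
        ((h.1.2.1 i j).locallyIntegrable (by norm_num))
    have a2 := (hpd i j).continuousOn.locallyIntegrableOn (μ := volume) hU.measurableSet
    refine (fund hU (a1.sub a2) fun ψ hψ => ?_).mono fun x hx => sub_eq_zero.1 hx
    have t := (Tst.mul_on hU hψ.tst hψ.2.2 (hpd i j)).integrable (μ := volume)
    simp only [Pi.sub_apply, sub_mul]
    rw [integral_sub (integ (hG 0 i j).1 hψ).integrableOn
      (by simpa only [mul_comm] using t.restrict), sub_eq_zero, ← neg_inj,
      ← weak_ibp hU (hs i) hψ, ← h.1.2.2 i j ψ hψ]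
    exact integral_congr_ae ((he i).mono fun x hx => by simp only [hx])
  refine ⟨u', hs, he, hgr, fun x hx i => ?_⟩
  have hdv : ContDiffOn ℝ ∞ (dv u') U := ContDiffOn.sum fun a _ => hpd a a
  have hcont : ContinuousOn (lame lam mu u' i) U :=
    ((((hm.contDiffOn.mul (ContDiffOn.sum fun j _ => contDiffOn_pd hU (hpd i j) j)).add
      ((hl.add hm).contDiffOn.mul (contDiffOn_pd hU hdv i))).add
      (hdv.mul (hl.D _).contDiffOn)).add
      (ContDiffOn.sum fun j _ => (hm.D _).contDiffOn.mul ((hpd i j).add (hpd j i)))).continuousOn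
  refine Measure.eqOn_open_of_ae_eq (fund hU (hcont.locallyIntegrableOn hU.measurableSet)
    fun ψ hψ => ?_) hU hcont continuousOn_const hx
  have e := h3 U lam mu u' (one i ψ) hU hl hm hs (one_test hψ i)
  rw [← form_congr_left lam mu (G₂ := grad u') _ hgr, h.2 _ (one_test hψ i), eq_comm, neg_eq_zero,
    Finset.sum_eq_single i (fun a _ ha => by simp [one, ha]) (by simp)] at e
  simpa [one] using e

end Vale.Agent.P136
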