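import Vale.Agent.P136.Basic

/-!
# P136: Green formulas and the Weyl lemma for systems
-/

open MeasureTheory Set
open scoped ContDiff Topology SchwartzMap

noncomputable section
namespace Vale.Agent.P136

namespace WeylSys

variable {U : Set E3}

lemma iOn (hU : IsOpen U) {f ψ : E3 → ℝ} (hf : ContDiffOn ℝ ∞ f U) (hψ : IsTest U ψ) :
    Integrable (fun x => f x * ψ x) (volume.restrict U) :=
  ((Tst.mul_on hU hψ.tst hψ.2.2 hf).integrable.congr
    (.of_forall fun _ => mul_comm _ _)).integrableOn

lemma zero_off {ψ : E3 → ℝ} (hψ : IsTest U ψ) {x : E3} (hx : x ∉ U) : ψ x = 0 :=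
  image_eq_zero_of_notMem_tsupport fun h => hx (hψ.2.2 h)

lemma locL2_of (hU : IsOpen U) {f : E3 → ℝ} (hf : MemLp f 2 (volume.restrict U)) : LocL2 U f :=
  fun θ hθ => by
    have h := (memLp_indicator_iff_restrict hU.measurableSet).2 (hf.mul' (r := 2)
      ((hθ.1.continuous.memLp_top_of_hasCompactSupport hθ.2.1 volume).restrict U))
    rwa [indicator_eq_self.2 fun x hx => ?_] at h
    by_contra h0
    exact hx (by simp [zero_off hθ h0])

lemma loc_int {f θ : E3 → ℝ} (hf : LocL2 U f) (hθ : IsTest U θ) :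
    Integrable fun x => f x * θ x := by
  have : IsFiniteMeasure (volume.restrict (tsupport θ)) :=
    isFiniteMeasure_restrict.2 hθ.2.1.isCompact.measure_lt_top.ne
  have h := ((hf θ hθ).restrict (tsupport θ)).integrable one_le_two
  exact ((integrableOn_iff_integrable_of_support_subset
    ((Function.support_mul_subset_left _ _).trans (subset_tsupport θ))).1 h).congr
      (.of_forall fun _ => mul_comm _ _)

lemma loc_mul {f m : E3 → ℝ} (hm : Sm m) (hf : LocL2 U f) : LocL2 U fun x => m x * f x :=
  fun θ hθ => by simpa only [mul_assoc, mul_left_comm] using hf _ (hθ.mul_left hm)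

lemma loc_sum {κ : Type} [Fintype κ] {f : κ → E3 → ℝ} (hf : ∀ c, LocL2 U (f c)) :
    LocL2 U fun x => ∑ c, f c x := fun θ hθ => by
  simpa only [Finset.mul_sum] using memLp_finsetSum Finset.univ fun c _ => hf c θ hθ

lemma loc_zero : LocL2 U fun _ => 0 := fun θ _ => by simp

lemma wk_zero (k : ℕ) : WK k U fun _ => 0 := fun _ _ _ _ => ⟨0, fun _ => by simp⟩

lemma wk_mul {k : ℕ} {f m : E3 → ℝ} (hm : Sm m) (hf : WK k U f) : WK k U fun x => m x * f x :=
  fun θ hθ β hβ => by simpa only [mul_assoc, mul_left_comm] using hf _ (hθ.mul_left hm) β hβ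

lemma sm_pds (β : List (Fin 3)) {f : E3 → ℝ} (hf : Sm f) : Sm (pds β f) := by
  induction β with
  | nil => exact hf
  | cons j β ih => exact ih.D _

lemma wk_sum {k : ℕ} {κ : Type} [Fintype κ] {f : κ → E3 → ℝ} (h0 : ∀ c, LocL2 U (f c))
    (hf : ∀ c, WK k U (f c)) : WK k U fun x => ∑ c, f c x := fun θ hθ β hβ => by
  choose C hC using fun c => hf c θ hθ β hβ
  refine ⟨∑ c, C c, fun Θ => ?_⟩
  simp only [Finset.sum_mul]
  rw [integral_finsetSum _ fun c _ => ?_]
  · exact (Finset.abs_sum_le_sum_abs _ _).trans (Finset.sum_le_sum fun c _ => hC c Θ)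
  · exact (loc_int (h0 c) (hθ.mul_left (sm_pds β (Θ.smooth ⊤)))).congr
      (.of_forall fun x => by ring)

lemma wk_base {f : E3 → ℝ} (hf : LocL2 U f) : WK 0 U f := fun θ hθ β hβ => by
  obtain rfl := List.length_eq_zero_iff.1 (Nat.le_zero.1 hβ)
  refine ⟨1 * √(∫ x, (θ x * f x) ^ 2), fun Θ => ?_⟩
  have i1 := (hf θ hθ).integrable_sq
  have i2 := (Θ.memLp 2 volume).integrable_sq
  refine le_sqrt_mul_sqrt zero_le_one (integral_nonneg fun _ => sq_nonneg _)
    (integral_nonneg fun _ => sq_nonneg _) fun s hs => abs_integral_le_integral_abs.trans ?_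
  rw [one_mul, ← integral_const_mul, ← integral_const_mul,
    ← integral_add (i1.const_mul _) (i2.const_mul _), ← integral_div]
  refine integral_mono_of_nonneg (.of_forall fun _ => abs_nonneg _)
    ((iadd (i1.const_mul _) (i2.const_mul _)).div_const _) (.of_forall fun x => ?_)
  change |f x * θ x * Θ x| ≤ (s * (θ x * f x) ^ 2 + s⁻¹ * Θ x ^ 2) / 2
  have h1 : s⁻¹ * (s * |θ x * f x| - |Θ x|) ^ 2 =
      s * |θ x * f x| ^ 2 + s⁻¹ * |Θ x| ^ 2 - 2 * (|θ x * f x| * |Θ x|) := by
    field_simp
    ring
  have h2 : 0 ≤ s⁻¹ * (s * |θ x * f x| - |Θ x|) ^ 2 := by positivity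
  rw [h1, sq_abs, sq_abs, ← abs_mul, mul_comm (θ x)] at h2
  rw [mul_comm (θ x)]
  linarith

open Classical in
lemma test_single {ι : Type} (a : ι) {ψ : E3 → ℝ} (hψ : IsTest U ψ) (c : ι) :
    IsTest U ((Pi.single a ψ : ι → E3 → ℝ) c) := by
  by_cases h : c = a
  · rwa [h, Pi.single_eq_same]
  · rw [Pi.single_eq_of_ne h]
    exact IsTest.zero U

open Classical in
lemma sysT_single {ι : Type} [Fintype ι] {b : Coef ι} (hb : SmC b) (a : ι) {ψ : E3 → ℝ}
    (hψ : Sm ψ) (c : ι) (y : E3) : sysT b (Pi.single a ψ) c y =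
      (if c = a then lap ψ y else 0) -
        ∑ i, (b i a c y * pd i ψ y + pd i (b i a c) y * ψ y) := by
  have h0 : ∀ j, pd j (0 : E3 → ℝ) = 0 := fun j => by
    funext x
    simp [pd]
  refine congrArg₂ _ ?_ (Finset.sum_congr rfl fun i _ => ?_)
  · split_ifs with h
    · rw [h, Pi.single_eq_same]
    · simp [Pi.single_eq_of_ne h, lap, h0]
  · rw [Finset.sum_eq_single a (fun a' _ h => ?_) fun h => absurd (Finset.mem_univ a) h,
      Pi.single_eq_same]
    · exact D_mul_at ((hb i a c).dAt y) (hψ.dAt y) _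
    · simp [Pi.single_eq_of_ne h, pd]

end WeylSys

open WeylSys

theorem s_greenSys : S_greenSys := by
  intro ι _ b U W ψ hb hU hW hψ
  have h1 := fun a j => contDiffOn_pd hU (hW a) j
  have e1 : ∀ a, ∫ y in U, W a y * sysT b ψ a y = ∑ j, (∫ y in U, pd j (pd j (W a)) y * ψ a y) +
      ∑ i, ∑ c, ∫ y in U, pd i (W a) y * (b i c a y * ψ c y) := fun a => by
    have i1 := fun j => iOn hU (hW a) (((hψ a).pd j).pd j)
    have i2 := fun i c => iOn hU (hW a) (((hψ c).mul_left (hb i c a)).pd i)
    simp only [sysT, lap, mul_sub, Finset.mul_sum]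
    rw [integral_sub (integrable_finsetSum _ fun j _ => i1 j)
      (integrable_finsetSum _ fun i _ => integrable_finsetSum _ fun c _ => i2 i c),
      integral_finsetSum _ fun j _ => i1 j,
      integral_finsetSum _ fun i _ => integrable_finsetSum _ fun c _ => i2 i c, sub_eq_add_neg,
      ← Finset.sum_neg_distrib]
    refine congrArg₂ _ (Finset.sum_congr rfl fun j _ => ?_) (Finset.sum_congr rfl fun i _ => ?_)
    · rw [weak_ibp hU (hW a) ((hψ a).pd j), weak_ibp hU (h1 a j) (hψ a), neg_neg]
    · rw [integral_finsetSum _ fun c _ => i2 i c, ← Finset.sum_neg_distrib]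
      refine Finset.sum_congr rfl fun c _ => ?_
      rw [weak_ibp hU (hW a) ((hψ c).mul_left (hb i c a)), neg_neg]
  have e2 : ∀ a, ∫ y in U, sysL b W a y * ψ a y = ∑ j, (∫ y in U, pd j (pd j (W a)) y * ψ a y) +
      ∑ i, ∑ c, ∫ y in U, pd i (W c) y * (b i a c y * ψ a y) := fun a => by
    have i1 := fun j => iOn hU (contDiffOn_pd hU (h1 a j) j) (hψ a)
    have i2 := fun i c => iOn hU (h1 c i) ((hψ a).mul_left (hb i a c))
    simp only [sysL, lap, add_mul, Finset.sum_mul, mul_comm (b _ _ _ _) (pd _ _ _), mul_assoc]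
    rw [integral_add (integrable_finsetSum _ fun j _ => i1 j)
      (integrable_finsetSum _ fun i _ => integrable_finsetSum _ fun c _ => i2 i c),
      integral_finsetSum _ fun j _ => i1 j,
      integral_finsetSum _ fun i _ => integrable_finsetSum _ fun c _ => i2 i c]
    exact congrArg _ (Finset.sum_congr rfl fun i _ => integral_finsetSum _ fun c _ => i2 i c)
  simp only [e1, e2, Finset.sum_add_distrib]
  refine congrArg _ ?_
  rw [Finset.sum_comm, Finset.sum_comm (f := fun a i => ∑ c, ∫ y in U,
    pd i (W c) y * (b i a c y * ψ a y))]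
  exact Finset.sum_congr rfl fun i _ => Finset.sum_comm

theorem s_green : S_green := by
  intro U lam mu v w hU hl hm hv hw
  have h1 := fun i j => contDiffOn_pd hU (hv i) j
  have hd : ContDiffOn ℝ ∞ (dv v) U := ContDiffOn.sum fun i _ => h1 i i
  have s1 : ContDiffOn ℝ ∞ (fun x => lam x * dv v x) U := hl.contDiffOn.mul hd
  have s2 : ∀ i j, ContDiffOn ℝ ∞ (fun x => mu x * (pd j (v i) x + pd i (v j) x)) U :=
    fun i j => hm.contDiffOn.mul ((h1 i j).add (h1 j i))
  have i1 := fun i => iOn hU s1 ((hw i).pd i)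
  have i2 := fun i j => iOn hU (s2 i j) ((hw i).pd j)
  have i3 := fun i => iOn hU (contDiffOn_pd hU s1 i) (hw i)
  have i4 := fun i j => iOn hU (contDiffOn_pd hU (s2 i j) j) (hw i)
  have e1 : form U lam mu (grad v) (grad w) = ∫ x in U, ∑ i, (lam x * dv v x * pd i (w i) x +
      ∑ j, mu x * (pd j (v i) x + pd i (v j) x) * pd j (w i) x) := by
    refine integral_congr_ae (.of_forall fun x => ?_)
    simp only [grad, dv, Fin.sum_univ_three]
    ring
  rw [e1, integral_finsetSum _ fun i _ => iadd (i1 i) (integrable_finsetSum _ fun j _ => i2 i j),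
    ← Finset.sum_neg_distrib]
  refine Finset.sum_congr rfl fun i _ => ?_
  rw [integral_add (i1 i) (integrable_finsetSum _ fun j _ => i2 i j),
    integral_finsetSum _ fun j _ => i2 i j, weak_ibp hU s1 (hw i),
    Finset.sum_congr rfl fun j _ => weak_ibp hU (s2 i j) (hw i) j, Finset.sum_neg_distrib,
    ← neg_add, ← integral_finsetSum _ fun j _ => i4 i j,
    ← integral_add (i3 i) (integrable_finsetSum _ fun j _ => i4 i j)]
  refine congrArg _ (setIntegral_congr_fun hU.measurableSet fun x hx => ?_)
  have d1 := fun i j => dAt_of_on hU (h1 i j) hx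
  have e2 : pd i (fun x => lam x * dv v x) x = lam x * pd i (dv v) x + pd i lam x * dv v x :=
    D_mul_at (hl.dAt x) (dAt_of_on hU hd hx) _
  have e3 : ∀ j, pd j (fun x => mu x * (pd j (v i) x + pd i (v j) x)) x =
      mu x * (pd j (pd j (v i)) x + pd i (pd j (v j)) x) +
        pd j mu x * (pd j (v i) x + pd i (v j) x) := fun j => by
    refine (D_mul_at (hm.dAt x) ((d1 i j).add (d1 j i)) _).trans ?_
    rw [show D _ (pd j (v i) + pd i (v j)) x = _ from D_add_at (d1 i j) (d1 j i) _,
      show D _ (pd i (v j)) x = pd i (pd j (v j)) x from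
        D_comm_at ((hv j).contDiffAt (hU.mem_nhds hx)) _ _]
    rfl
  have e4 : pd i (dv v) x = ∑ j, pd i (pd j (v j)) x := D_sum_at _ (fun j _ => d1 j j) _
  simp only [e2, e3, e4, lame, lap, Fin.sum_univ_three]
  ring

theorem s_weylSys (h1 : S_wkStep) (h2 : S_wkSmooth) : S_weylSys := by
  classical
  intro ι _ b U W hb hU hW hψ
  have l0 := fun a => locL2_of hU (hW a)
  have key : ∀ k a, WK k U (W a) := by
    intro k
    induction k with
    | zero => exact fun a => wk_base (l0 a)
    | succ k ih =>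
      intro a
      have m1 : ∀ i c, Sm fun x => -b i a c x := fun i c => (hb i a c).neg
      have m2 : ∀ c, Sm fun x => ∑ i, pd i (b i a c) x := fun c =>
        Sm.sum fun i _ => (hb i a c).D _
      refine h1 k U (W a) (fun x => ∑ c, (∑ i, pd i (b i a c) x) * W c x)
        (fun i x => ∑ c, -b i a c x * W c x) (fun _ _ _ => 0) hU (l0 a)
        (loc_sum fun c => loc_mul (m2 c) (l0 c)) (fun i => loc_sum fun c => loc_mul (m1 i c) (l0 c))
        (fun _ _ => loc_zero) (ih a)
        (wk_sum (fun c => loc_mul (m2 c) (l0 c)) fun c => wk_mul (m2 c) (ih c))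
        (fun i => wk_sum (fun c => loc_mul (m1 i c) (l0 c)) fun c => wk_mul (m1 i c) (ih c))
        (fun _ _ => wk_zero _) fun ψ ht => ?_
      have i0 : Integrable fun x => W a x * lap ψ x := by
        simp only [lap, Finset.mul_sum]
        exact integrable_finsetSum _ fun j _ => loc_int (l0 a) ((ht.pd j).pd j)
      have i1 := fun i c => loc_int (loc_mul (m1 i c) (l0 c)) (ht.pd i)
      have i2 := fun c => loc_int (loc_mul (m2 c) (l0 c)) ht
      have e : ∀ c, ∫ y in U, W c y * sysT b (Pi.single a ψ) c y =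
          (if c = a then ∫ x, W a x * lap ψ x else 0) +
            ∑ i, (∫ x, -b i a c x * W c x * pd i ψ x) -
            ∫ x, (∑ i, pd i (b i a c) x) * W c x * ψ x := fun c => by
        have i3 : Integrable fun x => if c = a then W a x * lap ψ x else 0 := by
          split_ifs
          exacts [i0, integrable_zero _ _ _]
        have e1 : (if c = a then ∫ x, W a x * lap ψ x else 0) =
            ∫ x, if c = a then W a x * lap ψ x else 0 := by split_ifs <;> simp
        rw [setIntegral_eq_integral_of_forall_compl_eq_zero fun x hx => by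
          simp [sysT_single hb a ht.1, lap, zero_off ht hx, zero_off (ht.pd _) hx,
            zero_off ((ht.pd _).pd _) hx], e1, ← integral_finsetSum _ fun i _ => i1 i c,
          ← integral_add i3 (integrable_finsetSum _ fun i _ => i1 i c),
          ← integral_sub (iadd i3 (integrable_finsetSum _ fun i _ => i1 i c)) (i2 c)]
        refine integral_congr_ae (.of_forall fun x => ?_)
        simp only [sysT_single hb a ht.1, Fin.sum_univ_three]
        split_ifs with h
        · rw [h]
          ring
        · ring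
      have h3 := hψ _ (test_single a ht)
      simp only [e, Finset.sum_add_distrib, Finset.sum_sub_distrib, Finset.sum_ite_eq',
        Finset.mem_univ, if_true] at h3
      have e2 : ∀ i, ∫ x, (∑ c, -b i a c x * W c x) * pd i ψ x =
          ∑ c, ∫ x, -b i a c x * W c x * pd i ψ x := fun i => by
        simp only [Finset.sum_mul]
        exact integral_finsetSum _ fun c _ => i1 i c
      have e3 : ∫ x, (∑ c, (∑ i, pd i (b i a c) x) * W c x) * ψ x =
          ∑ c, ∫ x, (∑ i, pd i (b i a c) x) * W c x * ψ x := by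
        rw [← integral_finsetSum _ fun c _ => i2 c]
        exact integral_congr_ae (.of_forall fun x => Finset.sum_mul _ _ _)
      simp only [e2, e3, zero_mul, integral_zero, Finset.sum_const_zero]
      rw [Finset.sum_comm] at h3
      linarith
  choose W' hs he using fun a => h2 U (W a) hU (l0 a) fun k => key k a
  refine ⟨W', hs, he, fun y hy a => ?_⟩
  have hc : ContinuousOn (sysL b W' a) U :=
    ((ContDiffOn.sum fun j _ => contDiffOn_pd hU (contDiffOn_pd hU (hs a) j) j).add
      (ContDiffOn.sum fun i _ => ContDiffOn.sum fun c _ =>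
        (hb i a c).contDiffOn.mul (contDiffOn_pd hU (hs c) i))).continuousOn
  refine Measure.eqOn_open_of_ae_eq (μ := volume) (g := fun _ => 0)
    ((ae_restrict_iff' hU.measurableSet).2 (hU.ae_eq_zero_of_integral_contDiff_smul_eq_zero
      (hc.locallyIntegrableOn hU.measurableSet) fun g g1 g2 g3 => ?_)) hU hc continuousOn_const hy
  have ht : IsTest U g := ⟨g1, g2, g3⟩
  have h3 := hψ _ (test_single a ht)
  rw [Finset.sum_congr rfl fun c _ => integral_congr_ae ((he c).mono fun x hx => by rw [hx]),
    s_greenSys ι b U W' _ hb hU hs (test_single a ht),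
    Finset.sum_eq_single a (fun c _ h => by simp [Pi.single_eq_of_ne h])
      fun h => absurd (Finset.mem_univ a) h, Pi.single_eq_same,
    setIntegral_eq_integral_of_forall_compl_eq_zero fun x hx => by simp [zero_off ht hx]] at h3
  simpa only [smul_eq_mul, mul_comm] using h3

end Vale.Agent.P136
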