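import Vale.Agent.P136.WkBasic

/-! # P136: duality bootstrap for the Laplacian -/

open MeasureTheory Set Metric
open scoped ContDiff Topology SchwartzMap LineDeriv Laplacian

noncomputable section
namespace Vale.Agent.P136

namespace WkStep

/-- Partial derivative of a Schwartz function. -/
def dS {F : Type} [NormedAddCommGroup F] [NormedSpace ℝ F] (j : Fin 3) (Θ : 𝓢(E3, F)) :
    𝓢(E3, F) := ∂_{EuclideanSpace.single j (1 : ℝ)} Θ

lemma coe_dS (j : Fin 3) (Θ : 𝓢(E3, ℝ)) : ⇑(dS j Θ) = pd j Θ := rfl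

def pdsS (β : List (Fin 3)) (Θ : 𝓢(E3, ℝ)) : 𝓢(E3, ℝ) := β.foldr dS Θ

lemma coe_pdsS (β : List (Fin 3)) (Θ : 𝓢(E3, ℝ)) : ⇑(pdsS β Θ) = pds β Θ := by
  induction β with
  | nil => rfl
  | cons j β ih => exact congrArg (pd j) ih

lemma dS_comm (i j : Fin 3) (Θ : 𝓢(E3, ℝ)) : dS i (dS j Θ) = dS j (dS i Θ) :=
  DFunLike.coe_injective (D_comm (Sm.schwartz Θ) _ _)

lemma dS_re (j : Fin 3) (Θ : 𝓢(E3, ℂ)) :
    dS j (Θ.postcompCLM Complex.reCLM) = (dS j Θ).postcompCLM Complex.reCLM := by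
  ext x
  exact congrArg (fun L : E3 →L[ℝ] ℝ => L (EuclideanSpace.single j 1))
    (Complex.reCLM.hasFDerivAt.comp x (Θ.hasFDerivAt x)).fderiv

lemma exists_solve (Θ : 𝓢(E3, ℝ)) : ∃ Ξ : 𝓢(E3, ℝ), Θ = Ξ - ∑ j, dS j (dS j Ξ) := by
  let g : E3 → ℝ := fun ξ => (1 + ‖(2 * Real.pi) • ξ‖ ^ 2) ^ (-1 : ℝ)
  have hg : g.HasTemperateGrowth :=
    (Function.hasTemperateGrowth_one_add_norm_sq_rpow E3 (-1)).comp
      ((2 * Real.pi) • ContinuousLinearMap.id ℝ E3).hasTemperateGrowth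
  have hn : (fun ξ : E3 => ‖ξ‖ ^ 2).HasTemperateGrowth := by fun_prop
  let Θc : 𝓢(E3, ℂ) := Θ.postcompCLM Complex.ofRealCLM
  let Ξc := SchwartzMap.fourierMultiplierCLM ℂ g Θc
  have key : Ξc - Δ Ξc = Θc := by
    have e : g + (2 * Real.pi) ^ 2 • ((fun ξ : E3 => ‖ξ‖ ^ 2) * g) = fun _ => (1 : ℝ) := by
      funext ξ
      have h1 : 0 < 1 + (2 * Real.pi) ^ 2 * ‖ξ‖ ^ 2 := by positivity
      simp only [g, Pi.add_apply, Pi.smul_apply, Pi.mul_apply, smul_eq_mul, norm_smul, mul_pow,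
        Real.norm_eq_abs, sq_abs, Real.rpow_neg_one] at h1 ⊢
      field_simp
    rw [SchwartzMap.laplacian_eq_fourierMultiplierCLM,
      SchwartzMap.fourierMultiplierCLM_fourierMultiplierCLM_apply hn hg, neg_smul, sub_neg_eq_add,
      ← smul_apply, ← SchwartzMap.fourierMultiplierCLM_smul (hn.mul hg)]
    have h2 : SchwartzMap.fourierMultiplierCLM ℂ (fun _ : E3 => (1 : ℝ)) Θc = Θc := by simp
    have h4 : ((2 * Real.pi) ^ 2 • ((fun ξ : E3 => ‖ξ‖ ^ 2) * g)).HasTemperateGrowth :=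
      (Function.HasTemperateGrowth.const ((2 * Real.pi) ^ 2)).smul (hn.mul hg)
    refine Eq.trans ?_ h2
    rw [← e]
    simp only [Ξc, SchwartzMap.fourierMultiplierCLM, ContinuousLinearMap.comp_apply]
    rw [SchwartzMap.smulLeftCLM_add hg h4, add_apply,
      map_add]
  refine ⟨Ξc.postcompCLM Complex.reCLM, ?_⟩
  have h3 : Θ = Θc.postcompCLM Complex.reCLM := by
    ext x
    rfl
  rw [h3, ← key, SchwartzMap.laplacian_eq_sum (EuclideanSpace.basisFun (Fin 3) ℝ), map_sub,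
    map_sum]
  simp only [dS_re, EuclideanSpace.basisFun_apply]
  rfl

lemma int_mul (a b : 𝓢(E3, ℝ)) : Integrable (fun x => a x * b x) :=
  (a.memLp 2 volume).integrable_mul (b.memLp 2 volume)

/-- The inner product of Schwartz functions. -/
def ip : 𝓢(E3, ℝ) →ₗ[ℝ] 𝓢(E3, ℝ) →ₗ[ℝ] ℝ :=
  LinearMap.mk₂ ℝ (fun a b => ∫ x, a x * b x)
    (fun a a' b => by simp only [add_apply, add_mul, integral_add (int_mul _ _) (int_mul _ _)])
    (fun c a b => by simp only [smul_apply, smul_eq_mul, mul_assoc, integral_const_mul])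
    (fun a b b' => by simp only [add_apply, mul_add, integral_add (int_mul _ _) (int_mul _ _)])
    (fun c a b => by simp only [smul_apply, smul_eq_mul, mul_left_comm _ c, integral_const_mul])

lemma ip_self (a : 𝓢(E3, ℝ)) : ip a a = ∫ x, a x ^ 2 := by simp only [sq]; rfl

lemma ip_nonneg (a : 𝓢(E3, ℝ)) : 0 ≤ ip a a := by
  rw [ip_self]
  exact integral_nonneg fun _ => sq_nonneg _

lemma ip_dS (a b : 𝓢(E3, ℝ)) (j : Fin 3) : ip a (dS j b) = -ip (dS j a) b :=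
  SchwartzMap.integral_mul_lineDerivOp_right_eq_neg_left a b _

/-- All derivatives of order at most two are bounded by `M` in mean square. -/
def Bd (Ξ : 𝓢(E3, ℝ)) (M : ℝ) : Prop :=
  ∀ γ : List (Fin 3), γ.length ≤ 2 → √(∫ x, pdsS γ Ξ x ^ 2) ≤ M

lemma bd_of_solve (Ξ : 𝓢(E3, ℝ)) : Bd Ξ √(∫ x, (Ξ - ∑ j, dS j (dS j Ξ)) x ^ 2) := by
  have h1 : ∀ j, ip Ξ (dS j (dS j Ξ)) = -ip (dS j Ξ) (dS j Ξ) := fun j => ip_dS _ _ _
  have h2 : ∀ j, ip (dS j (dS j Ξ)) Ξ = -ip (dS j Ξ) (dS j Ξ) := fun j => by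
    rw [ip_dS, neg_neg]
  have h3 : ∀ i j, ip (dS i (dS i Ξ)) (dS j (dS j Ξ)) = ip (dS j (dS i Ξ)) (dS j (dS i Ξ)) :=
    fun i j => by rw [ip_dS, dS_comm j i (dS i Ξ), ← ip_dS, dS_comm i j]
  have key : ip (Ξ - ∑ j, dS j (dS j Ξ)) (Ξ - ∑ j, dS j (dS j Ξ)) = ip Ξ Ξ +
      2 * ∑ j, ip (dS j Ξ) (dS j Ξ) + ∑ j, ∑ i, ip (dS j (dS i Ξ)) (dS j (dS i Ξ)) := by
    simp only [map_sub, map_sum, LinearMap.sub_apply, LinearMap.sum_apply, h1, h2, h3,
      Finset.sum_neg_distrib, Finset.sum_sub_distrib]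
    ring
  have p1 : 0 ≤ ∑ j, ip (dS j Ξ) (dS j Ξ) := Finset.sum_nonneg fun _ _ => ip_nonneg _
  have p2 : ∀ j, 0 ≤ ∑ i, ip (dS j (dS i Ξ)) (dS j (dS i Ξ)) :=
    fun _ => Finset.sum_nonneg fun _ _ => ip_nonneg _
  have p3 := Finset.sum_nonneg fun j (_ : j ∈ Finset.univ) => p2 j
  intro γ hγ
  refine Real.sqrt_le_sqrt ?_
  rw [← ip_self, ← ip_self, key]
  have p0 := ip_nonneg Ξ
  match γ, hγ with
  | [], _ => change ip Ξ Ξ ≤ _; linarith
  | [j], _ =>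
    have := Finset.single_le_sum (fun j _ => ip_nonneg (dS j Ξ)) (Finset.mem_univ j)
    change ip (dS j Ξ) (dS j Ξ) ≤ _
    linarith
  | [j, i], _ =>
    have q1 := Finset.single_le_sum (fun i _ => ip_nonneg (dS j (dS i Ξ))) (Finset.mem_univ i)
    have q2 := Finset.single_le_sum (fun j _ => p2 j) (Finset.mem_univ j)
    change ip (dS j (dS i Ξ)) (dS j (dS i Ξ)) ≤ _
    linarith

/-- Functionals controlled by two derivatives. -/
def Ctl (T : 𝓢(E3, ℝ) → ℝ) : Prop := ∃ C : ℝ, ∀ Ξ M, Bd Ξ M → |T Ξ| ≤ C * M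

lemma Ctl.add {T T' : 𝓢(E3, ℝ) → ℝ} (h : Ctl T) (h' : Ctl T') : Ctl fun Ξ => T Ξ + T' Ξ := by
  obtain ⟨C, hC⟩ := h
  obtain ⟨C', hC'⟩ := h'
  refine ⟨C + C', fun Ξ M hM => (abs_add_le _ _).trans ?_⟩
  rw [add_mul]
  exact add_le_add (hC Ξ M hM) (hC' Ξ M hM)

lemma Ctl.neg {T : 𝓢(E3, ℝ) → ℝ} (h : Ctl T) : Ctl fun Ξ => -T Ξ := by
  simpa only [Ctl, abs_neg] using h

lemma Ctl.sub {T T' : 𝓢(E3, ℝ) → ℝ} (h : Ctl T) (h' : Ctl T') : Ctl fun Ξ => T Ξ - T' Ξ := by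
  simpa only [sub_eq_add_neg] using h.add h'.neg

lemma Ctl.sum {ι : Type} [Fintype ι] {T : ι → 𝓢(E3, ℝ) → ℝ} (h : ∀ i, Ctl (T i)) :
    Ctl fun Ξ => ∑ i, T i Ξ := by
  choose C hC using h
  refine ⟨∑ i, C i, fun Ξ M hM => (Finset.abs_sum_le_sum_abs _ _).trans ?_⟩
  rw [Finset.sum_mul]
  exact Finset.sum_le_sum fun i _ => hC i Ξ M hM

variable {U : Set E3} {f g θ : E3 → ℝ} {k : ℕ}

lemma ctl_of_wk (hg : WK k U g) (hθ : IsTest U θ) (β : List (Fin 3)) (hβ : β.length ≤ k + 2) :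
    Ctl fun Ξ => ∫ x, g x * (θ x * pds β Ξ x) := by
  obtain ⟨C, hC⟩ := hg θ hθ (β.take k) (List.length_take_le _ _)
  refine ⟨|C|, fun Ξ M hM => ?_⟩
  have h1 := hC (pdsS (β.drop k) Ξ)
  have h2 := hM (β.drop k) (by rw [List.length_drop]; omega)
  have e : pds (β.take k) (pdsS (β.drop k) Ξ) = pds β Ξ := by
    rw [coe_pdsS, pds, pds, ← List.foldr_append, List.take_append_drop, pds]
  simp only [e, mul_assoc] at h1
  exact h1.trans (mul_le_mul (le_abs_self C) h2 (Real.sqrt_nonneg _) (abs_nonneg C))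

lemma pd_mul (hf : Sm f) (hg : Sm g) (j : Fin 3) :
    pd j (fun x => f x * g x) = fun x => f x * pd j g x + pd j f x * g x :=
  funext fun x => D_mul_at (hf.dAt x) (hg.dAt x) _

lemma pds_add (hf : Sm f) (hg : Sm g) (β : List (Fin 3)) :
    pds β (fun x => f x + g x) = fun x => pds β f x + pds β g x := by
  induction β with
  | nil => rfl
  | cons j β ih =>
    exact (congrArg (pd j) ih).trans
      (funext fun x => D_add_at ((hf.pds β).dAt x) ((hg.pds β).dAt x) _)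

lemma ctl_leibniz (hg' : LocL2 U g) (hg : WK k U g) (α : List (Fin 3)) :
    ∀ θ, IsTest U θ → ∀ β : List (Fin 3), α.length + β.length ≤ k + 2 →
      Ctl fun Ξ => ∫ x, g x * pds α (fun y => θ y * pds β Ξ y) x := by
  induction α using List.reverseRecOn with
  | nil => exact fun θ hθ β hβ => ctl_of_wk hg hθ β (by simpa using hβ)
  | append_singleton α j ih =>
    intro θ hθ β hβ
    rw [List.length_append, List.length_singleton] at hβ
    have h := (ih θ hθ (j :: β) (by rw [List.length_cons]; omega)).add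
      (ih _ (hθ.pd j) β (by omega))
    refine (congrArg Ctl (funext fun Ξ => ?_)).mp h
    have hX := (Sm.schwartz Ξ).pds β
    have e : pds (α ++ [j]) (fun y => θ y * pds β Ξ y) = fun x =>
        pds α (fun y => θ y * pds (j :: β) Ξ y) x + pds α (fun y => pd j θ y * pds β Ξ y) x := by
      rw [← pds_add (Sm.mul hθ.1 ((Sm.schwartz Ξ).pds _)) (Sm.mul (hθ.pd j).1 hX), pds, pds,
        List.foldr_append]
      exact congrArg (fun u => List.foldr pd u α) (pd_mul hθ.1 hX j)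
    simp only [e, mul_add]
    exact (integral_add (hg'.integrable ((hθ.mul_right ((Sm.schwartz Ξ).pds _)).pds α))
      (hg'.integrable (((hθ.pd j).mul_right hX).pds α))).symm

lemma pdsS_solve (β : List (Fin 3)) (Ξ : 𝓢(E3, ℝ)) :
    pdsS β (Ξ - ∑ j, dS j (dS j Ξ)) = pdsS β Ξ - ∑ j, dS j (dS j (pdsS β Ξ)) := by
  induction β with
  | nil => rfl
  | cons i β ih =>
    change dS i (pdsS β _) = dS i (pdsS β Ξ) - ∑ j, dS j (dS j (dS i (pdsS β Ξ)))
    simp only [ih, dS_comm _ i]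
    let L := LineDeriv.lineDerivOpCLM ℝ 𝓢(E3, ℝ) (EuclideanSpace.single i (1 : ℝ) : E3)
    change L _ = L _ - ∑ j, L _
    rw [map_sub, map_sum]

end WkStep

open WkStep

theorem s_wkStep : S_wkStep := by
  intro k U f F0 F H _ lf lF0 lF lH wf wF0 wF wH heq θ hθ β hβ
  have c1 : Ctl fun Ξ => ∫ x, f x * lap (fun y => θ y * pds β Ξ y) x := by
    have h := ((Ctl.sum fun i => Ctl.sum fun j =>
      ctl_leibniz (lH i j) (wH i j) [i, j] θ hθ β (by simp; omega)).sub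
      (Ctl.sum fun i => ctl_leibniz (lF i) (wF i) [i] θ hθ β (by simp; omega))).add
      (ctl_of_wk wF0 hθ β (by omega))
    exact (congrArg Ctl (funext fun Ξ =>
      (heq _ (hθ.mul_right ((Sm.schwartz Ξ).pds β))).symm)).mp h
  obtain ⟨C, hC⟩ := ((ctl_of_wk wf hθ β (by omega)).sub c1).add (Ctl.sum fun j =>
    ((ctl_of_wk wf (hθ.pd j) (j :: β) (by simp; omega)).add
      (ctl_of_wk wf (hθ.pd j) (j :: β) (by simp; omega))).add
      (ctl_of_wk wf ((hθ.pd j).pd j) β (by omega)))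
  refine ⟨C, fun Θ => ?_⟩
  obtain ⟨Ξ, rfl⟩ := exists_solve Θ
  refine le_of_eq_of_le (congrArg abs ?_) (hC Ξ _ (bd_of_solve Ξ))
  have hX := (Sm.schwartz Ξ).pds β
  have i0 := lf.integrable (hθ.mul_right hX)
  have i1 := fun j => lf.integrable ((hθ.pd j).mul_right (hX.pd j))
  have i2 := fun j => lf.integrable (((hθ.pd j).pd j).mul_right hX)
  have i3 := fun j => lf.integrable (hθ.mul_right ((hX.pd j).pd j))
  have e1 : ∀ x, f x * θ x * pds β (Ξ - ∑ j, dS j (dS j Ξ) : 𝓢(E3, ℝ)) x =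
      f x * (θ x * pds β Ξ x) - ∑ j, f x * (θ x * pd j (pd j (pds β Ξ)) x) := fun x => by
    rw [← coe_pdsS, pdsS_solve, sub_apply, sum_apply, mul_sub, Finset.mul_sum]
    simp only [coe_dS, coe_pdsS, mul_assoc]
  have e2 : ∀ x, f x * lap (fun y => θ y * pds β Ξ y) x =
      ∑ j, (f x * (θ x * pd j (pd j (pds β Ξ)) x) + ((f x * (pd j θ x * pd j (pds β Ξ) x) +
        f x * (pd j θ x * pd j (pds β Ξ) x)) + f x * (pd j (pd j θ) x * pds β Ξ x))) :=
    fun x => by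
    rw [lap, Finset.mul_sum]
    refine Finset.sum_congr rfl fun j _ => ?_
    rw [pd_mul hθ.1 hX, pd_eq_D, D_add_at ((Sm.mul hθ.1 (hX.pd j)).dAt x)
      ((Sm.mul (hθ.pd j).1 hX).dAt x), ← pd_eq_D, ← pd_eq_D, pd_mul hθ.1 (hX.pd j),
      pd_mul (hθ.pd j).1 hX]
    ring
  simp only [e1, e2]
  rw [integral_sub i0 (integrable_finsetSum _ fun j _ => i3 j),
    integral_finsetSum _ fun j _ => i3 j,
    integral_finsetSum _ fun j _ => iadd (i3 j) (iadd (iadd (i1 j) (i1 j)) (i2 j))]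
  have e3 : ∀ j, ∫ x, (f x * (θ x * pd j (pd j (pds β Ξ)) x) +
      ((f x * (pd j θ x * pd j (pds β Ξ) x) + f x * (pd j θ x * pd j (pds β Ξ) x)) +
        f x * (pd j (pd j θ) x * pds β Ξ x))) = (∫ x, f x * (θ x * pd j (pd j (pds β Ξ)) x)) +
      (((∫ x, f x * (pd j θ x * pds (j :: β) Ξ x)) + ∫ x, f x * (pd j θ x * pds (j :: β) Ξ x)) +
        ∫ x, f x * (pd j (pd j θ) x * pds β Ξ x)) := fun j => by
    rw [integral_add (i3 j) (iadd (iadd (i1 j) (i1 j)) (i2 j)),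
      integral_add (iadd (i1 j) (i1 j)) (i2 j), integral_add (i1 j) (i1 j)]
    rfl
  simp only [e3, Finset.sum_add_distrib]
  ring

end Vale.Agent.P136
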