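import Vale.Agent.P136.Stmts

/-!
# P136: `(u, κ div u, curl u)` solves a Laplace type system
-/

open MeasureTheory Set Metric
open scoped ContDiff Topology

noncomputable section
namespace Vale.Agent.P136

namespace XSys

/-! ### Uniformly bounded families of smooth coefficients -/

section Bounded

variable {P : Type} {B : Set E3}

/-- Families of smooth functions that are uniformly bounded on `B`. -/
def Bd (B : Set E3) (f : P → E3 → ℝ) : Prop :=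
  (∀ p, Sm (f p)) ∧ ∃ C : ℝ, 0 ≤ C ∧ ∀ p, ∀ y ∈ B, |f p y| ≤ C

lemma Bd.const (c : ℝ) : Bd B fun (_ : P) _ => c :=
  ⟨fun _ => Sm.const c, |c|, abs_nonneg c, fun _ _ _ => le_rfl⟩

lemma Bd.add {f g : P → E3 → ℝ} (hf : Bd B f) (hg : Bd B g) : Bd B fun p y => f p y + g p y := by
  obtain ⟨h1, C, hC, h2⟩ := hf
  obtain ⟨h3, C', hC', h4⟩ := hg
  exact ⟨fun p => (h1 p).add (h3 p), C + C', add_nonneg hC hC', fun p y hy =>
    (abs_add_le _ _).trans (add_le_add (h2 p y hy) (h4 p y hy))⟩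

lemma Bd.mul {f g : P → E3 → ℝ} (hf : Bd B f) (hg : Bd B g) : Bd B fun p y => f p y * g p y := by
  obtain ⟨h1, C, hC, h2⟩ := hf
  obtain ⟨h3, C', hC', h4⟩ := hg
  refine ⟨fun p => (h1 p).mul (h3 p), C * C', mul_nonneg hC hC', fun p y hy => ?_⟩
  rw [abs_mul]
  exact mul_le_mul (h2 p y hy) (h4 p y hy) (abs_nonneg _) hC

lemma Bd.congr {f g : P → E3 → ℝ} (hf : Bd B f) (h : ∀ p y, g p y = f p y) : Bd B g := by
  have : g = f := funext fun p => funext fun y => h p y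
  rwa [this]

lemma Bd.inv {f : P → E3 → ℝ} (hf : ∀ p, Sm (f p)) {c : ℝ} (hc : 0 < c) (h : ∀ p y, c ≤ f p y) :
    Bd B fun p y => (f p y)⁻¹ := by
  refine ⟨fun p => ContDiff.inv (hf p) fun y => (hc.trans_le (h p y)).ne', c⁻¹,
    (inv_pos.2 hc).le, fun p y _ => ?_⟩
  rw [abs_of_pos (inv_pos.2 (hc.trans_le (h p y)))]
  exact inv_anti₀ hc (h p y)

/-- Bounded together with the first derivatives. -/
def Bd1 (B : Set E3) (f : P → E3 → ℝ) : Prop := Bd B f ∧ ∀ j, Bd B fun p => pd j (f p)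

lemma Bd1.const (c : ℝ) : Bd1 B fun (_ : P) _ => c :=
  ⟨Bd.const c, fun _ => (Bd.const 0).congr fun _ y => D_const c _ y⟩

lemma Bd1.add {f g : P → E3 → ℝ} (hf : Bd1 B f) (hg : Bd1 B g) :
    Bd1 B fun p y => f p y + g p y :=
  ⟨hf.1.add hg.1, fun j => ((hf.2 j).add (hg.2 j)).congr fun p y =>
    D_add_at ((hf.1.1 p).dAt y) ((hg.1.1 p).dAt y) _⟩

lemma Bd1.mul {f g : P → E3 → ℝ} (hf : Bd1 B f) (hg : Bd1 B g) :
    Bd1 B fun p y => f p y * g p y :=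
  ⟨hf.1.mul hg.1, fun j => ((hf.1.mul (hg.2 j)).add ((hf.2 j).mul hg.1)).congr fun p y =>
    D_mul_at ((hf.1.1 p).dAt y) ((hg.1.1 p).dAt y) _⟩

lemma pd_inv {f : E3 → ℝ} {y : E3} (hf : DifferentiableAt ℝ f y) (h : f y ≠ 0) (j : Fin 3) :
    pd j (fun x => (f x)⁻¹) y = -1 * (pd j f y * ((f y)⁻¹ * (f y)⁻¹)) := by
  have h1 := (hasFDerivAt_inv h).comp y hf.hasFDerivAt
  have h2 : fderiv ℝ (fun x => (f x)⁻¹) y = _ := h1.fderiv
  simp only [pd, h2]
  simp [sq]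

lemma Bd1.inv {f : P → E3 → ℝ} (hf : Bd1 B f) {c : ℝ} (hc : 0 < c) (h : ∀ p y, c ≤ f p y) :
    Bd1 B fun p y => (f p y)⁻¹ := by
  have h1 : Bd B fun p y => (f p y)⁻¹ := Bd.inv hf.1.1 hc h
  exact ⟨h1, fun j => ((Bd.const (-1)).mul ((hf.2 j).mul (h1.mul h1))).congr fun p y =>
    pd_inv ((hf.1.1 p).dAt y) (hc.trans_le (h p y)).ne' j⟩

/-! ### Linear expressions in a family of functions and their gradients -/

variable {Q ι : Type} [Fintype ι] {π : Q → P} {U : Q → Set E3} {W : Q → ι → E3 → ℝ}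

/-- `F` is a linear expression in `W` and `∇ W` with bounded coefficients. -/
def Lin (B : Set E3) (π : Q → P) (U : Q → Set E3) (W : Q → ι → E3 → ℝ) (F : Q → E3 → ℝ) : Prop :=
  ∃ (A : P → Fin 3 → ι → E3 → ℝ) (A0 : P → ι → E3 → ℝ), (∀ i a, Bd B fun p => A p i a) ∧
    (∀ a, Bd B fun p => A0 p a) ∧ ∀ q, ∀ y ∈ U q,
      F q y = ∑ i, ∑ a, A (π q) i a y * pd i (W q a) y + ∑ a, A0 (π q) a y * W q a y

lemma Lin.congr {F G : Q → E3 → ℝ} (hF : Lin B π U W F) (h : ∀ q, ∀ y ∈ U q, G q y = F q y) :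
    Lin B π U W G := by
  obtain ⟨A, A0, h1, h2, h3⟩ := hF
  exact ⟨A, A0, h1, h2, fun q y hy => (h q y hy).trans (h3 q y hy)⟩

lemma Lin.zero : Lin B π U W fun _ _ => 0 :=
  ⟨fun _ _ _ _ => 0, fun _ _ _ => 0, fun _ _ => Bd.const 0, fun _ => Bd.const 0, by simp⟩

lemma Lin.val (a : ι) : Lin B π U W fun q => W q a := by
  classical
  exact ⟨fun _ _ _ _ => 0, fun _ a' _ => if a' = a then 1 else 0, fun _ _ => Bd.const 0,
    fun _ => Bd.const _, by simp⟩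

lemma Lin.der (i : Fin 3) (a : ι) : Lin B π U W fun q => pd i (W q a) := by
  classical
  refine ⟨fun _ i' a' _ => if i' = i ∧ a' = a then 1 else 0, fun _ _ _ => 0,
    fun _ _ => Bd.const _, fun _ => Bd.const 0, fun q y _ => ?_⟩
  simp [ite_and]

lemma Lin.add {F G : Q → E3 → ℝ} (hF : Lin B π U W F) (hG : Lin B π U W G) :
    Lin B π U W fun q y => F q y + G q y := by
  obtain ⟨A, A0, h1, h2, h3⟩ := hF
  obtain ⟨A', A0', h1', h2', h3'⟩ := hG
  refine ⟨fun p i a y => A p i a y + A' p i a y, fun p a y => A0 p a y + A0' p a y,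
    fun i a => (h1 i a).add (h1' i a), fun a => (h2 a).add (h2' a), fun q y hy => ?_⟩
  simp only [h3 q y hy, h3' q y hy, add_mul, Finset.sum_add_distrib]
  ring

lemma Lin.mul {f : P → E3 → ℝ} {F : Q → E3 → ℝ} (hf : Bd B f) (hF : Lin B π U W F) :
    Lin B π U W fun q y => f (π q) y * F q y := by
  obtain ⟨A, A0, h1, h2, h3⟩ := hF
  refine ⟨fun p i a y => f p y * A p i a y, fun p a y => f p y * A0 p a y,
    fun i a => hf.mul (h1 i a), fun a => hf.mul (h2 a), fun q y hy => ?_⟩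
  simp only [h3 q y hy, mul_add, Finset.mul_sum, mul_assoc]

lemma Lin.cmul (c : ℝ) {F : Q → E3 → ℝ} (hF : Lin B π U W F) :
    Lin B π U W fun q y => c * F q y := Lin.mul (Bd.const c) hF

lemma Lin.sub {F G : Q → E3 → ℝ} (hF : Lin B π U W F) (hG : Lin B π U W G) :
    Lin B π U W fun q y => F q y - G q y :=
  (hF.add (hG.cmul (-1))).congr fun _ _ _ => by ring

lemma Lin.sum {F : Fin 3 → Q → E3 → ℝ} (hF : ∀ j, Lin B π U W (F j)) :
    Lin B π U W fun q y => ∑ j, F j q y :=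
  (((hF 0).add (hF 1)).add (hF 2)).congr fun _ _ _ => Fin.sum_univ_three _

end Bounded

/-! ### Calculus on an open set -/

section Calc

variable {U : Set E3} {f g : E3 → ℝ} {y : E3}

lemma pd_add (hU : IsOpen U) (hf : ContDiffOn ℝ ∞ f U) (hg : ContDiffOn ℝ ∞ g U) (hy : y ∈ U)
    (j : Fin 3) : pd j (fun x => f x + g x) y = pd j f y + pd j g y :=
  D_add_at (dAt_of_on hU hf hy) (dAt_of_on hU hg hy) _

lemma pd_sub (hU : IsOpen U) (hf : ContDiffOn ℝ ∞ f U) (hg : ContDiffOn ℝ ∞ g U) (hy : y ∈ U)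
    (j : Fin 3) : pd j (fun x => f x - g x) y = pd j f y - pd j g y :=
  D_sub_at (dAt_of_on hU hf hy) (dAt_of_on hU hg hy) _

lemma pd_mul (hU : IsOpen U) (hf : ContDiffOn ℝ ∞ f U) (hg : ContDiffOn ℝ ∞ g U) (hy : y ∈ U)
    (j : Fin 3) : pd j (fun x => f x * g x) y = f y * pd j g y + pd j f y * g y :=
  D_mul_at (dAt_of_on hU hf hy) (dAt_of_on hU hg hy) _

lemma pd_sum (hU : IsOpen U) {F : Fin 3 → E3 → ℝ} (hF : ∀ i, ContDiffOn ℝ ∞ (F i) U) (hy : y ∈ U)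
    (j : Fin 3) : pd j (fun x => ∑ i, F i x) y = ∑ i, pd j (F i) y :=
  D_sum_at _ (fun i _ => dAt_of_on hU (hF i) hy) _

lemma pd_comm (hU : IsOpen U) (hf : ContDiffOn ℝ ∞ f U) (hy : y ∈ U) (j k : Fin 3) :
    pd j (pd k f) y = pd k (pd j f) y :=
  D_comm_at (hf.contDiffAt (hU.mem_nhds hy)) _ _

lemma pd_lap (hU : IsOpen U) (hf : ContDiffOn ℝ ∞ f U) (hy : y ∈ U) (k : Fin 3) :
    pd k (lap f) y = lap (pd k f) y := by
  have h1 := pd_sum hU (fun j => contDiffOn_pd hU (contDiffOn_pd hU hf j) j) hy k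
  refine h1.trans (Finset.sum_congr rfl fun j _ => ?_)
  rw [pd_comm hU (contDiffOn_pd hU hf j) hy k j]
  exact pd_congr_on hU (fun x hx => pd_comm hU hf hx k j) j hy

lemma lap_sum (hU : IsOpen U) {F : Fin 3 → E3 → ℝ} (hF : ∀ i, ContDiffOn ℝ ∞ (F i) U)
    (hy : y ∈ U) : lap (fun x => ∑ i, F i x) y = ∑ i, lap (F i) y := by
  simp only [lap]
  rw [Finset.sum_comm]
  refine Finset.sum_congr rfl fun j _ => ?_
  rw [pd_congr_on hU (fun x hx => pd_sum hU hF hx j) j hy]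
  exact pd_sum hU (fun i => contDiffOn_pd hU (hF i) j) hy j

lemma lap_sub (hU : IsOpen U) (hf : ContDiffOn ℝ ∞ f U) (hg : ContDiffOn ℝ ∞ g U) (hy : y ∈ U) :
    lap (fun x => f x - g x) y = lap f y - lap g y := by
  simp only [lap, ← Finset.sum_sub_distrib]
  refine Finset.sum_congr rfl fun j _ => ?_
  rw [pd_congr_on hU (fun x hx => pd_sub hU hf hg hx j) j hy]
  exact pd_sub hU (contDiffOn_pd hU hf j) (contDiffOn_pd hU hg j) hy j

end Calc

/-! ### The identities for solutions of the Lamé system -/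

/-- `μ / (λ + 2 μ)` -/
def gg (lam mu : E3 → ℝ) (x : E3) : ℝ := mu x * (lam x + 2 * mu x)⁻¹

/-- `∂_j log μ` -/
def mm (mu : E3 → ℝ) (j : Fin 3) (x : E3) : ℝ := pd j mu x * (mu x)⁻¹

def aa (lam mu : E3 → ℝ) (i : Fin 3) (x : E3) : ℝ := (-1 + 2 * gg lam mu x) * mm mu i x

def Dv (lam mu : E3 → ℝ) (u : Fin 3 → E3 → ℝ) : E3 → ℝ := eps lam mu u (Sum.inr (Sum.inl ()))

def Om (u : Fin 3 → E3 → ℝ) (i k : Fin 3) (x : E3) : ℝ := pd k (u i) x - pd i (u k) x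

def RR (lam mu : E3 → ℝ) (u : Fin 3 → E3 → ℝ) (i : Fin 3) (x : E3) : ℝ :=
  aa lam mu i x * Dv lam mu u x - ∑ j, mm mu j x * (2 * pd j (u i) x - Om u i j x)

/-- The part of `∂_k R_i` without second derivatives of `u`. -/
def LL (lam mu : E3 → ℝ) (u : Fin 3 → E3 → ℝ) (k i : Fin 3) (x : E3) : ℝ :=
  aa lam mu i x * pd k (Dv lam mu u) x + pd k (aa lam mu i) x * Dv lam mu u x +
    ∑ j, mm mu j x * pd k (Om u i j) x -
    ∑ j, pd k (mm mu j) x * (2 * pd j (u i) x - Om u i j x)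

/-- A smooth solution of the Lamé system. -/
structure Sol (lam mu : E3 → ℝ) (U : Set E3) (u : Fin 3 → E3 → ℝ) : Prop where
  sl : Sm lam
  sm : Sm mu
  m0 : ∀ x, mu x ≠ 0
  l0 : ∀ x, lam x + 2 * mu x ≠ 0
  hU : IsOpen U
  su : SmOn U u
  eq : ∀ x ∈ U, ∀ i, lame lam mu u i x = 0

namespace Sol

variable {lam mu : E3 → ℝ} {U : Set E3} {u : Fin 3 → E3 → ℝ} (h : Sol lam mu U u) {y : E3}
include h

lemma s_gg : Sm (gg lam mu) := h.sm.mul (ContDiff.inv (h.sl.add (h.sm.cmul 2)) h.l0)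

lemma s_mm (j : Fin 3) : Sm (mm mu j) := (h.sm.D _).mul (ContDiff.inv h.sm h.m0)

lemma s_aa (i : Fin 3) : Sm (aa lam mu i) := ((Sm.const _).add (h.s_gg.cmul 2)).mul (h.s_mm i)

lemma s_du (i j : Fin 3) : ContDiffOn ℝ ∞ (pd j (u i)) U := contDiffOn_pd h.hU (h.su i) j

lemma s_dv : ContDiffOn ℝ ∞ (dv u) U := ContDiffOn.sum fun i _ => h.s_du i i

lemma s_ka : Sm fun x => (lam x + 2 * mu x) / mu x :=
  ContDiff.div (h.sl.add (h.sm.cmul 2)) h.sm h.m0

lemma s_Dv : ContDiffOn ℝ ∞ (Dv lam mu u) U := h.s_ka.contDiffOn.mul h.s_dv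

lemma s_Om (i k : Fin 3) : ContDiffOn ℝ ∞ (Om u i k) U := (h.s_du i k).sub (h.s_du k i)

lemma s_in (i j : Fin 3) : ContDiffOn ℝ ∞ (fun x => 2 * pd j (u i) x - Om u i j x) U :=
  (contDiffOn_const.mul (h.s_du i j)).sub (h.s_Om i j)

lemma s_RR (i : Fin 3) : ContDiffOn ℝ ∞ (RR lam mu u i) U :=
  ((h.s_aa i).contDiffOn.mul h.s_Dv).sub
    (ContDiffOn.sum fun j _ => (h.s_mm j).contDiffOn.mul (h.s_in i j))

lemma pd_dv (hy : y ∈ U) (j : Fin 3) : pd j (dv u) y =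
    gg lam mu y * pd j (Dv lam mu u) y + pd j (gg lam mu) y * Dv lam mu u y := by
  have e : dv u = fun x => gg lam mu x * Dv lam mu u x := by
    funext x
    have h1 := h.m0 x
    have h2 := h.l0 x
    change dv u x = mu x * (lam x + 2 * mu x)⁻¹ * ((lam x + 2 * mu x) / mu x * dv u x)
    generalize lam x + 2 * mu x = t at h2 ⊢
    field_simp
  rw [← pd_mul h.hU h.s_gg.contDiffOn h.s_Dv hy j, ← e]

lemma lap_u (hy : y ∈ U) (i : Fin 3) :
    lap (u i) y = pd i (dv u) y - pd i (Dv lam mu u) y + RR lam mu u i y := by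
  have h1 := h.m0 y
  have h2 := h.l0 y
  have e1 : pd i (Dv lam mu u) y = (lam y + 2 * mu y) / mu y * pd i (dv u) y +
      pd i (fun x => (lam x + 2 * mu x) / mu x) y * dv u y :=
    pd_mul h.hU h.s_ka.contDiffOn h.s_dv hy i
  have e2 : pd i (fun x => (lam x + 2 * mu x) / mu x) y =
      (lam y + 2 * mu y) * (-1 * (pd i mu y * ((mu y)⁻¹ * (mu y)⁻¹))) +
        (pd i lam y + 2 * pd i mu y) * (mu y)⁻¹ := by
    simp only [div_eq_mul_inv]
    rw [← pd_inv (h.sm.dAt y) h1 i, pd_eq_D,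
      D_mul_at ((h.sl.add (h.sm.cmul 2)).dAt y) ((h.sm.dAt y).fun_inv h1),
      D_add_at (h.sl.dAt y) ((h.sm.cmul 2).dAt y), D_const_mul_at (h.sm.dAt y)]
    rfl
  have e3 := h.eq y hy i
  have e4 : Dv lam mu u y = (lam y + 2 * mu y) / mu y * dv u y := rfl
  simp only [lame, Fin.sum_univ_three] at e3
  simp only [RR, aa, gg, mm, Om, Fin.sum_univ_three, e1, e2, e4]
  field_simp
  linear_combination mu y * e3

lemma pd_lap_u (hy : y ∈ U) (k i : Fin 3) : lap (pd k (u i)) y =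
    pd k (pd i (dv u)) y - pd k (pd i (Dv lam mu u)) y + pd k (RR lam mu u i) y := by
  have h1 := contDiffOn_pd h.hU h.s_dv i
  have h2 := contDiffOn_pd h.hU h.s_Dv i
  rw [← pd_lap h.hU (h.su i) hy, pd_congr_on h.hU (fun x hx => h.lap_u hx i) k hy,
    pd_add h.hU (h1.sub h2) (h.s_RR i) hy, pd_sub h.hU h1 h2 hy]

lemma pd_RR (hy : y ∈ U) (k i : Fin 3) : pd k (RR lam mu u i) y =
    LL lam mu u k i y - 2 * ∑ j, mm mu j y * pd k (pd j (u i)) y := by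
  have h1 : ∀ j, pd k (fun x => mm mu j x * (2 * pd j (u i) x - Om u i j x)) y =
      mm mu j y * (2 * pd k (pd j (u i)) y - pd k (Om u i j) y) +
        pd k (mm mu j) y * (2 * pd j (u i) y - Om u i j y) := by
    intro j
    rw [pd_mul h.hU (h.s_mm j).contDiffOn (h.s_in i j) hy,
      pd_sub h.hU (contDiffOn_const.mul (h.s_du i j)) (h.s_Om i j) hy, pd_eq_D k fun _ => 2 * _,
      D_const_mul_at (dAt_of_on h.hU (h.s_du i j) hy)]
    rfl
  have h2 := pd_sub h.hU ((h.s_aa i).contDiffOn.mul h.s_Dv)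
    (ContDiffOn.sum (s := Finset.univ) fun j _ => (h.s_mm j).contDiffOn.mul (h.s_in i j)) hy k
  rw [pd_mul h.hU (h.s_aa i).contDiffOn h.s_Dv hy,
    pd_sum h.hU (fun j => (h.s_mm j).contDiffOn.mul (h.s_in i j)) hy] at h2
  refine h2.trans ?_
  simp only [h1, LL, Fin.sum_univ_three]
  ring

lemma lap_Dv (hy : y ∈ U) : lap (Dv lam mu u) y =
    ∑ i, LL lam mu u i i y - 2 * ∑ j, mm mu j y * pd j (dv u) y := by
  have h1 : lap (dv u) y = ∑ i, lap (pd i (u i)) y := lap_sum h.hU (fun i => h.s_du i i) hy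
  have h2 : ∀ j, pd j (dv u) y = ∑ i, pd i (pd j (u i)) y := fun j =>
    (pd_sum h.hU (fun i => h.s_du i i) hy j).trans
      (Finset.sum_congr rfl fun i _ => pd_comm h.hU (h.su i) hy j i)
  simp only [h.pd_lap_u hy, h.pd_RR hy] at h1
  simp only [h2]
  simp only [lap, Fin.sum_univ_three] at h1 ⊢
  linarith

lemma lap_Om (hy : y ∈ U) (i k : Fin 3) : lap (Om u i k) y =
    LL lam mu u k i y - LL lam mu u i k y - 2 * ∑ j, mm mu j y * pd j (Om u i k) y := by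
  have h1 : lap (Om u i k) y = lap (pd k (u i)) y - lap (pd i (u k)) y :=
    lap_sub h.hU (h.s_du i k) (h.s_du k i) hy
  have h2 : ∀ j, pd j (Om u i k) y = pd k (pd j (u i)) y - pd i (pd j (u k)) y := fun j => by
    rw [pd_comm h.hU (h.su i) hy k j, pd_comm h.hU (h.su k) hy i j]
    exact pd_sub h.hU (h.s_du i k) (h.s_du k i) hy j
  rw [h1, h.pd_lap_u hy, h.pd_lap_u hy, h.pd_RR hy, h.pd_RR hy, pd_comm h.hU h.s_dv hy k i,
    pd_comm h.hU h.s_Dv hy k i]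
  simp only [h2, Fin.sum_univ_three]
  ring

end Sol

end XSys

open XSys in
theorem s_xsys : S_xsys := by
  intro c M R hc
  let P := {p : (E3 → ℝ) × (E3 → ℝ) // UAdm c p.1 p.2 ∧ CBd M R p.1 p.2}
  let Q := {q : P × Set E3 × (Fin 3 → E3 → ℝ) // Sol q.1.1.1 q.1.1.2 q.2.1 q.2.2}
  let B : Set E3 := ball 0 R
  let π : Q → P := fun q => q.1.1
  let U : Q → Set E3 := fun q => q.1.2.1
  let W : Q → XI → E3 → ℝ := fun q => eps q.1.1.1.1 q.1.1.1.2 q.1.2.2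
  have mk : ∀ f : P → E3 → ℝ, (∀ p, Sm (f p)) → (∀ p, ∀ y ∈ B, |f p y| ≤ M) → Bd B f :=
    fun f h1 h2 => ⟨h1, |M|, abs_nonneg M, fun p y hy => (h2 p y hy).trans (le_abs_self M)⟩
  have bl : Bd1 B fun p : P => p.1.1 :=
    ⟨mk _ (fun p => p.2.1.1) fun p y hy => (p.2.2 y hy).1,
      fun j => mk _ (fun p => p.2.1.1.D _) fun p y hy => ((p.2.2 y hy).2.2.1 j).1⟩
  have bm : Bd1 B fun p : P => p.1.2 :=
    ⟨mk _ (fun p => p.2.1.2.1) fun p y hy => (p.2.2 y hy).2.1,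
      fun j => mk _ (fun p => p.2.1.2.1.D _) fun p y hy => ((p.2.2 y hy).2.2.1 j).2⟩
  have bd : ∀ k, Bd1 B fun p : P => pd k p.1.2 := fun k =>
    ⟨bm.2 k, fun j => mk _ (fun p => (p.2.1.2.1.D _).D _) fun p y hy => (p.2.2 y hy).2.2.2 j k⟩
  have lm : ∀ (p : P) y, c ≤ p.1.2 y := fun p y => (p.2.1.2.2 y).1
  have ll : ∀ (p : P) y, c ≤ p.1.1 y + 2 * p.1.2 y := fun p y => by
    have := p.2.1.2.2 y
    linarith [this.1, this.2]
  have bg : Bd1 B fun p : P => gg p.1.1 p.1.2 :=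
    bm.mul ((bl.add ((Bd1.const 2).mul bm)).inv hc ll)
  have bmm : ∀ j, Bd1 B fun p : P => mm p.1.2 j := fun j => (bd j).mul (bm.inv hc lm)
  have ba : ∀ i, Bd1 B fun p : P => aa p.1.1 p.1.2 i := fun i =>
    ((Bd1.const (-1)).add ((Bd1.const 2).mul bg)).mul (bmm i)
  have v0 : Lin B π U W fun q => Dv (π q).1.1 (π q).1.2 q.1.2.2 := Lin.val (Sum.inr (Sum.inl ()))
  have v1 : ∀ k, Lin B π U W fun q => pd k (Dv (π q).1.1 (π q).1.2 q.1.2.2) := fun k =>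
    Lin.der k (Sum.inr (Sum.inl ()))
  have o1 : ∀ k i j, Lin B π U W fun q => pd k (Om q.1.2.2 i j) := fun k i j =>
    Lin.der k (Sum.inr (Sum.inr (i, j)))
  have li : ∀ i j, Lin B π U W fun q y => 2 * pd j (q.1.2.2 i) y - Om q.1.2.2 i j y := fun i j =>
    ((Lin.der j (Sum.inl i)).cmul 2).sub (Lin.val (Sum.inr (Sum.inr (i, j))))
  have ld : ∀ j, Lin B π U W fun q => pd j (dv q.1.2.2) := fun j =>
    ((Lin.mul bg.1 (v1 j)).add (Lin.mul (bg.2 j) v0)).congr fun q y hy => q.2.pd_dv hy j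
  have lR : ∀ i, Lin B π U W fun q => RR (π q).1.1 (π q).1.2 q.1.2.2 i := fun i =>
    (Lin.mul (ba i).1 v0).sub (Lin.sum fun j => Lin.mul (bmm j).1 (li i j))
  have lL : ∀ k i, Lin B π U W fun q => LL (π q).1.1 (π q).1.2 q.1.2.2 k i := fun k i =>
    (((Lin.mul (ba i).1 (v1 k)).add (Lin.mul ((ba i).2 k) v0)).add
      (Lin.sum fun j => Lin.mul (bmm j).1 (o1 k i j))).sub
      (Lin.sum fun j => Lin.mul ((bmm j).2 k) (li i j))
  have main : ∀ a : XI, Lin B π U W fun q => lap (W q a) := by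
    rintro (i | _ | ⟨i, k⟩)
    · exact (((ld i).sub (v1 i)).add (lR i)).congr fun q y hy => q.2.lap_u hy i
    · exact ((Lin.sum fun i => lL i i).sub
        ((Lin.sum fun j => Lin.mul (bmm j).1 (ld j)).cmul 2)).congr fun q y hy => q.2.lap_Dv hy
    · exact (((lL k i).sub (lL i k)).sub
        ((Lin.sum fun j => Lin.mul (bmm j).1 (o1 j i k)).cmul 2)).congr
        fun q y hy => q.2.lap_Om hy i k
  choose A A0 hA hA0 hE using main
  choose C1 _ hC1 using fun (t : XI × Fin 3 × XI) => (hA t.1 t.2.1 t.2.2).2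
  choose C0 _ hC0 using fun (t : XI × XI) => (hA0 t.1 t.2).2
  obtain ⟨K1, hK1⟩ := Finite.exists_le C1
  obtain ⟨K0, hK0⟩ := Finite.exists_le C0
  refine ⟨max 0 (max K1 K0), le_max_left _ _, fun lam mu h1 h2 => ?_⟩
  let p : P := ⟨(lam, mu), h1, h2⟩
  refine ⟨fun i a a' => A a p i a', fun a a' => A0 a p a', fun i a a' => (hA a i a').1 p,
    fun a a' => (hA0 a a').1 p, fun y hy a a' => ⟨fun i => ?_, ?_⟩, fun V u hV hu he y hy a => ?_⟩
  · exact (hC1 (a, i, a') p y hy).trans ((hK1 _).trans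
      ((le_max_left _ _).trans (le_max_right _ _)))
  · exact (hC0 (a, a') p y hy).trans ((hK0 _).trans
      ((le_max_right _ _).trans (le_max_right _ _)))
  · have hs : Sol lam mu V u := ⟨h1.1, h1.2.1, fun x => (hc.trans_le (lm p x)).ne',
      fun x => (hc.trans_le (ll p x)).ne', hV, hu, he⟩
    have := hE a ⟨(p, V, u), hs⟩ y hy
    rw [Pi.zero_apply, Pi.zero_apply, add_zero]
    exact this

end Vale.Agent.P136
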