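import Vale.Agent.P136.AST
import Vale.Agent.P136.Apr
import Vale.Agent.P136.Chi
import Vale.Agent.P136.E0
import Vale.Agent.P136.E12
import Vale.Agent.P136.G15
import Vale.Agent.P136.G2
import Vale.Agent.P136.G3
import Vale.Agent.P136.IE
import Vale.Agent.P136.Ike
import Vale.Agent.P136.Jets
import Vale.Agent.P136.LM
import Vale.Agent.P136.Layer
import Vale.Agent.P136.LemQ
import Vale.Agent.P136.ME
import Vale.Agent.P136.MF
import Vale.Agent.P136.MI
import Vale.Agent.P136.Phi
import Vale.Agent.P136.Qcv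
import Vale.Agent.P136.Sob
import Vale.Agent.P136.TT
import Vale.Agent.P136.W2S
import Vale.Agent.P136.WKB
import Vale.Agent.P136.WeylLame
import Vale.Agent.P136.WeylSys
import Vale.Agent.P136.WkSmooth
import Vale.Agent.P136.WkStep
import Vale.Agent.P136.XSys

/-!
# P136: unconditional versions of the intermediate statements
-/

namespace Vale.Agent.P136

theorem t_ie : S_ie := s_ie s_ie0
theorem t_weylSys : S_weylSys := s_weylSys s_wkStep s_wkSmooth
theorem t_weylLame : S_weylLame := s_weylLame s_wkStep s_wkSmooth s_green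
theorem t_lm : S_lm := s_lm s_coer
theorem t_T : S_T := s_T t_lm s_coer t_weylLame s_green
theorem t_cmp : S_cmp := s_cmp t_lm s_coer
theorem t_eta : S_eta := s_eta s_chi
theorem t_jets : S_jets := s_jets (s_exist t_weylSys s_greenSys) t_ie
theorem t_ME : S_ME :=
  s_ME (s_MI s_phi s_pw) (s_G1 s_phi) (s_G5 s_phi)
    (s_G2 s_phi (s_G1 s_phi) s_C6 (s_Qcv s_Q)) (s_G3 s_phi s_C6)
theorem t_ast : S_ast :=
  s_ast t_ME s_w2s s_slm s_approx (s_mf s_w2s) s_drep t_weylSys s_greenSys t_ie
theorem t_E1 : S_E1 := s_E1 (s_E0 t_jets t_T) t_jets t_T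
theorem t_E2 : S_E2 := s_E2 t_jets

end Vale.Agent.P136
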