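import Vale.Agent.P136.Stmts

/-!
# P136: derivatives of the weight
-/

open scoped ContDiff RealInnerProductSpace

noncomputable section
namespace Vale.Agent.P136
namespace Phi

/-- `⟪y - x, w₂ - w₁⟫`. -/
def A (w : X6) : X6 →L[ℝ] ℝ :=
  (innerSL ℝ (w.2 - w.1)).comp (ContinuousLinearMap.snd ℝ E3 E3 - ContinuousLinearMap.fst ℝ E3 E3)

/-- `⟪x, w₁⟫`. -/
def B (w : X6) : X6 →L[ℝ] ℝ := (innerSL ℝ w.1).comp (ContinuousLinearMap.fst ℝ E3 E3)

lemma A_apply (w p : X6) : A w p = ⟪w.2 - w.1, p.2 - p.1⟫ := rfl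

lemma B_apply (w p : X6) : B w p = ⟪w.1, p.1⟫ := rfl

lemma sm_clm (L : X6 →L[ℝ] ℝ) : Sm L := L.contDiff

lemma D_clm (L : X6 →L[ℝ] ℝ) (v p : X6) : D v L p = L v := by
  simp only [D, L.fderiv]

lemma sm_n : Sm fun p : X6 => ‖p.1‖ ^ 2 := (contDiff_norm_sq ℝ).comp contDiff_fst

lemma sm_F : Sm F2 := (contDiff_norm_sq ℝ).comp (contDiff_snd.sub contDiff_fst)

lemma D_n (v p : X6) : D v (fun p : X6 => ‖p.1‖ ^ 2) p = 2 * B v p := by
  have h := (hasFDerivAt_fst (𝕜 := ℝ) (p := p)).norm_sq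
  rw [D, h.fderiv, B_apply, real_inner_comm]
  simp

lemma D_F (v p : X6) : D v F2 p = 2 * A v p := by
  have h := ((hasFDerivAt_snd (𝕜 := ℝ) (p := p)).sub (hasFDerivAt_fst (𝕜 := ℝ) (p := p))).norm_sq
  have e : F2 = fun x : X6 => ‖(Prod.snd - Prod.fst : X6 → E3) x‖ ^ 2 := rfl
  rw [D, e, h.fderiv, A_apply, real_inner_comm]
  simp [inner_sub_left, inner_sub_right]

/-- The first coordinate of `x`. -/
def c0 : X6 →L[ℝ] ℝ := B (ex 0)

lemma c0_apply (p : X6) : c0 p = p.1 0 := by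
  simp [c0, B_apply, ex, EuclideanSpace.inner_single_left]

lemma sm_k (ε : ℝ) : Sm fun p : X6 => 1 + ε * ‖p.1‖ ^ 2 := (Sm.const 1).add (sm_n.cmul ε)

lemma D_k (ε : ℝ) (v p : X6) : D v (fun p : X6 => 1 + ε * ‖p.1‖ ^ 2) p = 2 * ε * B v p := by
  rw [D_add_at ((Sm.const 1).dAt p) ((sm_n.cmul ε).dAt p), D_const, D_const_mul_at (sm_n.dAt p),
    D_n]
  ring

lemma phi_eq (a ε τ : ℝ) :
    phi a ε τ = fun p => a / 2 * F2 p * (1 + ε * ‖p.1‖ ^ 2) + τ * c0 p := by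
  funext p
  rw [c0_apply, phi]

lemma sm_phi (a ε τ : ℝ) : Sm (phi a ε τ) := by
  rw [phi_eq]
  exact ((sm_F.cmul _).mul (sm_k ε)).add ((sm_clm c0).cmul τ)

lemma d1 (a ε τ : ℝ) (w : X6) : D w (phi a ε τ) = fun p =>
    a * (A w p * (1 + ε * ‖p.1‖ ^ 2)) + a * ε * (F2 p * B w p) + τ * c0 w := by
  funext p
  rw [phi_eq, D_add_at (((sm_F.cmul _).mul (sm_k ε)).dAt p) (((sm_clm c0).cmul τ).dAt p),
    D_mul_at ((sm_F.cmul _).dAt p) ((sm_k ε).dAt p), D_const_mul_at (sm_F.dAt p),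
    D_const_mul_at ((sm_clm c0).dAt p), D_k, D_F, D_clm]
  ring

lemma d2 (a ε τ : ℝ) (v w : X6) : D v (D w (phi a ε τ)) = fun p =>
    a * A w v * (1 + ε * ‖p.1‖ ^ 2) + 2 * a * ε * (A w p * B v p) +
      2 * a * ε * (A v p * B w p) + a * ε * B w v * F2 p := by
  funext p
  have s1 := (sm_clm (A w)).mul (sm_k ε)
  have s2 := sm_F.mul (sm_clm (B w))
  rw [d1, D_add_at (((s1.cmul _).add (s2.cmul _)).dAt p) ((Sm.const _).dAt p),
    D_add_at ((s1.cmul _).dAt p) ((s2.cmul _).dAt p), D_const_mul_at (s1.dAt p),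
    D_const_mul_at (s2.dAt p), D_mul_at ((sm_clm _).dAt p) ((sm_k ε).dAt p),
    D_mul_at (sm_F.dAt p) ((sm_clm _).dAt p), D_const, D_k, D_F, D_clm, D_clm]
  ring

lemma d3 (a ε τ : ℝ) (u v w : X6) : D u (D v (D w (phi a ε τ))) = fun p =>
    (2 * a * ε) • (A w v • B u + A w u • B v + B v u • A w + A v u • B w + B w u • A v +
      B w v • A u) p := by
  funext p
  have s1 := (sm_k ε).cmul (a * A w v)
  have s2 := (sm_clm (A w)).mul (sm_clm (B v))
  have s3 := (sm_clm (A v)).mul (sm_clm (B w))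
  rw [d2, D_add_at (((s1.add (s2.cmul _)).add (s3.cmul _)).dAt p) ((sm_F.cmul _).dAt p),
    D_add_at ((s1.add (s2.cmul _)).dAt p) ((s3.cmul _).dAt p),
    D_add_at (s1.dAt p) ((s2.cmul _).dAt p), D_const_mul_at ((sm_k ε).dAt p),
    D_const_mul_at (s2.dAt p), D_const_mul_at (s3.dAt p), D_const_mul_at (sm_F.dAt p),
    D_mul_at ((sm_clm _).dAt p) ((sm_clm _).dAt p),
    D_mul_at ((sm_clm _).dAt p) ((sm_clm _).dAt p), D_k, D_F, D_clm, D_clm, D_clm, D_clm]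
  simp only [add_apply, smul_apply, smul_eq_mul]
  ring

lemma d3' (a ε τ : ℝ) (u v w p : X6) : D u (D v (D w (phi a ε τ))) p =
    2 * a * ε * (A w v * B u p + A w u * B v p + B v u * A w p + A v u * B w p + B w u * A v p +
      B w v * A u p) := by
  rw [d3]
  simp only [add_apply, smul_apply, smul_eq_mul]

lemma d4 (a ε τ : ℝ) (z u v w p : X6) : D z (D u (D v (D w (phi a ε τ)))) p =
    2 * a * ε * (A w v * B u z + A w u * B v z + B v u * A w z + A v u * B w z + B w u * A v z +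
      B w v * A u z) := by
  rw [d3]
  simp only [smul_eq_mul]
  rw [D_const_mul_at ((sm_clm _).dAt p), D_clm]
  simp only [add_apply, smul_apply, smul_eq_mul]

lemma A_ex (j : Fin 3) (p : X6) : A (ex j) p = -(p.2 j - p.1 j) := by
  simp [A_apply, ex, EuclideanSpace.inner_single_left]

lemma A_ey (j : Fin 3) (p : X6) : A (ey j) p = p.2 j - p.1 j := by
  simp [A_apply, ey, EuclideanSpace.inner_single_left]

lemma B_ex (j : Fin 3) (p : X6) : B (ex j) p = p.1 j := by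
  simp [B_apply, ex, EuclideanSpace.inner_single_left]

lemma B_ey (j : Fin 3) (p : X6) : B (ey j) p = 0 := by
  simp [B_apply, ey]

lemma ex1 (i j : Fin 3) : (ex i).1 j = if i = j then 1 else 0 := by
  simp [ex, eq_comm]

lemma ex2 (i j : Fin 3) : (ex i).2 j = 0 := by simp [ex]

lemma ey1 (i j : Fin 3) : (ey i).1 j = 0 := by simp [ey]

lemma ey2 (i j : Fin 3) : (ey i).2 j = if i = j then 1 else 0 := by
  simp [ey, eq_comm]

lemma D_fst (j : Fin 3) (v p : X6) : D v (fun p : X6 => p.1 j) p = v.1 j := by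
  have e : (fun p : X6 => p.1 j) = B (ex j) := funext fun p => (B_ex j p).symm
  rw [e, D_clm, B_ex]

lemma D_snd (j : Fin 3) (v p : X6) : D v (fun p : X6 => p.2 j) p = v.2 j := by
  have e : (fun p : X6 => p.2 j) = (A (ey j) + B (ex j) : X6 →L[ℝ] ℝ) := funext fun p => by
    rw [add_apply, A_ey, B_ex, sub_add_cancel]
  rw [e, D_clm, add_apply, A_ey, B_ex, sub_add_cancel]

end Phi

open Phi in
theorem s_phi : S_phi := by
  refine fun a ε τ => ⟨sm_phi a ε τ, fun p i j => ?_⟩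
  rw [Phi.d2, Phi.d2, Phi.d2, Phi.d1, Phi.d1]
  simp only [D_F, D_n, D_fst, D_snd, A_ex, A_ey, B_ex, B_ey, c0_apply, ex1, ex2, ey1, ey2]
  refine ⟨?_, ?_, ?_, ?_, ?_, ?_⟩
  · ring
  · split_ifs <;> ring
  · split_ifs <;> ring
  · split_ifs <;> ring
  · split_ifs <;> ring
  · simp
    ring

end Vale.Agent.P136
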