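import Vale.Agent.P136.Stmts

/-!
# P136: the change of variables `t = √κ (y - x)`
-/

open MeasureTheory Set
open scoped ContDiff Topology

noncomputable section
namespace Vale.Agent.P136

namespace Qcv

/-- The weight `√(1 + ε |s|²)`. -/
def kk (ε : ℝ) (s : E3) : ℝ := √(1 + ε * ‖s‖ ^ 2)

variable {ε : ℝ}

lemma base_pos (hε : 0 ≤ ε) (s : E3) : 0 < 1 + ε * ‖s‖ ^ 2 := by positivity

lemma kk_pos (hε : 0 ≤ ε) (s : E3) : 0 < kk ε s := Real.sqrt_pos.2 (base_pos hε s)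

lemma kk_sq (hε : 0 ≤ ε) (s : E3) : kk ε s ^ 2 = 1 + ε * ‖s‖ ^ 2 :=
  Real.sq_sqrt (base_pos hε s).le

lemma kk_sm (hε : 0 ≤ ε) : Sm (kk ε) :=
  ContDiff.sqrt (contDiff_const.add (contDiff_const.mul (contDiff_norm_sq ℝ)))
    fun s => (base_pos hε s).ne'

lemma kinv_sm (hε : 0 ≤ ε) : Sm fun s => (kk ε s)⁻¹ :=
  ContDiff.inv (kk_sm hε) fun s => (kk_pos hε s).ne'

lemma kinv_deriv (hε : 0 ≤ ε) (s : E3) (i : Fin 3) :
    fderiv ℝ (fun s => (kk ε s)⁻¹) s (EuclideanSpace.single i 1) = -(ε * s i / kk ε s ^ 3) := by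
  have h1 : HasFDerivAt (fun s : E3 => 1 + ε * ‖s‖ ^ 2) (ε • (2 : ℕ) • innerSL ℝ s) s :=
    ((hasStrictFDerivAt_norm_sq s).hasFDerivAt.const_mul ε).const_add 1
  have h2 := (Real.hasDerivAt_sqrt (base_pos hε s).ne').fun_inv (kk_pos hε s).ne'
  have h3 := h2.comp_hasFDerivAt s h1
  have h4 : fderiv ℝ (fun s => (kk ε s)⁻¹) s = _ := h3.fderiv
  rw [h4]
  have h5 := (kk_pos hε s).ne'
  change √(1 + ε * ‖s‖ ^ 2) ≠ 0 at h5
  simp only [smul_apply, innerSL_apply_apply, EuclideanSpace.inner_single_right,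
    smul_eq_mul, nsmul_eq_mul, kk, conj_trivial]
  field_simp
  ring

/-- The substitution `(s, t) ↦ (s, s + t / k(s))`. -/
def Psi (ε : ℝ) (p : X6) : X6 := (p.1, p.1 + (kk ε p.1)⁻¹ • p.2)

lemma Psi_sm (hε : 0 ≤ ε) : ContDiff ℝ ∞ (Psi ε) :=
  contDiff_fst.prodMk (contDiff_fst.add (((kinv_sm hε).comp contDiff_fst).smul contDiff_snd))

/-- The substitution as a homeomorphism. -/
def PsiH (hε : 0 ≤ ε) : X6 ≃ₜ X6 where
  toFun := Psi ε
  invFun p := (p.1, kk ε p.1 • (p.2 - p.1))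
  left_inv p := by
    simp only [Psi, add_sub_cancel_left, smul_inv_smul₀ (kk_pos hε p.1).ne']
  right_inv p := by
    simp only [Psi, inv_smul_smul₀ (kk_pos hε p.1).ne', add_sub_cancel]
  continuous_toFun := (Psi_sm hε).continuous
  continuous_invFun := continuous_fst.prodMk
    (((kk_sm hε).cont.comp continuous_fst).smul (continuous_snd.sub continuous_fst))

lemma tst_comp (hε : 0 ≤ ε) {f : X6 → ℝ} (hf : Tst f) : Tst fun p => f (Psi ε p) :=
  ⟨hf.1.comp (Psi_sm hε), hf.2.comp_homeomorph (PsiH hε)⟩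

lemma integral_comp (hε : 0 ≤ ε) {f : X6 → ℝ} (hf : Tst f) :
    ∫ p, f (Psi ε p) = ∫ p : X6, kk ε p.1 ^ 3 * f p := by
  have h1 : Integrable (fun p => f (Psi ε p)) ((volume : Measure E3).prod volume) :=
    (tst_comp hε hf).integrable
  have h2 : Integrable (fun p : X6 => kk ε p.1 ^ 3 * f p) ((volume : Measure E3).prod volume) :=
    hf.integrable_cmul (((kk_sm hε).cont.comp continuous_fst).pow 3)
  rw [Measure.volume_eq_prod, integral_prod _ h1, integral_prod _ h2]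
  congr 1
  funext s
  have h3 := Measure.integral_comp_smul (volume : Measure E3) (fun t => f (s, s + t)) (kk ε s)⁻¹
  have h4 := integral_add_left_eq_self (μ := (volume : Measure E3)) (fun y => f (s, y)) s
  simp only [Psi]
  rw [h3, h4, integral_const_mul, finrank_euclideanSpace_fin, inv_pow, inv_inv,
    abs_of_pos (pow_pos (kk_pos hε s) 3), smul_eq_mul]

lemma Psi_deriv (hε : 0 ≤ ε) (p v : X6) : fderiv ℝ (Psi ε) p v =
    (v.1, v.1 + ((kk ε p.1)⁻¹ • v.2 + fderiv ℝ (fun s => (kk ε s)⁻¹) p.1 v.1 • p.2)) := by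
  have h1 := ((kinv_sm hε).dAt p.1).hasFDerivAt.comp p hasFDerivAt_fst
  have h2 := hasFDerivAt_fst.prodMk (hasFDerivAt_fst.add (h1.smul hasFDerivAt_snd))
  have h3 : fderiv ℝ (Psi ε) p = _ := h2.fderiv
  rw [h3]
  simp

lemma D_comp (hε : 0 ≤ ε) {f : X6 → ℝ} (hf : Sm f) (p v : X6) :
    D v (fun p => f (Psi ε p)) p = fderiv ℝ f (Psi ε p) (fderiv ℝ (Psi ε) p v) := by
  have h1 := (hf.dAt (Psi ε p)).hasFDerivAt.comp p
    (((Psi_sm hε).differentiable (by simp)) p).hasFDerivAt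
  have h2 : fderiv ℝ (fun p => f (Psi ε p)) p = _ := h1.fderiv
  unfold D
  rw [h2]
  rfl

lemma D_ey (hε : 0 ≤ ε) {r : X6 → ℝ} (hr : Sm r) (p : X6) (i : Fin 3) :
    D (ey i) (fun p => kk ε p.1 * r (Psi ε p)) p = D (ey i) r (Psi ε p) := by
  have hk : Sm fun p : X6 => kk ε p.1 := (kk_sm hε).comp contDiff_fst
  have hr' : Sm fun p => r (Psi ε p) := hr.comp (Psi_sm hε)
  have h1 : D (ey i) (fun p : X6 => kk ε p.1) p = 0 := by
    have h2 := ((kk_sm hε).dAt p.1).hasFDerivAt.comp p hasFDerivAt_fst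
    have h3 : fderiv ℝ (fun p : X6 => kk ε p.1) p = _ := h2.fderiv
    unfold D
    rw [h3]
    simp [ey]
  have h4 : fderiv ℝ (Psi ε) p (ey i) = (kk ε p.1)⁻¹ • ey i := by
    rw [Psi_deriv hε]
    simp [ey]
  rw [D_mul_at (hk.dAt p) (hr'.dAt p), h1, D_comp hε hr, h4, map_smul, smul_eq_mul, zero_mul,
    add_zero, mul_inv_cancel_left₀ (kk_pos hε p.1).ne']
  rfl

lemma sum_ey (t : E3) : ((0, t) : X6) = ∑ k, t k • ey k := by
  refine Prod.ext ?_ ?_
  · simp [ey, Prod.fst_sum]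
  · ext j
    simp [ey, Prod.snd_sum, Pi.single_apply]

lemma D_ex (hε : 0 ≤ ε) {g : X6 → ℝ} (hg : Sm g) (p : X6) (i : Fin 3) :
    D (ex i) (fun p => g (Psi ε p)) p = D (ex i) g (Psi ε p) + D (ey i) g (Psi ε p) -
      ε * p.1 i / kk ε p.1 ^ 3 * ∑ k, p.2 k * D (ey k) g (Psi ε p) := by
  have h4 : fderiv ℝ (Psi ε) p (ex i) =
      ex i + ey i - (ε * p.1 i / kk ε p.1 ^ 3) • ∑ k, p.2 k • ey k := by
    rw [Psi_deriv hε, ← sum_ey]
    simp only [ex, kinv_deriv hε]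
    simp [ey, sub_eq_add_neg]
  rw [D_comp hε hg, h4]
  simp only [map_sub, map_add, map_smul, map_sum, smul_eq_mul]
  rfl

end Qcv

open Qcv in
theorem s_Qcv (h : S_Q) : S_Qcv := by
  intro a ε τ r g hε hτ hr hg
  have hk : Sm fun p : X6 => kk ε p.1 := (kk_sm hε).comp contDiff_fst
  have hb : Sm fun p : X6 => 1 + ε * ‖p.1‖ ^ 2 :=
    contDiff_const.add (contDiff_const.mul ((contDiff_norm_sq ℝ).comp contDiff_fst))
  have hc1 : ∀ i, Sm fun p : X6 => p.1 i := fun i =>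
    (EuclideanSpace.proj i : E3 →L[ℝ] ℝ).contDiff.comp contDiff_fst
  have hc2 : ∀ i, Sm fun p : X6 => p.2 i := fun i =>
    (EuclideanSpace.proj i : E3 →L[ℝ] ℝ).contDiff.comp contDiff_snd
  have H := h a τ _ _ hτ (Tst.mul_left hk (tst_comp hε hr)) (tst_comp hε hg)
  have e1 := integral_comp hε (Tst.mul_left hb hr.sq)
  have e2 : ∀ i : Fin 3, _ := fun i => integral_comp hε
    ((((((hr.D (ey i)).neg.add
      (Tst.mul_left ((hb.cmul a).mul ((hc2 i).sub (hc1 i))) hr)).add (hg.D (ex i))).add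
      (hg.D (ey i))).sub (hg.const_mul (if i = 0 then τ else 0))).sub
      (Tst.mul_left (ContDiff.div ((hc1 i).cmul ε) hb fun p => (base_pos hε p.1).ne')
        (Tst.sum Finset.univ fun k _ =>
          Tst.mul_left ((hc2 k).sub (hc1 k)) (hg.D (ey k))))).sq
  refine le_of_eq_of_le ?_ (H.trans (le_of_eq ?_))
  · congr 1
    refine Eq.trans ?_ (e1.symm.trans ?_)
    · congr 1
      funext p
      simp only [kk]
      ring
    · congr 1
      funext p
      rw [mul_pow, kk_sq hε]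
      rfl
  · refine Finset.sum_congr rfl fun i _ => Eq.trans ?_ (e2 i)
    congr 1
    funext p
    have h1 := (kk_pos hε p.1).ne'
    have h2 : ∀ k, (Psi ε p).2 k - (Psi ε p).1 k = (kk ε p.1)⁻¹ * p.2 k := fun k => by
      simp [Psi]
    have h3 : (Psi ε p).1 = p.1 := rfl
    rw [D_ey hε hr.sm, D_ex hε hg.sm]
    simp only [h2, mul_assoc, ← Finset.mul_sum, Pi.div_apply]
    rw [h3, ← kk_sq hε]
    congr 1
    field_simp
    ring

end Vale.Agent.P136
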