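import Vale.Agent.P136.Basic

/-!
# P136: the solution operators for the interpolated moduli
-/

open MeasureTheory Set Metric
open scoped ContDiff Topology

noncomputable section
namespace Vale.Agent.P136

namespace Sec

/-! ### Linearity and locality of the Lamé operator -/

lemma dv_congr_on {u u' : Fin 3 → E3 → ℝ} {U : Set E3} (hU : IsOpen U)
    (h : ∀ i, EqOn (u i) (u' i) U) : EqOn (dv u) (dv u') U := fun _ hx =>
  Finset.sum_congr rfl fun i _ => pd_congr_on hU (h i) i hx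

lemma lame_congr_on {u u' : Fin 3 → E3 → ℝ} {U : Set E3} (hU : IsOpen U) (lam mu : E3 → ℝ)
    (h : ∀ i, EqOn (u i) (u' i) U) (i : Fin 3) : EqOn (lame lam mu u i) (lame lam mu u' i) U := by
  intro x hx
  have e : ∀ j k, pd j (u k) x = pd j (u' k) x := fun j k => pd_congr_on hU (h k) j hx
  simp only [lame, lap_congr_on hU (h i) hx, pd_congr_on hU (dv_congr_on hU h) i hx,
    dv_congr_on hU h hx, e]

lemma dv_sm {u : Fin 3 → E3 → ℝ} {U : Set E3} (hU : IsOpen U) (h : SmOn U u) :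
    ContDiffOn ℝ ∞ (dv u) U :=
  ContDiffOn.sum fun i _ => contDiffOn_pd hU (h i) i

lemma dv_lin_on {u u' : Fin 3 → E3 → ℝ} {U : Set E3} (hU : IsOpen U) (h : SmOn U u)
    (h' : SmOn U u') (s t : ℝ) :
    EqOn (dv (fun i y => s * u i y + t * u' i y)) (fun y => s * dv u y + t * dv u' y) U := by
  intro x hx
  simp only [dv, Finset.mul_sum, ← Finset.sum_add_distrib]
  exact Finset.sum_congr rfl fun i _ => pd_lin_on hU (h i) (h' i) s t i hx

lemma lame_lin_on {u u' : Fin 3 → E3 → ℝ} {U : Set E3} (hU : IsOpen U) (lam mu : E3 → ℝ)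
    (h : SmOn U u) (h' : SmOn U u') (s t : ℝ) (i : Fin 3) :
    EqOn (lame lam mu (fun i y => s * u i y + t * u' i y) i)
      (fun y => s * lame lam mu u i y + t * lame lam mu u' i y) U := by
  intro x hx
  have e : ∀ j k, pd j (fun y => s * u k y + t * u' k y) x = s * pd j (u k) x + t * pd j (u' k) x :=
    fun j k => pd_lin_on hU (h k) (h' k) s t j hx
  have e1 := lap_lin_on hU (h i) (h' i) s t hx
  have e2 := dv_lin_on hU h h' s t hx
  have e3 := (pd_congr_on hU (dv_lin_on hU h h' s t) i hx).trans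
    (pd_lin_on hU (dv_sm hU h) (dv_sm hU h') s t i hx)
  simp only [lame] at e1 e2 e3 ⊢
  rw [e1, e2, e3]
  simp only [e, Fin.sum_univ_three]; ring

lemma ae_on {O : Set E3} (hO : MeasurableSet O) {f g : E3 → ℝ} (h : EqOn f g O) :
    f =ᵐ[volume.restrict O] g :=
  (ae_restrict_iff' hO).2 (Filter.Eventually.of_forall fun _ hx => h hx)

lemma isT_congr {O : Set E3} (hO : IsOpen O) {lam mu : E3 → ℝ} {v v' u u' : Fin 3 → E3 → ℝ}
    (h : IsT O lam mu v u) (hv : ∀ i, EqOn (v i) (v' i) O) (hu : ∀ i, EqOn (u i) (u' i) O) :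
    IsT O lam mu v' u' := by
  refine ⟨fun i => (h.1 i).congr fun x hx => (hu i hx).symm, h.2.1.congr
    (fun i => ae_on hO.measurableSet fun x hx => ?_)
    (fun i j => ae_on hO.measurableSet fun x hx => ?_), fun x hx i => ?_⟩
  · simp only [Pi.sub_apply, hv i hx, hu i hx]
  · simp only [Pi.sub_apply, grad, pd_congr_on hO (hv i) j hx, pd_congr_on hO (hu i) j hx]
  · rw [← lame_congr_on hO lam mu hu i hx]; exact h.2.2 x hx i

lemma isT_lin {O : Set E3} (hO : IsOpen O) {lam mu : E3 → ℝ} {v v' u u' : Fin 3 → E3 → ℝ}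
    (hv : SmOn O v) (hv' : SmOn O v') (h : IsT O lam mu v u) (h' : IsT O lam mu v' u')
    (s t : ℝ) : IsT O lam mu (fun i y => s * v i y + t * v' i y)
      (fun i y => s * u i y + t * u' i y) := by
  refine ⟨fun i => (contDiffOn_const.mul (h.1 i)).add (contDiffOn_const.mul (h'.1 i)),
    ((h.2.1.smul s).add (h'.2.1.smul t)).congr
      (fun i => ae_on hO.measurableSet fun x _ => ?_)
      (fun i j => ae_on hO.measurableSet fun x hx => ?_), fun x hx i => ?_⟩
  · simp only [Pi.sub_apply, Pi.add_apply, Pi.smul_apply, smul_eq_mul]; ring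
  · simp only [Pi.sub_apply, Pi.add_apply, Pi.smul_apply, smul_eq_mul, grad,
      pd_lin_on hO (hv i) (hv' i) s t j hx, pd_lin_on hO (h.1 i) (h'.1 i) s t j hx]
    ring
  · rw [lame_lin_on hO lam mu h.1 h'.1 s t i hx]
    simp only [h.2.2 x hx i, h'.2.2 x hx i, mul_zero, add_zero]

lemma ike_sm {W : YI → E3 → ℝ} {U : Set E3} (hU : IsOpen U) (h : SmOn U W) : SmOn U (ike W) :=
  fun i => (h (some i)).add (contDiffOn_pd hU (h none) i)

lemma ike_lin_on {W W' : YI → E3 → ℝ} {U : Set E3} (hU : IsOpen U) (h : SmOn U W)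
    (h' : SmOn U W') (s t : ℝ) (i : Fin 3) :
    EqOn (fun y => s * ike W i y + t * ike W' i y)
      (ike (fun a y => s * W a y + t * W' a y) i) U := by
  intro x hx
  simp only [ike, pd_lin_on hU (h none) (h' none) s t i hx]; ring

/-! ### Energy estimates -/

lemma form_zero (h4 : S_green) {Ω : Set E3} (hΩ : IsOpen Ω) {lam mu : E3 → ℝ} (hl : Sm lam)
    (hm : Sm mu) {u : Fin 3 → E3 → ℝ} (hu : SmOn Ω u) (h : ∀ x ∈ Ω, ∀ i, lame lam mu u i x = 0)
    {w : Fin 3 → E3 → ℝ} (hw : ∀ i, IsTest Ω (w i)) : form Ω lam mu (grad u) (grad w) = 0 := by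
  rw [h4 Ω lam mu u w hΩ hl hm hu hw, neg_eq_zero]
  refine Finset.sum_eq_zero fun i _ => ?_
  rw [setIntegral_congr_fun hΩ.measurableSet (g := fun _ => 0)
    fun x hx => by simp only [h x hx i, zero_mul]]
  simp

/-- Coercivity statement for fixed radius and constant. -/
def Coer (R c C : ℝ) : Prop := ∀ (O : Set E3) (lam mu : E3 → ℝ)
  (z : Fin 3 → E3 → ℝ) (Z : Fin 3 → Fin 3 → E3 → ℝ), IsOpen O → O ⊆ ball 0 R → UAdm c lam mu →
  IsH10 O z Z → nrm O z + nrm2 O Z ≤ C * form O lam mu Z Z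

lemma energy {R c C : ℝ} (hC0 : 0 ≤ C) (hC : Coer R c C) {O : Set E3} (hO : IsOpen O)
    (hR : O ⊆ ball 0 R) {lam mu : E3 → ℝ} (ha : UAdm c lam mu) {z : Fin 3 → E3 → ℝ}
    {Z : Fin 3 → Fin 3 → E3 → ℝ} (hz : IsH10 O z Z) {K : ℝ} (hK : 0 ≤ K)
    (h : ∀ w : Fin 3 → E3 → ℝ, (∀ i, IsTest O (w i)) →
      |form O lam mu Z (grad w)| ≤ K * √(nrm2 O (grad w))) :
    nrm O z + nrm2 O Z ≤ (C * K) ^ 2 := by
  obtain ⟨M, hM, hb⟩ := exists_bdC hR ha.1.cont ha.2.1.cont
  have k := form_density hO.measurableSet hM hb hz.1.2.1 hK h hz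
  have k1 := hC O lam mu z Z hO hR ha hz
  have k2 := mul_le_mul_of_nonneg_left ((le_abs_self _).trans k) hC0
  have s2 := Real.sq_sqrt (nrm2_nonneg O Z)
  have s3 := nrm_nonneg O z
  nlinarith [sq_nonneg (C * K - √(nrm2 O Z))]

lemma isT_H1 {O : Set E3} {lam mu : E3 → ℝ} {v u : Fin 3 → E3 → ℝ} (hv : IsH1 O v (grad v))
    (h : IsT O lam mu v u) : IsH1 O u (grad u) := by
  have := h.2.1.1.add hv
  rwa [sub_add_cancel, sub_add_cancel] at this

lemma isT_energy (h4 : S_green) {R c C : ℝ} (hC0 : 0 ≤ C) (hC : Coer R c C) {O : Set E3}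
    (hO : IsOpen O) (hR : O ⊆ ball 0 R) {lam mu : E3 → ℝ} (ha : UAdm c lam mu) {M : ℝ}
    (hM : 0 ≤ M) (hb : BdC O M lam mu) {v u : Fin 3 → E3 → ℝ} (hv : IsH1 O v (grad v))
    (h : IsT O lam mu v u) :
    nrm O u + nrm2 O (grad u) ≤ (2 * (C * (5 * M)) ^ 2 + 2) * (nrm O v + nrm2 O (grad v)) := by
  have hu := isT_H1 hv h
  have hm := hO.measurableSet
  have e := energy hC0 hC hO hR ha h.2.1 (K := 5 * M * √(nrm2 O (grad v))) (by positivity)
    fun w hw => by
      rw [form_sub_left hm hb hu.2.1 hv.2.1 (L2M.of_test O hw),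
        form_zero h4 hO ha.1 ha.2.1 h.1 h.2.2 hw, zero_sub, abs_neg]
      exact abs_form_le hm hM hb hv.2.1 (L2M.of_test O hw)
  have a1 := nrm_add_le h.2.1.1.1 hv.1
  have a2 := nrm2_add_le (O := O) h.2.1.1.2.1 hv.2.1
  rw [sub_add_cancel] at a1 a2
  have s2 := Real.sq_sqrt (nrm2_nonneg O (grad v))
  have s3 := nrm_nonneg O v
  have e' : (C * (5 * M * √(nrm2 O (grad v)))) ^ 2 = (C * (5 * M)) ^ 2 * nrm2 O (grad v) := by
    rw [← mul_assoc, mul_pow, s2]
  rw [e'] at e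
  nlinarith [mul_nonneg (sq_nonneg (C * (5 * M))) s3]

/-- The comparison of the solution in the large ball with the glued field. -/
lemma close (h4 : S_green) {R c C : ℝ} (hC0 : 0 ≤ C) (hC : Coer R c C) {Ω : Set E3}
    (hΩ : IsOpen Ω) (hR : Ω ⊆ ball 0 R) {lam₁ mu₁ lam₂ mu₂ lam mu : E3 → ℝ}
    (a₁ : UAdm c lam₁ mu₁) (a₂ : UAdm c lam₂ mu₂) (ha : UAdm c lam mu)
    (hDN : SameDN Ω lam₁ mu₁ lam₂ mu₂) {δ : ℝ} (hδ : 0 ≤ δ)
    (hout : ∀ x ∉ Ω, lam x = lam₂ x ∧ mu x = mu₂ x)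
    (hin : ∀ x ∈ Ω, |lam x - lam₁ x| ≤ δ ∧ |mu x - mu₁ x| ≤ δ)
    {v u u₁ : Fin 3 → E3 → ℝ} (hvs : SmOn (ball 0 R) v) (hv : IsH1 (ball 0 R) v (grad v))
    (hl : ∀ x ∈ ball (0 : E3) R, ∀ i, lame lam₂ mu₂ v i x = 0)
    (h : IsT (ball 0 R) lam mu v u) (h₁ : IsT Ω lam₁ mu₁ v u₁) :
    nrm (ball 0 R \ Ω) (u - v) + nrm2 (ball 0 R \ Ω) (grad u - grad v) ≤
      (C * (5 * δ)) ^ 2 * nrm2 Ω (grad u₁) ∧
    nrm Ω (u - u₁) + nrm2 Ω (grad u - grad u₁) ≤ (C * (5 * δ)) ^ 2 * nrm2 Ω (grad u₁) := by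
  set B : Set E3 := ball 0 R with hB
  have hBo : IsOpen B := isOpen_ball
  have mB := hBo.measurableSet
  have mΩ := hΩ.measurableSet
  have hvΩ : IsH1 Ω v (grad v) := isH1_of_smOn hΩ (fun i => (hvs i).mono hR)
    (fun i => (hv.1 i).mono_measure (Measure.restrict_mono hR le_rfl)) (L2M.mono hv.2.1 hR)
  have hu := isT_H1 hv h
  have hu₁ := isT_H1 hvΩ h₁
  have ext := h₁.2.1.extend hΩ hBo hR
  set zt : Fin 3 → E3 → ℝ := fun i => Ω.indicator ((u₁ - v) i) with hzt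
  set Zt : Fin 3 → Fin 3 → E3 → ℝ := fun i j => Ω.indicator ((grad u₁ - grad v) i j) with hZt
  have hz := h.2.1.sub ext
  obtain ⟨M, hM, hb⟩ := exists_bdC (O := B) subset_rfl ha.1.cont ha.2.1.cont
  obtain ⟨M₂, hM₂, b₂⟩ := exists_bdC (O := B) subset_rfl a₂.1.cont a₂.2.1.cont
  obtain ⟨M', -, hb'⟩ := exists_bdC hR ha.1.cont ha.2.1.cont
  obtain ⟨M₁, -, b₁⟩ := exists_bdC hR a₁.1.cont a₁.2.1.cont
  have bd : BdC Ω δ (fun x => lam x - lam₁ x) (fun x => mu x - mu₁ x) :=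
    ⟨(ha.1.cont.sub a₁.1.cont).aestronglyMeasurable,
      (ha.2.1.cont.sub a₁.2.1.cont).aestronglyMeasurable, hin⟩
  have lZ : L2M B (grad v + Zt) := L2M.add hv.2.1 ext.1.2.1
  have e := energy hC0 hC hBo subset_rfl ha hz (K := 5 * δ * √(nrm2 Ω (grad u₁)))
    (by positivity) fun w hw => by
      have lw := L2M.of_test B hw
      have lw' := L2M.of_test Ω hw
      have f1 : form Ω lam mu (grad v + Zt) (grad w) = form Ω lam mu (grad u₁) (grad w) :=
        form_congr_left _ _ _ fun i j => ae_on mΩ fun x hx => by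
          simp only [hZt, Pi.add_apply, indicator_of_mem hx, Pi.sub_apply]; ring
      have f2 : form (B \ Ω) lam mu (grad v + Zt) (grad w) =
          form (B \ Ω) lam₂ mu₂ (grad v) (grad w) := by
        rw [form_congr_coef (mB.diff mΩ) (fun x hx => hout x hx.2)]
        exact form_congr_left _ _ _ fun i j => ae_on (mB.diff mΩ) fun x hx => by
          simp only [hZt, Pi.add_apply, indicator_of_notMem hx.2, add_zero]
      have f3 := form_zero h4 hBo a₂.1 a₂.2.1 hvs hl hw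
      rw [form_split mΩ mB hR b₂ hv.2.1 lw] at f3
      have f4 := hDN u₁ v w (grad u₁) (grad v) (grad w)
        ⟨hu₁, fun w' hw' => form_zero h4 hΩ a₁.1 a₁.2.1 h₁.1 h₁.2.2 hw'⟩
        ⟨hvΩ, fun w' hw' => form_zero h4 hΩ a₂.1 a₂.2.1 (fun i => (hvs i).mono hR)
          (fun x hx => hl x (hR hx)) hw'⟩ h₁.2.1
        (isH1_of_smOn hΩ (fun i => (hw i).1.contDiffOn) (fun i => (hw i).tst.memLp Ω) lw')
      have f5 := form_sub_coef mΩ hb' b₁ hu₁.2.1 lw'
      have f6 := abs_form_le mΩ hδ bd hu₁.2.1 lw'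
      have f7 : form B lam mu (grad u - grad v - Zt) (grad w) =
          -form Ω (fun x => lam x - lam₁ x) (fun x => mu x - mu₁ x) (grad u₁) (grad w) := by
        rw [sub_sub, form_sub_left mB hb hu.2.1 lZ lw,
          form_zero h4 hBo ha.1 ha.2.1 h.1 h.2.2 hw, form_split mΩ mB hR hb lZ lw, f1, f2]
        linarith
      rw [f7, abs_neg]
      exact f6.trans (mul_le_mul_of_nonneg_left (Real.sqrt_le_sqrt (nrm2_mono lw hR))
        (by positivity))
  have e' : (C * (5 * δ * √(nrm2 Ω (grad u₁)))) ^ 2 = (C * (5 * δ)) ^ 2 * nrm2 Ω (grad u₁) := by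
    rw [← mul_assoc, mul_pow, Real.sq_sqrt (nrm2_nonneg _ _)]
  rw [e'] at e
  constructor
  · have n1 : nrm (B \ Ω) (u - v) = nrm (B \ Ω) (u - v - zt) :=
      nrm_congr fun i => ae_on (mB.diff mΩ) fun x hx => by
        simp only [hzt, Pi.sub_apply, indicator_of_notMem hx.2, sub_zero]
    have n2 : nrm2 (B \ Ω) (grad u - grad v) = nrm2 (B \ Ω) (grad u - grad v - Zt) :=
      nrm2_congr fun i j => ae_on (mB.diff mΩ) fun x hx => by
        simp only [hZt, Pi.sub_apply, indicator_of_notMem hx.2, sub_zero]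
    have m1 := nrm_mono (O' := B \ Ω) hz.1.1 sdiff_subset
    have m2 := nrm2_mono (O' := B \ Ω) hz.1.2.1 sdiff_subset
    linarith
  · have n1 : nrm Ω (u - u₁) = nrm Ω (u - v - zt) :=
      nrm_congr fun i => ae_on mΩ fun x hx => by
        simp only [hzt, Pi.sub_apply, indicator_of_mem hx]; ring
    have n2 : nrm2 Ω (grad u - grad u₁) = nrm2 Ω (grad u - grad v - Zt) :=
      nrm2_congr fun i j => ae_on mΩ fun x hx => by
        simp only [hZt, Pi.sub_apply, indicator_of_mem hx]; ring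
    have m1 := nrm_mono hz.1.1 hR
    have m2 := nrm2_mono hz.1.2.1 hR
    linarith

/-! ### The bound for `ike W` -/

lemma int_le {O : Set E3} {R : ℝ} (hO : MeasurableSet O) (hR : O ⊆ ball 0 R) {f : E3 → ℝ}
    (hf : MemLp f 2 (volume.restrict O)) {K : ℝ} (h : ∀ x ∈ O, f x ^ 2 ≤ K) :
    ∫ x in O, f x ^ 2 ≤ volume.real O * K := by
  have : IsFiniteMeasure (volume.restrict O) :=
    isFiniteMeasure_restrict.2 ((measure_mono hR).trans_lt measure_ball_lt_top).ne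
  have := setIntegral_mono_on hf.integrable_sq (integrable_const K) hO h
  rwa [setIntegral_const, smul_eq_mul] at this

lemma ike_bound (h6 : S_ie) {b : Coef YI} (hb : SmC b) (R₀ : ℝ) : ∃ C : ℝ, 0 ≤ C ∧
    ∀ W : SolSp b (R₀ + 4), nrm (ball 0 (R₀ + 3)) (ike W.1) +
      nrm2 (ball 0 (R₀ + 3)) (grad (ike W.1)) ≤ C * nrm (ball 0 (R₀ + 4)) W.1 := by
  obtain ⟨C, hC0, hC⟩ := h6 YI (fun i a a' y => -b i a a' y) (fun _ _ _ => 0)
    (fun i a a' => (hb i a a').neg) (fun _ _ => Sm.const 0) (R₀ + 3)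
  set V := volume.real (ball (0 : E3) (R₀ + 3)) with hV
  have hV0 : 0 ≤ V := measureReal_nonneg
  refine ⟨V * (3 * 80 + 9 * 320) * C, by positivity, fun W => ?_⟩
  obtain ⟨W, hW1, hW2, hW3⟩ := W
  set N := nrm (ball 0 (R₀ + 4)) W with hN
  have hN0 : 0 ≤ N := nrm_nonneg _ _
  have hcl : closure (ball (0 : E3) (R₀ + 3)) ⊆ ball 0 (R₀ + 4) :=
    closure_ball_subset_closedBall.trans (closedBall_subset_ball (by linarith))
  have hH := isH1_of_smOn_closure isOpen_ball subset_rfl isOpen_ball hcl (ike_sm isOpen_ball hW1)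
  have pw : ∀ x ∈ ball (0 : E3) (R₀ + 3), (∀ a, W a x ^ 2 ≤ 8 * (C * N)) ∧
      (∀ a j, pd j (W a) x ^ 2 ≤ 32 * (C * N)) ∧
      ∀ a j k, pd j (pd k (W a)) x ^ 2 ≤ 128 * (C * N) := by
    intro x hx
    have hx' : ‖x‖ < R₀ + 3 := mem_ball_zero_iff.1 hx
    have hs : closedBall x (1 / 2) ⊆ ball 0 (R₀ + 4) := by
      intro y hy
      rw [mem_closedBall, dist_eq_norm] at hy
      rw [mem_ball_zero_iff]
      have := norm_add_le (y - x) x
      rw [sub_add_cancel] at this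
      linarith
    have hp : ∀ j, pd j (fun _ : E3 => (0 : ℝ)) = fun _ => 0 := fun j => by
      funext y; simp [pd]
    obtain ⟨k0, k1, k2⟩ := hC W (fun _ _ => 0) (ball 0 (R₀ + 4)) x (1 / 2) (by norm_num)
      (by norm_num) hx'.le isOpen_ball hs hW1 (fun _ => contDiffOn_const) fun y hy a => by
        have := hW3 y hy a
        simp only [sysL] at this
        simp only [neg_mul, Finset.sum_neg_distrib, zero_mul, Finset.sum_const_zero, add_zero]
        linarith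
    have hI : ieN W (fun _ _ => 0) x (1 / 2) ≤ N := by
      have := nrm_mono hW2 (ball_subset_closedBall.trans hs)
      simpa [ieN, hp, nrm, hN] using this
    have hI' := mul_le_mul_of_nonneg_left hI hC0
    refine ⟨fun a => ?_, fun a j => ?_, fun a j k => ?_⟩
    · have := Finset.single_le_sum (f := fun a => W a x ^ 2) (fun _ _ => sq_nonneg _)
        (Finset.mem_univ a)
      norm_num at k0 hI' this ⊢
      linarith
    · have := (Finset.single_le_sum (f := fun j => pd j (W a) x ^ 2) (fun _ _ => sq_nonneg _)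
        (Finset.mem_univ j)).trans (Finset.single_le_sum (f := fun a => ∑ j, pd j (W a) x ^ 2)
          (fun _ _ => Finset.sum_nonneg fun _ _ => sq_nonneg _) (Finset.mem_univ a))
      norm_num at k1 hI' this ⊢
      linarith
    · have := ((Finset.single_le_sum (f := fun k => pd j (pd k (W a)) x ^ 2)
        (fun _ _ => sq_nonneg _) (Finset.mem_univ k)).trans
        (Finset.single_le_sum (f := fun j => ∑ k, pd j (pd k (W a)) x ^ 2)
          (fun _ _ => Finset.sum_nonneg fun _ _ => sq_nonneg _) (Finset.mem_univ j))).trans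
        (Finset.single_le_sum (f := fun a => ∑ j, ∑ k, pd j (pd k (W a)) x ^ 2)
          (fun _ _ => Finset.sum_nonneg fun _ _ => Finset.sum_nonneg fun _ _ => sq_nonneg _)
          (Finset.mem_univ a))
      norm_num at k2 hI' this ⊢
      linarith
  have b0 : ∀ i, ∫ x in ball (0 : E3) (R₀ + 3), ike W i x ^ 2 ≤ V * (80 * (C * N)) := fun i =>
    int_le measurableSet_ball subset_rfl (hH.1 i) fun x hx => by
      have t1 := (pw x hx).1 (some i)
      have t2 := (pw x hx).2.1 none i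
      simp only [ike]
      nlinarith [sq_nonneg (W (some i) x - pd i (W none) x)]
  have b1 : ∀ i j, ∫ x in ball (0 : E3) (R₀ + 3), grad (ike W) i j x ^ 2 ≤
      V * (320 * (C * N)) := fun i j =>
    int_le measurableSet_ball subset_rfl (hH.2.1 i j) fun x hx => by
      have t1 := (pw x hx).2.1 (some i) j
      have t2 := (pw x hx).2.2 none j i
      have hx' := hcl (subset_closure hx)
      have e : grad (ike W) i j x = pd j (W (some i)) x + pd j (pd i (W none)) x :=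
        D_add_at (dAt_of_on isOpen_ball (hW1 (some i)) hx')
          (dAt_of_on isOpen_ball (contDiffOn_pd isOpen_ball (hW1 none) i) hx') _
      rw [e]
      nlinarith [sq_nonneg (pd j (W (some i)) x - pd j (pd i (W none)) x)]
  have c0 : nrm (ball (0 : E3) (R₀ + 3)) (ike W) ≤ 3 * (V * (80 * (C * N))) := by
    simp only [nrm, Fin.sum_univ_three]; linarith [b0 0, b0 1, b0 2]
  have c1 : nrm2 (ball (0 : E3) (R₀ + 3)) (grad (ike W)) ≤ 9 * (V * (320 * (C * N))) := by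
    simp only [nrm2, Fin.sum_univ_three]
    linarith [b1 0 0, b1 0 1, b1 0 2, b1 1 0, b1 1 1, b1 1 2, b1 2 0, b1 2 1, b1 2 2]
  change nrm _ (ike W) + nrm2 _ (grad (ike W)) ≤ _ * N
  nlinarith

/-- The linear solution operator on the large ball. -/
lemma exists_T (h5 : S_T) {c R₀ : ℝ} (hc : 0 < c) (b : Coef YI) {lam mu : E3 → ℝ}
    (ha : UAdm c lam mu) : ∃ T : SolSp b (R₀ + 4) →ₗ[ℝ] (Fin 3 → E3 → ℝ),
      ∀ W, IsT (ball 0 (R₀ + 3)) lam mu (ike W.1) (T W) := by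
  set B : Set E3 := ball 0 (R₀ + 3) with hB
  have hBo : IsOpen B := isOpen_ball
  have hcl : closure B ⊆ ball 0 (R₀ + 4) :=
    closure_ball_subset_closedBall.trans (closedBall_subset_ball (by linarith))
  have hs : B ⊆ ball 0 (R₀ + 4) := subset_closure.trans hcl
  have H := fun W : SolSp b (R₀ + 4) => h5 (R₀ + 3) c B (ball 0 (R₀ + 4)) lam mu (ike W.1) hc hBo
    subset_rfl isOpen_ball hcl ha (ike_sm isOpen_ball W.2.1)
  choose u hu using fun W => (H W).1
  have hT : ∀ W : SolSp b (R₀ + 4), IsT B lam mu (ike W.1) (fun i => B.indicator (u W i)) :=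
    fun W => isT_congr hBo (hu W) (fun _ _ _ => rfl) fun i x hx => (indicator_of_mem hx _).symm
  have sm : ∀ W : SolSp b (R₀ + 4), SmOn B (ike W.1) := fun W i =>
    (ike_sm isOpen_ball W.2.1 i).mono hs
  have lin : ∀ (W W' W'' : SolSp b (R₀ + 4)) (s t : ℝ),
      W''.1 = (fun a y => s * W.1 a y + t * W'.1 a y) → ∀ i x,
      B.indicator (u W'' i) x = s * B.indicator (u W i) x + t * B.indicator (u W' i) x := by
    intro W W' W'' s t e i x
    by_cases hx : x ∈ B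
    · have k := isT_congr hBo (isT_lin hBo (sm W) (sm W') (hT W) (hT W') s t)
        (fun i => (ike_lin_on isOpen_ball W.2.1 W'.2.1 s t i).mono hs) fun _ _ _ => rfl
      rw [← e] at k
      exact (H W'').2.1 _ _ (hT W'') k x hx i
    · simp only [indicator_of_notMem hx, mul_zero, add_zero]
  refine ⟨⟨⟨fun W i => B.indicator (u W i), fun W W' => ?_⟩, fun s W => ?_⟩, hT⟩
  · funext i x
    rw [lin W W' (W + W') 1 1 (by funext a y; simp) i x]
    simp
  · funext i x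
    have := lin W W (s • W) s 0 (by funext a y; simp) i x
    simpa using this

end Sec

theorem s_sec (h1 : S_lm) (h2 : S_coer) (h3 : S_weylLame) (h4 : S_green) (h5 : S_T) (h6 : S_ie) :
    S_sec := by
  have _ := h1
  have _ := h3
  intro c R₀ M Ω lam₁ mu₁ lam₂ mu₂ b ⟨hc, hR₀, hΩ, hcl, a₁, a₂, hI⟩ hDN
  obtain ⟨C, hC0, hC⟩ := h2 (R₀ + 3) c hc
  obtain ⟨C₁, hC₁, hb⟩ := Sec.ike_bound h6 hI.1 R₀
  have hR : Ω ⊆ ball 0 (R₀ + 3) :=
    (subset_closure.trans hcl).trans (ball_subset_ball (by linarith))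
  have hclB : closure (ball (0 : E3) (R₀ + 3)) ⊆ ball 0 (R₀ + 4) :=
    closure_ball_subset_closedBall.trans (closedBall_subset_ball (by linarith))
  have hBY : ball (0 : E3) (R₀ + 3) ⊆ ball 0 (R₀ + 4) := subset_closure.trans hclB
  obtain ⟨M₁, hM₁, b₁⟩ := exists_bdC hR a₁.1.cont a₁.2.1.cont
  set K := (2 * (C * (5 * M)) ^ 2 + 2) * C₁ with hK
  set K' := (C * (5 * M)) ^ 2 * ((2 * (C * (5 * M₁)) ^ 2 + 2) * C₁) with hK'
  have hK0 : 0 ≤ K := by positivity
  have hK0' : 0 ≤ K' := by positivity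
  refine ⟨K + K', by positivity, fun η lam mu hη _ ⟨ha, hbd, hout, hin, _⟩ => ?_⟩
  have hM : 0 ≤ M := (abs_nonneg _).trans (hbd 0 (mem_ball_self (by linarith))).1
  have bB : BdC (ball 0 (R₀ + 3)) M lam mu := ⟨ha.1.cont.aestronglyMeasurable,
    ha.2.1.cont.aestronglyMeasurable, fun x hx => ⟨(hbd x hx).1, (hbd x hx).2.1⟩⟩
  obtain ⟨T, hT⟩ := Sec.exists_T h5 (R₀ := R₀) hc b ha
  refine ⟨T, fun W => ?_⟩
  have sm := Sec.ike_sm isOpen_ball W.2.1
  have hv := isH1_of_smOn_closure isOpen_ball subset_rfl isOpen_ball hclB sm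
  have hvΩ := isH1_of_smOn_closure hΩ hR isOpen_ball
    (hcl.trans (ball_subset_ball (by linarith))) sm
  have hu := Sec.isT_H1 hv (hT W)
  have hN := nrm_nonneg (ball 0 (R₀ + 4)) W.1
  have hl := hI.2.1 _ _ isOpen_ball W.2.1 W.2.2.2
  have key : ∀ u₁, IsT Ω lam₁ mu₁ (ike W.1) u₁ →
      (C * (5 * (M * η))) ^ 2 * nrm2 Ω (grad u₁) ≤
        (K + K') * η ^ 2 * nrm (ball 0 (R₀ + 4)) W.1 := by
    intro u₁ h₁
    have e1 := Sec.isT_energy h4 hC0 hC hΩ hR a₁ hM₁ b₁ hvΩ h₁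
    have e2 := nrm_mono hv.1 hR
    have e3 := nrm2_mono hv.2.1 hR
    have e4 : nrm Ω (ike W.1) + nrm2 Ω (grad (ike W.1)) ≤ C₁ * nrm (ball 0 (R₀ + 4)) W.1 := by
      linarith [hb W]
    have e5 : nrm2 Ω (grad u₁) ≤
        (2 * (C * (5 * M₁)) ^ 2 + 2) * (C₁ * nrm (ball 0 (R₀ + 4)) W.1) := by
      have := mul_le_mul_of_nonneg_left e4 (by positivity : 0 ≤ 2 * (C * (5 * M₁)) ^ 2 + 2)
      linarith [nrm_nonneg Ω u₁]
    have e6 := mul_le_mul_of_nonneg_left e5 (sq_nonneg (C * (5 * (M * η))))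
    have e7 : 0 ≤ K * η ^ 2 * nrm (ball 0 (R₀ + 4)) W.1 := by positivity
    have e8 : (C * (5 * (M * η))) ^ 2 *
        ((2 * (C * (5 * M₁)) ^ 2 + 2) * (C₁ * nrm (ball 0 (R₀ + 4)) W.1)) =
        K' * η ^ 2 * nrm (ball 0 (R₀ + 4)) W.1 := by rw [hK']; ring
    linarith
  have cl := fun u₁ (h₁ : IsT Ω lam₁ mu₁ (ike W.1) u₁) => Sec.close h4 hC0 hC hΩ hR a₁ a₂ ha hDN
    (mul_nonneg hM hη.le) hout hin (fun i => (sm i).mono hBY) hv
    (fun x hx => (hl x (hBY hx)).1) (hT W) h₁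
  refine ⟨(hT W).1, (hT W).2.2, hu.1, hu.2.1, ?_, ?_, fun u₁ h₁ => (cl u₁ h₁).2.trans (key u₁ h₁)⟩
  · have e1 := Sec.isT_energy h4 hC0 hC isOpen_ball subset_rfl ha hM bB hv (hT W)
    have e2 := mul_le_mul_of_nonneg_left (hb W) (by positivity : 0 ≤ 2 * (C * (5 * M)) ^ 2 + 2)
    have e3 : 0 ≤ K' * nrm (ball 0 (R₀ + 4)) W.1 := by positivity
    have e4 : (2 * (C * (5 * M)) ^ 2 + 2) * (C₁ * nrm (ball 0 (R₀ + 4)) W.1) =
        K * nrm (ball 0 (R₀ + 4)) W.1 := by rw [hK]; ring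
    linarith
  · obtain ⟨u₁, h₁⟩ := (h5 (R₀ + 3) c Ω (ball 0 (R₀ + 4)) lam₁ mu₁ (ike W.1) hc hΩ hR isOpen_ball
      (hcl.trans (ball_subset_ball (by linarith))) a₁ sm).1
    exact (cl u₁ h₁).1.trans (key u₁ h₁)

end Vale.Agent.P136
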