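import Vale.Agent.P136.Stmts

/-!
# P136: the supremum bound by the `L²` norms of a function and its Laplacian
-/

open MeasureTheory Set Metric
open scoped ContDiff Topology SchwartzMap FourierTransform LineDeriv Laplacian

noncomputable section
namespace Vale.Agent.P136

namespace Sob

lemma tst_pd {u : E3 → ℝ} (hu : Tst u) (j : Fin 3) : Tst (pd j u) := hu.D _

lemma tst_lap {u : E3 → ℝ} (hu : Tst u) : Tst (lap u) :=
  Tst.sum _ fun j _ => tst_pd (tst_pd hu j) j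

/-- A test function as a complex Schwartz function. -/
def cx {u : E3 → ℝ} (hu : Tst u) : 𝓢(E3, ℂ) :=
  (hu.2.comp_left (g := Complex.ofRealCLM) rfl).toSchwartzMap
    (Complex.ofRealCLM.contDiff.comp hu.1)

lemma cx_apply {u : E3 → ℝ} (hu : Tst u) (y : E3) : cx hu y = (u y : ℂ) := rfl

lemma cx_D {u : E3 → ℝ} (hu : Tst u) (v : E3) : ∂_{v} (cx hu) = cx (hu.D v) := by
  ext y
  rw [SchwartzMap.lineDerivOp_apply_eq_fderiv, cx_apply]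
  have h : HasFDerivAt (cx hu) (Complex.ofRealCLM.comp (fderiv ℝ u y)) y :=
    Complex.ofRealCLM.hasFDerivAt.comp y (hu.sm.dAt y).hasFDerivAt
  rw [h.fderiv]
  rfl

lemma cx_lap {u : E3 → ℝ} (hu : Tst u) : Δ (cx hu) = cx (tst_lap hu) := by
  rw [SchwartzMap.laplacian_eq_sum (EuclideanSpace.basisFun (Fin 3) ℝ)]
  ext y
  simp only [cx_D, sum_apply, cx_apply, lap, EuclideanSpace.basisFun_apply]
  push_cast
  rfl

lemma four_lap (f : 𝓢(E3, ℂ)) (ξ : E3) : ‖ξ‖ ^ 2 * ‖𝓕 f ξ‖ ≤ ‖𝓕 (Δ f) ξ‖ := by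
  have h : 𝓕 (Δ f) = -(2 * Real.pi) ^ 2 • SchwartzMap.smulLeftCLM ℂ (‖·‖ ^ 2 : E3 → ℝ) (𝓕 f) := by
    rw [SchwartzMap.laplacian_eq_fourierMultiplierCLM, SchwartzMap.fourierMultiplierCLM_apply,
      FourierTransform.fourier_smul, FourierTransform.fourier_fourierInv_eq]
  have ht : (‖·‖ ^ 2 : E3 → ℝ).HasTemperateGrowth := by fun_prop
  rw [h, smul_apply, SchwartzMap.smulLeftCLM_apply_apply ht, norm_smul, norm_smul, norm_neg,
    Real.norm_of_nonneg (by positivity), Real.norm_of_nonneg (by positivity)]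
  have h1 : (1 : ℝ) ≤ (2 * Real.pi) ^ 2 := by nlinarith [Real.pi_gt_three]
  exact le_mul_of_one_le_left (by positivity) h1

lemma le_int (f : 𝓢(E3, ℂ)) (x : E3) : ‖f x‖ ≤ ∫ ξ, ‖𝓕 f ξ‖ := by
  have h : f x = 𝓕⁻ (𝓕 f) x := by rw [FourierTransform.fourierInv_fourier_eq]
  rw [h, SchwartzMap.fourierInv_coe, Real.fourierInv_eq]
  refine (norm_integral_le_integral_norm _).trans_eq ?_
  simp

lemma int_sq (f : 𝓢(E3, ℂ)) : Integrable fun ξ => ‖f ξ‖ ^ 2 :=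
  (memLp_two_iff_integrable_sq_norm f.continuous.aestronglyMeasurable).1 (f.memLp 2 volume)

lemma planch {u : E3 → ℝ} (hu : Tst u) : ∫ ξ, ‖𝓕 (cx hu) ξ‖ ^ 2 = ∫ y, u y ^ 2 := by
  rw [SchwartzMap.integral_norm_sq_fourier]
  simp [cx_apply]

/-- The weight. -/
def wt (ξ : E3) : ℝ := ((1 + ‖ξ‖ ^ 2) ^ 2)⁻¹

lemma wt_int : Integrable wt := by
  have h := integrable_rpow_neg_one_add_norm_sq (E := E3) (μ := volume) (r := 4)
    (by norm_num)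
  refine h.congr (.of_forall fun ξ => ?_)
  simp only [wt]
  rw [show (-4 / 2 : ℝ) = -(2 : ℕ) by norm_num, Real.rpow_neg (by positivity), Real.rpow_natCast]

end Sob

open Sob in
theorem s_sob : S_sob := by
  have h0 : 0 ≤ ∫ ξ, wt ξ := integral_nonneg fun ξ => by unfold wt; positivity
  refine ⟨2 * ∫ ξ, wt ξ, by positivity, fun r hr u hu x => ?_⟩
  have i1 : Integrable fun ξ : E3 => wt (r • ξ) := wt_int.comp_smul hr.ne'
  have i2 : Integrable fun ξ => ‖𝓕 (cx hu) ξ‖ := (𝓕 (cx hu)).integrable.norm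
  have i3 := (int_sq (𝓕 (cx hu))).const_mul 2
  have i4 := (int_sq (𝓕 (cx (tst_lap hu)))).const_mul (2 * r ^ 4)
  have e1 : ∫ ξ : E3, wt (r • ξ) = (r ^ 3)⁻¹ * ∫ ξ, wt ξ := by
    rw [Measure.integral_comp_smul_of_nonneg volume wt r (hR := hr.le)]
    simp
  have h : ∀ t : ℝ, 0 ≤ ((r ^ 3)⁻¹ * ∫ ξ, wt ξ) * (t * t) + (-2 * ∫ ξ, ‖𝓕 (cx hu) ξ‖) * t +
      (2 * (∫ y, u y ^ 2) + 2 * r ^ 4 * ∫ y, lap u y ^ 2) := by
    intro t
    have a1 := i1.mul_const (t * t)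
    have a2 := i2.const_mul (-2 * t)
    have e : ∫ ξ : E3, (wt (r • ξ) * (t * t) + -2 * t * ‖𝓕 (cx hu) ξ‖ +
        (2 * ‖𝓕 (cx hu) ξ‖ ^ 2 + 2 * r ^ 4 * ‖𝓕 (cx (tst_lap hu)) ξ‖ ^ 2)) =
        ((r ^ 3)⁻¹ * ∫ ξ, wt ξ) * (t * t) + (-2 * ∫ ξ, ‖𝓕 (cx hu) ξ‖) * t +
        (2 * (∫ y, u y ^ 2) + 2 * r ^ 4 * ∫ y, lap u y ^ 2) := by
      rw [integral_add (iadd a1 a2) (iadd i3 i4), integral_add a1 a2, integral_add i3 i4,
        integral_mul_const, integral_const_mul, integral_const_mul, integral_const_mul, e1,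
        planch, planch]
      ring
    rw [← e]
    refine integral_nonneg fun ξ => ?_
    have b1 := four_lap (cx hu) ξ
    rw [cx_lap] at b1
    have b2 := pow_le_pow_left₀ (by positivity) b1 2
    have b3 : wt (r • ξ) = ((1 + r ^ 2 * ‖ξ‖ ^ 2) ^ 2)⁻¹ := by
      rw [wt, norm_smul, Real.norm_of_nonneg hr.le, mul_pow]
    generalize ‖𝓕 (cx hu) ξ‖ = g at *
    generalize ‖𝓕 (cx (tst_lap hu)) ξ‖ = g' at *
    have b4 : (0 : ℝ) < (1 + r ^ 2 * ‖ξ‖ ^ 2) ^ 2 := by positivity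
    have b5 : ((1 + r ^ 2 * ‖ξ‖ ^ 2) ^ 2)⁻¹ * (t * t) + -2 * t * g +
        (1 + r ^ 2 * ‖ξ‖ ^ 2) ^ 2 * g ^ 2 =
        ((1 + r ^ 2 * ‖ξ‖ ^ 2) ^ 2)⁻¹ * (t - (1 + r ^ 2 * ‖ξ‖ ^ 2) ^ 2 * g) ^ 2 := by
      field_simp
      ring
    have b6 : 0 ≤ ((1 + r ^ 2 * ‖ξ‖ ^ 2) ^ 2)⁻¹ * (t - (1 + r ^ 2 * ‖ξ‖ ^ 2) ^ 2 * g) ^ 2 := by
      positivity
    have b7 := mul_le_mul_of_nonneg_left b2 (show 0 ≤ r ^ 4 by positivity)
    have b8 := sq_nonneg ((1 - r ^ 2 * ‖ξ‖ ^ 2) * g)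
    simp only [Pi.zero_apply, b3]
    nlinarith
  have h2 := discrim_le_zero h
  unfold discrim at h2
  have h3 := pow_le_pow_left₀ (norm_nonneg _) (le_int (cx hu) x) 2
  rw [cx_apply, Complex.norm_real, Real.norm_eq_abs, sq_abs] at h3
  have h4 : (r ^ 3)⁻¹ * (∫ ξ, wt ξ) * (2 * (∫ y, u y ^ 2) + 2 * r ^ 4 * ∫ y, lap u y ^ 2) =
      2 * (∫ ξ, wt ξ) * ((∫ y, u y ^ 2) / r ^ 3 + r * ∫ y, lap u y ^ 2) := by
    field_simp
  nlinarith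

end Vale.Agent.P136
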