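import Vale.Agent.P136.IBP

/-!
# P136: internal definitions and the list of intermediate statements
-/

open MeasureTheory Set Metric
open scoped ContDiff Topology SchwartzMap

noncomputable section
namespace Vale.Agent.P136

/-! ## Operators on `E3` -/

def lap (f : E3 → ℝ) : E3 → ℝ := fun x => ∑ j, pd j (pd j f) x

def dv (u : Fin 3 → E3 → ℝ) : E3 → ℝ := fun x => ∑ i, pd i (u i) x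

/-- The Lamé operator in nondivergence form. -/
def lame (lam mu : E3 → ℝ) (u : Fin 3 → E3 → ℝ) (i : Fin 3) : E3 → ℝ := fun x =>
  mu x * lap (u i) x + (lam x + mu x) * pd i (dv u) x + dv u x * pd i lam x +
    ∑ j, pd j mu x * (pd j (u i) x + pd i (u j) x)

/-- `|e(u)|²`. -/
def esq (u : Fin 3 → E3 → ℝ) : E3 → ℝ := fun x =>
  ∑ i, ∑ j, ((pd j (u i) x + pd i (u j) x) / 2) ^ 2

def SmOn {ι : Type} (U : Set E3) (W : ι → E3 → ℝ) : Prop := ∀ a, ContDiffOn ℝ ∞ (W a) U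

def nrm {ι : Type} [Fintype ι] (U : Set E3) (W : ι → E3 → ℝ) : ℝ := ∑ a, ∫ y in U, W a y ^ 2

def nrm2 (U : Set E3) (G : Fin 3 → Fin 3 → E3 → ℝ) : ℝ := ∑ i, ∑ j, ∫ y in U, G i j y ^ 2

def L2M (U : Set E3) (G : Fin 3 → Fin 3 → E3 → ℝ) : Prop :=
  ∀ i j, MemLp (G i j) 2 (volume.restrict U)

/-- Globally smooth, uniformly admissible moduli. -/
def UAdm (c : ℝ) (lam mu : E3 → ℝ) : Prop :=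
  Sm lam ∧ Sm mu ∧ ∀ x, c ≤ mu x ∧ c ≤ 3 * lam x + 2 * mu x

abbrev Coef (ι : Type) : Type := Fin 3 → ι → ι → E3 → ℝ

def SmC {ι : Type} (b : Coef ι) : Prop := ∀ i a a', Sm (b i a a')

/-- The system `Δ W + b ∇ W`. -/
def sysL {ι : Type} [Fintype ι] (b : Coef ι) (W : ι → E3 → ℝ) (a : ι) : E3 → ℝ := fun y =>
  lap (W a) y + ∑ i, ∑ a', b i a a' y * pd i (W a') y

/-- Its formal transpose. -/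
def sysT {ι : Type} [Fintype ι] (b : Coef ι) (ψ : ι → E3 → ℝ) (a : ι) : E3 → ℝ := fun y =>
  lap (ψ a) y - ∑ i, ∑ a', pd i (fun z => b i a' a z * ψ a' z) y

lemma contDiffOn_pd {f : E3 → ℝ} {U : Set E3} (hU : IsOpen U) (hf : ContDiffOn ℝ ∞ f U)
    (j : Fin 3) : ContDiffOn ℝ ∞ (pd j f) U := contDiffOn_D hU hf _

lemma pd_congr_on {f g : E3 → ℝ} {U : Set E3} (hU : IsOpen U) (h : EqOn f g U) (j : Fin 3) :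
    EqOn (pd j f) (pd j g) U := fun _ hx =>
  D_congr (h.eventuallyEq_of_mem (hU.mem_nhds hx)) _

lemma lap_congr_on {f g : E3 → ℝ} {U : Set E3} (hU : IsOpen U) (h : EqOn f g U) :
    EqOn (lap f) (lap g) U := fun _ hx =>
  Finset.sum_congr rfl fun j _ => pd_congr_on hU (pd_congr_on hU h j) j hx

lemma pd_lin_on {f g : E3 → ℝ} {U : Set E3} (hU : IsOpen U) (hf : ContDiffOn ℝ ∞ f U)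
    (hg : ContDiffOn ℝ ∞ g U) (s t : ℝ) (j : Fin 3) :
    EqOn (pd j (fun y => s * f y + t * g y)) (fun y => s * pd j f y + t * pd j g y) U := by
  intro x hx
  have h1 := dAt_of_on hU hf hx
  have h2 := dAt_of_on hU hg hx
  simp only [pd_eq_D]
  rw [D_add_at (h1.const_mul s) (h2.const_mul t), D_const_mul_at h1, D_const_mul_at h2]

lemma lap_lin_on {f g : E3 → ℝ} {U : Set E3} (hU : IsOpen U) (hf : ContDiffOn ℝ ∞ f U)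
    (hg : ContDiffOn ℝ ∞ g U) (s t : ℝ) :
    EqOn (lap (fun y => s * f y + t * g y)) (fun y => s * lap f y + t * lap g y) U := by
  intro x hx
  simp only [lap, Finset.mul_sum, ← Finset.sum_add_distrib]
  refine Finset.sum_congr rfl fun j _ => ?_
  rw [pd_congr_on hU (pd_lin_on hU hf hg s t j) j hx]
  exact pd_lin_on hU (contDiffOn_pd hU hf j) (contDiffOn_pd hU hg j) s t j hx

lemma sysL_lin_on {ι : Type} [Fintype ι] (b : Coef ι) {W W' : ι → E3 → ℝ} {U : Set E3}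
    (hU : IsOpen U) (h : SmOn U W) (h' : SmOn U W') (s t : ℝ) (a : ι) :
    EqOn (sysL b (fun a y => s * W a y + t * W' a y) a)
      (fun y => s * sysL b W a y + t * sysL b W' a y) U := by
  intro x hx
  simp only [sysL]
  rw [lap_lin_on hU (h a) (h' a) s t hx]
  have : ∀ i a', pd i (fun y => s * W a' y + t * W' a' y) x =
      s * pd i (W a') x + t * pd i (W' a') x := fun i a' => pd_lin_on hU (h a') (h' a') s t i hx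
  simp only [this, mul_add, Finset.sum_add_distrib, Finset.mul_sum]
  simp only [mul_left_comm]; ring

/-- Smooth square-integrable solutions of the system on the ball of radius `R`. -/
def SolSp {ι : Type} [Fintype ι] (b : Coef ι) (R : ℝ) : Submodule ℝ (ι → E3 → ℝ) where
  carrier := {W | SmOn (ball 0 R) W ∧ (∀ a, MemLp (W a) 2 (volume.restrict (ball 0 R))) ∧
    ∀ y ∈ ball (0 : E3) R, ∀ a, sysL b W a y = 0}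
  add_mem' := by
    rintro W W' ⟨h1, h2, h3⟩ ⟨h1', h2', h3'⟩
    refine ⟨fun a => (h1 a).add (h1' a), fun a => (h2 a).add (h2' a), fun y hy a => ?_⟩
    have := sysL_lin_on b isOpen_ball h1 h1' 1 1 a hy
    simp only [one_mul, h3 y hy a, h3' y hy a, add_zero] at this
    exact this
  zero_mem' := by
    refine ⟨fun a => contDiffOn_const, fun a => MemLp.zero, fun y _ a => ?_⟩
    have h0 : ∀ j, pd j (0 : E3 → ℝ) = 0 := fun j => by funext x; simp [pd]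
    simp [sysL, lap, h0]
  smul_mem' := by
    rintro s W ⟨h1, h2, h3⟩
    refine ⟨fun a => (h1 a).const_smul s, fun a => (h2 a).const_smul s, fun y hy a => ?_⟩
    have := sysL_lin_on b isOpen_ball h1 h1 s 0 a hy
    simp only [zero_mul, add_zero, h3 y hy a, mul_zero] at this
    exact this

/-- General linear system `Δ W = A ∇ W + A₀ W + F` on `U`. -/
def GSol {ι : Type} [Fintype ι] (A : Coef ι) (A0 : ι → ι → E3 → ℝ) (F : ι → E3 → ℝ)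
    (U : Set E3) (W : ι → E3 → ℝ) : Prop :=
  ∀ y ∈ U, ∀ a, lap (W a) y =
    ∑ i, ∑ a', A i a a' y * pd i (W a') y + ∑ a', A0 a a' y * W a' y + F a y

/-! ## Interior estimates -/

def S_sob : Prop := ∃ C : ℝ, 0 ≤ C ∧ ∀ r : ℝ, 0 < r → ∀ u : E3 → ℝ, Tst u → ∀ x,
  u x ^ 2 ≤ C * ((∫ y, u y ^ 2) / r ^ 3 + r * ∫ y, lap u y ^ 2)

def S_ie0 : Prop := ∀ (ι : Type) [Fintype ι] (M : ℝ), ∃ C : ℝ, 0 ≤ C ∧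
  ∀ (W : ι → E3 → ℝ) (f : E3 → ℝ) (U : Set E3) (x : E3) (r : ℝ), 0 < r → IsOpen U →
    closedBall x r ⊆ U → SmOn U W → ContinuousOn f U →
    (∀ y ∈ ball x r, ∀ a, |lap (W a) y| ≤
      M * ((∑ a', ∑ j, |pd j (W a') y|) / r + (∑ a', |W a' y|) / r ^ 2) + |f y|) →
    (∑ a, ∑ j, ∫ y in ball x (r / 2), pd j (W a) y ^ 2 ≤
      C * (nrm (ball x r) W / r ^ 2 + r ^ 2 * ∫ y in ball x r, f y ^ 2)) ∧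
    (∑ a, W a x ^ 2 ≤ C * (nrm (ball x r) W / r ^ 3 + r * ∫ y in ball x r, f y ^ 2))

/-- The scaled right-hand side of the interior estimates. -/
def ieN {ι : Type} [Fintype ι] (W F : ι → E3 → ℝ) (x : E3) (r : ℝ) : ℝ :=
  nrm (ball x r) W + r ^ 4 * nrm (ball x r) F +
    r ^ 6 * ∑ j, nrm (ball x r) (fun a => pd j (F a)) +
    r ^ 8 * ∑ j, ∑ k, nrm (ball x r) (fun a => pd j (pd k (F a)))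

def S_ie : Prop := ∀ (ι : Type) [Fintype ι] (A : Coef ι) (A0 : ι → ι → E3 → ℝ), SmC A →
  (∀ a a', Sm (A0 a a')) → ∀ R : ℝ, ∃ C : ℝ, 0 ≤ C ∧
  ∀ (W F : ι → E3 → ℝ) (U : Set E3) (x : E3) (r : ℝ), 0 < r → r ≤ 1 → ‖x‖ ≤ R → IsOpen U →
    closedBall x r ⊆ U → SmOn U W → SmOn U F → GSol A A0 F U W →
    (∑ a, W a x ^ 2 ≤ C * ieN W F x r / r ^ 3) ∧
    (∑ a, ∑ j, pd j (W a) x ^ 2 ≤ C * ieN W F x r / r ^ 5) ∧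
    (∑ a, ∑ j, ∑ k, pd j (pd k (W a)) x ^ 2 ≤ C * ieN W F x r / r ^ 7)

/-! ## Weyl lemma -/

def pds (β : List (Fin 3)) (f : E3 → ℝ) : E3 → ℝ := β.foldr pd f

def LocL2 (U : Set E3) (f : E3 → ℝ) : Prop :=
  ∀ θ, IsTest U θ → MemLp (fun x => θ x * f x) 2 volume

/-- Local Sobolev class of order `k`, defined by duality. -/
def WK (k : ℕ) (U : Set E3) (f : E3 → ℝ) : Prop :=
  ∀ θ, IsTest U θ → ∀ β : List (Fin 3), β.length ≤ k → ∃ C : ℝ, ∀ Θ : 𝓢(E3, ℝ),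
    |∫ x, f x * θ x * pds β Θ x| ≤ C * √(∫ x, Θ x ^ 2)

def S_wkStep : Prop := ∀ (k : ℕ) (U : Set E3) (f F0 : E3 → ℝ) (F : Fin 3 → E3 → ℝ)
  (H : Fin 3 → Fin 3 → E3 → ℝ), IsOpen U → LocL2 U f → LocL2 U F0 → (∀ i, LocL2 U (F i)) →
  (∀ i j, LocL2 U (H i j)) → WK k U f → WK k U F0 → (∀ i, WK k U (F i)) →
  (∀ i j, WK (k + 1) U (H i j)) →
  (∀ ψ, IsTest U ψ → ∫ x, f x * lap ψ x = (∑ i, ∑ j, ∫ x, H i j x * pd i (pd j ψ) x) -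
    (∑ i, ∫ x, F i x * pd i ψ x) + ∫ x, F0 x * ψ x) → WK (k + 1) U f

def S_wkSmooth : Prop := ∀ (U : Set E3) (f : E3 → ℝ), IsOpen U → LocL2 U f → (∀ k, WK k U f) →
  ∃ g, ContDiffOn ℝ ∞ g U ∧ f =ᵐ[volume.restrict U] g

def S_weylSys : Prop := ∀ (ι : Type) [Fintype ι] (b : Coef ι) (U : Set E3) (W : ι → E3 → ℝ),
  SmC b → IsOpen U → (∀ a, MemLp (W a) 2 (volume.restrict U)) →
  (∀ ψ : ι → E3 → ℝ, (∀ a, IsTest U (ψ a)) → ∑ a, ∫ y in U, W a y * sysT b ψ a y = 0) →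
  ∃ W' : ι → E3 → ℝ, SmOn U W' ∧ (∀ a, W a =ᵐ[volume.restrict U] W' a) ∧
    ∀ y ∈ U, ∀ a, sysL b W' a y = 0

/-- Green formula for the system (smooth solutions are weak solutions). -/
def S_greenSys : Prop := ∀ (ι : Type) [Fintype ι] (b : Coef ι) (U : Set E3)
  (W ψ : ι → E3 → ℝ), SmC b → IsOpen U → SmOn U W → (∀ a, IsTest U (ψ a)) →
  ∑ a, ∫ y in U, W a y * sysT b ψ a y = ∑ a, ∫ y in U, sysL b W a y * ψ a y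

def S_green : Prop := ∀ (U : Set E3) (lam mu : E3 → ℝ) (v w : Fin 3 → E3 → ℝ), IsOpen U →
  Sm lam → Sm mu → SmOn U v → (∀ i, IsTest U (w i)) →
  form U lam mu (grad v) (grad w) = -∑ i, ∫ x in U, lame lam mu v i x * w i x

def S_weylLame : Prop := ∀ (U : Set E3) (c : ℝ) (lam mu : E3 → ℝ) (u : Fin 3 → E3 → ℝ)
  (G : Fin 3 → Fin 3 → E3 → ℝ), IsOpen U → 0 < c → UAdm c lam mu → IsSol U lam mu u G →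
  ∃ u' : Fin 3 → E3 → ℝ, SmOn U u' ∧ (∀ i, u i =ᵐ[volume.restrict U] u' i) ∧
    (∀ i j, G i j =ᵐ[volume.restrict U] pd j (u' i)) ∧ ∀ x ∈ U, ∀ i, lame lam mu u' i x = 0

/-! ## The energy form -/

def S_coer : Prop := ∀ R c : ℝ, 0 < c → ∃ C : ℝ, 0 ≤ C ∧ ∀ (O : Set E3) (lam mu : E3 → ℝ)
  (z : Fin 3 → E3 → ℝ) (Z : Fin 3 → Fin 3 → E3 → ℝ), IsOpen O → O ⊆ ball 0 R → UAdm c lam mu →
  IsH10 O z Z → nrm O z + nrm2 O Z ≤ C * form O lam mu Z Z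

def S_lm : Prop := ∀ (R c : ℝ) (O : Set E3) (lam mu : E3 → ℝ) (F : Fin 3 → Fin 3 → E3 → ℝ),
  0 < c → IsOpen O → O ⊆ ball 0 R → UAdm c lam mu → L2M O F →
  ∃ (z : Fin 3 → E3 → ℝ) (Z : Fin 3 → Fin 3 → E3 → ℝ), IsH10 O z Z ∧
    ∀ w : Fin 3 → E3 → ℝ, (∀ i, IsTest O (w i)) → form O lam mu (F + Z) (grad w) = 0

/-- `u₁` is the smooth solution of the first system in `Ω` with the boundary values of `u₂`. -/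
def IsT (Ω : Set E3) (lam mu : E3 → ℝ) (u₂ u₁ : Fin 3 → E3 → ℝ) : Prop :=
  SmOn Ω u₁ ∧ IsH10 Ω (u₁ - u₂) (grad u₁ - grad u₂) ∧ ∀ x ∈ Ω, ∀ i, lame lam mu u₁ i x = 0

def S_T : Prop := ∀ (R c : ℝ) (Ω U : Set E3) (lam mu : E3 → ℝ) (u₂ : Fin 3 → E3 → ℝ), 0 < c →
  IsOpen Ω → Ω ⊆ ball 0 R → IsOpen U → closure Ω ⊆ U → UAdm c lam mu → SmOn U u₂ →
  (∃ u₁, IsT Ω lam mu u₂ u₁) ∧
  (∀ u₁ u₁', IsT Ω lam mu u₂ u₁ → IsT Ω lam mu u₂ u₁' → ∀ x ∈ Ω, ∀ i, u₁ i x = u₁' i x) ∧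
  ((∀ x ∈ Ω, ∀ i, lame lam mu u₂ i x = 0) → IsT Ω lam mu u₂ u₂)

/-! ## Boundary determination -/

def S_cmp : Prop := ∀ (R c : ℝ) (Ω : Set E3) (lam₁ mu₁ lam₂ mu₂ : E3 → ℝ), 0 < c → IsOpen Ω →
  Ω ⊆ ball 0 R → UAdm c lam₁ mu₁ → UAdm c lam₂ mu₂ → SameDN Ω lam₁ mu₁ lam₂ mu₂ →
  ∃ C : ℝ, 0 ≤ C ∧ ∀ (v : Fin 3 → E3 → ℝ) (K : ℝ), (∀ i, Sm (v i)) → 0 ≤ K →
    (∀ w : Fin 3 → E3 → ℝ, (∀ i, IsTest Ω (w i)) →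
      |form Ω lam₁ mu₁ (grad v) (grad w)| ≤ K * √(nrm2 Ω (grad w))) →
    form Ω lam₁ mu₁ (grad v) (grad v) - form Ω lam₂ mu₂ (grad v) (grad v) ≤ C * K ^ 2

def S_hardy : Prop := ∀ (R : ℝ) (Ω U : Set E3) (ρ : E3 → ℝ) (p : E3), IsOpen Ω → Ω ⊆ ball 0 R →
  Sm ρ → fderiv ℝ ρ p ≠ 0 → U ∈ 𝓝 p → (∀ x ∈ U, (x ∈ Ω ↔ 0 < ρ x)) →
  ∃ r₀ : ℝ, 0 < r₀ ∧ ball p r₀ ⊆ U ∧ ∃ C : ℝ, 0 ≤ C ∧ ∀ F w : E3 → ℝ, Continuous F →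
    tsupport F ⊆ ball p r₀ → IsTest Ω w →
    |∫ x in Ω, F x * w x| ≤
      C * √(∫ x in Ω, (ρ x * F x) ^ 2) * √(∑ j, ∫ x in Ω, pd j w x ^ 2)

def S_layer : Prop := ∀ (ρ : E3 → ℝ) (p : E3), Sm ρ → ρ p = 0 → fderiv ℝ ρ p ≠ 0 →
  ∃ r₀ : ℝ, 0 < r₀ ∧
    (∃ C : ℝ, ∀ N : ℝ, 1 ≤ N → ∫ x in ball p r₀, 1 / (1 + (N * ρ x) ^ 2) ≤ C / N) ∧
    ∀ r : ℝ, 0 < r → ∃ c N₀ : ℝ, 0 < c ∧ 1 ≤ N₀ ∧ ∀ N : ℝ, N₀ ≤ N →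
      c / N ≤ volume.real {x ∈ ball p r | 1 / N < ρ x ∧ ρ x < 2 / N}

def S_rho : Prop := ∀ (ρ h : E3 → ℝ) (p : E3), Sm ρ → Sm h → ρ p = 0 → fderiv ℝ ρ p ≠ 0 →
  (∀ᶠ x in 𝓝 p, ρ x = 0 → h x = 0) →
  (∃ r C : ℝ, 0 < r ∧ ∀ x ∈ ball p r, |h x| ≤ C * |ρ x|) ∧
  ∃ s : ℝ, fderiv ℝ h p = s • fderiv ℝ ρ p ∧
    (0 < s → ∃ r c : ℝ, 0 < r ∧ 0 < c ∧ ∀ x ∈ ball p r, 0 < ρ x → c * ρ x ≤ h x)

def S_wkbMu : Prop := ∀ (ρ lam mu : E3 → ℝ) (p : E3), Sm ρ → Sm lam → Sm mu → ρ p = 0 →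
  fderiv ℝ ρ p ≠ 0 → ∃ r₀ : ℝ, 0 < r₀ ∧ ∀ r : ℝ, 0 < r → r ≤ r₀ →
  ∃ C c N₀ : ℝ, 0 ≤ C ∧ 0 < c ∧ 1 ≤ N₀ ∧ ∀ N : ℝ, N₀ ≤ N → ∃ v : Fin 2 → Fin 3 → E3 → ℝ,
    (∀ s i, IsTest (ball p r) (v s i)) ∧ ∀ x, 0 ≤ ρ x →
      (∀ s i, |lame lam mu (v s) i x| ≤ C * N / (1 + (N * ρ x) ^ 2)) ∧
      (∀ s, dv (v s) x ^ 2 ≤ C / (1 + (N * ρ x) ^ 2)) ∧
      (x ∈ ball p (r / 2) → 1 / N < ρ x → ρ x < 2 / N → c * N ^ 2 ≤ ∑ s, esq (v s) x)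

def S_wkbLam : Prop := ∀ (ρ lam mu : E3 → ℝ) (p : E3), Sm ρ → Sm lam → Sm mu → ρ p = 0 →
  fderiv ℝ ρ p ≠ 0 → 0 < mu p → 0 < lam p + mu p → ∃ r₀ : ℝ, 0 < r₀ ∧ ∀ r : ℝ, 0 < r → r ≤ r₀ →
  ∃ C c N₀ : ℝ, 0 ≤ C ∧ 0 < c ∧ 1 ≤ N₀ ∧ ∀ N : ℝ, N₀ ≤ N → ∃ v : Fin 2 → Fin 3 → E3 → ℝ,
    (∀ s i, IsTest (ball p r) (v s i)) ∧ ∀ x, 0 ≤ ρ x →
      (∀ s i, |lame lam mu (v s) i x| ≤ C * N / (1 + (N * ρ x) ^ 2)) ∧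
      (∀ s, esq (v s) x ≤ C * N ^ 2 / (1 + (N * ρ x) ^ 2) ^ 2) ∧
      (x ∈ ball p (r / 2) → 1 / N < ρ x → ρ x < 2 / N → c * N ^ 2 ≤ ∑ s, dv (v s) x ^ 2)

/-- Agreement of the moduli at the boundary. -/
def BdAgree (Ω : Set E3) (lam₁ mu₁ lam₂ mu₂ : E3 → ℝ) : Prop :=
  ∀ p ∈ frontier Ω, mu₁ p = mu₂ p ∧ fderiv ℝ mu₁ p = fderiv ℝ mu₂ p ∧ lam₁ p = lam₂ p

def S_bdry : Prop := ∀ (c : ℝ) (Ω : Set E3) (lam₁ mu₁ lam₂ mu₂ : E3 → ℝ), 0 < c →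
  SmoothDomain Ω → UAdm c lam₁ mu₁ → UAdm c lam₂ mu₂ → SameDN Ω lam₁ mu₁ lam₂ mu₂ →
  BdAgree Ω lam₁ mu₁ lam₂ mu₂

/-! ## Extension and smoothing of the moduli -/

def S_ext : Prop := ∀ (Ω : Set E3) (lam mu : E3 → ℝ), Bornology.IsBounded Ω →
  Admissible Ω lam mu → ∃ c : ℝ, 0 < c ∧ ∃ lam' mu' : E3 → ℝ, UAdm c lam' mu' ∧
    ∀ x ∈ closure Ω, lam' x = lam x ∧ mu' x = mu x

def S_chi : Prop := ∃ C : ℝ, 0 ≤ C ∧ ∀ (Ω : Set E3) (η : ℝ), IsOpen Ω → Bornology.IsBounded Ω → 0 < η →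
  ∃ χ : E3 → ℝ, IsTest Ω χ ∧ (∀ x, 0 ≤ χ x ∧ χ x ≤ 1) ∧
    (∀ x, 3 * η ≤ infDist x Ωᶜ → χ x = 1) ∧ (∀ j x, |pd j χ x| ≤ C / η) ∧
    ∀ j k x, |pd j (pd k χ) x| ≤ C / η ^ 2

/-- Bounds `μ ∈ W^{2,∞}`, `λ ∈ W^{1,∞}` on the ball of radius `R`. -/
def CBd (M R : ℝ) (lam mu : E3 → ℝ) : Prop :=
  ∀ x ∈ ball (0 : E3) R, |lam x| ≤ M ∧ |mu x| ≤ M ∧ (∀ j, |pd j lam x| ≤ M ∧ |pd j mu x| ≤ M) ∧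
    ∀ j k, |pd j (pd k mu) x| ≤ M

def EtaCoef (Ω : Set E3) (lam₁ mu₁ lam₂ mu₂ : E3 → ℝ) (c M R η : ℝ) (lam mu : E3 → ℝ) : Prop :=
  UAdm c lam mu ∧ CBd M R lam mu ∧ (∀ x ∉ Ω, lam x = lam₂ x ∧ mu x = mu₂ x) ∧
    (∀ x ∈ Ω, |lam x - lam₁ x| ≤ M * η ∧ |mu x - mu₁ x| ≤ M * η) ∧
    ∀ x, 3 * η ≤ infDist x Ωᶜ → lam x = lam₁ x ∧ mu x = mu₁ x

def S_eta : Prop := ∀ (c R : ℝ) (Ω : Set E3) (lam₁ mu₁ lam₂ mu₂ : E3 → ℝ), IsOpen Ω →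
  Bornology.IsBounded Ω → UAdm c lam₁ mu₁ → UAdm c lam₂ mu₂ → BdAgree Ω lam₁ mu₁ lam₂ mu₂ →
  ∃ M : ℝ, 0 ≤ M ∧ ∀ η : ℝ, 0 < η → η ≤ 1 →
    ∃ lam mu : E3 → ℝ, EtaCoef Ω lam₁ mu₁ lam₂ mu₂ c M R η lam mu

/-! ## The two Laplace-type systems attached to the Lamé operator -/

abbrev XI : Type := Fin 3 ⊕ Unit ⊕ (Fin 3 × Fin 3)

/-- `(u, κ div u, curl u)` with `κ = (λ + 2 μ) / μ`. -/
def eps (lam mu : E3 → ℝ) (u : Fin 3 → E3 → ℝ) : XI → E3 → ℝ :=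
  Sum.elim u (Sum.elim (fun _ x => (lam x + 2 * mu x) / mu x * dv u x)
    (fun ik x => pd ik.2 (u ik.1) x - pd ik.1 (u ik.2) x))

def S_xsys : Prop := ∀ c M R : ℝ, 0 < c → ∃ C : ℝ, 0 ≤ C ∧ ∀ lam mu : E3 → ℝ, UAdm c lam mu →
  CBd M R lam mu → ∃ (A : Coef XI) (A0 : XI → XI → E3 → ℝ), SmC A ∧ (∀ a a', Sm (A0 a a')) ∧
    (∀ y ∈ ball (0 : E3) R, ∀ a a', (∀ i, |A i a a' y| ≤ C) ∧ |A0 a a' y| ≤ C) ∧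
    ∀ (U : Set E3) (u : Fin 3 → E3 → ℝ), IsOpen U → SmOn U u →
      (∀ x ∈ U, ∀ i, lame lam mu u i x = 0) → GSol A A0 0 U (eps lam mu u)

abbrev YI : Type := Option (Fin 3)

/-- `u = w + ∇ f` for `W = (w, f)`. -/
def ike (W : YI → E3 → ℝ) : Fin 3 → E3 → ℝ := fun i y => W (some i) y + pd i (W none) y

/-- The infinitesimal rotation `(Q (y - x₀), 0)`. -/
def rotW (Q : Fin 3 → Fin 3 → ℝ) (x₀ : E3) : YI → E3 → ℝ := fun a y =>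
  a.elim 0 fun i => ∑ j, Q i j * (y j - x₀ j)

/-- The gauge element `(-∇ f, f)`. -/
def kerW (f : E3 → ℝ) : YI → E3 → ℝ := fun a y => a.elim (f y) fun i => -pd i f y

/-- The scalar equation `Δ f + 2 ∇ log μ · ∇ f = 0`. -/
def bs (mu : E3 → ℝ) : Coef Unit := fun i _ _ y => 2 * pd i mu y / mu y

def IkeProp (lam mu : E3 → ℝ) (b : Coef YI) : Prop :=
  SmC b ∧
  (∀ (U : Set E3) (W : YI → E3 → ℝ), IsOpen U → SmOn U W → (∀ y ∈ U, ∀ a, sysL b W a y = 0) →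
    ∀ y ∈ U, (∀ i, lame lam mu (ike W) i y = 0) ∧
      (lam y + 2 * mu y) * dv (ike W) y =
        mu y * ∑ i, pd i (W (some i)) y - 2 * ∑ i, pd i mu y * pd i (W none) y) ∧
  (∀ (Q : Fin 3 → Fin 3 → ℝ) (x₀ : E3), (∀ i j, Q i j = -Q j i) →
    ∀ y a, sysL b (rotW Q x₀) a y = 0) ∧
  (∀ (U : Set E3) (f : E3 → ℝ), IsOpen U → ContDiffOn ℝ ∞ f U →
    (∀ y ∈ U, sysL (bs mu) (fun _ => f) () y = 0) → ∀ y ∈ U, ∀ a, sysL b (kerW f) a y = 0)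

def S_ike : Prop := ∀ (c : ℝ) (lam mu : E3 → ℝ), 0 < c → UAdm c lam mu →
  ∃ b : Coef YI, IkeProp lam mu b

def S_ikeBd : Prop := ∀ (c R : ℝ) (lam mu : E3 → ℝ) (b : Coef YI), 0 < c → UAdm c lam mu →
  IkeProp lam mu b → ∃ C : ℝ, 0 ≤ C ∧ ∀ (U : Set E3) (W : YI → E3 → ℝ), IsOpen U → SmOn U W →
    (∀ y ∈ U, ∀ a, sysL b W a y = 0) → ∀ x ∈ U, ‖x‖ ≤ R →
    ∑ m, eps lam mu (ike W) m x ^ 2 + ∑ m, ∑ j, pd j (eps lam mu (ike W) m) x ^ 2 ≤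
      C * (∑ a, W a x ^ 2 + ∑ a, ∑ j, pd j (W a) x ^ 2 + ∑ a, ∑ j, ∑ k, pd j (pd k (W a)) x ^ 2)

/-! ## Solutions with prescribed jets -/

def S_apr : Prop := ∀ (ι : Type) [Fintype ι] (b : Coef ι) (R : ℝ) (x₀ : E3), SmC b →
  ∃ C a₀ : ℝ, 0 ≤ C ∧ 1 ≤ a₀ ∧ ∀ a : ℝ, a₀ ≤ a → ∀ ψ : ι → E3 → ℝ, (∀ c, IsTest (ball 0 R) (ψ c)) →
    a ^ 2 * ∑ c, ∫ y, Real.exp (a * ‖y - x₀‖ ^ 2) * ψ c y ^ 2 ≤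
      C * ∑ c, ∫ y, Real.exp (a * ‖y - x₀‖ ^ 2) * sysT b ψ c y ^ 2

def S_exist : Prop := ∀ (ι : Type) [Fintype ι] (b : Coef ι) (R : ℝ) (x₀ : E3), SmC b →
  ∃ C a₀ : ℝ, 0 ≤ C ∧ 1 ≤ a₀ ∧ ∀ a : ℝ, a₀ ≤ a → ∀ p : ι → E3 → ℝ, (∀ c, Sm (p c)) → ∃ W ∈ SolSp b R,
    a ^ 2 * ∑ c, ∫ y in ball 0 R, Real.exp (-(a * ‖y - x₀‖ ^ 2)) * (W c y - p c y) ^ 2 ≤
      C * ∑ c, ∫ y in ball 0 R, Real.exp (-(a * ‖y - x₀‖ ^ 2)) * sysL b p c y ^ 2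

def S_jets : Prop := ∀ (ι : Type) [Fintype ι] (b : Coef ι) (R : ℝ) (x₀ : E3), SmC b →
  x₀ ∈ ball (0 : E3) R → ∀ (w₀ : ι → ℝ) (w₁ : ι → Fin 3 → ℝ) (w₂ : ι → Fin 3 → Fin 3 → ℝ),
  (∀ c j k, w₂ c j k = w₂ c k j) → (∀ c, ∑ j, w₂ c j j = 0) →
  ∃ W ∈ SolSp b R, ∀ c, W c x₀ = w₀ c ∧ (∀ j, pd j (W c) x₀ = w₁ c j) ∧
    ∀ j k, pd j (pd k (W c)) x₀ - (if j = k then lap (W c) x₀ / 3 else 0) = w₂ c j k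

/-! ## The main weighted estimate on `E3 × E3` -/

abbrev X6 : Type := E3 × E3

instance haarX6 : (volume : Measure X6).IsAddHaarMeasure :=
  Measure.prod.instIsAddHaarMeasure (volume : Measure E3) (volume : Measure E3)

def ex (j : Fin 3) : X6 := (EuclideanSpace.single j 1, 0)

def ey (i : Fin 3) : X6 := (0, EuclideanSpace.single i 1)

/-- `|y - x|²`. -/
def F2 (p : X6) : ℝ := ‖p.2 - p.1‖ ^ 2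

def phi (a ε τ : ℝ) (p : X6) : ℝ := a / 2 * F2 p * (1 + ε * ‖p.1‖ ^ 2) + τ * p.1 0

def T6 (R : ℝ) (f : X6 → ℝ) : Prop := Tst f ∧ ∀ p ∈ tsupport f, ‖p.1‖ ≤ R ∧ ‖p.2‖ ≤ R

def L1 (φ f : X6 → ℝ) : X6 → ℝ := fun p => ∑ j, Dp φ (ex j) (Dp φ (ex j) f) p

def d1 (φ f : X6 → ℝ) : X6 → ℝ := fun p => ∑ j, Dm φ (ex j) (Dm φ (ex j) f) p

def L2 {ι : Type} [Fintype ι] (φ : X6 → ℝ) (b : Coef ι) (g : ι → X6 → ℝ) (c : ι) : X6 → ℝ :=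
  fun p => ∑ i, Dp φ (ey i) (Dp φ (ey i) (g c)) p +
    ∑ i, ∑ c', b i c c' p.2 * Dp φ (ey i) (g c') p

def d2 {ι : Type} [Fintype ι] (φ : X6 → ℝ) (b : Coef ι) (q : ι → X6 → ℝ) (c : ι) : X6 → ℝ :=
  fun p => ∑ i, Dm φ (ey i) (Dm φ (ey i) (q c)) p +
    ∑ i, ∑ c', Dm φ (ey i) (fun p' => b i c' c p'.2 * q c' p') p

/-- Explicit derivatives of the weight. -/
def S_phi : Prop := ∀ a ε τ : ℝ, Sm (phi a ε τ) ∧ ∀ (p : X6) (i j : Fin 3),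
  D (ey i) (phi a ε τ) p = a * (1 + ε * ‖p.1‖ ^ 2) * (p.2 i - p.1 i) ∧
  D (ex j) (phi a ε τ) p = -(a * (1 + ε * ‖p.1‖ ^ 2) * (p.2 j - p.1 j)) + a * ε * F2 p * p.1 j +
    (if j = 0 then τ else 0) ∧
  D (ey i) (D (ey j) (phi a ε τ)) p = (if i = j then a * (1 + ε * ‖p.1‖ ^ 2) else 0) ∧
  D (ey i) (D (ex j) (phi a ε τ)) p = -(if i = j then a * (1 + ε * ‖p.1‖ ^ 2) else 0) +
    2 * a * ε * (p.2 i - p.1 i) * p.1 j ∧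
  D (ex i) (D (ex j) (phi a ε τ)) p = (if i = j then a * (1 + ε * ‖p.1‖ ^ 2) + a * ε * F2 p else 0) -
    2 * a * ε * ((p.2 i - p.1 i) * p.1 j + (p.2 j - p.1 j) * p.1 i) ∧
  D (ey i) F2 p = 2 * (p.2 i - p.1 i) ∧ D (ex j) F2 p = -(2 * (p.2 j - p.1 j)) ∧
  D (ey i) (fun p : X6 => ‖p.1‖ ^ 2) p = 0 ∧ D (ex j) (fun p : X6 => ‖p.1‖ ^ 2) p = 2 * p.1 j ∧
  D (ey i) (fun p : X6 => p.1 j) p = 0 ∧ D (ex i) (fun p : X6 => p.2 j) p = 0 ∧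
  D (ey i) (fun p : X6 => p.2 j) p = (if i = j then 1 else 0) ∧
  D (ex i) (fun p : X6 => p.1 j) p = (if i = j then 1 else 0)

def formDens (φ : X6 → ℝ) (p : X6) (g q : ℝ) (Zx Zy : Fin 3 → ℝ) : ℝ :=
  ∑ j, ∑ l, commDens φ (ex l) (ex j) p g g (Zx j) (Zx l) +
    2 * ∑ i, ∑ j, commDens φ (ey i) (ex j) p g q (Zx j) (Zy i) +
    ∑ i, ∑ k, commDens φ (ey k) (ey i) p q q (Zy i) (Zy k)

def S_pw : Prop := ∀ R : ℝ, ∃ C ε₀ : ℝ, 0 ≤ C ∧ 0 < ε₀ ∧ ∀ a ε τ : ℝ, 1 ≤ a → 0 < ε → ε ≤ ε₀ →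
  ∀ (p : X6) (g q : ℝ) (Zx Zy : Fin 3 → ℝ), ‖p.1‖ ≤ R → ‖p.2‖ ≤ R →
    31 / 4 * a * ∑ i, (Zy i - Zx i) ^ 2 + 3 * (a * ε * F2 p) * ∑ j, Zx j ^ 2 -
      49 / 2 * a ^ 2 * (g + q) ^ 2 - C * ((a + a ^ 2 * F2 p) * g ^ 2 + ∑ j, Zx j ^ 2) ≤
    formDens (phi a ε τ) p g q Zx Zy

section quantities
variable {ι : Type} [Fintype ι]

def qG (φ : X6 → ℝ) (b : Coef ι) (g q : ι → X6 → ℝ) : ℝ :=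
  ∑ c, ∫ p, (d1 φ (g c) p + d2 φ b q c p) ^ 2
def qL (φ : X6 → ℝ) (g : ι → X6 → ℝ) : ℝ := ∑ c, ∫ p, L1 φ (g c) p ^ 2
def qV (φ : X6 → ℝ) (g q : ι → X6 → ℝ) : ℝ :=
  ∑ c, ∑ i, ∫ p, (Dm φ (ey i) (q c) p - Dm φ (ex i) (g c) p) ^ 2
def qZ (φ : X6 → ℝ) (g : ι → X6 → ℝ) : ℝ := ∑ c, ∑ j, ∫ p, Dm φ (ex j) (g c) p ^ 2
def qFZ (φ : X6 → ℝ) (g : ι → X6 → ℝ) : ℝ := ∑ c, ∑ j, ∫ p, F2 p * Dm φ (ex j) (g c) p ^ 2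
def qr (g q : ι → X6 → ℝ) : ℝ := ∑ c, ∫ p, (g c p + q c p) ^ 2
def q0 (g : ι → X6 → ℝ) : ℝ := ∑ c, ∫ p, g c p ^ 2
def q2 (g : ι → X6 → ℝ) : ℝ := ∑ c, ∫ p, F2 p * g c p ^ 2
def q4 (g : ι → X6 → ℝ) : ℝ := ∑ c, ∫ p, F2 p ^ 2 * g c p ^ 2

end quantities

/-- A fixed bump: `1` on the ball of radius `1/2`, supported in the unit ball. -/
def zeta : ContDiffBump (0 : E3) := ⟨1 / 2, 1, by norm_num, by norm_num⟩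

def vpi (a : ℝ) (p : X6) : ℝ := a * zeta (p.2 - p.1) / (1 + a * F2 p)

def qpi {ι : Type} [Fintype ι] (a : ℝ) (g : ι → X6 → ℝ) : ℝ := ∑ c, ∫ p, vpi a p * g c p ^ 2

def S_MI : Prop := ∀ (ι : Type) [Fintype ι] (b : Coef ι) (R : ℝ), SmC b →
  ∃ C ε₀ a₀ : ℝ, 0 ≤ C ∧ 0 < ε₀ ∧ ∀ a ε τ : ℝ, a₀ ≤ a → 0 < ε → ε ≤ ε₀ →
  ∀ g q : ι → X6 → ℝ, (∀ c, T6 R (g c)) → (∀ c, T6 R (q c)) →
    (∀ p, (∃ c, p ∈ tsupport (q c)) → ∀ c, L2 (phi a ε τ) b g c p = 0) →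
    qL (phi a ε τ) g + 15 / 2 * (a * qV (phi a ε τ) g q) + 2 * (a * ε * qFZ (phi a ε τ) g) -
      25 * (a ^ 2 * qr g q) - C * (a * q0 g + a ^ 2 * q2 g + qZ (phi a ε τ) g) ≤
    qG (phi a ε τ) b g q

def S_G1 : Prop := ∀ R : ℝ, ∃ ε₀ : ℝ, 0 < ε₀ ∧ ∀ a ε τ : ℝ, 1 ≤ a → τ ^ 2 ≤ a → 0 < ε → ε ≤ ε₀ →
  ∀ f : X6 → ℝ, T6 R f →
    (a ^ 2 / 8 * ∫ p, F2 p ^ 2 * f p ^ 2 ≤
      (∑ j, ∫ p, F2 p * Dm (phi a ε τ) (ex j) f p ^ 2) + 9 * ∫ p, f p ^ 2) ∧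
    (a ^ 2 * ∫ p, F2 p ^ 2 * f p ^ 2 ≤ ∑ i, ∫ p, F2 p * Dm (phi a ε τ) (ey i) f p ^ 2)

def S_G5 : Prop := ∀ R : ℝ, ∃ C ε₀ : ℝ, 0 ≤ C ∧ 0 < ε₀ ∧ ∀ a ε τ : ℝ, 1 ≤ a → τ ^ 2 ≤ a →
  0 < ε → ε ≤ ε₀ → ∀ f : X6 → ℝ, T6 R f →
    ∑ j, ∫ p, Dm (phi a ε τ) (ex j) f p ^ 2 ≤ (∫ p, L1 (phi a ε τ) f p ^ 2) / a +
      C * (a * (∫ p, f p ^ 2) + a ^ 2 * ∫ p, F2 p * f p ^ 2)

def S_C6 : Prop := ∀ (ι : Type) [Fintype ι] (b : Coef ι) (R : ℝ), SmC b → ∃ C : ℝ, 0 ≤ C ∧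
  ∀ (φ om : X6 → ℝ) (g : ι → X6 → ℝ), Sm φ → Sm om → (∀ c, T6 R (g c)) →
    (∀ p ∈ tsupport om, ∀ c, L2 φ b g c p = 0) →
    ∑ c, ∑ i, ∫ p, D (ey i) (fun p => om p * g c p) p ^ 2 ≤
      C * ∑ c, ∫ p, (∑ i, D (ey i) om p ^ 2 + om p ^ 2 * (∑ i, D (ey i) φ p ^ 2 + 1)) * g c p ^ 2

def S_Q : Prop := ∀ (a τ : ℝ) (r g : X6 → ℝ), τ ≠ 0 → Tst r → Tst g →
  4 * a * ∫ p, r p ^ 2 ≤ ∑ i, ∫ p,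
    (-D (ey i) r p + a * p.2 i * r p + D (ex i) g p - (if i = 0 then τ else 0) * g p) ^ 2

def S_Qcv : Prop := ∀ (a ε τ : ℝ) (r g : X6 → ℝ), 0 ≤ ε → τ ≠ 0 → Tst r → Tst g →
  4 * a * ∫ p, (1 + ε * ‖p.1‖ ^ 2) * √(1 + ε * ‖p.1‖ ^ 2) ^ 3 * r p ^ 2 ≤
    ∑ i, ∫ p, √(1 + ε * ‖p.1‖ ^ 2) ^ 3 *
      (-D (ey i) r p + a * (1 + ε * ‖p.1‖ ^ 2) * (p.2 i - p.1 i) * r p +
        D (ex i) g p + D (ey i) g p - (if i = 0 then τ else 0) * g p -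
        ε * p.1 i / (1 + ε * ‖p.1‖ ^ 2) * ∑ k, (p.2 k - p.1 k) * D (ey k) g p) ^ 2

def S_G2 : Prop := ∀ (ι : Type) [Fintype ι] (b : Coef ι) (R : ℝ), SmC b →
  ∃ C ε₀ : ℝ, 0 ≤ C ∧ 0 < ε₀ ∧ ∀ a ε τ : ℝ, 1 ≤ a → τ ^ 2 ≤ a → τ ≠ 0 → 0 < ε → ε ≤ ε₀ →
  ∀ g q : ι → X6 → ℝ, (∀ c, T6 R (g c)) → (∀ c, T6 R (q c)) →
    (∀ p : X6, ‖p.2 - p.1‖ ≤ 1 → ∀ c, L2 (phi a ε τ) b g c p = 0) →
    15 / 4 * (a ^ 2 * qr g q) ≤ a * qV (phi a ε τ) g q +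
      C * (a ^ 3 * ε ^ 2 * q4 g + a * q0 g + a ^ 2 * q4 g + qFZ (phi a ε τ) g +
        qV (phi a ε τ) g q + a * qr g q)

def S_G3 : Prop := ∀ (ι : Type) [Fintype ι] (b : Coef ι) (R : ℝ), SmC b →
  ∃ C : ℝ, 0 ≤ C ∧ ∀ a ε τ : ℝ, 1 ≤ a → τ ^ 2 ≤ a → 0 < τ → 0 < ε → ε ≤ 1 →
  ∀ g q : ι → X6 → ℝ, (∀ c, T6 R (g c)) → (∀ c, T6 R (q c)) →
    (∀ p : X6, ‖p.2 - p.1‖ ≤ 1 → ∀ c, L2 (phi a ε τ) b g c p = 0) →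
    τ ^ 2 * qpi a g ≤
      C * (a * qV (phi a ε τ) g q + a ^ 2 * qr g q + a ^ 3 * ε ^ 2 * q4 g + a * q0 g)

def S_ME : Prop := ∀ (ι : Type) [Fintype ι] (b : Coef ι) (R K : ℝ), SmC b →
  ∃ ε τ a₀ : ℝ, 0 < ε ∧ 1 ≤ a₀ ∧ ∀ a : ℝ, a₀ ≤ a →
  ∀ g q : ι → X6 → ℝ, (∀ c, T6 R (g c)) → (∀ c, T6 R (q c)) →
    (∀ p : X6, ((∃ c, p ∈ tsupport (q c)) ∨ ‖p.2 - p.1‖ ≤ 1) → ∀ c, L2 (phi a ε τ) b g c p = 0) →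
    K * (a * q0 g + qZ (phi a ε τ) g) ≤ qG (phi a ε τ) b g q

/-! ## The estimate for sections of the dual bundle -/

def S_w2s : Prop := ∀ (E H F : Type) [NormedAddCommGroup E] [NormedSpace ℝ E]
  [FiniteDimensional ℝ E] [NormedAddCommGroup H] [NormedSpace ℝ H] [CompleteSpace H]
  [NormedAddCommGroup F] [NormedSpace ℝ F] (l : E → H →L[ℝ] F),
  (∀ h, ContDiff ℝ ∞ (fun x => l x h)) → ContDiff ℝ ∞ l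

def S_slm : Prop := ∀ (H : Type) [NormedAddCommGroup H] [InnerProductSpace ℝ H] [CompleteSpace H]
  (B : E3 → H →L[ℝ] H →L[ℝ] ℝ), ContDiff ℝ ∞ B → (∀ x, IsCoercive (B x)) →
  ∃ S : E3 → (H →L[ℝ] ℝ) →L[ℝ] H, ContDiff ℝ ∞ S ∧ ∀ x l h, B x (S x l) h = l h

def S_approx : Prop := ∀ (V : Type) [NormedAddCommGroup V] [NormedSpace ℝ V] (S : Submodule ℝ V)
  (Ξ : E3 → V) (R δ : ℝ), Continuous Ξ → (∀ x, Ξ x ∈ closure (S : Set V)) →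
  (∀ x, R ≤ ‖x‖ → Ξ x = 0) → 0 < δ →
  ∃ (n : ℕ) (θ : Fin n → E3 → ℝ) (s : Fin n → V), (∀ k, IsTest (ball 0 (R + 1)) (θ k)) ∧
    (∀ k, s k ∈ S) ∧ ∀ x, ‖Ξ x - ∑ k, θ k x • s k‖ ≤ δ

/-- `L²` of the ball of radius `R`. -/
abbrev LB (R : ℝ) : Type := Lp ℝ 2 (volume.restrict (ball (0 : E3) R))

def S_mf : Prop := ∀ (R : ℝ) (m : X6 → ℝ), Sm m → ∃ M : E3 → LB R →L[ℝ] LB R, ContDiff ℝ ∞ M ∧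
  ∀ x u, (M x u : E3 → ℝ) =ᵐ[volume.restrict (ball (0 : E3) R)] fun y => m (x, y) * u y

def S_drep : Prop := ∀ (R : ℝ) (k : E3 → LB R) (κ : X6 → ℝ) (θ : E3 → ℝ), ContDiff ℝ ∞ k →
  Sm κ → Continuous θ →
  (∀ x, (fun y => θ y * k x y) =ᵐ[volume.restrict (ball (0 : E3) R)] fun y => κ (x, y)) →
  ∀ x j, (fun y => θ y * (fderiv ℝ k x (EuclideanSpace.single j 1)) y)
    =ᵐ[volume.restrict (ball (0 : E3) R)] fun y => D (ex j) κ (x, y)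

/-- The weighted norm at the point `x`. -/
def wn {ι : Type} [Fintype ι] (a ε τ R : ℝ) (x : E3) (W : ι → E3 → ℝ) : ℝ :=
  ∑ c, ∫ y in ball 0 R, Real.exp (-(2 * phi a ε τ (x, y))) * W c y ^ 2

def S_ast : Prop := ∀ (ι : Type) [Fintype ι] (b : Coef ι) (R RX K : ℝ), SmC b → 0 < RX →
  RX + 1 < R → ∃ ε τ a₀ : ℝ, 0 < ε ∧ 1 ≤ a₀ ∧ ∀ a : ℝ, a₀ ≤ a →
  ∀ l : E3 → (SolSp b R →ₗ[ℝ] ℝ), (∀ x, ∃ C : ℝ, ∀ W, l x W ^ 2 ≤ C * nrm (ball 0 R) W.1) →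
    (∀ W, Sm (fun x => l x W)) → (∀ x, RX ≤ ‖x‖ → l x = 0) →
    ∃ n₀ n₁ : E3 → ℝ, Continuous n₀ ∧ Continuous n₁ ∧ HasCompactSupport n₀ ∧
      HasCompactSupport n₁ ∧ (∀ x, 0 ≤ n₀ x ∧ 0 ≤ n₁ x) ∧
      (∀ x W, l x W ^ 2 ≤ n₀ x * wn a ε τ R x W.1) ∧
      (∀ x W, ∑ j, pd j (fun x => l x W) x ^ 2 ≤ n₁ x * wn a ε τ R x W.1) ∧
      ∀ Γ : E3 → ℝ, Integrable Γ → (∀ x, 0 ≤ Γ x) →
        (∀ x W, lap (fun x => l x W) x ^ 2 ≤ Γ x * wn a ε τ R x W.1) →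
        K * (a * (∫ x, n₀ x) + ∫ x, n₁ x) ≤ ∫ x, Γ x

/-! ## Locality -/

/-- The common setting. -/
def Setting (c R₀ : ℝ) (Ω : Set E3) (lam₁ mu₁ lam₂ mu₂ : E3 → ℝ) (b : Coef YI) : Prop :=
  0 < c ∧ 0 < R₀ ∧ IsOpen Ω ∧ closure Ω ⊆ ball 0 R₀ ∧ UAdm c lam₁ mu₁ ∧ UAdm c lam₂ mu₂ ∧
    IkeProp lam₂ mu₂ b

def SecProp (R₀ : ℝ) (Ω : Set E3) (lam₁ mu₁ : E3 → ℝ) (b : Coef YI) (lam mu : E3 → ℝ) (C η : ℝ)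
    (T : SolSp b (R₀ + 4) →ₗ[ℝ] (Fin 3 → E3 → ℝ)) : Prop :=
  ∀ W, SmOn (ball 0 (R₀ + 3)) (T W) ∧
    (∀ x ∈ ball (0 : E3) (R₀ + 3), ∀ i, lame lam mu (T W) i x = 0) ∧
    (∀ i, MemLp (T W i) 2 (volume.restrict (ball 0 (R₀ + 3)))) ∧
    L2M (ball 0 (R₀ + 3)) (grad (T W)) ∧
    nrm (ball 0 (R₀ + 3)) (T W) + nrm2 (ball 0 (R₀ + 3)) (grad (T W)) ≤
      C * nrm (ball 0 (R₀ + 4)) W.1 ∧
    nrm (ball 0 (R₀ + 3) \ Ω) (T W - ike W.1) +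
      nrm2 (ball 0 (R₀ + 3) \ Ω) (grad (T W) - grad (ike W.1)) ≤
      C * η ^ 2 * nrm (ball 0 (R₀ + 4)) W.1 ∧
    ∀ u₁, IsT Ω lam₁ mu₁ (ike W.1) u₁ →
      nrm Ω (T W - u₁) + nrm2 Ω (grad (T W) - grad u₁) ≤ C * η ^ 2 * nrm (ball 0 (R₀ + 4)) W.1

def S_sec : Prop := ∀ (c R₀ M : ℝ) (Ω : Set E3) (lam₁ mu₁ lam₂ mu₂ : E3 → ℝ) (b : Coef YI),
  Setting c R₀ Ω lam₁ mu₁ lam₂ mu₂ b → SameDN Ω lam₁ mu₁ lam₂ mu₂ → ∃ C : ℝ, 0 ≤ C ∧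
  ∀ (η : ℝ) (lam mu : E3 → ℝ), 0 < η → η ≤ 1 →
    EtaCoef Ω lam₁ mu₁ lam₂ mu₂ c M (R₀ + 3) η lam mu →
    ∃ T, SecProp R₀ Ω lam₁ mu₁ b lam mu C η T

def S_est : Prop := ∀ (c R₀ M C₀ : ℝ) (Ω : Set E3) (lam₁ mu₁ lam₂ mu₂ : E3 → ℝ) (b : Coef YI),
  Setting c R₀ Ω lam₁ mu₁ lam₂ mu₂ b → 0 ≤ C₀ → ∃ ε τ C a₀ : ℝ, 0 < ε ∧ 0 ≤ C ∧ 1 ≤ a₀ ∧
  ∀ a : ℝ, a₀ ≤ a → ∃ η₀ : ℝ, 0 < η₀ ∧ ∀ (η : ℝ) (lam mu : E3 → ℝ) T, 0 < η → η ≤ η₀ →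
    EtaCoef Ω lam₁ mu₁ lam₂ mu₂ c M (R₀ + 3) η lam mu → SecProp R₀ Ω lam₁ mu₁ b lam mu C₀ η T →
    ∃ n : E3 → ℝ, Continuous n ∧ HasCompactSupport n ∧ (∀ x, 0 ≤ n x) ∧
      ∫ x, n x ≤ C * (a ^ 2 * √a) ∧
      ∀ x ∈ ball (0 : E3) R₀, ∀ W m, eps lam mu (T W) m x ^ 2 ≤ n x * wn a ε τ (R₀ + 4) x W.1

def S_wj : Prop := ∀ (ι κ : Type) [Fintype ι] [Fintype κ] (b : Coef ι) (R R' ε τ B : ℝ)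
  (W : κ → SolSp b R), R' < R → 0 ≤ ε → ∃ C : ℝ, 0 ≤ C ∧ ∀ a : ℝ, 1 ≤ a → ∀ (x : E3) (s : κ → ℝ),
    ‖x‖ ≤ R' → (∀ k, |s k| ≤ B) →
    (∀ c, ∑ k, s k * (W k).1 c x = 0 ∧ ∀ j, ∑ k, s k * pd j ((W k).1 c) x = 0) →
    wn a ε τ R x (∑ k, s k • W k).1 ≤ C / (a ^ 3 * √a)

def LocProp (R₀ : ℝ) (Ω : Set E3) (lam₁ mu₁ : E3 → ℝ) (b : Coef YI) : Prop :=
  ∀ (κ : Type) [Fintype κ] (W : κ → SolSp b (R₀ + 4)) (u : κ → Fin 3 → E3 → ℝ)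
    (s : κ → E3 → ℝ) (x₀ : E3) (ρ : ℝ), closedBall x₀ ρ ⊆ Ω →
    (∀ k, IsT Ω lam₁ mu₁ (ike (W k).1) (u k)) → (∀ k, ContinuousOn (s k) (closedBall x₀ ρ)) →
    (∀ x ∈ ball x₀ ρ, ∀ c, ∑ k, s k x * (W k).1 c x = 0 ∧
      ∀ j, ∑ k, s k x * pd j ((W k).1 c) x = 0) →
    ∀ x ∈ ball x₀ ρ, ∀ m, ∑ k, s k x * eps lam₁ mu₁ (u k) m x = 0

def S_loc : Prop := ∀ (c R₀ : ℝ) (Ω : Set E3) (lam₁ mu₁ lam₂ mu₂ : E3 → ℝ) (b : Coef YI),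
  Setting c R₀ Ω lam₁ mu₁ lam₂ mu₂ b → SameDN Ω lam₁ mu₁ lam₂ mu₂ →
  BdAgree Ω lam₁ mu₁ lam₂ mu₂ → LocProp R₀ Ω lam₁ mu₁ b

/-! ## Endgame -/

/-- First part: the value of `u₁` at a point is a linear function `Φ` of the 1-jet, and the
derivative of `u₁` is `Φ` of the second derivatives when the 1-jet vanishes. -/
def S_E0 : Prop := ∀ (c R₀ : ℝ) (Ω : Set E3) (lam₁ mu₁ lam₂ mu₂ : E3 → ℝ) (b : Coef YI),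
  Setting c R₀ Ω lam₁ mu₁ lam₂ mu₂ b → LocProp R₀ Ω lam₁ mu₁ b → ∀ x₀ ∈ Ω,
  ∃ (Φ₀ : Fin 3 → YI → ℝ) (Φ₁ : Fin 3 → YI → Fin 3 → ℝ),
    ∀ (W : SolSp b (R₀ + 4)) (u : Fin 3 → E3 → ℝ), IsT Ω lam₁ mu₁ (ike W.1) u →
      (∀ i, u i x₀ = ∑ a, Φ₀ i a * W.1 a x₀ + ∑ a, ∑ n, Φ₁ i a n * pd n (W.1 a) x₀) ∧
      ((∀ a, W.1 a x₀ = 0 ∧ ∀ n, pd n (W.1 a) x₀ = 0) →
        (∀ m, eps lam₁ mu₁ u m x₀ = 0) ∧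
        ∀ i l, pd l (u i) x₀ = ∑ a, ∑ n, Φ₁ i a n * pd l (pd n (W.1 a)) x₀)

def S_E1 : Prop := ∀ (c R₀ : ℝ) (Ω : Set E3) (lam₁ mu₁ lam₂ mu₂ : E3 → ℝ) (b : Coef YI),
  Setting c R₀ Ω lam₁ mu₁ lam₂ mu₂ b → LocProp R₀ Ω lam₁ mu₁ b →
  ∀ (W : SolSp b (R₀ + 4)) (u : Fin 3 → E3 → ℝ), IsT Ω lam₁ mu₁ (ike W.1) u →
    ∀ x ∈ Ω, ∀ i, u i x = ike W.1 i x

def S_E2 : Prop := ∀ (c R₀ : ℝ) (Ω : Set E3) (lam₁ mu₁ lam₂ mu₂ : E3 → ℝ) (b : Coef YI),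
  Setting c R₀ Ω lam₁ mu₁ lam₂ mu₂ b →
  (∀ W : SolSp b (R₀ + 4), ∀ x ∈ Ω, ∀ i, lame lam₁ mu₁ (ike W.1) i x = 0) →
  ∀ x ∈ Ω, lam₁ x * mu₂ x = mu₁ x * lam₂ x ∧ ∀ j, pd j mu₁ x * mu₂ x = mu₁ x * pd j mu₂ x

def S_main : Prop := ∀ (Ω : Set E3) (lam₁ mu₁ lam₂ mu₂ : E3 → ℝ), SmoothDomain Ω →
  Admissible Ω lam₁ mu₁ → Admissible Ω lam₂ mu₂ → SameDN Ω lam₁ mu₁ lam₂ mu₂ →
  ∀ x ∈ Ω, lam₁ x = lam₂ x ∧ mu₁ x = mu₂ x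

end Vale.Agent.P136
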