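import Vale.Agent.P136.Basic

/-! # P136: closure properties of `LocL2` and `WK` -/

open MeasureTheory Set Metric
open scoped ContDiff Topology SchwartzMap

noncomputable section
namespace Vale.Agent.P136

variable {U : Set E3} {f g m θ ψ : E3 → ℝ} {k : ℕ}

lemma Sm.pd (h : Sm f) (j : Fin 3) : Sm (pd j f) := h.D _

lemma Sm.pds (h : Sm f) (β : List (Fin 3)) : Sm (pds β f) := by
  induction β with
  | nil => exact h
  | cons j β ih => exact ih.pd j

lemma Sm.schwartz (Θ : 𝓢(E3, ℝ)) : Sm Θ := Θ.smooth ⊤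

lemma IsTest.mul_right (h : IsTest U θ) (hm : Sm m) : IsTest U (fun x => θ x * m x) :=
  ⟨h.1.mul hm, h.2.1.mul_right, (tsupport_mul_subset_left (f := θ) (g := m)).trans h.2.2⟩

lemma IsTest.pds (h : IsTest U θ) (β : List (Fin 3)) : IsTest U (pds β θ) := by
  induction β with
  | nil => exact h
  | cons j β ih => exact ih.pd j

lemma LocL2.of_memLp (hf : MemLp f 2 (volume.restrict U)) (hU : IsOpen U) : LocL2 U f := by
  intro θ hθ
  have e : (fun x => θ x * f x) = U.indicator fun x => θ x * f x := by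
    funext x
    by_cases hx : x ∈ U
    · rw [indicator_of_mem hx]
    · rw [indicator_of_notMem hx, image_eq_zero_of_notMem_tsupport fun h => hx (hθ.2.2 h),
        zero_mul]
  rw [e, memLp_indicator_iff_restrict hU.measurableSet]
  exact MemLp.mul' hf (hθ.1.continuous.memLp_top_of_hasCompactSupport hθ.2.1 _)

lemma LocL2.mul (hm : Sm m) (hf : LocL2 U f) : LocL2 U (fun x => m x * f x) := fun θ hθ => by
  simpa only [mul_assoc] using hf _ (hθ.mul_right hm)

lemma LocL2.add (hf : LocL2 U f) (hg : LocL2 U g) : LocL2 U (fun x => f x + g x) :=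
  fun θ hθ => by
  simp only [mul_add]
  exact (hf θ hθ).add (hg θ hθ)

lemma LocL2.neg (hf : LocL2 U f) : LocL2 U (fun x => -f x) := fun θ hθ => by
  simp only [mul_neg]
  exact (hf θ hθ).neg

lemma LocL2.sub (hf : LocL2 U f) (hg : LocL2 U g) : LocL2 U (fun x => f x - g x) := by
  simpa only [sub_eq_add_neg] using hf.add hg.neg

lemma LocL2.zero : LocL2 U (fun _ => 0) := fun θ _ => by simp

lemma LocL2.sum {ι : Type*} (s : Finset ι) {F : ι → E3 → ℝ} (hF : ∀ i ∈ s, LocL2 U (F i)) :
    LocL2 U (fun x => ∑ i ∈ s, F i x) := fun θ hθ => by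
  simpa only [Finset.mul_sum] using memLp_finsetSum s fun i hi => hF i hi θ hθ

/-- The pairing of a locally square integrable function with a test function converges. -/
lemma LocL2.integrable (hf : LocL2 U f) (hψ : IsTest U ψ) : Integrable (fun x => f x * ψ x) := by
  have h1 : IsFiniteMeasure (volume.restrict (tsupport ψ)) :=
    isFiniteMeasure_restrict.2 hψ.2.1.measure_lt_top.ne
  have h2 : IntegrableOn (fun x => ψ x * f x) (tsupport ψ) :=
    ((hf ψ hψ).restrict _).integrable one_le_two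
  have h3 := (integrableOn_iff_integrable_of_support_subset
    ((Function.support_mul_subset_left ψ f).trans (subset_tsupport ψ))).1 h2
  simpa only [mul_comm] using h3

lemma LocL2.integrable_pds (hf : LocL2 U f) (hθ : IsTest U θ) (β : List (Fin 3))
    (Θ : 𝓢(E3, ℝ)) : Integrable (fun x => f x * θ x * pds β Θ x) := by
  simpa only [mul_assoc] using hf.integrable (hθ.mul_right ((Sm.schwartz Θ).pds β))

lemma abs_integral_mul_le (hf : MemLp f 2 volume) (hg : MemLp g 2 volume) :
    |∫ x, f x * g x| ≤ √(∫ x, f x ^ 2) * √(∫ x, g x ^ 2) := by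
  have h := integral_mul_norm_le_Lp_mul_Lq Real.HolderConjugate.two_two
    (f := f) (g := g) (μ := volume) (by simpa using hf) (by simpa using hg)
  refine (abs_integral_le_integral_abs).trans ?_
  simpa only [abs_mul, Real.norm_eq_abs, Real.rpow_two, sq_abs, Real.sqrt_eq_rpow] using h

lemma WK.zero (hf : LocL2 U f) : WK 0 U f := by
  intro θ hθ β hβ
  obtain rfl : β = [] := List.length_eq_zero_iff.1 (Nat.le_zero.1 hβ)
  refine ⟨√(∫ x, (θ x * f x) ^ 2), fun Θ => ?_⟩
  simp only [mul_comm (f _)]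
  exact abs_integral_mul_le (hf θ hθ) (Θ.memLp 2 volume)

lemma WK.mono {k k' : ℕ} (hf : WK k' U f) (h : k ≤ k') : WK k U f :=
  fun θ hθ β hβ => hf θ hθ β (hβ.trans h)

lemma WK.mul (hm : Sm m) (hf : WK k U f) : WK k U (fun x => m x * f x) := fun θ hθ β hβ => by
  obtain ⟨C, hC⟩ := hf _ (hθ.mul_left hm) β hβ
  refine ⟨C, fun Θ => ?_⟩
  simpa only [mul_assoc, mul_left_comm (m _)] using hC Θ

lemma WK.add (hf' : LocL2 U f) (hg' : LocL2 U g) (hf : WK k U f) (hg : WK k U g) :
    WK k U (fun x => f x + g x) := fun θ hθ β hβ => by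
  obtain ⟨C, hC⟩ := hf θ hθ β hβ
  obtain ⟨C', hC'⟩ := hg θ hθ β hβ
  refine ⟨C + C', fun Θ => ?_⟩
  simp only [add_mul]
  rw [integral_add (hf'.integrable_pds hθ β Θ) (hg'.integrable_pds hθ β Θ)]
  exact (abs_add_le _ _).trans (add_le_add (hC Θ) (hC' Θ))

lemma WK.neg (hf : WK k U f) : WK k U (fun x => -f x) := fun θ hθ β hβ => by
  obtain ⟨C, hC⟩ := hf θ hθ β hβ
  exact ⟨C, fun Θ => by simpa only [neg_mul, integral_neg, abs_neg] using hC Θ⟩

lemma WK.sub (hf' : LocL2 U f) (hg' : LocL2 U g) (hf : WK k U f) (hg : WK k U g) :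
    WK k U (fun x => f x - g x) := by
  simpa only [sub_eq_add_neg] using WK.add hf' hg'.neg hf hg.neg

lemma WK.zero_fun : WK k U (fun _ => 0) := fun _ _ _ _ => ⟨0, fun _ => by simp⟩

lemma WK.sum {ι : Type*} (s : Finset ι) {F : ι → E3 → ℝ} (hF' : ∀ i ∈ s, LocL2 U (F i))
    (hF : ∀ i ∈ s, WK k U (F i)) : WK k U (fun x => ∑ i ∈ s, F i x) := by
  classical
  induction s using Finset.induction_on with
  | empty => simpa using WK.zero_fun
  | insert a s ha ih =>
    simp only [Finset.sum_insert ha]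
    exact WK.add (hF' a (Finset.mem_insert_self _ _))
      (LocL2.sum s fun i hi => hF' i (Finset.mem_insert_of_mem hi))
      (hF a (Finset.mem_insert_self _ _))
      (ih (fun i hi => hF' i (Finset.mem_insert_of_mem hi))
        fun i hi => hF i (Finset.mem_insert_of_mem hi))

end Vale.Agent.P136
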